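import Mathlib

set_option autoImplicit false
open Finset

namespace Crest.Agent.S0453.Helper16

variable {α : Type*} [DecidableEq α]

/-! ## Double counting on `powersetCard` -/

/-- Flag double counting: pairs `(T, i)` with `|T| = k+1`, `i ∈ T` correspond to pairs `(S, x)`
with `|S| = k`, `x ∈ F \ S`. -/
lemma sum_flag {M : Type*} [AddCommMonoid M] (F : Finset α) (k : ℕ) (ψ : Finset α → α → M) :
    ∑ T ∈ F.powersetCard (k + 1), ∑ i ∈ T, ψ (T.erase i) i
      = ∑ S ∈ F.powersetCard k, ∑ x ∈ F \ S, ψ S x := by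
  rw [Finset.sum_sigma', Finset.sum_sigma']
  refine Finset.sum_bij' (fun p _ => ⟨p.1.erase p.2, p.2⟩) (fun q _ => ⟨insert q.2 q.1, q.2⟩)
    ?_ ?_ ?_ ?_ ?_
  · rintro ⟨T, i⟩ h
    simp only [mem_sigma, mem_powersetCard, mem_sdiff] at h ⊢
    obtain ⟨⟨hTF, hT⟩, hi⟩ := h
    refine ⟨⟨(erase_subset _ _).trans hTF, ?_⟩, hTF hi, ?_⟩
    · rw [card_erase_of_mem hi, hT]; rfl
    · simp
  · rintro ⟨S, x⟩ h
    simp only [mem_sigma, mem_powersetCard, mem_sdiff] at h ⊢
    obtain ⟨⟨hSF, hS⟩, hxF, hxS⟩ := h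
    refine ⟨⟨?_, ?_⟩, mem_insert_self _ _⟩
    · exact insert_subset hxF hSF
    · rw [card_insert_of_notMem hxS, hS]
  · rintro ⟨T, i⟩ h
    simp only [mem_sigma, mem_powersetCard] at h
    simp [insert_erase h.2]
  · rintro ⟨S, x⟩ h
    simp only [mem_sigma, mem_powersetCard, mem_sdiff] at h
    simp [erase_insert h.2.2]
  · rintro ⟨T, i⟩ h
    rfl

/-- Directed Johnson moves `(T, i, j)` regrouped by the upper link `S = T - i`. -/
lemma sum_moves_upper {M : Type*} [AddCommMonoid M] (F : Finset α) (k : ℕ)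
    (φ : Finset α → α → α → M) :
    ∑ T ∈ F.powersetCard (k + 1), ∑ i ∈ T, ∑ j ∈ F \ T, φ (T.erase i) i j
      = ∑ S ∈ F.powersetCard k, ∑ c ∈ F \ S, ∑ d ∈ (F \ S).erase c, φ S c d := by
  rw [← sum_flag F k (fun S x => ∑ d ∈ (F \ S).erase x, φ S x d)]
  refine Finset.sum_congr rfl fun T hT => Finset.sum_congr rfl fun i hi => ?_
  have : (F \ T.erase i).erase i = F \ T := by
    ext y
    simp only [mem_erase, mem_sdiff]
    constructor
    · rintro ⟨hyi, hyF, hy⟩
      exact ⟨hyF, fun h => hy ⟨hyi, h⟩⟩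
    · rintro ⟨hyF, hy⟩
      exact ⟨fun h => hy (h ▸ hi), hyF, fun h => hy h.2⟩
  rw [this]

/-- Directed Johnson moves `(T, j, i)` regrouped by the lower link `R = T + j`. -/
lemma sum_moves_lower {M : Type*} [AddCommMonoid M] (F : Finset α) (k : ℕ)
    (φ : Finset α → α → α → M) :
    ∑ T ∈ F.powersetCard k, ∑ j ∈ F \ T, ∑ i ∈ T, φ (insert j T) j i
      = ∑ R ∈ F.powersetCard (k + 1), ∑ c ∈ R, ∑ d ∈ R.erase c, φ R c d := by
  rw [← sum_flag F k (fun S x => ∑ d ∈ S, φ (insert x S) x d)]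
  refine Finset.sum_congr rfl fun R hR => Finset.sum_congr rfl fun c hc => ?_
  rw [insert_erase hc]

/-- Swap: ordered pairs `(c, d)` and `k`-sets avoiding them, versus `k`-sets `S` and ordered
pairs outside `S`. -/
lemma sum_pairs_upper {M : Type*} [AddCommMonoid M] (F : Finset α) (k : ℕ)
    (φ : Finset α → α → α → M) :
    ∑ c ∈ F, ∑ d ∈ F.erase c, ∑ S ∈ ((F.erase c).erase d).powersetCard k, φ S c d
      = ∑ S ∈ F.powersetCard k, ∑ c ∈ F \ S, ∑ d ∈ (F \ S).erase c, φ S c d := by
  have h1 : ∀ c ∈ F, ∑ d ∈ F.erase c, ∑ S ∈ ((F.erase c).erase d).powersetCard k, φ S c d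
      = ∑ S ∈ (F.erase c).powersetCard k, ∑ d ∈ (F \ S).erase c, φ S c d := by
    intro c _
    refine Finset.sum_comm' ?_
    intro d S
    simp only [mem_erase, mem_powersetCard, mem_sdiff, subset_iff]
    constructor
    · rintro ⟨⟨hdc, hdF⟩, hS, hk⟩
      exact ⟨⟨hdc, hdF, fun h => (hS h).1 rfl⟩, fun x hx => (hS hx).2, hk⟩
    · rintro ⟨⟨hdc, hdF, hdS⟩, hS, hk⟩
      exact ⟨⟨hdc, hdF⟩, fun x hx => ⟨fun h => hdS (h ▸ hx), hS hx⟩, hk⟩
  rw [Finset.sum_congr rfl h1]
  refine Finset.sum_comm' ?_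
  intro c S
  simp only [mem_erase, mem_powersetCard, mem_sdiff, subset_iff]
  constructor
  · rintro ⟨hcF, hS, hk⟩
    exact ⟨⟨hcF, fun h => (hS h).1 rfl⟩, fun x hx => (hS hx).2, hk⟩
  · rintro ⟨⟨hcF, hcS⟩, hS, hk⟩
    exact ⟨hcF, fun x hx => ⟨fun h => hcS (h ▸ hx), hS hx⟩, hk⟩


/-! ## Per-pair pieces: `sep`, `nei`, `both` -/

/-- `k`-subsets of `F - x - y` plus `x` are the `(k+1)`-subsets containing `x` but not `y`. -/
lemma sum_one_in {M : Type*} [AddCommMonoid M] (F : Finset α) (k : ℕ) {x y : α} (hx : x ∈ F)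
    (hy : y ∈ F.erase x) (ψ : Finset α → M) :
    ∑ S ∈ ((F.erase x).erase y).powersetCard k, ψ (insert x S)
      = ∑ T ∈ (F.powersetCard (k + 1)).filter (fun T => x ∈ T ∧ y ∉ T), ψ T := by
  have hyx : y ≠ x := (mem_erase.1 hy).1
  refine Finset.sum_bij' (fun S _ => insert x S) (fun T _ => T.erase x) ?_ ?_ ?_ ?_ ?_
  · intro S hS
    rw [mem_powersetCard] at hS
    obtain ⟨hS, hk⟩ := hS
    have hxS : x ∉ S := fun h => (mem_erase.1 (mem_erase.1 (hS h)).2).1 rfl
    have hyS : y ∉ S := fun h => (mem_erase.1 (hS h)).1 rfl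
    rw [mem_filter, mem_powersetCard]
    refine ⟨⟨?_, ?_⟩, mem_insert_self _ _, ?_⟩
    · intro z hz
      rcases mem_insert.1 hz with rfl | hz
      · exact hx
      · exact (mem_erase.1 (mem_erase.1 (hS hz)).2).2
    · rw [card_insert_of_notMem hxS, hk]
    · simp only [mem_insert, not_or]
      exact ⟨hyx, hyS⟩
  · intro T hT
    rw [mem_filter, mem_powersetCard] at hT
    obtain ⟨⟨hTF, hk⟩, hxT, hyT⟩ := hT
    rw [mem_powersetCard]
    refine ⟨?_, ?_⟩
    · intro z hz
      have hz' := mem_erase.1 hz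
      exact mem_erase.2 ⟨fun h => hyT (h ▸ hz'.2), mem_erase.2 ⟨hz'.1, hTF hz'.2⟩⟩
    · rw [card_erase_of_mem hxT, hk]; rfl
  · intro S hS
    rw [mem_powersetCard] at hS
    have hxS : x ∉ S := fun h => (mem_erase.1 (mem_erase.1 (hS.1 h)).2).1 rfl
    exact erase_insert hxS
  · intro T hT
    rw [mem_filter] at hT
    exact insert_erase hT.2.1
  · intro S _
    rfl

/-- `k`-subsets of `F - c - d` plus `c, d` are the `(k+2)`-subsets containing both. -/
lemma sum_both {M : Type*} [AddCommMonoid M] (F : Finset α) (k : ℕ) {c d : α} (hc : c ∈ F)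
    (hd : d ∈ F.erase c) (ψ : Finset α → M) :
    ∑ S ∈ ((F.erase c).erase d).powersetCard k, ψ (insert c (insert d S))
      = ∑ R ∈ (F.powersetCard (k + 2)).filter (fun R => c ∈ R ∧ d ∈ R), ψ R := by
  have hdc : d ≠ c := (mem_erase.1 hd).1
  have hdF : d ∈ F := (mem_erase.1 hd).2
  refine Finset.sum_bij' (fun S _ => insert c (insert d S)) (fun R _ => (R.erase c).erase d)
    ?_ ?_ ?_ ?_ ?_
  · intro S hS
    rw [mem_powersetCard] at hS
    obtain ⟨hS, hk⟩ := hS
    have hdS : d ∉ S := fun h => (mem_erase.1 (hS h)).1 rfl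
    have hcS : c ∉ S := fun h => (mem_erase.1 (mem_erase.1 (hS h)).2).1 rfl
    have hcdS : c ∉ insert d S := by
      simp only [mem_insert, not_or]
      exact ⟨fun h => hdc h.symm, hcS⟩
    rw [mem_filter, mem_powersetCard]
    refine ⟨⟨?_, ?_⟩, mem_insert_self _ _, mem_insert_of_mem (mem_insert_self _ _)⟩
    · intro x hx
      rcases mem_insert.1 hx with rfl | hx
      · exact hc
      rcases mem_insert.1 hx with rfl | hx
      · exact hdF
      · exact (mem_erase.1 (mem_erase.1 (hS hx)).2).2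
    · rw [card_insert_of_notMem hcdS, card_insert_of_notMem hdS, hk]
  · intro R hR
    simp only [mem_powersetCard, mem_filter, subset_iff, mem_erase] at hR ⊢
    obtain ⟨⟨hRF, hk⟩, hcR, hdR⟩ := hR
    refine ⟨fun x hx => ⟨hx.1, hx.2.1, hRF hx.2.2⟩, ?_⟩
    rw [card_erase_of_mem (mem_erase.2 ⟨hdc, hdR⟩), card_erase_of_mem hcR, hk]
    rfl
  · intro S hS
    simp only [mem_powersetCard, subset_iff, mem_erase] at hS
    obtain ⟨hS, hk⟩ := hS
    have hdS : d ∉ S := fun h => (hS h).1 rfl
    have hcS : c ∉ S := fun h => (hS h).2.1 rfl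
    have hcdS : c ∉ insert d S := by
      simp only [mem_insert, not_or]
      exact ⟨fun h => hdc h.symm, hcS⟩
    show ((insert c (insert d S)).erase c).erase d = S
    rw [erase_insert hcdS, erase_insert hdS]
  · intro R hR
    simp only [mem_powersetCard, mem_filter] at hR
    obtain ⟨_, hcR, hdR⟩ := hR
    show insert c (insert d ((R.erase c).erase d)) = R
    rw [insert_erase (mem_erase.2 ⟨hdc, hdR⟩), insert_erase hcR]
  · intro S hS
    rfl

/-- The `(k+1)`-subsets avoiding `c` and `d`. -/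
lemma filter_nei (F : Finset α) (k : ℕ) (c d : α) :
    (F.powersetCard k).filter (fun T => c ∉ T ∧ d ∉ T) = ((F.erase c).erase d).powersetCard k := by
  ext T
  simp only [mem_filter, mem_powersetCard, subset_iff, mem_erase]
  constructor
  · rintro ⟨⟨hTF, hk⟩, hcT, hdT⟩
    exact ⟨fun x hx => ⟨fun h => hdT (h ▸ hx), fun h => hcT (h ▸ hx), hTF hx⟩, hk⟩
  · rintro ⟨hT, hk⟩
    exact ⟨⟨fun x hx => (hT hx).2.2, hk⟩, fun h => (hT h).2.1 rfl, fun h => (hT h).1 rfl⟩

/-- Swap: ordered pairs `(c, d)` and `k`-sets avoiding them, versus `(k+2)`-sets `R = S + c + d`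
and ordered pairs inside `R`. -/
lemma sum_pairs_lower {M : Type*} [AddCommMonoid M] (F : Finset α) (k : ℕ)
    (φ : Finset α → α → α → M) :
    ∑ c ∈ F, ∑ d ∈ F.erase c, ∑ S ∈ ((F.erase c).erase d).powersetCard k,
        φ (insert c (insert d S)) c d
      = ∑ R ∈ F.powersetCard (k + 2), ∑ c ∈ R, ∑ d ∈ R.erase c, φ R c d := by
  have h0 : ∀ c ∈ F, ∀ d ∈ F.erase c,
      ∑ S ∈ ((F.erase c).erase d).powersetCard k, φ (insert c (insert d S)) c d
        = ∑ R ∈ (F.powersetCard (k + 2)).filter (fun R => c ∈ R ∧ d ∈ R), φ R c d :=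
    fun c hc d hd => sum_both F k hc hd (fun R => φ R c d)
  have h1 : ∀ c ∈ F, ∑ d ∈ F.erase c,
      ∑ S ∈ ((F.erase c).erase d).powersetCard k, φ (insert c (insert d S)) c d
        = ∑ R ∈ (F.powersetCard (k + 2)).filter (fun R => c ∈ R), ∑ d ∈ R.erase c, φ R c d := by
    intro c hc
    rw [Finset.sum_congr rfl (h0 c hc)]
    refine Finset.sum_comm' ?_
    intro d R
    simp only [mem_erase, mem_powersetCard, mem_filter]
    constructor
    · rintro ⟨⟨hdc, hdF⟩, hR, hcR, hdR⟩
      exact ⟨⟨hdc, hdR⟩, hR, hcR⟩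
    · rintro ⟨⟨hdc, hdR⟩, hR, hcR⟩
      exact ⟨⟨hdc, hR.1 hdR⟩, hR, hcR, hdR⟩
  rw [Finset.sum_congr rfl h1]
  refine Finset.sum_comm' ?_
  intro c R
  simp only [mem_powersetCard, mem_filter]
  constructor
  · rintro ⟨hcF, hR, hcR⟩
    exact ⟨hcR, hR⟩
  · rintro ⟨hcR, hR⟩
    exact ⟨hR.1 hcR, hR, hcR⟩

/-! ## The complete-graph (link) identity -/

/-- The link statistic of the pair `(c, d)` in the complete graph on `Q`:
`∑_{x ∈ Q - c - d} ((h c + h d)/2 - h x)`. -/
noncomputable def linkU (Q : Finset α) (h : α → ℝ) (c d : α) : ℝ :=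
  ∑ x ∈ (Q.erase c).erase d, ((h c + h d) / 2 - h x)

lemma linkU_eq (Q : Finset α) (h : α → ℝ) {c d : α} (hc : c ∈ Q) (hd : d ∈ Q.erase c) :
    linkU Q h c d = (Q.card : ℝ) / 2 * (h c + h d) - ∑ x ∈ Q, h x := by
  unfold linkU
  have h2 : 2 ≤ Q.card := by
    have := card_erase_of_mem hc
    have h1 : 0 < (Q.erase c).card := card_pos.2 ⟨d, hd⟩
    omega
  have hcard : (((Q.erase c).erase d).card : ℝ) = (Q.card : ℝ) - 2 := by
    rw [card_erase_of_mem hd, card_erase_of_mem hc, Nat.sub_sub, Nat.cast_sub h2]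
    norm_num
  rw [Finset.sum_sub_distrib, Finset.sum_const, nsmul_eq_mul, sum_erase_eq_sub hd,
    sum_erase_eq_sub hc, hcard]
  ring

omit [DecidableEq α] in
lemma sum_sum_sq (Q : Finset α) (h : α → ℝ) (A B C : ℝ) :
    ∑ c ∈ Q, ∑ d ∈ Q, (A * h c + B * h d + C) ^ 2
      = (Q.card : ℝ) * (A ^ 2 + B ^ 2) * (∑ x ∈ Q, h x ^ 2) + 2 * A * B * (∑ x ∈ Q, h x) ^ 2
        + 2 * (A + B) * C * (Q.card : ℝ) * (∑ x ∈ Q, h x) + (Q.card : ℝ) ^ 2 * C ^ 2 := by
  have key : ∀ c d, (A * h c + B * h d + C) ^ 2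
      = A ^ 2 * h c ^ 2 + B ^ 2 * h d ^ 2 + C ^ 2 + 2 * A * B * h c * h d + 2 * A * C * h c
        + 2 * B * C * h d := by
    intros; ring
  simp_rw [key, Finset.sum_add_distrib, ← Finset.mul_sum, Finset.sum_const, nsmul_eq_mul,
    ← Finset.sum_mul, ← Finset.mul_sum]
  ring

omit [DecidableEq α] in
lemma sum_sq_affine (Q : Finset α) (h : α → ℝ) (A C : ℝ) :
    ∑ c ∈ Q, (A * h c + C) ^ 2
      = A ^ 2 * (∑ x ∈ Q, h x ^ 2) + 2 * A * C * (∑ x ∈ Q, h x) + (Q.card : ℝ) * C ^ 2 := by
  have key : ∀ c, (A * h c + C) ^ 2 = A ^ 2 * h c ^ 2 + 2 * A * C * h c + C ^ 2 := by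
    intros; ring
  simp_rw [key, Finset.sum_add_distrib, ← Finset.mul_sum, Finset.sum_const, nsmul_eq_mul]

/-- **Link identity** (the `t = 1` case of the frame bound, an equality). -/
lemma link_identity (Q : Finset α) (h : α → ℝ) :
    ∑ c ∈ Q, ∑ d ∈ Q.erase c, linkU Q h c d ^ 2
      = (Q.card : ℝ) * ((Q.card : ℝ) - 2) / 4 * ∑ c ∈ Q, ∑ d ∈ Q.erase c, (h c - h d) ^ 2 := by
  set m : ℝ := (Q.card : ℝ) with hm
  set H : ℝ := ∑ x ∈ Q, h x with hH
  have hL : ∑ c ∈ Q, ∑ d ∈ Q.erase c, linkU Q h c d ^ 2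
      = ∑ c ∈ Q, ∑ d ∈ Q, (m / 2 * h c + m / 2 * h d + (-H)) ^ 2
        - ∑ c ∈ Q, (m * h c + (-H)) ^ 2 := by
    rw [← Finset.sum_sub_distrib]
    refine Finset.sum_congr rfl fun c hc => ?_
    rw [Finset.sum_congr rfl (fun d hd => by rw [linkU_eq Q h hc hd]),
      sum_erase_eq_sub (f := fun d => (m / 2 * (h c + h d) - H) ^ 2) hc]
    congr 1
    · refine Finset.sum_congr rfl fun d _ => by ring
    · ring
  have hR : ∑ c ∈ Q, ∑ d ∈ Q.erase c, (h c - h d) ^ 2
      = ∑ c ∈ Q, ∑ d ∈ Q, (1 * h c + (-1) * h d + 0) ^ 2 := by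
    refine Finset.sum_congr rfl fun c hc => ?_
    rw [sum_erase_eq_sub (f := fun d => (h c - h d) ^ 2) hc]
    simp only [sub_self, ne_eq, OfNat.ofNat_ne_zero, not_false_eq_true, zero_pow, sub_zero]
    refine Finset.sum_congr rfl fun d _ => by ring
  rw [hL, hR, sum_sum_sq, sum_sum_sq, sum_sq_affine]
  ring

/-! ## Block variance of a pair and its link representation -/

/-- The states (`t`-subsets of `F`) separating `c` and `d`. -/
def sepSet (F : Finset α) (t : ℕ) (c d : α) : Finset (Finset α) :=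
  (F.powersetCard t).filter (fun T => ¬ (c ∈ T ↔ d ∈ T))

/-- The states not separating `c` and `d`. -/
def nonSet (F : Finset α) (t : ℕ) (c d : α) : Finset (Finset α) :=
  (F.powersetCard t).filter (fun T => (c ∈ T ↔ d ∈ T))

/-- The states containing both `c` and `d`. -/
def bothSet (F : Finset α) (t : ℕ) (c d : α) : Finset (Finset α) :=
  (F.powersetCard t).filter (fun T => c ∈ T ∧ d ∈ T)

/-- Between-block variance (times the number of states) of `g` for the two-block partition
`sep / non` of the `t`-subsets of `F`: `⟨g, Π_{cd} g⟩` with `Π_{cd}` the projection onto the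
centred indicator of `sep`. -/
noncomputable def Bvar (F : Finset α) (t : ℕ) (g : Finset α → ℝ) (c d : α) : ℝ :=
  (∑ T ∈ sepSet F t c d, g T) ^ 2 / ((sepSet F t c d).card : ℝ)
    + (∑ T ∈ nonSet F t c d, g T) ^ 2 / ((nonSet F t c d).card : ℝ)
    - (∑ T ∈ F.powersetCard t, g T) ^ 2 / ((F.powersetCard t).card : ℝ)

lemma sum_all_split {M : Type*} [AddCommMonoid M] (F : Finset α) (t : ℕ) (c d : α)
    (ψ : Finset α → M) :
    ∑ T ∈ F.powersetCard t, ψ T = ∑ T ∈ sepSet F t c d, ψ T + ∑ T ∈ nonSet F t c d, ψ T := by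
  unfold sepSet nonSet
  rw [add_comm, Finset.sum_filter_add_sum_filter_not]

lemma sum_sep {M : Type*} [AddCommMonoid M] (F : Finset α) (k : ℕ) {c d : α} (hc : c ∈ F)
    (hd : d ∈ F.erase c) (ψ : Finset α → M) :
    ∑ T ∈ sepSet F (k + 1) c d, ψ T
      = ∑ S ∈ ((F.erase c).erase d).powersetCard k, (ψ (insert c S) + ψ (insert d S)) := by
  have hdc : d ≠ c := (mem_erase.1 hd).1
  have hdF : d ∈ F := (mem_erase.1 hd).2
  have hc' : c ∈ F.erase d := mem_erase.2 ⟨fun h => hdc h.symm, hc⟩
  have hset : sepSet F (k + 1) c d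
      = (F.powersetCard (k + 1)).filter (fun T => c ∈ T ∧ d ∉ T)
        ∪ (F.powersetCard (k + 1)).filter (fun T => d ∈ T ∧ c ∉ T) := by
    unfold sepSet
    rw [← Finset.filter_or]
    refine Finset.filter_congr fun T _ => ?_
    tauto
  have hdisj : Disjoint ((F.powersetCard (k + 1)).filter (fun T => c ∈ T ∧ d ∉ T))
      ((F.powersetCard (k + 1)).filter (fun T => d ∈ T ∧ c ∉ T)) := by
    rw [Finset.disjoint_filter]
    intro T _ h1 h2
    exact h1.2 h2.1
  rw [hset, Finset.sum_union hdisj, Finset.sum_add_distrib, sum_one_in F k hc hd ψ,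
    ← sum_one_in F k hdF hc' ψ, erase_right_comm]

lemma sum_non {M : Type*} [AddCommMonoid M] (F : Finset α) (t : ℕ) (c d : α)
    (ψ : Finset α → M) :
    ∑ T ∈ nonSet F t c d, ψ T
      = ∑ T ∈ bothSet F t c d, ψ T + ∑ T ∈ ((F.erase c).erase d).powersetCard t, ψ T := by
  have hset : nonSet F t c d
      = (F.powersetCard t).filter (fun T => c ∈ T ∧ d ∈ T)
        ∪ (F.powersetCard t).filter (fun T => c ∉ T ∧ d ∉ T) := by
    unfold nonSet
    rw [← Finset.filter_or]
    refine Finset.filter_congr fun T _ => ?_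
    tauto
  have hdisj : Disjoint ((F.powersetCard t).filter (fun T => c ∈ T ∧ d ∈ T))
      ((F.powersetCard t).filter (fun T => c ∉ T ∧ d ∉ T)) := by
    rw [Finset.disjoint_filter]
    intro T _ h1 h2
    exact h2.1 h1.1
  rw [hset, Finset.sum_union hdisj, filter_nei]
  rfl

lemma card_sdiff_real (F : Finset α) (j : ℕ) {c d : α} (hc : c ∈ F) (hd : d ∈ F.erase c)
    {S : Finset α} (hS : S ∈ ((F.erase c).erase d).powersetCard j) :
    (((((F.erase c).erase d) \ S).card : ℕ) : ℝ) = (F.card : ℝ) - 2 - j := by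
  rw [mem_powersetCard] at hS
  have e0 := card_sdiff_add_card_eq_card hS.1
  have e1 := card_erase_add_one hc
  have e2 := card_erase_add_one hd
  have e0' : ((((F.erase c).erase d) \ S).card : ℝ) + (S.card : ℝ)
      = (((F.erase c).erase d).card : ℝ) := by exact_mod_cast e0
  have e1' : ((F.erase c).card : ℝ) + 1 = (F.card : ℝ) := by exact_mod_cast e1
  have e2' : (((F.erase c).erase d).card : ℝ) + 1 = ((F.erase c).card : ℝ) := by
    exact_mod_cast e2
  rw [hS.2] at e0'
  linarith

/-- Sum of the upper-link statistics of the pair `(c, d)`. -/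
lemma sum_linkU_upper (F : Finset α) (k : ℕ) (g : Finset α → ℝ) {c d : α} (hc : c ∈ F)
    (hd : d ∈ F.erase c) :
    ∑ S ∈ ((F.erase c).erase d).powersetCard k, linkU (F \ S) (fun x => g (insert x S)) c d
      = ((F.card : ℝ) - k - 2) / 2 * ∑ T ∈ sepSet F (k + 1) c d, g T
        - ((k : ℝ) + 1) * ∑ T ∈ ((F.erase c).erase d).powersetCard (k + 1), g T := by
  have h1 : ∀ S ∈ ((F.erase c).erase d).powersetCard k,
      linkU (F \ S) (fun x => g (insert x S)) c d
        = ((F.card : ℝ) - k - 2) / 2 * (g (insert c S) + g (insert d S))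
          - ∑ x ∈ ((F.erase c).erase d) \ S, g (insert x S) := by
    intro S hS
    have hset : ((F \ S).erase c).erase d = ((F.erase c).erase d) \ S := by
      ext y
      simp only [mem_erase, mem_sdiff]
      tauto
    unfold linkU
    rw [hset, Finset.sum_sub_distrib, Finset.sum_const, nsmul_eq_mul, card_sdiff_real F k hc hd hS]
    ring
  rw [Finset.sum_congr rfl h1, Finset.sum_sub_distrib, ← Finset.mul_sum, ← sum_sep F k hc hd g,
    ← sum_flag ((F.erase c).erase d) k (fun S x => g (insert x S))]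
  congr 1
  rw [Finset.mul_sum]
  refine Finset.sum_congr rfl fun T hT => ?_
  rw [Finset.sum_congr rfl (fun i hi => by rw [insert_erase hi]), Finset.sum_const, nsmul_eq_mul,
    (mem_powersetCard.1 hT).2]
  push_cast
  ring

/-- Sum over `k`-sets `S ⊆ F - c - d` and `x ∈ S` of `g (S + c + d - x)`. -/
lemma sum_lower_aux (F : Finset α) (k : ℕ) (g : Finset α → ℝ) {c d : α} (hc : c ∈ F)
    (hd : d ∈ F.erase c) :
    ∑ S ∈ ((F.erase c).erase d).powersetCard k, ∑ x ∈ S, g ((insert c (insert d S)).erase x)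
      = ((F.card : ℝ) - k - 1) * ∑ T ∈ bothSet F (k + 1) c d, g T := by
  have hdc : d ≠ c := (mem_erase.1 hd).1
  rcases k with _ | k
  · have hemp : bothSet F (0 + 1) c d = ∅ := by
      unfold bothSet
      rw [Finset.filter_eq_empty_iff]
      intro T hT hcd
      have h2 : ({c, d} : Finset α).card ≤ T.card := card_le_card (by
        intro z hz
        rcases mem_insert.1 hz with rfl | hz
        · exact hcd.1
        · rw [mem_singleton.1 hz]; exact hcd.2)
      rw [card_pair (fun h => hdc h.symm), (mem_powersetCard.1 hT).2] at h2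
      omega
    rw [hemp]
    simp
  · have h1 : ∀ S ∈ ((F.erase c).erase d).powersetCard (k + 1),
        ∑ x ∈ S, g ((insert c (insert d S)).erase x)
          = ∑ x ∈ S, g (insert c (insert d (S.erase x))) := by
      intro S hS
      refine Finset.sum_congr rfl fun x hx => ?_
      have hxF := (mem_powersetCard.1 hS).1 hx
      have hxd : x ≠ d := (mem_erase.1 hxF).1
      have hxc : x ≠ c := (mem_erase.1 (mem_erase.1 hxF).2).1
      rw [erase_insert_of_ne (fun h => hxc h.symm), erase_insert_of_ne (fun h => hxd h.symm)]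
    rw [Finset.sum_congr rfl h1,
      sum_flag ((F.erase c).erase d) k (fun S _ => g (insert c (insert d S)))]
    have h2 : ∀ S ∈ ((F.erase c).erase d).powersetCard k,
        ∑ _x ∈ ((F.erase c).erase d) \ S, g (insert c (insert d S))
          = ((F.card : ℝ) - (k + 1 : ℕ) - 1) * g (insert c (insert d S)) := by
      intro S hS
      rw [Finset.sum_const, nsmul_eq_mul, card_sdiff_real F k hc hd hS]
      push_cast
      ring
    rw [Finset.sum_congr rfl h2, ← Finset.mul_sum, sum_both F k hc hd g]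
    rfl

/-- Sum of the lower-link statistics of the pair `(c, d)`. -/
lemma sum_linkU_lower (F : Finset α) (k : ℕ) (g : Finset α → ℝ) {c d : α} (hc : c ∈ F)
    (hd : d ∈ F.erase c) :
    ∑ S ∈ ((F.erase c).erase d).powersetCard k,
        linkU (insert c (insert d S)) (fun x => g ((insert c (insert d S)).erase x)) c d
      = (k : ℝ) / 2 * ∑ T ∈ sepSet F (k + 1) c d, g T
        - ((F.card : ℝ) - k - 1) * ∑ T ∈ bothSet F (k + 1) c d, g T := by
  have hdc : d ≠ c := (mem_erase.1 hd).1
  have h1 : ∀ S ∈ ((F.erase c).erase d).powersetCard k,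
      linkU (insert c (insert d S)) (fun x => g ((insert c (insert d S)).erase x)) c d
        = (k : ℝ) / 2 * (g (insert c S) + g (insert d S))
          - ∑ x ∈ S, g ((insert c (insert d S)).erase x) := by
    intro S hS
    rw [mem_powersetCard] at hS
    obtain ⟨hS, hk⟩ := hS
    have hdS : d ∉ S := fun h => (mem_erase.1 (hS h)).1 rfl
    have hcS : c ∉ S := fun h => (mem_erase.1 (mem_erase.1 (hS h)).2).1 rfl
    have hcdS : c ∉ insert d S := by
      simp only [mem_insert, not_or]
      exact ⟨fun h => hdc h.symm, hcS⟩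
    have e1 : ((insert c (insert d S)).erase c).erase d = S := by
      rw [erase_insert hcdS, erase_insert hdS]
    have e2 : (insert c (insert d S)).erase c = insert d S := erase_insert hcdS
    have e3 : (insert c (insert d S)).erase d = insert c S := by
      rw [erase_insert_of_ne (fun h => hdc h.symm), erase_insert hdS]
    unfold linkU
    rw [e1, Finset.sum_sub_distrib, Finset.sum_const, nsmul_eq_mul, hk]
    beta_reduce
    rw [e2, e3]
    ring
  rw [Finset.sum_congr rfl h1, Finset.sum_sub_distrib, ← Finset.mul_sum, ← sum_sep F k hc hd g,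
    sum_lower_aux F k g hc hd]

/-! ## The per-pair inequality (Jensen over links) -/

lemma scalar_core (M n₁ n₂ a b c' U V P K : ℝ) (hM : 0 < M) (hP : 0 ≤ P) (hK : 0 ≤ K)
    (h1 : (K + 1) * n₁ = P * M) (h2 : (P + 1) * n₂ = K * M)
    (hU : U = P * a / 2 - (K + 1) * b) (hV : V = K * a / 2 - (P + 1) * c')
    (hb : n₁ = 0 → b = 0) (hc : n₂ = 0 → c' = 0) :
    a ^ 2 / (2 * M) + (b + c') ^ 2 / (n₁ + n₂) - (a + b + c') ^ 2 / (2 * M + n₁ + n₂)
      ≤ 2 / ((P + K + 2) * (P + K + 1) * M) * ((P + 1) / P * U ^ 2 + (K + 1) / K * V ^ 2) := by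
  have hK1 : (0:ℝ) < K + 1 := by linarith
  have hP1 : (0:ℝ) < P + 1 := by linarith
  obtain ⟨μ, hμ, rfl⟩ : ∃ μ : ℝ, 0 < μ ∧ M = (K + 1) * (P + 1) * μ :=
    ⟨M / ((K + 1) * (P + 1)), by positivity, by field_simp⟩
  have hn1 : n₁ = P * (P + 1) * μ := by
    have : (K + 1) * n₁ = (K + 1) * (P * (P + 1) * μ) := by rw [h1]; ring
    exact mul_left_cancel₀ hK1.ne' this
  have hn2 : n₂ = K * (K + 1) * μ := by
    have : (P + 1) * n₂ = (P + 1) * (K * (K + 1) * μ) := by rw [h2]; ring
    exact mul_left_cancel₀ hP1.ne' this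
  have htot : 2 * ((K + 1) * (P + 1) * μ) + n₁ + n₂ = μ * ((P + K + 2) * (P + K + 1)) := by
    rw [hn1, hn2]; ring
  have hnon : n₁ + n₂ = μ * (P * (P + 1) + K * (K + 1)) := by rw [hn1, hn2]; ring
  rw [htot, hnon]
  have hμ0 : μ ≠ 0 := hμ.ne'
  rcases hP.eq_or_lt with hP0 | hPpos
  · subst hP0
    have hb0 : b = 0 := hb (by rw [hn1]; ring)
    subst hb0
    rcases hK.eq_or_lt with hK0 | hKpos
    · subst hK0
      have hc0 : c' = 0 := hc (by rw [hn2]; ring)
      subst hc0
      simp
      ring_nf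
      rfl
    · subst hU hV
      have hK0 : K ≠ 0 := hKpos.ne'
      have hK2 : K + 2 ≠ 0 := by positivity
      have hK1' : K + 1 ≠ 0 := hK1.ne'
      apply le_of_eq
      simp only [zero_add, zero_mul, mul_one, add_zero, zero_div, mul_zero, sub_zero, one_mul,
        ne_eq, OfNat.ofNat_ne_zero, not_false_eq_true, zero_pow, div_zero]
      field_simp
      ring
  · have hP0 : P ≠ 0 := hPpos.ne'
    rcases hK.eq_or_lt with hK0 | hKpos
    · subst hK0
      have hc0 : c' = 0 := hc (by rw [hn2]; ring)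
      subst hc0
      subst hU hV
      have hP2 : P + 2 ≠ 0 := by positivity
      have hP1' : P + 1 ≠ 0 := hP1.ne'
      apply le_of_eq
      simp only [zero_add, zero_mul, mul_one, add_zero, zero_div, mul_zero, sub_zero, one_mul,
        ne_eq, OfNat.ofNat_ne_zero, not_false_eq_true, zero_pow, div_zero]
      field_simp
      ring
    · subst hU hV
      have hK0 : K ≠ 0 := hKpos.ne'
      have hK1' : K + 1 ≠ 0 := hK1.ne'
      have hP1' : P + 1 ≠ 0 := hP1.ne'
      have hPK2 : P + K + 2 ≠ 0 := by positivity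
      have hPK1 : P + K + 1 ≠ 0 := by positivity
      have hQ : P * (P + 1) + K * (K + 1) ≠ 0 := by positivity
      have key : a ^ 2 / (2 * ((K + 1) * (P + 1) * μ)) + (b + c') ^ 2 / (μ * (P * (P + 1) + K * (K + 1)))
          - (a + b + c') ^ 2 / (μ * ((P + K + 2) * (P + K + 1)))
          = 2 / ((P + K + 2) * (P + K + 1) * ((K + 1) * (P + 1) * μ))
              * ((P + 1) / P * (P * a / 2 - (K + 1) * b) ^ 2
                + (K + 1) / K * (K * a / 2 - (P + 1) * c') ^ 2)
            - 2 / (μ * P * K * (P * (P + 1) + K * (K + 1)) * (P + K + 2) * (P + K + 1))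
              * (K * (P * a / 2 - (K + 1) * b) - P * (K * a / 2 - (P + 1) * c')) ^ 2 := by
        field_simp
        ring
      rw [key]
      have : 0 ≤ 2 / (μ * P * K * (P * (P + 1) + K * (K + 1)) * (P + K + 2) * (P + K + 1))
              * (K * (P * a / 2 - (K + 1) * b) - P * (K * a / 2 - (P + 1) * c')) ^ 2 := by
        positivity
      linarith

omit [DecidableEq α] in
lemma card_real_eq_sum_one (s : Finset (Finset α)) : (s.card : ℝ) = ∑ _T ∈ s, (1 : ℝ) := by
  simp

/-- **Per-pair bound**: the block variance of the pair `(c, d)` is controlled by the squares of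
its upper- and lower-link statistics. -/
lemma pair_bound (F : Finset α) (k : ℕ) (g : Finset α → ℝ) {c d : α} (hc : c ∈ F)
    (hd : d ∈ F.erase c) (hk : k + 2 ≤ F.card) :
    Bvar F (k + 1) g c d ≤ 2 / ((F.card : ℝ) * ((F.card : ℝ) - 1)) *
      (((F.card : ℝ) - k - 2 + 1) / ((F.card : ℝ) - k - 2) *
          ∑ S ∈ ((F.erase c).erase d).powersetCard k,
            linkU (F \ S) (fun x => g (insert x S)) c d ^ 2
        + ((k : ℝ) + 1) / (k : ℝ) *
          ∑ S ∈ ((F.erase c).erase d).powersetCard k,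
            linkU (insert c (insert d S)) (fun x => g ((insert c (insert d S)).erase x)) c d ^ 2) := by
  have hF'card : ((F.erase c).erase d).card + 2 = F.card := by
    have h1 := card_erase_add_one hc
    have h2 := card_erase_add_one hd
    omega
  have hMpos : (0 : ℝ) < ((((F.erase c).erase d).powersetCard k).card : ℝ) := by
    rw [card_powersetCard]
    exact_mod_cast Nat.choose_pos (by omega)
  have hpR : ((k : ℝ) + 2) ≤ (F.card : ℝ) := by exact_mod_cast hk
  -- cardinalities
  have hsep : ((sepSet F (k + 1) c d).card : ℝ)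
      = 2 * ((((F.erase c).erase d).powersetCard k).card : ℝ) := by
    rw [card_real_eq_sum_one, sum_sep F k hc hd (fun _ => (1 : ℝ)), Finset.sum_const, nsmul_eq_mul]
    ring
  have hnon : ((nonSet F (k + 1) c d).card : ℝ)
      = ((((F.erase c).erase d).powersetCard (k + 1)).card : ℝ)
        + ((bothSet F (k + 1) c d).card : ℝ) := by
    rw [card_real_eq_sum_one, sum_non F (k + 1) c d (fun _ => (1 : ℝ)), ← card_real_eq_sum_one,
      ← card_real_eq_sum_one]
    ring
  have hall : ((F.powersetCard (k + 1)).card : ℝ)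
      = 2 * ((((F.erase c).erase d).powersetCard k).card : ℝ)
        + ((((F.erase c).erase d).powersetCard (k + 1)).card : ℝ)
        + ((bothSet F (k + 1) c d).card : ℝ) := by
    rw [card_real_eq_sum_one, sum_all_split F (k + 1) c d (fun _ => (1 : ℝ)),
      ← card_real_eq_sum_one, ← card_real_eq_sum_one, hsep, hnon]
    ring
  -- relations between the cardinalities, from `g = 1`
  have r1 : ((k : ℝ) + 1) * ((((F.erase c).erase d).powersetCard (k + 1)).card : ℝ)
      = ((F.card : ℝ) - k - 2) * ((((F.erase c).erase d).powersetCard k).card : ℝ) := by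
    have h := sum_linkU_upper F k (fun _ => (1 : ℝ)) hc hd
    have hz : ∑ S ∈ ((F.erase c).erase d).powersetCard k,
        linkU (F \ S) (fun x => (fun _ => (1 : ℝ)) (insert x S)) c d = 0 := by
      refine Finset.sum_eq_zero fun S _ => ?_
      unfold linkU
      norm_num
    rw [hz, ← card_real_eq_sum_one, ← card_real_eq_sum_one, hsep] at h
    linarith
  have r2 : ((F.card : ℝ) - k - 2 + 1) * ((bothSet F (k + 1) c d).card : ℝ)
      = (k : ℝ) * ((((F.erase c).erase d).powersetCard k).card : ℝ) := by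
    have h := sum_linkU_lower F k (fun _ => (1 : ℝ)) hc hd
    have hz : ∑ S ∈ ((F.erase c).erase d).powersetCard k,
        linkU (insert c (insert d S))
          (fun x => (fun _ => (1 : ℝ)) ((insert c (insert d S)).erase x)) c d = 0 := by
      refine Finset.sum_eq_zero fun S _ => ?_
      unfold linkU
      norm_num
    rw [hz, ← card_real_eq_sum_one, ← card_real_eq_sum_one, hsep] at h
    linarith
  -- the link sums
  have hU := sum_linkU_upper F k g hc hd
  have hV := sum_linkU_lower F k g hc hd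
  have csU := sq_sum_le_card_mul_sum_sq (s := ((F.erase c).erase d).powersetCard k)
    (f := fun S => linkU (F \ S) (fun x => g (insert x S)) c d)
  have csV := sq_sum_le_card_mul_sum_sq (s := ((F.erase c).erase d).powersetCard k)
    (f := fun S => linkU (insert c (insert d S))
      (fun x => g ((insert c (insert d S)).erase x)) c d)
  have hb : ((((F.erase c).erase d).powersetCard (k + 1)).card : ℝ) = 0 →
      ∑ T ∈ ((F.erase c).erase d).powersetCard (k + 1), g T = 0 := by
    intro h0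
    have : ((F.erase c).erase d).powersetCard (k + 1) = ∅ := by
      rw [← Finset.card_eq_zero]; exact_mod_cast h0
    rw [this, Finset.sum_empty]
  have hcc : ((bothSet F (k + 1) c d).card : ℝ) = 0 → ∑ T ∈ bothSet F (k + 1) c d, g T = 0 := by
    intro h0
    have : bothSet F (k + 1) c d = ∅ := by
      rw [← Finset.card_eq_zero]; exact_mod_cast h0
    rw [this, Finset.sum_empty]
  have core := scalar_core ((((F.erase c).erase d).powersetCard k).card : ℝ)
    ((((F.erase c).erase d).powersetCard (k + 1)).card : ℝ) ((bothSet F (k + 1) c d).card : ℝ)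
    (∑ T ∈ sepSet F (k + 1) c d, g T) (∑ T ∈ ((F.erase c).erase d).powersetCard (k + 1), g T)
    (∑ T ∈ bothSet F (k + 1) c d, g T)
    (∑ S ∈ ((F.erase c).erase d).powersetCard k, linkU (F \ S) (fun x => g (insert x S)) c d)
    (∑ S ∈ ((F.erase c).erase d).powersetCard k,
        linkU (insert c (insert d S)) (fun x => g ((insert c (insert d S)).erase x)) c d)
    ((F.card : ℝ) - k - 2) (k : ℝ) hMpos (by linarith) (Nat.cast_nonneg k) r1 r2
    (by rw [hU]; ring) (by rw [hV]; ring) hb hcc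
  have hBvar : Bvar F (k + 1) g c d
      = (∑ T ∈ sepSet F (k + 1) c d, g T) ^ 2
          / (2 * ((((F.erase c).erase d).powersetCard k).card : ℝ))
        + (∑ T ∈ ((F.erase c).erase d).powersetCard (k + 1), g T
            + ∑ T ∈ bothSet F (k + 1) c d, g T) ^ 2
          / (((((F.erase c).erase d).powersetCard (k + 1)).card : ℝ)
              + ((bothSet F (k + 1) c d).card : ℝ))
        - (∑ T ∈ sepSet F (k + 1) c d, g T
            + ∑ T ∈ ((F.erase c).erase d).powersetCard (k + 1), g T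
            + ∑ T ∈ bothSet F (k + 1) c d, g T) ^ 2
          / (2 * ((((F.erase c).erase d).powersetCard k).card : ℝ)
              + ((((F.erase c).erase d).powersetCard (k + 1)).card : ℝ)
              + ((bothSet F (k + 1) c d).card : ℝ)) := by
    unfold Bvar
    rw [hsep, hnon, hall, sum_all_split F (k + 1) c d g, sum_non F (k + 1) c d g]
    ring
  rw [hBvar]
  refine core.trans ?_
  have hp0 : (0 : ℝ) < (F.card : ℝ) := by linarith [Nat.cast_nonneg (α := ℝ) k]
  have hp1 : (0 : ℝ) < (F.card : ℝ) - 1 := by linarith [Nat.cast_nonneg (α := ℝ) k]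
  have hcoefU : (0 : ℝ) ≤ ((F.card : ℝ) - k - 2 + 1) / ((F.card : ℝ) - k - 2) :=
    div_nonneg (by linarith) (by linarith)
  have hcoefV : (0 : ℝ) ≤ ((k : ℝ) + 1) / (k : ℝ) :=
    div_nonneg (by positivity) (Nat.cast_nonneg k)
  have e : ((F.card : ℝ) - k - 2 + k + 2) * ((F.card : ℝ) - k - 2 + k + 1)
      = (F.card : ℝ) * ((F.card : ℝ) - 1) := by ring
  rw [e, show (2 : ℝ) / ((F.card : ℝ) * ((F.card : ℝ) - 1)
      * ((((F.erase c).erase d).powersetCard k).card : ℝ))
      = 2 / ((F.card : ℝ) * ((F.card : ℝ) - 1))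
        * (1 / ((((F.erase c).erase d).powersetCard k).card : ℝ)) by
    field_simp, mul_assoc]
  refine mul_le_mul_of_nonneg_left ?_ (by positivity)
  rw [one_div, inv_mul_le_iff₀ hMpos, mul_add]
  refine add_le_add ?_ ?_
  · calc _ ≤ ((F.card : ℝ) - k - 2 + 1) / ((F.card : ℝ) - k - 2)
          * (((((F.erase c).erase d).powersetCard k).card : ℝ)
            * ∑ S ∈ ((F.erase c).erase d).powersetCard k,
                linkU (F \ S) (fun x => g (insert x S)) c d ^ 2) :=
        mul_le_mul_of_nonneg_left csU hcoefU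
      _ = _ := by ring
  · calc _ ≤ ((k : ℝ) + 1) / (k : ℝ)
          * (((((F.erase c).erase d).powersetCard k).card : ℝ)
            * ∑ S ∈ ((F.erase c).erase d).powersetCard k,
                linkU (insert c (insert d S))
                  (fun x => g ((insert c (insert d S)).erase x)) c d ^ 2) :=
        mul_le_mul_of_nonneg_left csV hcoefV
      _ = _ := by ring

/-! ## Assembly: the frame bound -/

lemma sepSet_eq_empty (F : Finset α) (t : ℕ) {c d : α} (hc : c ∈ F) (hd : d ∈ F)
    (ht : t = 0 ∨ F.card ≤ t) : sepSet F t c d = ∅ := by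
  unfold sepSet
  rw [Finset.filter_eq_empty_iff]
  intro T hT
  rw [mem_powersetCard] at hT
  rw [not_not]
  rcases ht with rfl | ht
  · have : T = ∅ := Finset.card_eq_zero.1 hT.2
    subst this
    simp
  · have : T = F := Finset.eq_of_subset_of_card_le hT.1 (by rw [hT.2]; exact ht)
    subst this
    simp [hc, hd]

lemma Bvar_eq_zero_of_sep_empty (F : Finset α) (t : ℕ) (g : Finset α → ℝ) {c d : α}
    (h : sepSet F t c d = ∅) : Bvar F t g c d = 0 := by
  have hn : nonSet F t c d = F.powersetCard t := by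
    unfold nonSet
    apply Finset.filter_true_of_mem
    intro T hT
    have h' := (Finset.filter_eq_empty_iff.1 h) hT
    simpa using h'
  unfold Bvar
  rw [hn, h]
  simp

lemma coef_le (P k : ℕ) :
    2 / (((P : ℝ) + k + 2) * (((P : ℝ) + k + 2) - 1))
      * ((((P : ℝ) + k + 2) - k - 2 + 1) / (((P : ℝ) + k + 2) - k - 2)
            * ((((P : ℝ) + k + 2) - k) * (((P : ℝ) + k + 2) - k - 2) / 4)
          + ((k : ℝ) + 1) / (k : ℝ) * (((k : ℝ) + 2) * (k : ℝ) / 4)) ≤ 1 / 2 := by
  have e1 : ((P : ℝ) + k + 2) - k - 2 = P := by ring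
  have e2 : ((P : ℝ) + k + 2) - k = P + 2 := by ring
  have e3 : ((P : ℝ) + k + 2) - 1 = P + k + 1 := by ring
  rw [e1, e2, e3]
  rcases Nat.eq_zero_or_pos P with rfl | hP <;> rcases Nat.eq_zero_or_pos k with rfl | hk
  · norm_num
  · have hk' : (0 : ℝ) < k := by exact_mod_cast hk
    have : 2 / (((0 : ℕ) : ℝ) + k + 2) / (((0 : ℕ) : ℝ) + k + 1) * (((k : ℝ) + 1) * ((k : ℝ) + 2) / 4)
        = 1 / 2 := by
      push_cast
      field_simp
      ring
    apply le_of_eq
    rw [← this]
    push_cast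
    field_simp
    ring
  · have hP' : (0 : ℝ) < P := by exact_mod_cast hP
    apply le_of_eq
    push_cast
    field_simp
    ring
  · have hP' : (1 : ℝ) ≤ P := by exact_mod_cast hP
    have hk' : (1 : ℝ) ≤ k := by exact_mod_cast hk
    have hP0 : (P : ℝ) ≠ 0 := by linarith
    have hk0 : (k : ℝ) ≠ 0 := by linarith
    have h1 : ((P : ℝ) + 1) / P * (((P : ℝ) + 2) * P / 4) = ((P : ℝ) + 1) * ((P : ℝ) + 2) / 4 := by
      field_simp
    have h2 : ((k : ℝ) + 1) / k * (((k : ℝ) + 2) * k / 4) = ((k : ℝ) + 1) * ((k : ℝ) + 2) / 4 := by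
      field_simp
    rw [h1, h2, div_mul_eq_mul_div, div_le_iff₀ (by positivity)]
    nlinarith [mul_nonneg (sub_nonneg.2 hP') (sub_nonneg.2 hk')]

/-- **Johnson frame bound** (Step 4 of the Knabe/Caputo route). For every function `g` on the
`t`-subsets of `F`: the sum over ORDERED pairs `c ≠ d` of `F` of the between-block variances
`Bvar F t g c d = ⟨g, Π_{cd} g⟩` is at most half the energy over DIRECTED Johnson moves
`T → T - i + j` (each unordered Johnson edge counted twice). -/
theorem frame_bound (F : Finset α) (t : ℕ) (g : Finset α → ℝ) :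
    ∑ c ∈ F, ∑ d ∈ F.erase c, Bvar F t g c d
      ≤ 1 / 2 * ∑ T ∈ F.powersetCard t, ∑ i ∈ T, ∑ j ∈ F \ T,
          (g T - g (insert j (T.erase i))) ^ 2 := by
  have hE : 0 ≤ ∑ T ∈ F.powersetCard t, ∑ i ∈ T, ∑ j ∈ F \ T,
      (g T - g (insert j (T.erase i))) ^ 2 :=
    Finset.sum_nonneg fun T _ => Finset.sum_nonneg fun i _ => Finset.sum_nonneg fun j _ =>
      sq_nonneg _
  by_cases htriv : t = 0 ∨ F.card ≤ t
  · have h0 : ∑ c ∈ F, ∑ d ∈ F.erase c, Bvar F t g c d = 0 := by
      refine Finset.sum_eq_zero fun c hc => Finset.sum_eq_zero fun d hd => ?_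
      exact Bvar_eq_zero_of_sep_empty _ _ _ (sepSet_eq_empty F t hc (mem_erase.1 hd).2 htriv)
    rw [h0]
    positivity
  · rw [not_or, not_le] at htriv
    obtain ⟨k, rfl⟩ : ∃ k, t = k + 1 := Nat.exists_eq_succ_of_ne_zero htriv.1
    have hk : k + 2 ≤ F.card := by omega
    obtain ⟨P, hP⟩ : ∃ P : ℕ, F.card = P + k + 2 := ⟨F.card - (k + 2), by omega⟩
    have hpR : (F.card : ℝ) = (P : ℝ) + k + 2 := by rw [hP]; push_cast; ring
    -- upper regrouping
    have hA : ∑ c ∈ F, ∑ d ∈ F.erase c, ∑ S ∈ ((F.erase c).erase d).powersetCard k,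
          linkU (F \ S) (fun x => g (insert x S)) c d ^ 2
        = ((F.card : ℝ) - k) * ((F.card : ℝ) - k - 2) / 4
          * ∑ T ∈ F.powersetCard (k + 1), ∑ i ∈ T, ∑ j ∈ F \ T,
              (g T - g (insert j (T.erase i))) ^ 2 := by
      rw [sum_pairs_upper F k (fun S c d => linkU (F \ S) (fun x => g (insert x S)) c d ^ 2)]
      have h1 : ∀ S ∈ F.powersetCard k,
          ∑ c ∈ F \ S, ∑ d ∈ (F \ S).erase c, linkU (F \ S) (fun x => g (insert x S)) c d ^ 2
            = ((F.card : ℝ) - k) * ((F.card : ℝ) - k - 2) / 4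
              * ∑ c ∈ F \ S, ∑ d ∈ (F \ S).erase c, (g (insert c S) - g (insert d S)) ^ 2 := by
        intro S hS
        rw [link_identity]
        have hc' : ((F \ S).card : ℝ) = (F.card : ℝ) - k := by
          rw [mem_powersetCard] at hS
          have h0 := card_sdiff_add_card_eq_card hS.1
          have h' : ((F \ S).card : ℝ) + (S.card : ℝ) = (F.card : ℝ) := by exact_mod_cast h0
          rw [hS.2] at h'
          linarith
        rw [hc']
      rw [Finset.sum_congr rfl h1, ← Finset.mul_sum,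
        ← sum_moves_upper F k (fun S c d => (g (insert c S) - g (insert d S)) ^ 2)]
      congr 1
      refine Finset.sum_congr rfl fun T hT => Finset.sum_congr rfl fun i hi => ?_
      rw [insert_erase hi]
    -- lower regrouping
    have hB : ∑ c ∈ F, ∑ d ∈ F.erase c, ∑ S ∈ ((F.erase c).erase d).powersetCard k,
          linkU (insert c (insert d S)) (fun x => g ((insert c (insert d S)).erase x)) c d ^ 2
        = ((k : ℝ) + 2) * (k : ℝ) / 4
          * ∑ T ∈ F.powersetCard (k + 1), ∑ i ∈ T, ∑ j ∈ F \ T,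
              (g T - g (insert j (T.erase i))) ^ 2 := by
      rw [sum_pairs_lower F k (fun R c d => linkU R (fun x => g (R.erase x)) c d ^ 2)]
      have h1 : ∀ R ∈ F.powersetCard (k + 2),
          ∑ c ∈ R, ∑ d ∈ R.erase c, linkU R (fun x => g (R.erase x)) c d ^ 2
            = ((k : ℝ) + 2) * (k : ℝ) / 4
              * ∑ c ∈ R, ∑ d ∈ R.erase c, (g (R.erase c) - g (R.erase d)) ^ 2 := by
        intro R hR
        rw [link_identity, (mem_powersetCard.1 hR).2]
        push_cast
        ring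
      rw [Finset.sum_congr rfl h1, ← Finset.mul_sum,
        ← sum_moves_lower F (k + 1) (fun R c d => (g (R.erase c) - g (R.erase d)) ^ 2)]
      congr 1
      refine Finset.sum_congr rfl fun T hT => ?_
      rw [Finset.sum_comm]
      refine Finset.sum_congr rfl fun i hi => Finset.sum_congr rfl fun j hj => ?_
      have hjT : j ∉ T := (mem_sdiff.1 hj).2
      have hij : j ≠ i := fun h => hjT (h ▸ hi)
      rw [erase_insert hjT, erase_insert_of_ne hij]
    calc ∑ c ∈ F, ∑ d ∈ F.erase c, Bvar F (k + 1) g c d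
        ≤ ∑ c ∈ F, ∑ d ∈ F.erase c, 2 / ((F.card : ℝ) * ((F.card : ℝ) - 1)) *
            (((F.card : ℝ) - k - 2 + 1) / ((F.card : ℝ) - k - 2) *
                ∑ S ∈ ((F.erase c).erase d).powersetCard k,
                  linkU (F \ S) (fun x => g (insert x S)) c d ^ 2
              + ((k : ℝ) + 1) / (k : ℝ) *
                ∑ S ∈ ((F.erase c).erase d).powersetCard k,
                  linkU (insert c (insert d S))
                    (fun x => g ((insert c (insert d S)).erase x)) c d ^ 2) :=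
          Finset.sum_le_sum fun c hc => Finset.sum_le_sum fun d hd => pair_bound F k g hc hd hk
      _ = 2 / ((F.card : ℝ) * ((F.card : ℝ) - 1)) *
            (((F.card : ℝ) - k - 2 + 1) / ((F.card : ℝ) - k - 2) *
                (∑ c ∈ F, ∑ d ∈ F.erase c, ∑ S ∈ ((F.erase c).erase d).powersetCard k,
                  linkU (F \ S) (fun x => g (insert x S)) c d ^ 2)
              + ((k : ℝ) + 1) / (k : ℝ) *
                (∑ c ∈ F, ∑ d ∈ F.erase c, ∑ S ∈ ((F.erase c).erase d).powersetCard k,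
                  linkU (insert c (insert d S))
                    (fun x => g ((insert c (insert d S)).erase x)) c d ^ 2)) := by
          simp only [Finset.mul_sum, Finset.sum_add_distrib, mul_add]
      _ = (2 / ((F.card : ℝ) * ((F.card : ℝ) - 1)) *
            (((F.card : ℝ) - k - 2 + 1) / ((F.card : ℝ) - k - 2) *
                (((F.card : ℝ) - k) * ((F.card : ℝ) - k - 2) / 4)
              + ((k : ℝ) + 1) / (k : ℝ) * (((k : ℝ) + 2) * (k : ℝ) / 4)))
            * ∑ T ∈ F.powersetCard (k + 1), ∑ i ∈ T, ∑ j ∈ F \ T,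
                (g T - g (insert j (T.erase i))) ^ 2 := by
          rw [hA, hB]
          ring
      _ ≤ 1 / 2 * ∑ T ∈ F.powersetCard (k + 1), ∑ i ∈ T, ∑ j ∈ F \ T,
                (g T - g (insert j (T.erase i))) ^ 2 := by
          refine mul_le_mul_of_nonneg_right ?_ hE
          rw [hpR]
          exact coef_le P k

end Crest.Agent.S0453.Helper16
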