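import Mathlib

set_option autoImplicit false
set_option linter.unusedSectionVars false
open Finset

namespace Crest.Agent.S0453.Helper76

/-! ### Abstract Knabe end step: `T² ≥ T` for a symmetric positive semidefinite `T` gives a
spectral gap `1` above the kernel (no spectral theorem needed). -/

section abstract_gap

variable {E : Type*} [NormedAddCommGroup E] [InnerProductSpace ℝ E]

open scoped RealInnerProductSpace

/-- Cauchy–Schwarz for a positive semidefinite symmetric form `⟪x, T y⟫`. -/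
lemma psd_cauchy_schwarz (T : E →ₗ[ℝ] E) (hT : T.IsSymmetric) (hpsd : ∀ x, 0 ≤ ⟪x, T x⟫)
    (x y : E) : ⟪x, T y⟫ ^ 2 ≤ ⟪x, T x⟫ * ⟪y, T y⟫ := by
  have hsym : ⟪y, T x⟫ = ⟪x, T y⟫ := by
    rw [real_inner_comm, hT x y]
  have h : ∀ s : ℝ, 0 ≤ ⟪x, T x⟫ + 2 * s * ⟪x, T y⟫ + s ^ 2 * ⟪y, T y⟫ := by
    intro s
    have h1 := hpsd (x + s • y)
    have e : ⟪x + s • y, T (x + s • y)⟫ =
        ⟪x, T x⟫ + 2 * s * ⟪x, T y⟫ + s ^ 2 * ⟪y, T y⟫ := by
      rw [map_add, map_smul, inner_add_left, inner_add_right, inner_add_right,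
        inner_smul_left, inner_smul_left, inner_smul_right, inner_smul_right, hsym]
      simp
      ring
    rw [e] at h1
    exact h1
  by_cases hy : ⟪y, T y⟫ = 0
  · -- then ⟪x, T y⟫ = 0
    rw [hy, mul_zero]
    have h1 := h (-(⟪x, T x⟫ + 1) / (2 * ⟪x, T y⟫))
    by_contra hne
    have hxy : ⟪x, T y⟫ ≠ 0 := by
      intro h0
      apply hne
      rw [h0]
      simp
    rw [hy] at h1
    have : 2 * (-(⟪x, T x⟫ + 1) / (2 * ⟪x, T y⟫)) * ⟪x, T y⟫ = -(⟪x, T x⟫ + 1) := by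
      field_simp
    nlinarith
  · have hpos : 0 < ⟪y, T y⟫ := lt_of_le_of_ne (hpsd y) (Ne.symm hy)
    have h1 := h (-⟪x, T y⟫ / ⟪y, T y⟫)
    have e : ⟪x, T x⟫ + 2 * (-⟪x, T y⟫ / ⟪y, T y⟫) * ⟪x, T y⟫ +
        (-⟪x, T y⟫ / ⟪y, T y⟫) ^ 2 * ⟪y, T y⟫ = ⟪x, T x⟫ - ⟪x, T y⟫ ^ 2 / ⟪y, T y⟫ := by
      field_simp
      ring
    rw [e] at h1
    have h2 : ⟪x, T y⟫ ^ 2 / ⟪y, T y⟫ ≤ ⟪x, T x⟫ := by linarith
    rw [div_le_iff₀ hpos] at h2
    exact h2

/-- **Knabe end step (abstract).** A symmetric positive semidefinite operator `T` on a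
finite-dimensional real inner product space with `⟪x, T x⟫ ≤ ‖T x‖²` (i.e. `T² ≥ T`) satisfies
`‖f - k‖² ≤ ⟪f, T f⟫` for some `k` in its kernel. -/
theorem knabe_gap [FiniteDimensional ℝ E] (T : E →ₗ[ℝ] E) (hT : T.IsSymmetric) (hpsd : ∀ x, 0 ≤ ⟪x, T x⟫)
    (hk : ∀ x, ⟪x, T x⟫ ≤ ⟪T x, T x⟫) (f : E) :
    ∃ k, T k = 0 ∧ ‖f - k‖ ^ 2 ≤ ⟪f, T f⟫ := by
  -- decompose f = k + u, k ∈ ker T, u ∈ (ker T)ᗮ = range T
  obtain ⟨k, hkK, u, hu, hfu⟩ := Submodule.exists_add_mem_mem_orthogonal (K := LinearMap.ker T) f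
  have hrange : (LinearMap.ker T)ᗮ = LinearMap.range T := by
    rw [← hT.orthogonal_range, Submodule.orthogonal_orthogonal]
  rw [hrange] at hu
  obtain ⟨g, rfl⟩ := hu
  have hTk : T k = 0 := LinearMap.mem_ker.mp hkK
  refine ⟨k, hTk, ?_⟩
  have e1 : f - k = T g := by rw [hfu]; abel
  have e2 : ⟪f, T f⟫ = ⟪T g, T (T g)⟫ := by
    rw [hfu, map_add, hTk, zero_add, inner_add_left]
    have : ⟪k, T (T g)⟫ = 0 := by
      rw [← hT k (T g), hTk, inner_zero_left]
    rw [this, zero_add]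
  rw [e1, e2, ← real_inner_self_eq_norm_sq]
  -- φ2 ≤ φ3
  set φ1 := ⟪g, T g⟫ with hφ1
  set φ2 := ⟪T g, T g⟫ with hφ2
  set φ3 := ⟪T g, T (T g)⟫ with hφ3
  have h12 : φ1 ≤ φ2 := hk g
  have hcs : φ2 ^ 2 ≤ φ1 * φ3 := by
    have h := psd_cauchy_schwarz T hT hpsd g (T g)
    have e : ⟪g, T (T g)⟫ = φ2 := by
      rw [hφ2, hT g (T g)]
    rw [e] at h
    exact h
  have h3 : 0 ≤ φ3 := hpsd (T g)
  have h2 : 0 ≤ φ2 := real_inner_self_nonneg
  by_cases h20 : φ2 = 0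
  · rw [h20]; exact h3
  · have h2pos : 0 < φ2 := lt_of_le_of_ne h2 (Ne.symm h20)
    have : φ2 ^ 2 ≤ φ2 * φ3 := hcs.trans (mul_le_mul_of_nonneg_right h12 h3)
    nlinarith

end abstract_gap

section transfer
variable {α : Type*} [DecidableEq α]
open scoped RealInnerProductSpace

/-- Extension by zero of a vector indexed by `Ω`. -/
noncomputable def extend0 (Ω : Finset α) (v : EuclideanSpace ℝ Ω) : α → ℝ :=
  fun a => if h : a ∈ Ω then v ⟨a, h⟩ else 0

lemma extend0_apply {Ω : Finset α} (v : EuclideanSpace ℝ Ω) {a : α} (h : a ∈ Ω) :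
    extend0 Ω v a = v ⟨a, h⟩ := by
  unfold extend0
  rw [dif_pos h]

lemma inner_eq_sum_extend0 (Ω : Finset α) (v w : EuclideanSpace ℝ Ω) :
    ⟪v, w⟫ = ∑ x ∈ Ω, extend0 Ω v x * extend0 Ω w x := by
  rw [PiLp.inner_apply]
  rw [← Finset.sum_coe_sort Ω (fun x => extend0 Ω v x * extend0 Ω w x)]
  apply Finset.sum_congr rfl
  intro i _
  rw [extend0_apply v i.2, extend0_apply w i.2]
  simp
  ring

/-- Restriction of a function to a vector indexed by `Ω`. -/
noncomputable def restr (Ω : Finset α) (g : α → ℝ) : EuclideanSpace ℝ Ω :=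
  WithLp.toLp 2 (fun i : Ω => g i.1)

lemma extend0_restr {Ω : Finset α} (g : α → ℝ) {a : α} (h : a ∈ Ω) :
    extend0 Ω (restr Ω g) a = g a := by
  rw [extend0_apply _ h]
  simp [restr]

lemma restr_extend0 (Ω : Finset α) (v : EuclideanSpace ℝ Ω) : restr Ω (extend0 Ω v) = v := by
  ext i
  simp only [restr]
  rw [extend0_apply v i.2]

variable (Ω : Finset α) (H : (α → ℝ) → α → ℝ)

/-- The operator `H`, transported to vectors indexed by `Ω`. -/
noncomputable def opOn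
    (hadd : ∀ f g : α → ℝ, ∀ x ∈ Ω, H (f + g) x = H f x + H g x)
    (hsmul : ∀ (c : ℝ) (f : α → ℝ), ∀ x ∈ Ω, H (c • f) x = c * H f x)
    (hloc : ∀ f g : α → ℝ, (∀ x ∈ Ω, f x = g x) → ∀ x ∈ Ω, H f x = H g x) :
    EuclideanSpace ℝ Ω →ₗ[ℝ] EuclideanSpace ℝ Ω where
  toFun v := restr Ω (H (extend0 Ω v))
  map_add' v w := by
    ext i
    simp only [restr, PiLp.add_apply]
    rw [← hadd _ _ i.1 i.2]
    apply hloc _ _ _ i.1 i.2
    intro x hx
    simp only [Pi.add_apply]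
    rw [extend0_apply _ hx, extend0_apply _ hx, extend0_apply _ hx]
    simp
  map_smul' c v := by
    ext i
    simp only [restr, PiLp.smul_apply, RingHom.id_apply, smul_eq_mul]
    rw [← hsmul c _ i.1 i.2]
    apply hloc _ _ _ i.1 i.2
    intro x hx
    simp only [Pi.smul_apply, smul_eq_mul]
    rw [extend0_apply _ hx, extend0_apply _ hx]
    simp

/-- **Knabe end step for operators on functions.** `H` is linear, local, symmetric and positive
semidefinite with respect to `∑_{x ∈ Ω}`, and `⟨f, H f⟩ ≤ ‖H f‖²`; then every `f` is within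
`⟨f, H f⟩` (squared distance) of a function annihilated by `H`. -/
theorem gap_of_quadratic
    (hadd : ∀ f g : α → ℝ, ∀ x ∈ Ω, H (f + g) x = H f x + H g x)
    (hsmul : ∀ (c : ℝ) (f : α → ℝ), ∀ x ∈ Ω, H (c • f) x = c * H f x)
    (hloc : ∀ f g : α → ℝ, (∀ x ∈ Ω, f x = g x) → ∀ x ∈ Ω, H f x = H g x)
    (hsymm : ∀ f g : α → ℝ, ∑ x ∈ Ω, f x * H g x = ∑ x ∈ Ω, H f x * g x)
    (hpsd : ∀ f : α → ℝ, 0 ≤ ∑ x ∈ Ω, f x * H f x)
    (hkn : ∀ f : α → ℝ, ∑ x ∈ Ω, f x * H f x ≤ ∑ x ∈ Ω, H f x ^ 2)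
    (f : α → ℝ) :
    ∃ k : α → ℝ, (∀ x ∈ Ω, H k x = 0) ∧
      ∑ x ∈ Ω, (f x - k x) ^ 2 ≤ ∑ x ∈ Ω, f x * H f x := by
  set T := opOn Ω H hadd hsmul hloc with hTdef
  have hTapply : ∀ (v : EuclideanSpace ℝ Ω) (x : α) (hx : x ∈ Ω),
      extend0 Ω (T v) x = H (extend0 Ω v) x := by
    intro v x hx
    exact extend0_restr _ hx
  have hinner : ∀ v w : EuclideanSpace ℝ Ω,
      ⟪v, T w⟫ = ∑ x ∈ Ω, extend0 Ω v x * H (extend0 Ω w) x := by
    intro v w
    rw [inner_eq_sum_extend0]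
    apply Finset.sum_congr rfl
    intro x hx
    rw [hTapply w x hx]
  have hTsym : T.IsSymmetric := by
    intro v w
    rw [real_inner_comm, hinner w v, hinner v w, hsymm]
    apply Finset.sum_congr rfl
    intro x _
    ring
  have hpsd' : ∀ v : EuclideanSpace ℝ Ω, 0 ≤ ⟪v, T v⟫ := by
    intro v
    rw [hinner]
    exact hpsd _
  have hk' : ∀ v : EuclideanSpace ℝ Ω, ⟪v, T v⟫ ≤ ⟪T v, T v⟫ := by
    intro v
    rw [hinner, inner_eq_sum_extend0]
    refine (hkn _).trans (le_of_eq ?_)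
    apply Finset.sum_congr rfl
    intro x hx
    rw [hTapply v x hx]
    ring
  obtain ⟨k, hTk, hle⟩ := knabe_gap T hTsym hpsd' hk' (restr Ω f)
  refine ⟨extend0 Ω k, ?_, ?_⟩
  · intro x hx
    rw [← hTapply k x hx, hTk, extend0_apply _ hx]
    simp
  · have e1 : ‖restr Ω f - k‖ ^ 2 = ∑ x ∈ Ω, (f x - extend0 Ω k x) ^ 2 := by
      rw [← real_inner_self_eq_norm_sq, inner_eq_sum_extend0]
      apply Finset.sum_congr rfl
      intro x hx
      rw [extend0_apply _ hx, extend0_apply _ hx]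
      simp [restr]
      ring
    have e2 : ⟪restr Ω f, T (restr Ω f)⟫ = ∑ x ∈ Ω, f x * H f x := by
      rw [hinner]
      apply Finset.sum_congr rfl
      intro x hx
      rw [extend0_restr f hx]
      congr 1
      apply hloc _ _ _ x hx
      intro y hy
      exact extend0_restr f hy
    rw [← e1, ← e2]
    exact hle

end transfer

/-! ### Fibre averages (conditional expectations given a label map) -/

section cavg
variable {α β : Type*} [DecidableEq α] [DecidableEq β]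

/-- The fibre of the label map `φ` through `x`, inside `Ω`. -/
def fibre (Ω : Finset α) (φ : α → β) (x : α) : Finset α := Ω.filter (fun y => φ y = φ x)

lemma mem_fibre {Ω : Finset α} {φ : α → β} {x y : α} :
    y ∈ fibre Ω φ x ↔ y ∈ Ω ∧ φ y = φ x := by
  unfold fibre
  rw [Finset.mem_filter]

lemma self_mem_fibre {Ω : Finset α} (φ : α → β) {x : α} (hx : x ∈ Ω) : x ∈ fibre Ω φ x :=
  mem_fibre.mpr ⟨hx, rfl⟩

lemma fibre_congr (Ω : Finset α) {φ : α → β} {x y : α} (h : φ x = φ y) :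
    fibre Ω φ x = fibre Ω φ y := by
  unfold fibre
  rw [h]

lemma fibre_card_pos {Ω : Finset α} (φ : α → β) {x : α} (hx : x ∈ Ω) :
    (0 : ℝ) < ((fibre Ω φ x).card : ℝ) := by
  exact_mod_cast Finset.card_pos.mpr ⟨x, self_mem_fibre φ hx⟩

/-- The fibre average of `f` (conditional expectation of `f` given the label `φ`, for the uniform
law on `Ω`). -/
noncomputable def cavg (Ω : Finset α) (φ : α → β) (f : α → ℝ) (x : α) : ℝ :=
  (∑ y ∈ fibre Ω φ x, f y) / ((fibre Ω φ x).card : ℝ)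

lemma cavg_congr_fibre (Ω : Finset α) {φ : α → β} (f : α → ℝ) {x y : α} (h : φ x = φ y) :
    cavg Ω φ f x = cavg Ω φ f y := by
  unfold cavg
  rw [fibre_congr Ω h]

lemma cavg_add (Ω : Finset α) (φ : α → β) (f g : α → ℝ) (x : α) :
    cavg Ω φ (f + g) x = cavg Ω φ f x + cavg Ω φ g x := by
  unfold cavg
  simp only [Pi.add_apply]
  rw [Finset.sum_add_distrib, add_div]

lemma cavg_smul (Ω : Finset α) (φ : α → β) (c : ℝ) (f : α → ℝ) (x : α) :
    cavg Ω φ (c • f) x = c * cavg Ω φ f x := by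
  unfold cavg
  simp only [Pi.smul_apply, smul_eq_mul]
  rw [← Finset.mul_sum, mul_div_assoc]

lemma cavg_congr (Ω : Finset α) (φ : α → β) {f g : α → ℝ} (h : ∀ y ∈ Ω, f y = g y) (x : α) :
    cavg Ω φ f x = cavg Ω φ g x := by
  unfold cavg
  congr 1
  apply Finset.sum_congr rfl
  intro y hy
  exact h y (mem_fibre.mp hy).1

/-- Fibre averaging is self-adjoint. -/
lemma sum_mul_cavg (Ω : Finset α) (φ : α → β) (f g : α → ℝ) :
    ∑ x ∈ Ω, g x * cavg Ω φ f x = ∑ x ∈ Ω, cavg Ω φ g x * f x := by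
  have h1 : ∀ x ∈ Ω, g x * cavg Ω φ f x =
      ∑ y ∈ Ω, if φ y = φ x then g x * f y / ((fibre Ω φ x).card : ℝ) else 0 := by
    intro x _
    have : cavg Ω φ f x = (∑ y ∈ Ω, if φ y = φ x then f y else 0) / ((fibre Ω φ x).card : ℝ) := by
      unfold cavg
      congr 1
      unfold fibre
      rw [Finset.sum_filter]
    rw [this, Finset.sum_div, Finset.mul_sum]
    apply Finset.sum_congr rfl
    intro y _
    split_ifs <;> ring
  have h2 : ∀ x ∈ Ω, cavg Ω φ g x * f x =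
      ∑ y ∈ Ω, if φ y = φ x then g y * f x / ((fibre Ω φ x).card : ℝ) else 0 := by
    intro x _
    have : cavg Ω φ g x = (∑ y ∈ Ω, if φ y = φ x then g y else 0) / ((fibre Ω φ x).card : ℝ) := by
      unfold cavg
      congr 1
      unfold fibre
      rw [Finset.sum_filter]
    rw [this, Finset.sum_div, Finset.sum_mul]
    apply Finset.sum_congr rfl
    intro y _
    split_ifs <;> ring
  rw [Finset.sum_congr rfl h1, Finset.sum_congr rfl h2, Finset.sum_comm]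
  apply Finset.sum_congr rfl
  intro y _
  apply Finset.sum_congr rfl
  intro x _
  by_cases h : φ y = φ x
  · rw [if_pos h, if_pos h.symm, fibre_congr Ω h]
  · rw [if_neg h, if_neg (fun h' => h h'.symm)]

lemma cavg_cavg {Ω : Finset α} (φ : α → β) (f : α → ℝ) {x : α} (hx : x ∈ Ω) :
    cavg Ω φ (cavg Ω φ f) x = cavg Ω φ f x := by
  have hpos := fibre_card_pos φ hx
  have h1 : ∑ y ∈ fibre Ω φ x, cavg Ω φ f y = ((fibre Ω φ x).card : ℝ) * cavg Ω φ f x := by
    rw [Finset.sum_congr rfl (fun y hy => cavg_congr_fibre Ω f (mem_fibre.mp hy).2),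
      Finset.sum_const, nsmul_eq_mul]
  have : cavg Ω φ (cavg Ω φ f) x =
      (∑ y ∈ fibre Ω φ x, cavg Ω φ f y) / ((fibre Ω φ x).card : ℝ) := rfl
  rw [this, h1]
  field_simp

/-- `∑ (f - cavg f)² = ∑ f (f - cavg f)`: the complement of a fibre average is a projection. -/
lemma sum_sq_sub_cavg (Ω : Finset α) (φ : α → β) (f : α → ℝ) :
    ∑ x ∈ Ω, (f x - cavg Ω φ f x) ^ 2 = ∑ x ∈ Ω, f x * (f x - cavg Ω φ f x) := by
  have h1 : ∑ x ∈ Ω, cavg Ω φ f x * cavg Ω φ f x = ∑ x ∈ Ω, cavg Ω φ f x * f x := by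
    rw [sum_mul_cavg Ω φ f (cavg Ω φ f)]
    apply Finset.sum_congr rfl
    intro x hx
    rw [cavg_cavg φ f hx]
  have h2 : ∀ x ∈ Ω, (f x - cavg Ω φ f x) ^ 2 =
      f x * (f x - cavg Ω φ f x) - (cavg Ω φ f x * f x - cavg Ω φ f x * cavg Ω φ f x) :=
    fun x _ => by ring
  rw [Finset.sum_congr rfl h2, Finset.sum_sub_distrib, Finset.sum_sub_distrib, h1]
  ring

end cavg

/-! ### Knabe end step for a family of fibre averages -/

section knabe
variable {α β ι : Type*} [DecidableEq α] [DecidableEq β] [DecidableEq ι]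

/-- **Knabe / Caputo end step.** `P_e f = f - cavg Ω (φ e) f` for a finite family of label maps.
If the off-diagonal sum `∑_{e ≠ e'} ⟨P_e f, P_e' f⟩` is nonnegative for every `f` and the only
functions constant on all fibres of all `φ e` are the constants, then every `f` satisfies
`∑ (f - m)² ≤ ∑_e ‖P_e f‖²` for some constant `m`. -/
theorem knabe_end (Ω : Finset α) (I : Finset ι) (φ : ι → α → β)
    (hS : ∀ f : α → ℝ, 0 ≤ ∑ e ∈ I, ∑ e' ∈ I.erase e,
        ∑ x ∈ Ω, (f x - cavg Ω (φ e) f x) * (f x - cavg Ω (φ e') f x))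
    (hker : ∀ f : α → ℝ, (∀ e ∈ I, ∀ x ∈ Ω, ∀ y ∈ Ω, φ e x = φ e y → f x = f y) →
        ∃ m : ℝ, ∀ x ∈ Ω, f x = m)
    (f : α → ℝ) :
    ∃ m : ℝ, ∑ x ∈ Ω, (f x - m) ^ 2 ≤ ∑ e ∈ I, ∑ x ∈ Ω, (f x - cavg Ω (φ e) f x) ^ 2 := by
  set H : (α → ℝ) → α → ℝ := fun f x => ∑ e ∈ I, (f x - cavg Ω (φ e) f x) with hH
  have hadd : ∀ f g : α → ℝ, ∀ x ∈ Ω, H (f + g) x = H f x + H g x := by
    intro f g x _
    simp only [hH, Pi.add_apply]
    rw [← Finset.sum_add_distrib]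
    apply Finset.sum_congr rfl
    intro e _
    rw [cavg_add]
    ring
  have hsmul : ∀ (c : ℝ) (f : α → ℝ), ∀ x ∈ Ω, H (c • f) x = c * H f x := by
    intro c f x _
    simp only [hH, Pi.smul_apply, smul_eq_mul]
    rw [Finset.mul_sum]
    apply Finset.sum_congr rfl
    intro e _
    rw [cavg_smul]
    ring
  have hloc : ∀ f g : α → ℝ, (∀ x ∈ Ω, f x = g x) → ∀ x ∈ Ω, H f x = H g x := by
    intro f g hfg x hx
    simp only [hH]
    apply Finset.sum_congr rfl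
    intro e _
    rw [hfg x hx, cavg_congr Ω (φ e) hfg]
  have hquad : ∀ f : α → ℝ, ∑ x ∈ Ω, f x * H f x =
      ∑ e ∈ I, ∑ x ∈ Ω, (f x - cavg Ω (φ e) f x) ^ 2 := by
    intro f
    simp only [hH]
    rw [Finset.sum_congr rfl (fun x _ => Finset.mul_sum I _ (f x)), Finset.sum_comm]
    apply Finset.sum_congr rfl
    intro e _
    rw [sum_sq_sub_cavg]
  have hsymm : ∀ f g : α → ℝ, ∑ x ∈ Ω, f x * H g x = ∑ x ∈ Ω, H f x * g x := by
    intro f g
    simp only [hH]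
    rw [Finset.sum_congr rfl (fun x _ => Finset.mul_sum I _ (f x)),
      Finset.sum_congr rfl (fun x _ => Finset.sum_mul I _ (g x)), Finset.sum_comm,
      Finset.sum_comm (s := Ω)]
    apply Finset.sum_congr rfl
    intro e _
    have h1 : ∀ x ∈ Ω, f x * (g x - cavg Ω (φ e) g x) = f x * g x - f x * cavg Ω (φ e) g x :=
      fun x _ => by ring
    have h2 : ∀ x ∈ Ω, (f x - cavg Ω (φ e) f x) * g x = f x * g x - cavg Ω (φ e) f x * g x :=
      fun x _ => by ring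
    rw [Finset.sum_congr rfl h1, Finset.sum_congr rfl h2, Finset.sum_sub_distrib,
      Finset.sum_sub_distrib, sum_mul_cavg]
  have hpsd : ∀ f : α → ℝ, 0 ≤ ∑ x ∈ Ω, f x * H f x := by
    intro f
    rw [hquad]
    exact Finset.sum_nonneg (fun e _ => Finset.sum_nonneg (fun x _ => sq_nonneg _))
  have hkn : ∀ f : α → ℝ, ∑ x ∈ Ω, f x * H f x ≤ ∑ x ∈ Ω, H f x ^ 2 := by
    intro f
    rw [hquad]
    have hexp : ∑ x ∈ Ω, H f x ^ 2 =
        ∑ e ∈ I, ∑ x ∈ Ω, (f x - cavg Ω (φ e) f x) ^ 2 +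
          ∑ e ∈ I, ∑ e' ∈ I.erase e,
            ∑ x ∈ Ω, (f x - cavg Ω (φ e) f x) * (f x - cavg Ω (φ e') f x) := by
      have hx : ∀ x ∈ Ω, H f x ^ 2 = ∑ e ∈ I, ((f x - cavg Ω (φ e) f x) ^ 2 +
          ∑ e' ∈ I.erase e, (f x - cavg Ω (φ e) f x) * (f x - cavg Ω (φ e') f x)) := by
        intro x _
        simp only [hH]
        rw [sq, Finset.sum_mul_sum]
        apply Finset.sum_congr rfl
        intro e he
        rw [← Finset.add_sum_erase I _ he]
        ring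
      rw [Finset.sum_congr rfl hx, Finset.sum_comm, ← Finset.sum_add_distrib]
      apply Finset.sum_congr rfl
      intro e _
      rw [Finset.sum_add_distrib, Finset.sum_comm]
    rw [hexp]
    linarith [hS f]
  obtain ⟨k, hHk, hle⟩ := gap_of_quadratic Ω H hadd hsmul hloc hsymm hpsd hkn f
  -- `k` is constant on all fibres
  have hk0 : ∑ e ∈ I, ∑ x ∈ Ω, (k x - cavg Ω (φ e) k x) ^ 2 = 0 := by
    rw [← hquad k]
    apply Finset.sum_eq_zero
    intro x hx
    rw [hHk x hx, mul_zero]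
  have hk1 : ∀ e ∈ I, ∀ x ∈ Ω, k x = cavg Ω (φ e) k x := by
    intro e he x hx
    have h1 := (Finset.sum_eq_zero_iff_of_nonneg
      (fun e _ => Finset.sum_nonneg (fun x _ => sq_nonneg _))).mp hk0 e he
    have h2 := (Finset.sum_eq_zero_iff_of_nonneg (fun x _ => sq_nonneg _)).mp h1 x hx
    have h3 : k x - cavg Ω (φ e) k x = 0 := by
      rcases sq_eq_zero_iff.mp h2 with h
      exact h
    linarith
  obtain ⟨m, hm⟩ := hker k (by
    intro e he x hx y hy hxy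
    rw [hk1 e he x hx, hk1 e he y hy]
    exact cavg_congr_fibre Ω k hxy)
  refine ⟨m, ?_⟩
  refine le_trans (le_of_eq ?_) (hle.trans (le_of_eq (hquad f)))
  apply Finset.sum_congr rfl
  intro x hx
  rw [hm x hx]

end knabe

end Crest.Agent.S0453.Helper76
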