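import Mathlib
import Crest.Prelude.Def_SwitchChain

set_option autoImplicit false
open Finset

namespace Crest.Agent.S0453.Helper76

open Crest.SwitchChain

variable {n : ℕ}

/-! ### Perfect matchings on a vertex set: basic facts -/

lemma mem_pmSet {S : Finset (Fin n)} {F : Finset (Edge n)} :
    F ∈ pmSet S ↔ F.card = 2 ∧ (∀ e ∈ F, ∀ v : Fin n, v ∈ e.1 → v ∈ S) ∧
      ∀ v ∈ S, (F.filter fun e => v ∈ e.1).card = 1 := by
  unfold pmSet
  simp [Finset.mem_filter, Finset.mem_powersetCard]

lemma pm_filter_card {S : Finset (Fin n)} {F : Finset (Edge n)} (hF : F ∈ pmSet S) (v : Fin n) :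
    (F.filter fun e => v ∈ e.1).card = if v ∈ S then 1 else 0 := by
  rw [mem_pmSet] at hF
  obtain ⟨-, h1, h2⟩ := hF
  split_ifs with hv
  · exact h2 v hv
  · rw [Finset.card_eq_zero, Finset.filter_eq_empty_iff]
    intro e he hve
    exact hv (h1 e he v hve)

/-- A switch proposal never changes a vertex degree. -/
lemma deg_switchResult {S : Finset (Fin n)} {F F' : Finset (Edge n)} (hF : F ∈ pmSet S)
    (hF' : F' ∈ pmSet S) (E : Finset (Edge n)) (v : Fin n) :
    deg (switchResult E F F') v = deg E v := by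
  unfold switchResult
  split_ifs with h
  · obtain ⟨hsub, hdisj⟩ := h
    unfold deg
    have h1 : (E \ F ∪ F').filter (fun e => v ∈ e.1) =
        (E \ F).filter (fun e => v ∈ e.1) ∪ F'.filter (fun e => v ∈ e.1) :=
      Finset.filter_union _ _ _
    have hd1 : Disjoint ((E \ F).filter (fun e => v ∈ e.1)) (F'.filter (fun e => v ∈ e.1)) := by
      apply Finset.disjoint_filter_filter
      exact (hdisj.mono_right Finset.sdiff_subset).symm
    have h2 : E.filter (fun e => v ∈ e.1) =
        (E \ F).filter (fun e => v ∈ e.1) ∪ F.filter (fun e => v ∈ e.1) := by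
      rw [← Finset.filter_union, Finset.sdiff_union_of_subset hsub]
    have hd2 : Disjoint ((E \ F).filter (fun e => v ∈ e.1)) (F.filter (fun e => v ∈ e.1)) := by
      apply Finset.disjoint_filter_filter
      exact Finset.sdiff_disjoint
    rw [h1, h2, Finset.card_union_of_disjoint hd1, Finset.card_union_of_disjoint hd2,
      pm_filter_card hF, pm_filter_card hF']
  · rfl


/-! ### There are exactly three perfect matchings on a four-element vertex set -/

/-- The edge joining two distinct vertices. -/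
def mkEdge (a b : Fin n) (h : a ≠ b) : Edge n := ⟨s(a, b), by simpa using h⟩

@[simp] lemma mkEdge_val (a b : Fin n) (h : a ≠ b) : (mkEdge a b h).1 = s(a, b) := rfl

lemma mem_mkEdge {a b : Fin n} (h : a ≠ b) (v : Fin n) : v ∈ (mkEdge a b h).1 ↔ v = a ∨ v = b := by
  simp [mkEdge]

lemma mkEdge_ne {a b c d : Fin n} (hab : a ≠ b) (hcd : c ≠ d) (hac : a ≠ c) (had : a ≠ d) :
    mkEdge a b hab ≠ mkEdge c d hcd := by
  intro h
  have h' : s(a, b) = s(c, d) := congrArg Subtype.val h
  rw [Sym2.eq_iff] at h'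
  rcases h' with ⟨h1, -⟩ | ⟨h1, -⟩
  · exact hac h1
  · exact had h1

lemma pair_mem_pmSet {a b c d : Fin n} (hab : a ≠ b) (hac : a ≠ c) (had : a ≠ d) (hbc : b ≠ c)
    (hbd : b ≠ d) (hcd : c ≠ d) :
    ({mkEdge a b hab, mkEdge c d hcd} : Finset (Edge n)) ∈ pmSet ({a, b, c, d} : Finset (Fin n)) := by
  rw [mem_pmSet]
  have hne : mkEdge a b hab ≠ mkEdge c d hcd := mkEdge_ne hab hcd hac had
  refine ⟨Finset.card_pair hne, ?_, ?_⟩
  · intro e he v hv
    simp only [Finset.mem_insert, Finset.mem_singleton] at he ⊢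
    rcases he with rfl | rfl
    · rw [mem_mkEdge] at hv; tauto
    · rw [mem_mkEdge] at hv; tauto
  · intro v hv
    simp only [Finset.mem_insert, Finset.mem_singleton] at hv
    rw [Finset.card_eq_one]
    rcases hv with rfl | rfl | rfl | rfl
    · refine ⟨mkEdge v b hab, ?_⟩
      ext e
      simp only [Finset.mem_filter, Finset.mem_insert, Finset.mem_singleton]
      constructor
      · rintro ⟨rfl | rfl, h⟩
        · rfl
        · rw [mem_mkEdge] at h; rcases h with h | h
          · exact absurd h hac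
          · exact absurd h had
      · rintro rfl
        exact ⟨Or.inl rfl, by rw [mem_mkEdge]; exact Or.inl rfl⟩
    · refine ⟨mkEdge a v hab, ?_⟩
      ext e
      simp only [Finset.mem_filter, Finset.mem_insert, Finset.mem_singleton]
      constructor
      · rintro ⟨rfl | rfl, h⟩
        · rfl
        · rw [mem_mkEdge] at h; rcases h with h | h
          · exact absurd h hbc
          · exact absurd h hbd
      · rintro rfl
        exact ⟨Or.inl rfl, by rw [mem_mkEdge]; exact Or.inr rfl⟩
    · refine ⟨mkEdge v d hcd, ?_⟩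
      ext e
      simp only [Finset.mem_filter, Finset.mem_insert, Finset.mem_singleton]
      constructor
      · rintro ⟨rfl | rfl, h⟩
        · rw [mem_mkEdge] at h; rcases h with h | h
          · exact absurd h.symm hac
          · exact absurd h.symm hbc
        · rfl
      · rintro rfl
        exact ⟨Or.inr rfl, by rw [mem_mkEdge]; exact Or.inl rfl⟩
    · refine ⟨mkEdge c v hcd, ?_⟩
      ext e
      simp only [Finset.mem_filter, Finset.mem_insert, Finset.mem_singleton]
      constructor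
      · rintro ⟨rfl | rfl, h⟩
        · rw [mem_mkEdge] at h; rcases h with h | h
          · exact absurd h.symm had
          · exact absurd h.symm hbd
        · rfl
      · rintro rfl
        exact ⟨Or.inr rfl, by rw [mem_mkEdge]; exact Or.inr rfl⟩


lemma pmSet_cases_of_four {a b c d : Fin n} (hab : a ≠ b) (hac : a ≠ c) (had : a ≠ d) (hbc : b ≠ c)
    (hbd : b ≠ d) (hcd : c ≠ d) {F : Finset (Edge n)}
    (hF : F ∈ pmSet ({a, b, c, d} : Finset (Fin n))) :
    F = {mkEdge a b hab, mkEdge c d hcd} ∨ F = {mkEdge a c hac, mkEdge b d hbd} ∨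
      F = {mkEdge a d had, mkEdge b c hbc} := by
  rw [mem_pmSet] at hF
  obtain ⟨hcard, hend, hcov⟩ := hF
  have ha := hcov a (by simp)
  rw [Finset.card_eq_one] at ha
  obtain ⟨e1, he1⟩ := ha
  have he1' : e1 ∈ F ∧ a ∈ e1.1 := by
    have : e1 ∈ F.filter (fun e => a ∈ e.1) := by rw [he1]; exact Finset.mem_singleton_self _
    simpa [Finset.mem_filter] using this
  obtain ⟨he1F, hae1⟩ := he1'
  rw [Finset.card_eq_two] at hcard
  obtain ⟨x, y, hxy, hFxy⟩ := hcard
  have key : ∃ e2, e2 ≠ e1 ∧ F = {e1, e2} := by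
    rw [hFxy] at he1F
    simp only [Finset.mem_insert, Finset.mem_singleton] at he1F
    rcases he1F with h | h
    · exact ⟨y, by rw [h]; exact hxy.symm, by rw [hFxy, h]⟩
    · exact ⟨x, by rw [h]; exact hxy, by rw [hFxy, h, Finset.pair_comm]⟩
  obtain ⟨e2, -, hF2⟩ := key
  have on_e2 : ∀ q ∈ ({a, b, c, d} : Finset (Fin n)), q ∉ e1.1 → q ∈ e2.1 := by
    intro q hq hq1
    have h := hcov q hq
    have hpos : 0 < (F.filter fun e => q ∈ e.1).card := by omega
    obtain ⟨e, he⟩ := Finset.card_pos.mp hpos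
    rw [Finset.mem_filter, hF2] at he
    simp only [Finset.mem_insert, Finset.mem_singleton] at he
    rcases he with ⟨h1 | h1, h'⟩
    · rw [h1] at h'; exact absurd h' hq1
    · rw [h1] at h'; exact h'
  obtain ⟨p, hp⟩ : ∃ p, e1.1 = s(a, p) := ⟨Sym2.Mem.other hae1, (Sym2.other_spec hae1).symm⟩
  have hpa : p ≠ a := by
    intro h; apply e1.2; rw [hp, h]; simp
  have hpS : p ∈ ({a, b, c, d} : Finset (Fin n)) := hend e1 he1F p (by rw [hp]; simp)
  have mem_e1 : ∀ q, q ∈ e1.1 ↔ q = a ∨ q = p := by intro q; rw [hp]; simp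
  simp only [Finset.mem_insert, Finset.mem_singleton] at hpS
  rcases hpS with h | h | h | h
  · exact absurd h hpa
  · left
    have hc : c ∈ e2.1 := on_e2 c (by simp) (by rw [mem_e1, h]; exact not_or.mpr ⟨hac.symm, hbc.symm⟩)
    have hd : d ∈ e2.1 := on_e2 d (by simp) (by rw [mem_e1, h]; exact not_or.mpr ⟨had.symm, hbd.symm⟩)
    have h2 : e2.1 = s(c, d) := (Sym2.mem_and_mem_iff hcd).1 ⟨hc, hd⟩
    have e1eq : e1 = mkEdge a b hab := Subtype.ext (by rw [hp, h]; rfl)
    have e2eq : e2 = mkEdge c d hcd := Subtype.ext h2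
    rw [hF2, e1eq, e2eq]
  · right; left
    have hb : b ∈ e2.1 := on_e2 b (by simp) (by rw [mem_e1, h]; exact not_or.mpr ⟨hab.symm, hbc⟩)
    have hd : d ∈ e2.1 := on_e2 d (by simp) (by rw [mem_e1, h]; exact not_or.mpr ⟨had.symm, hcd.symm⟩)
    have h2 : e2.1 = s(b, d) := (Sym2.mem_and_mem_iff hbd).1 ⟨hb, hd⟩
    have e1eq : e1 = mkEdge a c hac := Subtype.ext (by rw [hp, h]; rfl)
    have e2eq : e2 = mkEdge b d hbd := Subtype.ext h2
    rw [hF2, e1eq, e2eq]
  · right; right
    have hb : b ∈ e2.1 := on_e2 b (by simp) (by rw [mem_e1, h]; exact not_or.mpr ⟨hab.symm, hbd⟩)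
    have hc : c ∈ e2.1 := on_e2 c (by simp) (by rw [mem_e1, h]; exact not_or.mpr ⟨hac.symm, hcd⟩)
    have h2 : e2.1 = s(b, c) := (Sym2.mem_and_mem_iff hbc).1 ⟨hb, hc⟩
    have e1eq : e1 = mkEdge a d had := Subtype.ext (by rw [hp, h]; rfl)
    have e2eq : e2 = mkEdge b c hbc := Subtype.ext h2
    rw [hF2, e1eq, e2eq]

lemma pair_ne_pair {a b c d a' b' c' d' : Fin n} (hab : a ≠ b) (hcd : c ≠ d) (hab' : a' ≠ b')
    (hcd' : c' ≠ d') (h1 : mkEdge a b hab ≠ mkEdge a' b' hab')
    (h2 : mkEdge a b hab ≠ mkEdge c' d' hcd') :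
    ({mkEdge a b hab, mkEdge c d hcd} : Finset (Edge n)) ≠ {mkEdge a' b' hab', mkEdge c' d' hcd'} := by
  intro h
  have : mkEdge a b hab ∈ ({mkEdge a' b' hab', mkEdge c' d' hcd'} : Finset (Edge n)) := by
    rw [← h]; simp
  simp only [Finset.mem_insert, Finset.mem_singleton] at this
  rcases this with h | h
  · exact h1 h
  · exact h2 h

lemma mkEdge_ne' {a b c d : Fin n} (hab : a ≠ b) (hcd : c ≠ d)
    (h : ¬ (a = c ∧ b = d) ∧ ¬ (a = d ∧ b = c)) : mkEdge a b hab ≠ mkEdge c d hcd := by
  intro h'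
  have h'' : s(a, b) = s(c, d) := congrArg Subtype.val h'
  rw [Sym2.eq_iff] at h''
  tauto

/-- Exactly three perfect matchings on a four-element vertex set. -/
lemma card_pmSet {S : Finset (Fin n)} (hS : S.card = 4) : (pmSet S).card = 3 := by
  rw [Finset.card_eq_succ] at hS
  obtain ⟨a, t, hat, rfl, ht⟩ := hS
  rw [Finset.card_eq_three] at ht
  obtain ⟨b, c, d, hbc, hbd, hcd, rfl⟩ := ht
  simp only [Finset.mem_insert, Finset.mem_singleton, not_or] at hat
  obtain ⟨hab, hac, had⟩ := hat
  have hset : pmSet ({a, b, c, d} : Finset (Fin n)) =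
      {{mkEdge a b hab, mkEdge c d hcd}, {mkEdge a c hac, mkEdge b d hbd},
        {mkEdge a d had, mkEdge b c hbc}} := by
    ext F
    simp only [Finset.mem_insert, Finset.mem_singleton]
    constructor
    · exact pmSet_cases_of_four hab hac had hbc hbd hcd
    · rintro (rfl | rfl | rfl)
      · exact pair_mem_pmSet hab hac had hbc hbd hcd
      · have h := pair_mem_pmSet hac hab had hbc.symm hcd hbd
        have hs : ({a, c, b, d} : Finset (Fin n)) = {a, b, c, d} := by
          ext v; simp only [Finset.mem_insert, Finset.mem_singleton]; tauto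
        rwa [hs] at h
      · have h := pair_mem_pmSet had hab hac hbd.symm hcd.symm hbc
        have hs : ({a, d, b, c} : Finset (Fin n)) = {a, b, c, d} := by
          ext v; simp only [Finset.mem_insert, Finset.mem_singleton]; tauto
        rwa [hs] at h
  rw [hset, Finset.card_eq_three]
  refine ⟨_, _, _, ?_, ?_, ?_, rfl⟩
  · exact pair_ne_pair hab hcd hac hbd (mkEdge_ne' hab hac (by tauto)) (mkEdge_ne' hab hbd (by tauto))
  · exact pair_ne_pair hab hcd had hbc (mkEdge_ne' hab had (by tauto)) (mkEdge_ne' hab hbc (by tauto))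
  · exact pair_ne_pair hac hbd had hbc (mkEdge_ne' hac had (by tauto)) (mkEdge_ne' hac hbc (by tauto))


/-! ### The proposal count: row sums, symmetry, degree preservation -/

lemma sum_erase_comm {α : Type*} [DecidableEq α] (A : Finset α) (g : α → α → ℕ) :
    ∑ x ∈ A, ∑ y ∈ A.erase x, g x y = ∑ y ∈ A, ∑ x ∈ A.erase y, g x y := by
  apply Finset.sum_comm'
  intro x y
  simp only [Finset.mem_erase]
  constructor
  · rintro ⟨hx, hyx, hy⟩; exact ⟨⟨fun h => hyx h.symm, hx⟩, hy⟩
  · rintro ⟨⟨hxy, hx⟩, hy⟩; exact ⟨hx, fun h => hxy h.symm, hy⟩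

lemma proposalCount_row_sum (E : Finset (Edge n)) :
    ∑ E' : Finset (Edge n), proposalCount E E' = 6 * n.choose 4 := by
  unfold proposalCount
  rw [Finset.sum_comm]
  have h1 : ∀ S ∈ (univ : Finset (Fin n)).powersetCard 4,
      ∑ E' : Finset (Edge n), ∑ F ∈ pmSet S, ∑ F' ∈ (pmSet S).erase F,
        (if switchResult E F F' = E' then 1 else 0) = 6 := by
    intro S hS
    rw [Finset.mem_powersetCard] at hS
    rw [Finset.sum_comm]
    have h2 : ∀ F ∈ pmSet S, ∑ E' : Finset (Edge n), ∑ F' ∈ (pmSet S).erase F,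
        (if switchResult E F F' = E' then 1 else 0) = 2 := by
      intro F hF
      rw [Finset.sum_comm]
      have h3 : ∀ F' ∈ (pmSet S).erase F, ∑ E' : Finset (Edge n),
          (if switchResult E F F' = E' then 1 else 0) = 1 := by
        intro F' _
        rw [Finset.sum_ite_eq]
        simp
      rw [Finset.sum_congr rfl h3]
      simp [Finset.card_erase_of_mem hF, card_pmSet hS.2]
    rw [Finset.sum_congr rfl h2]
    simp [card_pmSet hS.2]
  rw [Finset.sum_congr rfl h1]
  simp [Finset.card_powersetCard, mul_comm]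

lemma switchResult_rev {E E' F F' : Finset (Edge n)} (hne : E ≠ E')
    (h : switchResult E F F' = E') : switchResult E' F' F = E := by
  unfold switchResult at h
  split_ifs at h with hc
  · obtain ⟨hsub, hdisj⟩ := hc
    subst h
    have c1 : F' ⊆ E \ F ∪ F' := Finset.subset_union_right
    have c2 : Disjoint F (E \ F ∪ F') := by
      rw [Finset.disjoint_union_right]
      exact ⟨Finset.disjoint_sdiff, (hdisj.mono_right hsub).symm⟩
    unfold switchResult
    rw [if_pos ⟨c1, c2⟩]
    ext e
    simp only [Finset.mem_union, Finset.mem_sdiff]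
    constructor
    · rintro (⟨(⟨h1, -⟩ | h1), h3⟩ | h1)
      · exact h1
      · exact absurd h1 h3
      · exact hsub h1
    · intro he
      by_cases hF : e ∈ F
      · exact Or.inr hF
      · exact Or.inl ⟨Or.inl ⟨he, hF⟩, fun h' => (Finset.disjoint_left.mp hdisj h') he⟩
  · exact absurd h hne

lemma proposalCount_symm (E E' : Finset (Edge n)) : proposalCount E E' = proposalCount E' E := by
  by_cases hne : E = E'
  · rw [hne]
  unfold proposalCount
  apply Finset.sum_congr rfl
  intro S _
  rw [sum_erase_comm (pmSet S) (fun F F' => if switchResult E' F F' = E then 1 else 0)]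
  apply Finset.sum_congr rfl
  intro F _
  apply Finset.sum_congr rfl
  intro F' _
  have hiff : switchResult E F F' = E' ↔ switchResult E' F' F = E :=
    ⟨switchResult_rev hne, switchResult_rev (Ne.symm hne)⟩
  by_cases h : switchResult E F F' = E'
  · rw [if_pos h, if_pos (hiff.mp h)]
  · rw [if_neg h, if_neg (fun h' => h (hiff.mpr h'))]

lemma deg_eq_of_proposalCount_ne_zero {E E' : Finset (Edge n)} (h : proposalCount E E' ≠ 0)
    (v : Fin n) : deg E' v = deg E v := by
  by_contra hdeg
  apply h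
  unfold proposalCount
  apply Finset.sum_eq_zero
  intro S _
  apply Finset.sum_eq_zero
  intro F hF
  apply Finset.sum_eq_zero
  intro F' hF'
  rw [if_neg]
  intro heq
  apply hdeg
  rw [← heq]
  exact deg_switchResult hF (Finset.mem_of_mem_erase hF') E v

/-! ### The kernel -/

lemma kernel_symm (E E' : Finset (Edge n)) : kernel n E E' = kernel n E' E := by
  unfold kernel
  rw [proposalCount_symm E E']
  by_cases h : E = E'
  · rw [h]
  · rw [if_neg h, if_neg (fun h' => h h'.symm)]

lemma kernel_nonneg (E E' : Finset (Edge n)) : 0 ≤ kernel n E E' := by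
  unfold kernel
  apply add_nonneg
  · split_ifs <;> norm_num
  · positivity

lemma choose_four_pos (hn : 4 ≤ n) : (0 : ℝ) < (n.choose 4 : ℝ) := by
  exact_mod_cast Nat.choose_pos hn

lemma kernel_row_sum (hn : 4 ≤ n) (E : Finset (Edge n)) :
    ∑ E' : Finset (Edge n), kernel n E E' = 1 := by
  unfold kernel
  rw [Finset.sum_add_distrib, Finset.sum_ite_eq, ← Finset.sum_div, ← Nat.cast_sum,
    proposalCount_row_sum]
  have hC := choose_four_pos hn
  simp only [Finset.mem_univ, if_true]
  push_cast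
  field_simp
  ring

lemma kernel_eq_zero_of_not_mem {d : Fin n → ℕ} {E E' : Finset (Edge n)}
    (hE : E ∈ realizations d) (hE' : E' ∉ realizations d) : kernel n E E' = 0 := by
  have hne : E ≠ E' := fun h => hE' (h ▸ hE)
  have hpc : proposalCount E E' = 0 := by
    by_contra h
    apply hE'
    unfold realizations at hE ⊢
    rw [Finset.mem_filter] at hE ⊢
    exact ⟨Finset.mem_univ _, fun v => (deg_eq_of_proposalCount_ne_zero h v).trans (hE.2 v)⟩
  unfold kernel
  rw [if_neg hne, hpc]
  simp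


/-! ### The kernel as an operator on functions; positivity and Cauchy–Schwarz -/

/-- One step of the chain acting on a function of graphs. -/
noncomputable def T (x : Finset (Edge n) → ℝ) : Finset (Edge n) → ℝ :=
  fun G => ∑ H : Finset (Edge n), kernel n G H * x H

/-- The (unnormalised) inner product of two functions of graphs. -/
noncomputable def ip (x y : Finset (Edge n) → ℝ) : ℝ := ∑ G : Finset (Edge n), x G * y G

lemma ip_comm (x y : Finset (Edge n) → ℝ) : ip x y = ip y x := by
  unfold ip; exact Finset.sum_congr rfl (fun G _ => mul_comm _ _)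

lemma ip_self_nonneg (x : Finset (Edge n) → ℝ) : 0 ≤ ip x x := by
  unfold ip; exact Finset.sum_nonneg (fun G _ => mul_self_nonneg _)

lemma ip_T_symm (x y : Finset (Edge n) → ℝ) : ip x (T y) = ip (T x) y := by
  unfold ip T
  simp only [Finset.mul_sum, Finset.sum_mul]
  rw [Finset.sum_comm]
  apply Finset.sum_congr rfl; intro G _
  apply Finset.sum_congr rfl; intro H _
  rw [kernel_symm H G]; ring

lemma T_add_smul (x y : Finset (Edge n) → ℝ) (s : ℝ) :
    T (fun G => x G + s * y G) = fun G => T x G + s * T y G := by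
  funext G
  unfold T
  rw [Finset.mul_sum, ← Finset.sum_add_distrib]
  apply Finset.sum_congr rfl; intro H _; ring

lemma ip_add_smul_left (x y z : Finset (Edge n) → ℝ) (s : ℝ) :
    ip (fun G => x G + s * y G) z = ip x z + s * ip y z := by
  unfold ip
  rw [Finset.mul_sum, ← Finset.sum_add_distrib]
  apply Finset.sum_congr rfl; intro H _; ring

lemma ip_add_smul_right (z x y : Finset (Edge n) → ℝ) (s : ℝ) :
    ip z (fun G => x G + s * y G) = ip z x + s * ip z y := by
  rw [ip_comm, ip_add_smul_left, ip_comm x z, ip_comm y z]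

lemma kernel_col_sum (hn : 4 ≤ n) (H : Finset (Edge n)) :
    ∑ G : Finset (Edge n), kernel n G H = 1 := by
  rw [← kernel_row_sum hn H]
  exact Finset.sum_congr rfl (fun G _ => kernel_symm G H)

lemma kernel_diag_ge (G : Finset (Edge n)) : (1 : ℝ) / 2 ≤ kernel n G G := by
  unfold kernel
  rw [if_pos rfl]
  have : (0 : ℝ) ≤ (proposalCount G G : ℝ) / (12 * (n.choose 4 : ℝ)) := by positivity
  linarith

/-- Laziness makes the kernel positive semidefinite. -/
lemma ip_T_nonneg (hn : 4 ≤ n) (x : Finset (Edge n) → ℝ) : 0 ≤ ip x (T x) := by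
  have key : ∑ G : Finset (Edge n), 2 * x G ^ 2 ≤
      ∑ G : Finset (Edge n), ∑ H : Finset (Edge n), kernel n G H * (x G + x H) ^ 2 := by
    apply Finset.sum_le_sum
    intro G _
    have h1 : 2 * x G ^ 2 ≤ kernel n G G * (x G + x G) ^ 2 := by
      nlinarith [kernel_diag_ge G, sq_nonneg (x G)]
    have h2 : kernel n G G * (x G + x G) ^ 2 ≤
        ∑ H : Finset (Edge n), kernel n G H * (x G + x H) ^ 2 :=
      Finset.single_le_sum (f := fun H => kernel n G H * (x G + x H) ^ 2)
        (fun H _ => mul_nonneg (kernel_nonneg _ _) (sq_nonneg _)) (Finset.mem_univ G)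
    exact h1.trans h2
  have e1 : ∑ G : Finset (Edge n), ∑ H : Finset (Edge n), kernel n G H * (x G + x H) ^ 2 =
      (∑ G : Finset (Edge n), x G ^ 2) + 2 * ip x (T x) + ∑ G : Finset (Edge n), x G ^ 2 := by
    have a1 : ∑ G : Finset (Edge n), ∑ H : Finset (Edge n), kernel n G H * x G ^ 2 =
        ∑ G : Finset (Edge n), x G ^ 2 := by
      apply Finset.sum_congr rfl; intro G _
      rw [← Finset.sum_mul, kernel_row_sum hn, one_mul]
    have a2 : ∑ G : Finset (Edge n), ∑ H : Finset (Edge n), kernel n G H * x H ^ 2 =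
        ∑ H : Finset (Edge n), x H ^ 2 := by
      rw [Finset.sum_comm]
      apply Finset.sum_congr rfl; intro H _
      rw [← Finset.sum_mul, kernel_col_sum hn, one_mul]
    have a3 : ∑ G : Finset (Edge n), ∑ H : Finset (Edge n), kernel n G H * (x G * x H) =
        ip x (T x) := by
      unfold ip T
      apply Finset.sum_congr rfl; intro G _
      rw [Finset.mul_sum]
      apply Finset.sum_congr rfl; intro H _; ring
    have e0 : ∑ G : Finset (Edge n), ∑ H : Finset (Edge n), kernel n G H * (x G + x H) ^ 2 =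
        (∑ G : Finset (Edge n), ∑ H : Finset (Edge n), kernel n G H * x G ^ 2) +
          2 * (∑ G : Finset (Edge n), ∑ H : Finset (Edge n), kernel n G H * (x G * x H)) +
          ∑ G : Finset (Edge n), ∑ H : Finset (Edge n), kernel n G H * x H ^ 2 := by
      rw [Finset.mul_sum, ← Finset.sum_add_distrib, ← Finset.sum_add_distrib]
      apply Finset.sum_congr rfl; intro G _
      rw [Finset.mul_sum, ← Finset.sum_add_distrib, ← Finset.sum_add_distrib]
      apply Finset.sum_congr rfl; intro H _; ring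
    rw [e0, a1, a2, a3]
  have e2 : ∑ G : Finset (Edge n), 2 * x G ^ 2 = 2 * ∑ G : Finset (Edge n), x G ^ 2 := by
    rw [Finset.mul_sum]
  rw [e1, e2] at key
  linarith

/-- Cauchy–Schwarz for the positive semidefinite form `(x, y) ↦ ⟨x, T y⟩`. -/
lemma ip_T_cauchy_schwarz (hn : 4 ≤ n) (x y : Finset (Edge n) → ℝ) :
    ip x (T y) ^ 2 ≤ ip x (T x) * ip y (T y) := by
  have h : ∀ s : ℝ, 0 ≤ ip y (T y) * (s * s) + 2 * ip x (T y) * s + ip x (T x) := by
    intro s
    have h0 := ip_T_nonneg hn (fun G => x G + s * y G)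
    rw [T_add_smul, ip_add_smul_left, ip_add_smul_right, ip_add_smul_right] at h0
    have hs : ip y (T x) = ip x (T y) := by rw [ip_T_symm, ip_comm]
    rw [hs] at h0
    nlinarith [h0]
  have hd := discrim_le_zero h
  unfold discrim at hd
  nlinarith [hd]


/-! ### Support and mass are preserved -/

lemma T_support {d : Fin n → ℕ} {x : Finset (Edge n) → ℝ}
    (hx : ∀ H, H ∉ realizations d → x H = 0) : ∀ G, G ∉ realizations d → T x G = 0 := by
  intro G hG
  unfold T
  apply Finset.sum_eq_zero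
  intro H _
  by_cases hH : H ∈ realizations d
  · rw [kernel_symm, kernel_eq_zero_of_not_mem hH hG, zero_mul]
  · rw [hx H hH, mul_zero]

lemma T_sum (hn : 4 ≤ n) (x : Finset (Edge n) → ℝ) :
    ∑ G : Finset (Edge n), T x G = ∑ G : Finset (Edge n), x G := by
  unfold T
  rw [Finset.sum_comm]
  apply Finset.sum_congr rfl; intro H _
  rw [← Finset.sum_mul, kernel_col_sum hn, one_mul]

lemma T_sub (x y : Finset (Edge n) → ℝ) :
    T (fun G => x G - y G) = fun G => T x G - T y G := by
  funext G
  unfold T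
  rw [← Finset.sum_sub_distrib]
  apply Finset.sum_congr rfl; intro H _; ring

lemma T_unifOn (hn : 4 ≤ n) (d : Fin n → ℕ) :
    T (unifOn (realizations d)) = unifOn (realizations d) := by
  funext G
  unfold T unifOn
  by_cases hG : G ∈ realizations d
  · rw [if_pos hG]
    have h : ∀ H : Finset (Edge n),
        kernel n G H * (if H ∈ realizations d then 1 / ((realizations d).card : ℝ) else 0) =
          kernel n G H * (1 / ((realizations d).card : ℝ)) := by
      intro H
      by_cases hH : H ∈ realizations d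
      · rw [if_pos hH]
      · rw [if_neg hH, kernel_eq_zero_of_not_mem hG hH]; ring
    rw [Finset.sum_congr rfl (fun H _ => h H), ← Finset.sum_mul, kernel_row_sum hn, one_mul]
  · rw [if_neg hG]
    apply Finset.sum_eq_zero
    intro H _
    by_cases hH : H ∈ realizations d
    · rw [kernel_symm, kernel_eq_zero_of_not_mem hH hG, zero_mul]
    · rw [if_neg hH, mul_zero]

lemma kernel_pow_succ_row (G : Finset (Edge n)) (t : ℕ) :
    (fun G' => (kernel n ^ (t + 1)) G G') = T (fun G' => (kernel n ^ t) G G') := by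
  funext G'
  rw [pow_succ, Matrix.mul_apply]
  unfold T
  apply Finset.sum_congr rfl; intro H _
  rw [kernel_symm G' H]; ring

/-! ### From the Poincaré inequality to an `L²` contraction -/

section contraction

variable (d : Fin n → ℕ)

/-- The Poincaré constant of S0453. -/
noncomputable def cP (n : ℕ) : ℝ := 24 * (n : ℝ) ^ 2 * (n.choose 4 : ℝ)

lemma cP_ge_one (hn : 4 ≤ n) : 1 ≤ cP n := by
  unfold cP
  have h1 : (4 : ℝ) ≤ (n : ℝ) := by exact_mod_cast hn
  have h2 : (1 : ℝ) ≤ (n.choose 4 : ℝ) := by exact_mod_cast Nat.choose_pos hn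
  nlinarith [h1, h2]

lemma poincare_ip (hn : 4 ≤ n) (hd : (realizations d).Nonempty)
    (hP : ∀ f : Finset (Edge n) → ℝ,
      ((realizations d).card : ℝ) * (∑ G ∈ realizations d, f G ^ 2) -
          (∑ G ∈ realizations d, f G) ^ 2 ≤
        24 * (n : ℝ) ^ 2 * (n.choose 4 : ℝ) * (realizations d).card *
          ∑ G ∈ realizations d, f G * (f G - ∑ G' ∈ realizations d, kernel n G G' * f G'))
    {x : Finset (Edge n) → ℝ} (hx : ∀ H, H ∉ realizations d → x H = 0)
    (hx0 : ∑ G : Finset (Edge n), x G = 0) :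
    ip x (T x) ≤ (1 - 1 / cP n) * ip x x := by
  have h := hP x
  have s1 : ∑ G ∈ realizations d, x G ^ 2 = ip x x := by
    unfold ip
    rw [Finset.sum_subset (Finset.subset_univ _) (fun G _ hG => by rw [hx G hG]; ring)]
    exact Finset.sum_congr rfl (fun G _ => sq (x G))
  have s2 : ∑ G ∈ realizations d, x G = 0 := by
    rw [Finset.sum_subset (Finset.subset_univ _) (fun G _ hG => hx G hG)]; exact hx0
  have s3 : ∀ G, ∑ G' ∈ realizations d, kernel n G G' * x G' = T x G := by
    intro G
    unfold T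
    exact Finset.sum_subset (Finset.subset_univ _) (fun H _ hH => by rw [hx H hH, mul_zero])
  have s4 : ∑ G ∈ realizations d, x G * (x G - ∑ G' ∈ realizations d, kernel n G G' * x G') =
      ip x x - ip x (T x) := by
    unfold ip
    rw [← Finset.sum_sub_distrib,
      Finset.sum_subset (Finset.subset_univ _) (fun G _ hG => by rw [hx G hG]; ring)]
    apply Finset.sum_congr rfl; intro G _
    rw [s3 G]; ring
  rw [s1, s2, s4] at h
  have hN : (0 : ℝ) < ((realizations d).card : ℝ) := by exact_mod_cast Finset.card_pos.mpr hd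
  have hC : 0 < cP n := lt_of_lt_of_le one_pos (cP_ge_one hn)
  have h' : ip x x ≤ cP n * (ip x x - ip x (T x)) := by
    have h1 : ((realizations d).card : ℝ) * ip x x ≤
        ((realizations d).card : ℝ) * (cP n * (ip x x - ip x (T x))) := by
      unfold cP; nlinarith [h]
    exact le_of_mul_le_mul_left h1 hN
  have h'' : ip x x / cP n ≤ ip x x - ip x (T x) := (div_le_iff₀' hC).mpr h'
  have e : (1 - 1 / cP n) * ip x x = ip x x - ip x x / cP n := by ring
  rw [e]; linarith

lemma contraction (hn : 4 ≤ n) (hd : (realizations d).Nonempty)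
    (hP : ∀ f : Finset (Edge n) → ℝ,
      ((realizations d).card : ℝ) * (∑ G ∈ realizations d, f G ^ 2) -
          (∑ G ∈ realizations d, f G) ^ 2 ≤
        24 * (n : ℝ) ^ 2 * (n.choose 4 : ℝ) * (realizations d).card *
          ∑ G ∈ realizations d, f G * (f G - ∑ G' ∈ realizations d, kernel n G G' * f G'))
    {x : Finset (Edge n) → ℝ} (hx : ∀ H, H ∉ realizations d → x H = 0)
    (hx0 : ∑ G : Finset (Edge n), x G = 0) :
    ip (T x) (T x) ≤ (1 - 1 / cP n) ^ 2 * ip x x := by
  have hC := cP_ge_one hn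
  have hq0 : 0 ≤ 1 - 1 / cP n := by
    have : 1 / cP n ≤ 1 := by rw [div_le_one (by linarith)]; exact hC
    linarith
  have a1 := poincare_ip d hn hd hP hx hx0
  have hsum' : ∑ G : Finset (Edge n), T x G = 0 := by rw [T_sum hn, hx0]
  have a3 := poincare_ip d hn hd hP (T_support hx) hsum'
  have cs := ip_T_cauchy_schwarz hn x (T x)
  rw [ip_T_symm x (T x)] at cs
  have p1 := ip_T_nonneg hn x
  have p2 := ip_self_nonneg (T x)
  have h2 : ip (T x) (T x) ≤ (1 - 1 / cP n) * ip x (T x) := by
    rcases eq_or_lt_of_le p2 with h0 | hpos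
    · rw [← h0]; exact mul_nonneg hq0 p1
    · have h3 : ip (T x) (T x) * ip (T x) (T x) ≤ ((1 - 1 / cP n) * ip x (T x)) * ip (T x) (T x) := by
        have := mul_le_mul_of_nonneg_left a3 p1
        nlinarith [cs, this]
      exact le_of_mul_le_mul_right h3 hpos
  calc ip (T x) (T x) ≤ (1 - 1 / cP n) * ip x (T x) := h2
    _ ≤ (1 - 1 / cP n) * ((1 - 1 / cP n) * ip x x) := mul_le_mul_of_nonneg_left a1 hq0
    _ = (1 - 1 / cP n) ^ 2 * ip x x := by ring

end contraction


/-! ### Iteration -/

/-- The deviation from uniform after `t` steps started at `G`. -/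
noncomputable def dev (d : Fin n → ℕ) (G : Finset (Edge n)) (t : ℕ) : Finset (Edge n) → ℝ :=
  fun G' => (kernel n ^ t) G G' - unifOn (realizations d) G'

lemma dev_succ (hn : 4 ≤ n) (d : Fin n → ℕ) (G : Finset (Edge n)) (t : ℕ) :
    dev d G (t + 1) = T (dev d G t) := by
  have h1 := kernel_pow_succ_row G t
  have h2 := T_unifOn hn d
  unfold dev
  rw [T_sub, ← h1, h2]

lemma sum_unifOn {d : Fin n → ℕ} (hd : (realizations d).Nonempty) :
    ∑ H : Finset (Edge n), unifOn (realizations d) H = 1 := by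
  unfold unifOn
  rw [Finset.sum_ite_mem, Finset.univ_inter, Finset.sum_const, nsmul_eq_mul]
  have hN : (0 : ℝ) < ((realizations d).card : ℝ) := by exact_mod_cast Finset.card_pos.mpr hd
  field_simp

lemma dev_zero_props {d : Fin n → ℕ} (hd : (realizations d).Nonempty) {G : Finset (Edge n)}
    (hG : G ∈ realizations d) :
    (∀ H, H ∉ realizations d → dev d G 0 H = 0) ∧ ∑ H : Finset (Edge n), dev d G 0 H = 0 ∧
      ip (dev d G 0) (dev d G 0) ≤ 1 := by
  have hN : (0 : ℝ) < ((realizations d).card : ℝ) := by exact_mod_cast Finset.card_pos.mpr hd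
  have hdev : ∀ H, dev d G 0 H = (if G = H then (1 : ℝ) else 0) - unifOn (realizations d) H := by
    intro H
    unfold dev
    rw [pow_zero, Matrix.one_apply]
  refine ⟨?_, ?_, ?_⟩
  · intro H hH
    rw [hdev]
    have hne : G ≠ H := fun h => hH (h ▸ hG)
    unfold unifOn
    rw [if_neg hne, if_neg hH, sub_zero]
  · rw [Finset.sum_congr rfl (fun H _ => hdev H), Finset.sum_sub_distrib, sum_unifOn hd,
      Finset.sum_ite_eq]
    simp
  · unfold ip
    rw [Finset.sum_congr rfl (fun H _ => by rw [hdev H])]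
    have e : ∀ H : Finset (Edge n),
        ((if G = H then (1 : ℝ) else 0) - unifOn (realizations d) H) *
          ((if G = H then (1 : ℝ) else 0) - unifOn (realizations d) H) =
        (if G = H then (1 - 2 * unifOn (realizations d) G) else 0) +
          unifOn (realizations d) H * unifOn (realizations d) H := by
      intro H
      by_cases h : G = H
      · rw [if_pos h, if_pos h, h]; ring
      · rw [if_neg h, if_neg h]; ring
    rw [Finset.sum_congr rfl (fun H _ => e H), Finset.sum_add_distrib, Finset.sum_ite_eq]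
    simp only [Finset.mem_univ, if_true]
    have hu : ∑ H : Finset (Edge n), unifOn (realizations d) H * unifOn (realizations d) H =
        1 / ((realizations d).card : ℝ) := by
      unfold unifOn
      have e2 : ∀ H : Finset (Edge n),
          (if H ∈ realizations d then 1 / ((realizations d).card : ℝ) else 0) *
            (if H ∈ realizations d then 1 / ((realizations d).card : ℝ) else 0) =
          if H ∈ realizations d then
            1 / ((realizations d).card : ℝ) * (1 / ((realizations d).card : ℝ)) else 0 := by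
        intro H; split_ifs <;> ring
      rw [Finset.sum_congr rfl (fun H _ => e2 H), Finset.sum_ite_mem, Finset.univ_inter,
        Finset.sum_const, nsmul_eq_mul]
      field_simp
    rw [hu]
    unfold unifOn
    rw [if_pos hG]
    have : 0 < 1 / ((realizations d).card : ℝ) := by positivity
    linarith

lemma dev_props (hn : 4 ≤ n) (d : Fin n → ℕ) (hd : (realizations d).Nonempty)
    (hP : ∀ f : Finset (Edge n) → ℝ,
      ((realizations d).card : ℝ) * (∑ G ∈ realizations d, f G ^ 2) -
          (∑ G ∈ realizations d, f G) ^ 2 ≤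
        24 * (n : ℝ) ^ 2 * (n.choose 4 : ℝ) * (realizations d).card *
          ∑ G ∈ realizations d, f G * (f G - ∑ G' ∈ realizations d, kernel n G G' * f G'))
    {G : Finset (Edge n)} (hG : G ∈ realizations d) (t : ℕ) :
    (∀ H, H ∉ realizations d → dev d G t H = 0) ∧ ∑ H : Finset (Edge n), dev d G t H = 0 ∧
      ip (dev d G t) (dev d G t) ≤ ((1 - 1 / cP n) ^ 2) ^ t := by
  induction t with
  | zero =>
    obtain ⟨h1, h2, h3⟩ := dev_zero_props hd hG
    exact ⟨h1, h2, by simpa using h3⟩
  | succ t ih =>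
    obtain ⟨h1, h2, h3⟩ := ih
    rw [dev_succ hn]
    refine ⟨T_support h1, by rw [T_sum hn, h2], ?_⟩
    calc ip (T (dev d G t)) (T (dev d G t))
        ≤ (1 - 1 / cP n) ^ 2 * ip (dev d G t) (dev d G t) := contraction d hn hd hP h1 h2
      _ ≤ (1 - 1 / cP n) ^ 2 * ((1 - 1 / cP n) ^ 2) ^ t :=
          mul_le_mul_of_nonneg_left h3 (sq_nonneg _)
      _ = ((1 - 1 / cP n) ^ 2) ^ (t + 1) := by ring


/-! ### Counting and the final numerical estimate -/

lemma card_edge_le (n : ℕ) : Fintype.card (Edge n) ≤ n ^ 2 := by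
  have h1 : Fintype.card (Edge n) ≤ Fintype.card (Sym2 (Fin n)) := Fintype.card_subtype_le _
  have h2 : Fintype.card (Sym2 (Fin n)) ≤ Fintype.card (Fin n × Fin n) := by
    apply Fintype.card_le_of_surjective (fun p : Fin n × Fin n => s(p.1, p.2))
    intro z
    induction z using Sym2.ind with
    | _ a b => exact ⟨(a, b), rfl⟩
  have h3 : Fintype.card (Fin n × Fin n) = n ^ 2 := by
    rw [Fintype.card_prod, Fintype.card_fin, sq]
  omega

lemma card_realizations_le (d : Fin n → ℕ) : (realizations d).card ≤ 2 ^ (n ^ 2) := by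
  calc (realizations d).card ≤ (Finset.univ : Finset (Finset (Edge n))).card :=
        Finset.card_le_card (Finset.subset_univ _)
    _ = 2 ^ Fintype.card (Edge n) := by rw [Finset.card_univ, Fintype.card_finset]
    _ ≤ 2 ^ (n ^ 2) := Nat.pow_le_pow_right (by norm_num) (card_edge_le n)

lemma cP_le (n : ℕ) : cP n ≤ (n : ℝ) ^ 6 := by
  unfold cP
  have h := Nat.choose_le_pow_div (α := ℝ) 4 n
  have hf : ((4 : ℕ).factorial : ℝ) = 24 := by norm_num [Nat.factorial]
  rw [hf] at h
  have h2 : 24 * (n.choose 4 : ℝ) ≤ (n : ℝ) ^ 4 := by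
    have := (le_div_iff₀ (by norm_num : (0 : ℝ) < 24)).mp h
    linarith
  have hn2 : (0 : ℝ) ≤ (n : ℝ) ^ 2 := sq_nonneg _
  calc 24 * (n : ℝ) ^ 2 * (n.choose 4 : ℝ) = (n : ℝ) ^ 2 * (24 * (n.choose 4 : ℝ)) := by ring
    _ ≤ (n : ℝ) ^ 2 * (n : ℝ) ^ 4 := mul_le_mul_of_nonneg_left h2 hn2
    _ = (n : ℝ) ^ 6 := by ring

lemma numeric (hn : 4 ≤ n) (N : ℕ) (hN : N ≤ 2 ^ (n ^ 2)) :
    (N : ℝ) * ((1 - 1 / cP n) ^ 2) ^ (2 * n ^ 8) ≤ 1 / 4 := by
  have hC1 := cP_ge_one hn
  have hCpos : 0 < cP n := lt_of_lt_of_le one_pos hC1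
  have hCle := cP_le n
  have hn4 : (4 : ℝ) ≤ (n : ℝ) := by exact_mod_cast hn
  have hnpos : (0 : ℝ) < (n : ℝ) := by linarith
  set q : ℝ := 1 - 1 / cP n with hq
  have hq0 : 0 ≤ q := by
    have : 1 / cP n ≤ 1 := by rw [div_le_one hCpos]; exact hC1
    rw [hq]; linarith
  have hqe : q ≤ Real.exp (-(1 / cP n)) := Real.one_sub_le_exp_neg _
  -- the power of q
  have hpow : (q ^ 2) ^ (2 * n ^ 8) ≤ Real.exp (-(4 * (n : ℝ) ^ 2)) := by
    have e1 : (q ^ 2) ^ (2 * n ^ 8) = q ^ (4 * n ^ 8) := by
      rw [← pow_mul]; congr 1; ring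
    rw [e1]
    have e2 : q ^ (4 * n ^ 8) ≤ Real.exp (-(1 / cP n)) ^ (4 * n ^ 8) :=
      pow_le_pow_left₀ hq0 hqe _
    have e3 : Real.exp (-(1 / cP n)) ^ (4 * n ^ 8) =
        Real.exp (((4 * n ^ 8 : ℕ) : ℝ) * (-(1 / cP n))) := by
      rw [Real.exp_nat_mul]
    have e4 : ((4 * n ^ 8 : ℕ) : ℝ) * (-(1 / cP n)) ≤ -(4 * (n : ℝ) ^ 2) := by
      push_cast
      have h6 : 0 < (n : ℝ) ^ 6 := by positivity
      have : 4 * (n : ℝ) ^ 2 ≤ 4 * (n : ℝ) ^ 8 * (1 / cP n) := by
        rw [mul_one_div, le_div_iff₀ hCpos]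
        calc 4 * (n : ℝ) ^ 2 * cP n ≤ 4 * (n : ℝ) ^ 2 * (n : ℝ) ^ 6 :=
              mul_le_mul_of_nonneg_left hCle (by positivity)
          _ = 4 * (n : ℝ) ^ 8 := by ring
      linarith
    calc q ^ (4 * n ^ 8) ≤ Real.exp (-(1 / cP n)) ^ (4 * n ^ 8) := e2
      _ = Real.exp (((4 * n ^ 8 : ℕ) : ℝ) * (-(1 / cP n))) := e3
      _ ≤ Real.exp (-(4 * (n : ℝ) ^ 2)) := Real.exp_le_exp.mpr e4
  -- the size of the class
  have hNr : (N : ℝ) ≤ Real.exp ((n : ℝ) ^ 2) := by
    have h1 : (N : ℝ) ≤ (2 : ℝ) ^ (n ^ 2) := by exact_mod_cast hN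
    have h2 : (2 : ℝ) ≤ Real.exp 1 := by
      have := Real.add_one_le_exp 1; linarith
    have h3 : (2 : ℝ) ^ (n ^ 2) ≤ Real.exp 1 ^ (n ^ 2) := pow_le_pow_left₀ (by norm_num) h2 _
    have h4 : Real.exp 1 ^ (n ^ 2) = Real.exp ((n : ℝ) ^ 2) := by
      rw [← Real.exp_nat_mul]; congr 1; push_cast; ring
    linarith
  have hpos : 0 ≤ (q ^ 2) ^ (2 * n ^ 8) := by positivity
  have hfin : Real.exp ((n : ℝ) ^ 2) * Real.exp (-(4 * (n : ℝ) ^ 2)) ≤ 1 / 4 := by
    rw [← Real.exp_add]
    have h48 : (n : ℝ) ^ 2 + -(4 * (n : ℝ) ^ 2) ≤ -48 := by nlinarith [hn4]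
    have h1 : Real.exp ((n : ℝ) ^ 2 + -(4 * (n : ℝ) ^ 2)) ≤ Real.exp (-48) := Real.exp_le_exp.mpr h48
    have h2 : Real.exp (-48) ≤ 1 / 4 := by
      rw [Real.exp_neg]
      have h49 : (48 : ℝ) + 1 ≤ Real.exp 48 := Real.add_one_le_exp 48
      have hpos' : (0 : ℝ) < Real.exp 48 := Real.exp_pos _
      rw [inv_le_comm₀ hpos' (by norm_num)]
      linarith
    linarith
  calc (N : ℝ) * (q ^ 2) ^ (2 * n ^ 8)
      ≤ Real.exp ((n : ℝ) ^ 2) * Real.exp (-(4 * (n : ℝ) ^ 2)) :=
        mul_le_mul hNr hpow hpos (Real.exp_pos _).le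
    _ ≤ 1 / 4 := hfin

/-! ### The total-variation conjunct of S0453 from its Poincaré conjunct -/

/-- **Main result of this file.** The Poincaré inequality of S0453 (its second conjunct) implies
its mixing-time conjunct. -/
theorem tv_of_poincare (n : ℕ) (hn : 4 ≤ n) (d : Fin n → ℕ)
    (hd : (Crest.SwitchChain.realizations d).Nonempty)
    (hP : ∀ f : Finset (Crest.SwitchChain.Edge n) → ℝ,
        ((Crest.SwitchChain.realizations d).card : ℝ) *
              (∑ G ∈ Crest.SwitchChain.realizations d, f G ^ 2) -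
            (∑ G ∈ Crest.SwitchChain.realizations d, f G) ^ 2 ≤
          24 * (n : ℝ) ^ 2 * (n.choose 4 : ℝ) * (Crest.SwitchChain.realizations d).card *
            ∑ G ∈ Crest.SwitchChain.realizations d,
              f G * (f G - ∑ G' ∈ Crest.SwitchChain.realizations d,
                Crest.SwitchChain.kernel n G G' * f G')) :
    ∃ t : ℕ, t ≤ 2 * n ^ 8 ∧ ∀ G ∈ Crest.SwitchChain.realizations d,
        Crest.SwitchChain.tvDist (fun G' => (Crest.SwitchChain.kernel n ^ t) G G')
          (Crest.SwitchChain.unifOn (Crest.SwitchChain.realizations d)) ≤ 1 / 4 := by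
  refine ⟨2 * n ^ 8, le_refl _, ?_⟩
  intro G hG
  obtain ⟨h1, -, h3⟩ := dev_props hn d hd hP hG (2 * n ^ 8)
  have hnum := numeric hn (realizations d).card (card_realizations_le d)
  -- the ℓ¹ norm of the deviation
  have htv : tvDist (fun G' => (kernel n ^ (2 * n ^ 8)) G G') (unifOn (realizations d)) =
      (∑ H : Finset (Edge n), |dev d G (2 * n ^ 8) H|) / 2 := rfl
  rw [htv]
  set e := dev d G (2 * n ^ 8) with he
  have hsum : ∑ H : Finset (Edge n), |e H| = ∑ H ∈ realizations d, |e H| * 1 := by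
    rw [Finset.sum_subset (Finset.subset_univ (realizations d))
      (fun H _ hH => by rw [h1 H hH, abs_zero, zero_mul])]
    exact Finset.sum_congr rfl (fun H _ => (mul_one _).symm)
  have hcs := Finset.sum_mul_sq_le_sq_mul_sq (realizations d) (fun H => |e H|) (fun _ => (1 : ℝ))
  have hsq : ∑ H ∈ realizations d, |e H| ^ 2 = ip e e := by
    unfold ip
    rw [Finset.sum_subset (Finset.subset_univ (realizations d))
      (fun H _ hH => by rw [h1 H hH]; simp)]
    exact Finset.sum_congr rfl (fun H _ => by rw [sq_abs, sq])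
  have hone : ∑ _H ∈ realizations d, (1 : ℝ) ^ 2 = ((realizations d).card : ℝ) := by
    simp
  rw [hsq, hone] at hcs
  have hS0 : 0 ≤ ∑ H : Finset (Edge n), |e H| := Finset.sum_nonneg (fun H _ => abs_nonneg _)
  have hbound : (∑ H : Finset (Edge n), |e H|) ^ 2 ≤ 1 / 4 := by
    rw [hsum]
    calc (∑ H ∈ realizations d, |e H| * 1) ^ 2 ≤ ip e e * ((realizations d).card : ℝ) := hcs
      _ ≤ ((1 - 1 / cP n) ^ 2) ^ (2 * n ^ 8) * ((realizations d).card : ℝ) :=
          mul_le_mul_of_nonneg_right h3 (Nat.cast_nonneg _)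
      _ = ((realizations d).card : ℝ) * ((1 - 1 / cP n) ^ 2) ^ (2 * n ^ 8) := by ring
      _ ≤ 1 / 4 := hnum
  have hhalf : ∑ H : Finset (Edge n), |e H| ≤ 1 / 2 := by
    by_contra hcon
    push Not at hcon
    nlinarith [hcon, hbound, hS0]
  linarith


/-- S0453 in full, from its Poincaré conjunct alone. -/
theorem S0453_of_poincare (n : ℕ) (hn : 4 ≤ n) (d : Fin n → ℕ)
    (hd : (Crest.SwitchChain.realizations d).Nonempty)
    (hP : ∀ f : Finset (Crest.SwitchChain.Edge n) → ℝ,
        ((Crest.SwitchChain.realizations d).card : ℝ) *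
              (∑ G ∈ Crest.SwitchChain.realizations d, f G ^ 2) -
            (∑ G ∈ Crest.SwitchChain.realizations d, f G) ^ 2 ≤
          24 * (n : ℝ) ^ 2 * (n.choose 4 : ℝ) * (Crest.SwitchChain.realizations d).card *
            ∑ G ∈ Crest.SwitchChain.realizations d,
              f G * (f G - ∑ G' ∈ Crest.SwitchChain.realizations d,
                Crest.SwitchChain.kernel n G G' * f G')) :
    (∃ t : ℕ, t ≤ 2 * n ^ 8 ∧ ∀ G ∈ Crest.SwitchChain.realizations d,
        Crest.SwitchChain.tvDist (fun G' => (Crest.SwitchChain.kernel n ^ t) G G')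
          (Crest.SwitchChain.unifOn (Crest.SwitchChain.realizations d)) ≤ 1 / 4) ∧
      ∀ f : Finset (Crest.SwitchChain.Edge n) → ℝ,
        ((Crest.SwitchChain.realizations d).card : ℝ) *
              (∑ G ∈ Crest.SwitchChain.realizations d, f G ^ 2) -
            (∑ G ∈ Crest.SwitchChain.realizations d, f G) ^ 2 ≤
          24 * (n : ℝ) ^ 2 * (n.choose 4 : ℝ) * (Crest.SwitchChain.realizations d).card *
            ∑ G ∈ Crest.SwitchChain.realizations d,
              f G * (f G - ∑ G' ∈ Crest.SwitchChain.realizations d,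
                Crest.SwitchChain.kernel n G G' * f G') :=
  ⟨tv_of_poincare n hn d hd hP, hP⟩

end Crest.Agent.S0453.Helper76
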