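import Mathlib
import Crest.Prelude.Def_SwitchChain
import Crest.Agent.Lib.S0453.Helper76TV

set_option autoImplicit false
open Finset

namespace Crest.Agent.S0453.Helper76

open Crest.SwitchChain

variable {n : ℕ}

/-! ### The Dirichlet form of the lazy switch chain, unfolded -/

lemma kernel_row_sum_on (hn : 4 ≤ n) {d : Fin n → ℕ} {G : Finset (Edge n)}
    (hG : G ∈ realizations d) : ∑ G' ∈ realizations d, kernel n G G' = 1 := by
  rw [Finset.sum_subset (Finset.subset_univ _)
    (fun H _ hH => kernel_eq_zero_of_not_mem hG hH)]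
  exact kernel_row_sum hn G

lemma kernel_mul_sq (G G' : Finset (Edge n)) (a b : ℝ) (hab : G = G' → a = b) :
    kernel n G G' * (a - b) ^ 2 =
      (proposalCount G G' : ℝ) / (12 * (n.choose 4 : ℝ)) * (a - b) ^ 2 := by
  unfold kernel
  by_cases h : G = G'
  · rw [hab h]; ring
  · rw [if_neg h, zero_add]

/-- The Dirichlet form in S0453 is `1/(24 C(n,4))` times the sum over ordered pairs of
realizations of `proposalCount · (f G - f G')²`. -/
lemma dirichlet_unfold (hn : 4 ≤ n) (d : Fin n → ℕ) (f : Finset (Edge n) → ℝ) :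
    ∑ G ∈ realizations d, f G * (f G - ∑ G' ∈ realizations d, kernel n G G' * f G') =
      1 / (24 * (n.choose 4 : ℝ)) *
        ∑ G ∈ realizations d, ∑ G' ∈ realizations d,
          (proposalCount G G' : ℝ) * (f G - f G') ^ 2 := by
  have hC := choose_four_pos hn
  -- step 1: pull the row sum inside
  have s1 : ∑ G ∈ realizations d, f G * (f G - ∑ G' ∈ realizations d, kernel n G G' * f G') =
      ∑ G ∈ realizations d, ∑ G' ∈ realizations d, kernel n G G' * (f G * (f G - f G')) := by
    apply Finset.sum_congr rfl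
    intro G hG
    have h1 := kernel_row_sum_on hn hG
    have h2 : ∑ G' ∈ realizations d, kernel n G G' * (f G * (f G - f G')) =
        f G * f G * (∑ G' ∈ realizations d, kernel n G G') -
          f G * ∑ G' ∈ realizations d, kernel n G G' * f G' := by
      rw [Finset.mul_sum, Finset.mul_sum, ← Finset.sum_sub_distrib]
      apply Finset.sum_congr rfl; intro G' _; ring
    rw [h2, h1]; ring
  -- step 2: symmetrise
  have s2 : ∑ G ∈ realizations d, ∑ G' ∈ realizations d, kernel n G G' * (f G * (f G - f G')) =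
      ∑ G ∈ realizations d, ∑ G' ∈ realizations d, kernel n G G' * (f G' * (f G' - f G)) := by
    rw [Finset.sum_comm]
    apply Finset.sum_congr rfl; intro G _
    apply Finset.sum_congr rfl; intro G' _
    rw [kernel_symm G' G]
  have s3 : 2 * ∑ G ∈ realizations d, ∑ G' ∈ realizations d,
        kernel n G G' * (f G * (f G - f G')) =
      ∑ G ∈ realizations d, ∑ G' ∈ realizations d, kernel n G G' * (f G - f G') ^ 2 := by
    have : 2 * ∑ G ∈ realizations d, ∑ G' ∈ realizations d,
        kernel n G G' * (f G * (f G - f G')) =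
        (∑ G ∈ realizations d, ∑ G' ∈ realizations d, kernel n G G' * (f G * (f G - f G'))) +
        ∑ G ∈ realizations d, ∑ G' ∈ realizations d, kernel n G G' * (f G' * (f G' - f G)) := by
      rw [← s2]; ring
    rw [this, ← Finset.sum_add_distrib]
    apply Finset.sum_congr rfl; intro G _
    rw [← Finset.sum_add_distrib]
    apply Finset.sum_congr rfl; intro G' _; ring
  -- step 3: off-diagonal kernel entries
  have s4 : ∑ G ∈ realizations d, ∑ G' ∈ realizations d, kernel n G G' * (f G - f G') ^ 2 =
      1 / (12 * (n.choose 4 : ℝ)) * ∑ G ∈ realizations d, ∑ G' ∈ realizations d,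
        (proposalCount G G' : ℝ) * (f G - f G') ^ 2 := by
    rw [Finset.mul_sum]
    apply Finset.sum_congr rfl; intro G _
    rw [Finset.mul_sum]
    apply Finset.sum_congr rfl; intro G' _
    rw [kernel_mul_sq G G' (f G) (f G') (fun h => by rw [h])]
    ring
  rw [s1]
  have : ∑ G ∈ realizations d, ∑ G' ∈ realizations d, kernel n G G' * (f G * (f G - f G')) =
      (1 / 2) * ∑ G ∈ realizations d, ∑ G' ∈ realizations d, kernel n G G' * (f G - f G') ^ 2 := by
    rw [← s3]; ring
  rw [this, s4]
  field_simp
  ring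

/-- The Poincaré conjunct of S0453 in switch-edge form: it suffices to prove
`|Ω| Σ f² - (Σ f)² ≤ n² |Ω| Σ_{G,G' ∈ Ω} proposalCount G G' (f G - f G')²`. -/
theorem poincare_of_switch_form (n : ℕ) (hn : 4 ≤ n) (d : Fin n → ℕ)
    (hS : ∀ f : Finset (Edge n) → ℝ,
      ((realizations d).card : ℝ) * (∑ G ∈ realizations d, f G ^ 2) -
          (∑ G ∈ realizations d, f G) ^ 2 ≤
        (n : ℝ) ^ 2 * (realizations d).card *
          ∑ G ∈ realizations d, ∑ G' ∈ realizations d,
            (proposalCount G G' : ℝ) * (f G - f G') ^ 2) :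
    ∀ f : Finset (Crest.SwitchChain.Edge n) → ℝ,
        ((Crest.SwitchChain.realizations d).card : ℝ) *
              (∑ G ∈ Crest.SwitchChain.realizations d, f G ^ 2) -
            (∑ G ∈ Crest.SwitchChain.realizations d, f G) ^ 2 ≤
          24 * (n : ℝ) ^ 2 * (n.choose 4 : ℝ) * (Crest.SwitchChain.realizations d).card *
            ∑ G ∈ Crest.SwitchChain.realizations d,
              f G * (f G - ∑ G' ∈ Crest.SwitchChain.realizations d,
                Crest.SwitchChain.kernel n G G' * f G') := by
  intro f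
  have hC := choose_four_pos hn
  rw [dirichlet_unfold hn d f]
  have e : 24 * (n : ℝ) ^ 2 * (n.choose 4 : ℝ) * ((realizations d).card : ℝ) *
      (1 / (24 * (n.choose 4 : ℝ)) * ∑ G ∈ realizations d, ∑ G' ∈ realizations d,
          (proposalCount G G' : ℝ) * (f G - f G') ^ 2) =
      (n : ℝ) ^ 2 * (realizations d).card *
          ∑ G ∈ realizations d, ∑ G' ∈ realizations d,
            (proposalCount G G' : ℝ) * (f G - f G') ^ 2 := by
    field_simp
  rw [e]
  exact hS f

/-- The variance side: `|Ω| Σ f² - (Σ f)² = (1/2) Σ_{G,G' ∈ Ω} (f G - f G')²`. -/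
lemma variance_unfold (d : Fin n → ℕ) (f : Finset (Edge n) → ℝ) :
    ((realizations d).card : ℝ) * (∑ G ∈ realizations d, f G ^ 2) -
        (∑ G ∈ realizations d, f G) ^ 2 =
      1 / 2 * ∑ G ∈ realizations d, ∑ G' ∈ realizations d, (f G - f G') ^ 2 := by
  have h : ∑ G ∈ realizations d, ∑ G' ∈ realizations d, (f G - f G') ^ 2 =
      2 * (((realizations d).card : ℝ) * (∑ G ∈ realizations d, f G ^ 2)) -
        2 * (∑ G ∈ realizations d, f G) ^ 2 := by
    have e : ∀ G ∈ realizations d, ∑ G' ∈ realizations d, (f G - f G') ^ 2 =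
        ((realizations d).card : ℝ) * f G ^ 2 - 2 * f G * (∑ G' ∈ realizations d, f G') +
          ∑ G' ∈ realizations d, f G' ^ 2 := by
      intro G _
      have : ∀ G' ∈ realizations d, (f G - f G') ^ 2 = f G ^ 2 - 2 * f G * f G' + f G' ^ 2 := by
        intro G' _; ring
      rw [Finset.sum_congr rfl this, Finset.sum_add_distrib, Finset.sum_sub_distrib,
        Finset.sum_const, nsmul_eq_mul, ← Finset.mul_sum]
    rw [Finset.sum_congr rfl e, Finset.sum_add_distrib, Finset.sum_sub_distrib,
      ← Finset.mul_sum, ← Finset.sum_mul, ← Finset.mul_sum, Finset.sum_const, nsmul_eq_mul]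
    ring
  rw [h]; ring

end Crest.Agent.S0453.Helper76
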