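import Mathlib
import Crest.Prelude.Def_SwitchChain
import Crest.Agent.Lib.S0453.Helper76TV
import Crest.Agent.Lib.S0453.Helper76Dirichlet

set_option autoImplicit false
open Finset

namespace Crest.Agent.S0453.Helper76

open Crest.SwitchChain

variable {n : ℕ}

/-! ### Splitting a graph at a vertex -/

/-- The edges of `E` at the vertex `v`. -/
def atV (v : Fin n) (E : Finset (Edge n)) : Finset (Edge n) := E.filter (fun e => v ∈ e.1)

/-- The edges of `E` not at the vertex `v`. -/
def offV (v : Fin n) (E : Finset (Edge n)) : Finset (Edge n) := E.filter (fun e => v ∉ e.1)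

lemma atV_union_offV (v : Fin n) (E : Finset (Edge n)) : atV v E ∪ offV v E = E :=
  Finset.filter_union_filter_not_eq _ _

lemma disjoint_atV_offV (v : Fin n) (E E' : Finset (Edge n)) : Disjoint (atV v E) (offV v E') := by
  rw [Finset.disjoint_left]
  intro e h1 h2
  exact (Finset.mem_filter.mp h2).2 (Finset.mem_filter.mp h1).2

lemma mem_atV {v : Fin n} {E : Finset (Edge n)} {e : Edge n} : e ∈ atV v E ↔ e ∈ E ∧ v ∈ e.1 :=
  Finset.mem_filter

lemma mem_offV {v : Fin n} {E : Finset (Edge n)} {e : Edge n} : e ∈ offV v E ↔ e ∈ E ∧ v ∉ e.1 :=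
  Finset.mem_filter

lemma deg_union_of_disjoint {E₁ E₂ : Finset (Edge n)} (h : Disjoint E₁ E₂) (u : Fin n) :
    deg (E₁ ∪ E₂) u = deg E₁ u + deg E₂ u := by
  unfold deg
  rw [Finset.filter_union, Finset.card_union_of_disjoint (Finset.disjoint_filter_filter h)]

lemma deg_split (v : Fin n) (E : Finset (Edge n)) (u : Fin n) :
    deg E u = deg (atV v E) u + deg (offV v E) u := by
  rw [← deg_union_of_disjoint (disjoint_atV_offV v E E), atV_union_offV]

lemma deg_offV_self (v : Fin n) (E : Finset (Edge n)) : deg (offV v E) v = 0 := by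
  unfold deg offV
  rw [Finset.card_eq_zero, Finset.filter_filter, Finset.filter_eq_empty_iff]
  intro e _ h
  exact h.1 h.2

lemma atV_eq_empty_of_deg_zero {v : Fin n} {E : Finset (Edge n)} (h : deg E v = 0) :
    atV v E = ∅ := by
  unfold deg at h
  exact Finset.card_eq_zero.mp h

lemma offV_eq_self_of_deg_zero {v : Fin n} {E : Finset (Edge n)} (h : deg E v = 0) :
    offV v E = E := by
  have h1 := atV_union_offV v E
  rw [atV_eq_empty_of_deg_zero h, Finset.empty_union] at h1
  exact h1

lemma atV_atV (v : Fin n) (E : Finset (Edge n)) : atV v (atV v E) = atV v E := by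
  unfold atV; rw [Finset.filter_filter]; congr 1; ext e; simp

lemma offV_atV (v : Fin n) (E : Finset (Edge n)) : offV v (atV v E) = ∅ := by
  unfold atV offV
  rw [Finset.filter_filter, Finset.filter_eq_empty_iff]
  intro e _ h
  exact h.2 h.1

lemma atV_union (v : Fin n) (E₁ E₂ : Finset (Edge n)) : atV v (E₁ ∪ E₂) = atV v E₁ ∪ atV v E₂ :=
  Finset.filter_union _ _ _

lemma offV_union (v : Fin n) (E₁ E₂ : Finset (Edge n)) :
    offV v (E₁ ∪ E₂) = offV v E₁ ∪ offV v E₂ :=
  Finset.filter_union _ _ _

/-! ### The fibres of the star at `v` -/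

/-- The reduced degree vector after removing the star `A`. -/
def dA (d : Fin n → ℕ) (A : Finset (Edge n)) : Fin n → ℕ := fun u => d u - deg A u

/-- The fibre of realizations whose edge set at `v` is `A`. -/
def fib (d : Fin n → ℕ) (v : Fin n) (A : Finset (Edge n)) : Finset (Finset (Edge n)) :=
  (realizations d).filter (fun E => atV v E = A)

/-- The stars at `v` that occur. -/
def stars (d : Fin n → ℕ) (v : Fin n) : Finset (Finset (Edge n)) :=
  (realizations d).image (atV v)

lemma mem_realizations {d : Fin n → ℕ} {E : Finset (Edge n)} :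
    E ∈ realizations d ↔ ∀ u, deg E u = d u := by
  unfold realizations; simp

lemma mem_fib {d : Fin n → ℕ} {v : Fin n} {A E : Finset (Edge n)} :
    E ∈ fib d v A ↔ E ∈ realizations d ∧ atV v E = A := Finset.mem_filter

lemma offV_mem_realizations {d : Fin n → ℕ} {v : Fin n} {A E : Finset (Edge n)}
    (hE : E ∈ fib d v A) : offV v E ∈ realizations (dA d A) := by
  rw [mem_fib] at hE
  obtain ⟨hE, hA⟩ := hE
  rw [mem_realizations] at hE ⊢
  intro u
  have h := deg_split v E u
  rw [hA, hE u] at h
  unfold dA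
  omega

lemma union_mem_fib {d : Fin n → ℕ} {v : Fin n} {A E₀ : Finset (Edge n)}
    (hE₀ : E₀ ∈ fib d v A) {E : Finset (Edge n)} (hE : E ∈ realizations (dA d A)) :
    E ∪ A ∈ fib d v A ∧ offV v (E ∪ A) = E := by
  rw [mem_fib] at hE₀
  obtain ⟨hE₀, hA⟩ := hE₀
  rw [mem_realizations] at hE₀ hE
  -- `E` has no edge at `v`
  have hAle : ∀ u, deg A u ≤ d u := by
    intro u
    have h := deg_split v E₀ u
    rw [hA, hE₀ u] at h
    omega
  have hAv : deg A v = d v := by
    have h := deg_split v E₀ v
    rw [hA, hE₀ v, deg_offV_self] at h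
    omega
  have hEv : deg E v = 0 := by
    rw [hE v]; unfold dA; omega
  have hAat : atV v A = A := by rw [← hA, atV_atV]
  have hAoff : offV v A = ∅ := by rw [← hA, offV_atV]
  have hdisj : Disjoint E A := by
    rw [← offV_eq_self_of_deg_zero hEv, ← hAat]
    exact (disjoint_atV_offV v A E).symm
  refine ⟨?_, ?_⟩
  · rw [mem_fib, mem_realizations]
    refine ⟨?_, ?_⟩
    · intro u
      rw [deg_union_of_disjoint hdisj, hE u]
      unfold dA
      have := hAle u
      omega
    · rw [atV_union, atV_eq_empty_of_deg_zero hEv, hAat, Finset.empty_union]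
  · rw [offV_union, offV_eq_self_of_deg_zero hEv, hAoff, Finset.union_empty]

lemma fib_eq_union {d : Fin n → ℕ} {v : Fin n} {A E : Finset (Edge n)} (hE : E ∈ fib d v A) :
    offV v E ∪ A = E := by
  rw [mem_fib] at hE
  rw [← hE.2, Finset.union_comm, atV_union_offV]

/-- Summation over a fibre, transported to the smaller class. -/
lemma sum_fib {d : Fin n → ℕ} {v : Fin n} {A E₀ : Finset (Edge n)} (hE₀ : E₀ ∈ fib d v A)
    (g : Finset (Edge n) → ℝ) :
    ∑ E ∈ fib d v A, g E = ∑ E ∈ realizations (dA d A), g (E ∪ A) := by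
  apply Finset.sum_nbij' (fun E => offV v E) (fun E => E ∪ A)
  · intro E hE; exact offV_mem_realizations hE
  · intro E hE; exact (union_mem_fib hE₀ hE).1
  · intro E hE; exact fib_eq_union hE
  · intro E hE; exact (union_mem_fib hE₀ hE).2
  · intro E hE; rw [fib_eq_union hE]

lemma card_fib {d : Fin n → ℕ} {v : Fin n} {A E₀ : Finset (Edge n)} (hE₀ : E₀ ∈ fib d v A) :
    ((fib d v A).card : ℝ) = ((realizations (dA d A)).card : ℝ) := by
  have h := sum_fib hE₀ (fun _ => (1 : ℝ))
  simpa using h

end Crest.Agent.S0453.Helper76
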