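import Mathlib
import Crest.Prelude.Def_SwitchChain
import Crest.Agent.Lib.S0453.Helper76TV
import Crest.Agent.Lib.S0453.Helper76Dirichlet
import Crest.Agent.Lib.S0453.Helper76Fibre

set_option autoImplicit false
open Finset

namespace Crest.Agent.S0453.Helper76

open Crest.SwitchChain

variable {n : ℕ}

/-! ### Proposal counts inside a star fibre -/

lemma atV_eq_empty_of_pm {S : Finset (Fin n)} {F : Finset (Edge n)} (hF : F ∈ pmSet S)
    {v : Fin n} (hv : v ∉ S) : atV v F = ∅ := by
  have h := pm_filter_card hF v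
  rw [if_neg hv] at h
  exact Finset.card_eq_zero.mp h

lemma atV_nonempty_of_pm {S : Finset (Fin n)} {F : Finset (Edge n)} (hF : F ∈ pmSet S)
    {v : Fin n} (hv : v ∈ S) : (atV v F).Nonempty := by
  have h := pm_filter_card hF v
  rw [if_pos hv] at h
  apply Finset.card_pos.mp
  unfold atV
  omega

lemma switchResult_fib_iff {v : Fin n} {E E' : Finset (Edge n)} (hA : atV v E = atV v E')
    (hne : E ≠ E') {S : Finset (Fin n)} {F F' : Finset (Edge n)} (hF : F ∈ pmSet S)
    (hF' : F' ∈ pmSet S) :
    switchResult E F F' = E' ↔ switchResult (offV v E) F F' = offV v E' := by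
  have hne' : offV v E ≠ offV v E' := by
    intro h
    apply hne
    rw [← atV_union_offV v E, ← atV_union_offV v E', hA, h]
  constructor
  · intro h
    unfold switchResult at h
    split_ifs at h with hc
    · obtain ⟨hsub, hdisj⟩ := hc
      have hF'v : atV v F' = ∅ := by
        rw [Finset.eq_empty_iff_forall_notMem]
        intro e he
        rw [mem_atV] at he
        have h1 : e ∈ E' := by rw [← h]; exact Finset.mem_union_right _ he.1
        have h2 : e ∈ atV v E := by rw [hA, mem_atV]; exact ⟨h1, he.2⟩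
        exact (Finset.disjoint_left.mp hdisj he.1) (mem_atV.mp h2).1
      have hvS : v ∉ S := by
        intro hv
        have := atV_nonempty_of_pm hF' hv
        rw [hF'v] at this
        exact Finset.not_nonempty_empty this
      have hFv : atV v F = ∅ := atV_eq_empty_of_pm hF hvS
      have hsub' : F ⊆ offV v E := by
        intro e he
        rw [mem_offV]
        refine ⟨hsub he, fun hve => ?_⟩
        have : e ∈ atV v F := mem_atV.mpr ⟨he, hve⟩
        rw [hFv] at this
        exact absurd this (Finset.notMem_empty e)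
      have hdisj' : Disjoint F' (offV v E) :=
        hdisj.mono_right (Finset.filter_subset _ _)
      unfold switchResult
      rw [if_pos ⟨hsub', hdisj'⟩, ← h]
      ext e
      simp only [Finset.mem_union, Finset.mem_sdiff, mem_offV]
      constructor
      · rintro (⟨⟨h1, h2⟩, h3⟩ | h1)
        · exact ⟨Or.inl ⟨h1, h3⟩, h2⟩
        · refine ⟨Or.inr h1, fun hve => ?_⟩
          have : e ∈ atV v F' := mem_atV.mpr ⟨h1, hve⟩
          rw [hF'v] at this
          exact absurd this (Finset.notMem_empty e)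
      · rintro ⟨⟨h1, h3⟩ | h1, h2⟩
        · exact Or.inl ⟨⟨h1, h2⟩, h3⟩
        · exact Or.inr h1
    · exact absurd h hne
  · intro h
    unfold switchResult at h
    split_ifs at h with hc
    · obtain ⟨hsub, hdisj⟩ := hc
      have hvS : v ∉ S := by
        intro hv
        obtain ⟨e, he⟩ := atV_nonempty_of_pm hF hv
        rw [mem_atV] at he
        exact (mem_offV.mp (hsub he.1)).2 he.2
      have hFv : atV v F = ∅ := atV_eq_empty_of_pm hF hvS
      have hF'v : atV v F' = ∅ := atV_eq_empty_of_pm hF' hvS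
      have hsub' : F ⊆ E := fun e he => (mem_offV.mp (hsub he)).1
      have hdisj' : Disjoint F' E := by
        rw [Finset.disjoint_left]
        intro e he heE
        by_cases hve : v ∈ e.1
        · have : e ∈ atV v F' := mem_atV.mpr ⟨he, hve⟩
          rw [hF'v] at this
          exact absurd this (Finset.notMem_empty e)
        · exact (Finset.disjoint_left.mp hdisj he) (mem_offV.mpr ⟨heE, hve⟩)
      unfold switchResult
      rw [if_pos ⟨hsub', hdisj'⟩]
      ext e
      by_cases hve : v ∈ e.1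
      · have h1 : e ∉ F := fun he => by
          have : e ∈ atV v F := mem_atV.mpr ⟨he, hve⟩
          rw [hFv] at this
          exact absurd this (Finset.notMem_empty e)
        have h2 : e ∉ F' := fun he => by
          have : e ∈ atV v F' := mem_atV.mpr ⟨he, hve⟩
          rw [hF'v] at this
          exact absurd this (Finset.notMem_empty e)
        have h3 : e ∈ E ↔ e ∈ E' := by
          have := congrArg (fun X => e ∈ X) hA
          simp only [mem_atV, hve, and_true, eq_iff_iff] at this
          exact this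
        simp only [Finset.mem_union, Finset.mem_sdiff, h1, h2, not_false_eq_true, and_true,
          or_false]
        exact h3
      · have h3 : e ∈ E' ↔ e ∈ offV v E' := by rw [mem_offV]; tauto
        rw [h3, ← h]
        simp only [Finset.mem_union, Finset.mem_sdiff, mem_offV]
        tauto
    · exact absurd h hne'

lemma proposalCount_fib {v : Fin n} {E E' : Finset (Edge n)} (hA : atV v E = atV v E')
    (hne : E ≠ E') : proposalCount E E' = proposalCount (offV v E) (offV v E') := by
  unfold proposalCount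
  apply Finset.sum_congr rfl
  intro S _
  apply Finset.sum_congr rfl
  intro F hF
  apply Finset.sum_congr rfl
  intro F' hF'
  have h := switchResult_fib_iff hA hne hF (Finset.mem_of_mem_erase hF')
  by_cases h1 : switchResult E F F' = E'
  · rw [if_pos h1, if_pos (h.mp h1)]
  · rw [if_neg h1, if_neg (fun h2 => h1 (h.mpr h2))]


/-! ### Switch energy and the Poincaré inequality in switch form on a set of graphs -/

/-- Switch energy (over ordered pairs) of `f` on a set of graphs. -/
noncomputable def energy (C : Finset (Finset (Edge n))) (f : Finset (Edge n) → ℝ) : ℝ :=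
  ∑ G ∈ C, ∑ G' ∈ C, (proposalCount G G' : ℝ) * (f G - f G') ^ 2

lemma energy_nonneg (C : Finset (Finset (Edge n))) (f : Finset (Edge n) → ℝ) :
    0 ≤ energy C f := by
  unfold energy
  apply Finset.sum_nonneg
  intro G _
  apply Finset.sum_nonneg
  intro G' _
  positivity

/-- The Poincaré inequality with constant `c` on the set `C`, in switch form. -/
def PI (C : Finset (Finset (Edge n))) (c : ℝ) : Prop :=
  ∀ f : Finset (Edge n) → ℝ,
    (C.card : ℝ) * ∑ G ∈ C, f G ^ 2 - (∑ G ∈ C, f G) ^ 2 ≤ c * C.card * energy C f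

lemma PI_mono {C : Finset (Finset (Edge n))} {c c' : ℝ} (h : PI C c) (hcc : c ≤ c') :
    PI C c' := by
  intro f
  refine (h f).trans ?_
  have hE := energy_nonneg C f
  have hN : (0 : ℝ) ≤ C.card := Nat.cast_nonneg _
  calc c * C.card * energy C f = c * (C.card * energy C f) := by ring
    _ ≤ c' * (C.card * energy C f) := mul_le_mul_of_nonneg_right hcc (mul_nonneg hN hE)
    _ = c' * C.card * energy C f := by ring

lemma PI_of_card_le_one {C : Finset (Finset (Edge n))} (h : C.card ≤ 1) {c : ℝ} (hc : 0 ≤ c) :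
    PI C c := by
  intro f
  have hE := energy_nonneg C f
  have hN : (0 : ℝ) ≤ C.card := Nat.cast_nonneg _
  have hR : 0 ≤ c * C.card * energy C f := mul_nonneg (mul_nonneg hc hN) hE
  refine le_trans ?_ hR
  rcases Nat.lt_or_eq_of_le h with h0 | h1
  · have h0' : C = ∅ := Finset.card_eq_zero.mp (by omega)
    subst h0'
    simp
  · obtain ⟨a, rfl⟩ := Finset.card_eq_one.mp h1
    simp

lemma energy_fib {d : Fin n → ℕ} {v : Fin n} {A E₀ : Finset (Edge n)} (hE₀ : E₀ ∈ fib d v A)
    (f : Finset (Edge n) → ℝ) :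
    energy (fib d v A) f = energy (realizations (dA d A)) (fun E => f (E ∪ A)) := by
  unfold energy
  rw [sum_fib hE₀]
  apply Finset.sum_congr rfl
  intro E₁ h₁
  rw [sum_fib hE₀]
  apply Finset.sum_congr rfl
  intro E₂ h₂
  by_cases h : E₁ = E₂
  · subst h; simp
  · have m1 := union_mem_fib hE₀ h₁
    have m2 := union_mem_fib hE₀ h₂
    have hA : atV v (E₁ ∪ A) = atV v (E₂ ∪ A) := by
      rw [(mem_fib.mp m1.1).2, (mem_fib.mp m2.1).2]
    have hne : E₁ ∪ A ≠ E₂ ∪ A := by
      intro h'
      apply h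
      rw [← m1.2, ← m2.2, h']
    rw [proposalCount_fib hA hne, m1.2, m2.2]

/-- The Poincaré inequality passes from the reduced class to the star fibre. -/
lemma PI_fib {d : Fin n → ℕ} {v : Fin n} {A E₀ : Finset (Edge n)} (hE₀ : E₀ ∈ fib d v A)
    {c : ℝ} (h : PI (realizations (dA d A)) c) : PI (fib d v A) c := by
  intro f
  have h1 := h (fun E => f (E ∪ A))
  rw [energy_fib hE₀, card_fib hE₀, sum_fib hE₀ (fun E => f E ^ 2), sum_fib hE₀ f]
  exact h1

lemma energy_split (C : Finset (Finset (Edge n))) (p : Finset (Edge n) → Prop) [DecidablePred p]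
    (f : Finset (Edge n) → ℝ) :
    energy (C.filter p) f + energy (C.filter (fun E => ¬ p E)) f ≤ energy C f := by
  unfold energy
  rw [← Finset.sum_filter_add_sum_filter_not C p
    (fun G => ∑ G' ∈ C, (proposalCount G G' : ℝ) * (f G - f G') ^ 2)]
  apply add_le_add
  · apply Finset.sum_le_sum
    intro G _
    apply Finset.sum_le_sum_of_subset_of_nonneg (Finset.filter_subset _ _)
    intro G' _ _
    positivity
  · apply Finset.sum_le_sum
    intro G _
    apply Finset.sum_le_sum_of_subset_of_nonneg (Finset.filter_subset _ _)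
    intro G' _ _
    positivity

/-- One step of the two-block recursion: Poincaré on both blocks plus the rank-one
"bit" estimate for the difference of the block means gives Poincaré on the union,
with the constants ADDED. -/
lemma PI_step {C : Finset (Finset (Edge n))} (p : Finset (Edge n) → Prop) [DecidablePred p]
    {c κ : ℝ} (hc : 0 ≤ c) (hκ : 0 ≤ κ)
    (h1 : PI (C.filter p) c) (h0 : PI (C.filter (fun E => ¬ p E)) c)
    (hbit : ∀ f : Finset (Edge n) → ℝ,
      (((C.filter (fun E => ¬ p E)).card : ℝ) * ∑ G ∈ C.filter p, f G -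
        ((C.filter p).card : ℝ) * ∑ G ∈ C.filter (fun E => ¬ p E), f G) ^ 2 ≤
      κ * C.card * (C.filter p).card * (C.filter (fun E => ¬ p E)).card * energy C f) :
    PI C (c + κ) := by
  intro f
  have hcard : (C.card : ℝ) = ((C.filter p).card : ℝ) + ((C.filter (fun E => ¬ p E)).card : ℝ) := by
    rw [← Nat.cast_add, Finset.card_filter_add_card_filter_not]
  have hs : ∑ G ∈ C, f G = ∑ G ∈ C.filter p, f G + ∑ G ∈ C.filter (fun E => ¬ p E), f G :=
    (Finset.sum_filter_add_sum_filter_not C p f).symm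
  have hs2 : ∑ G ∈ C, f G ^ 2 =
      ∑ G ∈ C.filter p, f G ^ 2 + ∑ G ∈ C.filter (fun E => ¬ p E), f G ^ 2 :=
    (Finset.sum_filter_add_sum_filter_not C p (fun G => f G ^ 2)).symm
  have e1 := h1 f
  have e0 := h0 f
  have eb := hbit f
  have hE := energy_split C p f
  have hE1 := energy_nonneg (C.filter p) f
  have hE0 := energy_nonneg (C.filter (fun E => ¬ p E)) f
  have hEC := energy_nonneg C f
  have hN1 : (0 : ℝ) ≤ ((C.filter p).card : ℝ) := Nat.cast_nonneg _
  have hN0 : (0 : ℝ) ≤ ((C.filter (fun E => ¬ p E)).card : ℝ) := Nat.cast_nonneg _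
  have hz1 : ((C.filter p).card : ℝ) = 0 →
      (∑ G ∈ C.filter p, f G = 0 ∧ ∑ G ∈ C.filter p, f G ^ 2 = 0) := by
    intro h
    have h' : C.filter p = ∅ := Finset.card_eq_zero.mp (by exact_mod_cast h)
    rw [h']
    simp
  have hz0 : ((C.filter (fun E => ¬ p E)).card : ℝ) = 0 →
      (∑ G ∈ C.filter (fun E => ¬ p E), f G = 0 ∧
        ∑ G ∈ C.filter (fun E => ¬ p E), f G ^ 2 = 0) := by
    intro h
    have h' : C.filter (fun E => ¬ p E) = ∅ := Finset.card_eq_zero.mp (by exact_mod_cast h)
    rw [h']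
    simp
  rw [hs, hs2]
  rw [hcard] at eb ⊢
  generalize ((C.filter p).card : ℝ) = N1 at *
  generalize ((C.filter (fun E => ¬ p E)).card : ℝ) = N0 at *
  generalize ∑ G ∈ C.filter p, f G = S1 at *
  generalize ∑ G ∈ C.filter (fun E => ¬ p E), f G = S0 at *
  generalize ∑ G ∈ C.filter p, f G ^ 2 = Q1 at *
  generalize ∑ G ∈ C.filter (fun E => ¬ p E), f G ^ 2 = Q0 at *
  generalize energy (C.filter p) f = E1 at *
  generalize energy (C.filter (fun E => ¬ p E)) f = E0 at *
  generalize energy C f = EC at *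
  rcases hN1.eq_or_lt with h10 | h1pos
  · obtain ⟨hS1, hQ1⟩ := hz1 h10.symm
    rw [← h10, hS1, hQ1]
    have t1 : c * N0 * E0 ≤ c * N0 * EC :=
      mul_le_mul_of_nonneg_left (by linarith) (mul_nonneg hc hN0)
    have t2 : 0 ≤ κ * N0 * EC := mul_nonneg (mul_nonneg hκ hN0) hEC
    have id1 : (0 + N0) * (0 + Q0) - (0 + S0) ^ 2 = N0 * Q0 - S0 ^ 2 := by ring
    have id2 : (c + κ) * (0 + N0) * EC = c * N0 * EC + κ * N0 * EC := by ring
    rw [id1, id2]
    linarith
  rcases hN0.eq_or_lt with h00 | h0pos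
  · obtain ⟨hS0, hQ0⟩ := hz0 h00.symm
    rw [← h00, hS0, hQ0]
    have t1 : c * N1 * E1 ≤ c * N1 * EC :=
      mul_le_mul_of_nonneg_left (by linarith) (mul_nonneg hc hN1)
    have t2 : 0 ≤ κ * N1 * EC := mul_nonneg (mul_nonneg hκ hN1) hEC
    have id1 : (N1 + 0) * (Q1 + 0) - (S1 + 0) ^ 2 = N1 * Q1 - S1 ^ 2 := by ring
    have id2 : (c + κ) * (N1 + 0) * EC = c * N1 * EC + κ * N1 * EC := by ring
    rw [id1, id2]
    linarith
  have key : N1 * N0 * ((N1 + N0) * (Q1 + Q0) - (S1 + S0) ^ 2) ≤
      N1 * N0 * ((c + κ) * (N1 + N0) * EC) := by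
    have t1 : (N1 + N0) * N0 * (N1 * Q1 - S1 ^ 2) ≤ (N1 + N0) * N0 * (c * N1 * E1) :=
      mul_le_mul_of_nonneg_left e1 (by positivity)
    have t2 : (N1 + N0) * N1 * (N0 * Q0 - S0 ^ 2) ≤ (N1 + N0) * N1 * (c * N0 * E0) :=
      mul_le_mul_of_nonneg_left e0 (by positivity)
    have t3 : N1 * N0 * (N1 + N0) * c * (E1 + E0) ≤ N1 * N0 * (N1 + N0) * c * EC :=
      mul_le_mul_of_nonneg_left hE (by positivity)
    have id1 : N1 * N0 * ((N1 + N0) * (Q1 + Q0) - (S1 + S0) ^ 2) =
        (N1 + N0) * N0 * (N1 * Q1 - S1 ^ 2) + (N1 + N0) * N1 * (N0 * Q0 - S0 ^ 2) +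
          (N0 * S1 - N1 * S0) ^ 2 := by ring
    have id2 : N1 * N0 * ((c + κ) * (N1 + N0) * EC) =
        N1 * N0 * (N1 + N0) * c * EC + κ * (N1 + N0) * N1 * N0 * EC := by ring
    have id3 : (N1 + N0) * N0 * (c * N1 * E1) + (N1 + N0) * N1 * (c * N0 * E0) =
        N1 * N0 * (N1 + N0) * c * (E1 + E0) := by ring
    rw [id1, id2]
    linarith
  exact le_of_mul_le_mul_left key (mul_pos h1pos h0pos)

/-! ### Classes with decided pairs -/

/-- The realizations of `d` whose intersection with the decided set `Q` is exactly `P`. -/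
def pinned (d : Fin n → ℕ) (Q P : Finset (Edge n)) : Finset (Finset (Edge n)) :=
  (realizations d).filter (fun E => E ∩ Q = P)

lemma pinned_empty (d : Fin n → ℕ) : pinned d ∅ ∅ = realizations d := by
  unfold pinned
  rw [Finset.filter_true_of_mem]
  intro E _
  exact Finset.inter_empty E

lemma pinned_filter_mem {d : Fin n → ℕ} {Q P : Finset (Edge n)} {e : Edge n} (he : e ∉ Q)
    (hP : P ⊆ Q) :
    (pinned d Q P).filter (fun E => e ∈ E) = pinned d (insert e Q) (insert e P) := by
  ext E
  simp only [pinned, Finset.mem_filter]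
  constructor
  · rintro ⟨⟨hE, hQ⟩, heE⟩
    refine ⟨hE, ?_⟩
    rw [Finset.inter_insert_of_mem heE, hQ]
  · rintro ⟨hE, hQ⟩
    have heE : e ∈ E := by
      have : e ∈ E ∩ insert e Q := by rw [hQ]; exact Finset.mem_insert_self e P
      exact (Finset.mem_inter.mp this).1
    refine ⟨⟨hE, ?_⟩, heE⟩
    rw [Finset.inter_insert_of_mem heE] at hQ
    have h1 : e ∉ E ∩ Q := fun h => he (Finset.mem_inter.mp h).2
    have h2 : e ∉ P := fun h => he (hP h)
    calc E ∩ Q = (insert e (E ∩ Q)).erase e := (Finset.erase_insert h1).symm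
      _ = (insert e P).erase e := by rw [hQ]
      _ = P := Finset.erase_insert h2

lemma pinned_filter_not_mem {d : Fin n → ℕ} {Q P : Finset (Edge n)} {e : Edge n} (he : e ∉ Q)
    (hP : P ⊆ Q) :
    (pinned d Q P).filter (fun E => e ∉ E) = pinned d (insert e Q) P := by
  ext E
  simp only [pinned, Finset.mem_filter]
  constructor
  · rintro ⟨⟨hE, hQ⟩, heE⟩
    exact ⟨hE, by rw [Finset.inter_insert_of_notMem heE, hQ]⟩
  · rintro ⟨hE, hQ⟩
    have heE : e ∉ E := by
      intro h
      have : e ∈ E ∩ insert e Q := Finset.mem_inter.mpr ⟨h, Finset.mem_insert_self e Q⟩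
      rw [hQ] at this
      exact he (hP this)
    exact ⟨⟨hE, by rw [Finset.inter_insert_of_notMem heE] at hQ; exact hQ⟩, heE⟩

/-- `e` is mixed in `C`: present in some member of `C` and absent from another. -/
def mixed (C : Finset (Finset (Edge n))) (e : Edge n) : Prop :=
  (C.filter (fun E => e ∈ E)).Nonempty ∧ (C.filter (fun E => e ∉ E)).Nonempty

open Classical in
/-- The mixed edges at `v`. -/
noncomputable def mixedAt (v : Fin n) (C : Finset (Finset (Edge n))) : Finset (Edge n) :=
  univ.filter (fun e => v ∈ e.1 ∧ mixed C e)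

lemma mem_mixedAt {v : Fin n} {C : Finset (Finset (Edge n))} {e : Edge n} :
    e ∈ mixedAt v C ↔ v ∈ e.1 ∧ mixed C e := by
  unfold mixedAt
  simp

lemma mixed_of_mixed_filter {C : Finset (Finset (Edge n))} {p : Finset (Edge n) → Prop}
    [DecidablePred p] {e : Edge n} (h : mixed (C.filter p) e) : mixed C e :=
  ⟨h.1.mono (Finset.filter_subset_filter _ (Finset.filter_subset _ _)),
    h.2.mono (Finset.filter_subset_filter _ (Finset.filter_subset _ _))⟩

lemma not_mixed_filter_mem {C : Finset (Finset (Edge n))} {e : Edge n} :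
    ¬ mixed (C.filter (fun E => e ∈ E)) e := by
  rintro ⟨-, ⟨E, hE⟩⟩
  rw [Finset.mem_filter, Finset.mem_filter] at hE
  exact hE.2 hE.1.2

lemma not_mixed_filter_not_mem {C : Finset (Finset (Edge n))} {e : Edge n} :
    ¬ mixed (C.filter (fun E => e ∉ E)) e := by
  rintro ⟨⟨E, hE⟩, -⟩
  rw [Finset.mem_filter, Finset.mem_filter] at hE
  exact hE.1.2 hE.2

lemma card_mixedAt_filter_lt {C : Finset (Finset (Edge n))} {v : Fin n} {e : Edge n}
    (p : Finset (Edge n) → Prop) [DecidablePred p] (hev : v ∈ e.1) (hmix : mixed C e)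
    (hnm : ¬ mixed (C.filter p) e) :
    (mixedAt v (C.filter p)).card < (mixedAt v C).card := by
  have hmem : e ∈ mixedAt v C := mem_mixedAt.mpr ⟨hev, hmix⟩
  have hsub : mixedAt v (C.filter p) ⊆ (mixedAt v C).erase e := by
    intro e' he'
    rw [mem_mixedAt] at he'
    rw [Finset.mem_erase, mem_mixedAt]
    refine ⟨?_, he'.1, mixed_of_mixed_filter he'.2⟩
    rintro rfl
    exact hnm he'.2
  have h1 := Finset.card_le_card hsub
  rw [Finset.card_erase_of_mem hmem] at h1
  have h2 : 0 < (mixedAt v C).card := Finset.card_pos.mpr ⟨e, hmem⟩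
  omega

/-- The rank-one "bit" estimates at the vertex `v` with constant `κ` (ordered-pair energy):
in every class with decided pairs at `v` that still has a mixed pair at `v`, SOME mixed pair
`e` at `v` satisfies the two-block estimate for the means of the blocks `e ∈ G`, `e ∉ G`. -/
def BitAt (d : Fin n → ℕ) (v : Fin n) (κ : ℝ) : Prop :=
  ∀ Q P : Finset (Edge n), (∀ e ∈ Q, v ∈ e.1) → P ⊆ Q →
    (∃ e : Edge n, v ∈ e.1 ∧ mixed (pinned d Q P) e) →
    ∃ e : Edge n, v ∈ e.1 ∧ mixed (pinned d Q P) e ∧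
      ∀ f : Finset (Edge n) → ℝ,
        ((((pinned d Q P).filter (fun E => e ∉ E)).card : ℝ) *
            ∑ G ∈ (pinned d Q P).filter (fun E => e ∈ E), f G -
          (((pinned d Q P).filter (fun E => e ∈ E)).card : ℝ) *
            ∑ G ∈ (pinned d Q P).filter (fun E => e ∉ E), f G) ^ 2 ≤
        κ * (pinned d Q P).card * ((pinned d Q P).filter (fun E => e ∈ E)).card *
          ((pinned d Q P).filter (fun E => e ∉ E)).card * energy (pinned d Q P) f

lemma PI_pinned_base {d : Fin n → ℕ} {v : Fin n} {Q P : Finset (Edge n)} {c : ℝ} (hc : 0 ≤ c)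
    (hQ : ∀ e ∈ Q, v ∈ e.1)
    (hno : ∀ e : Edge n, v ∈ e.1 → ¬ mixed (pinned d Q P) e)
    (hfib : ∀ A E₀, E₀ ∈ fib d v A → PI (fib d v A) c) : PI (pinned d Q P) c := by
  rcases (pinned d Q P).eq_empty_or_nonempty with h | ⟨E₀, hE₀⟩
  · rw [h]
    exact PI_of_card_le_one (by simp) hc
  · have hE₀' : E₀ ∈ realizations d ∧ E₀ ∩ Q = P := Finset.mem_filter.mp hE₀
    have hstar : ∀ E ∈ pinned d Q P, atV v E = atV v E₀ := by
      intro E hE
      ext e
      rw [mem_atV, mem_atV]
      constructor
      · rintro ⟨h1, h2⟩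
        refine ⟨?_, h2⟩
        by_contra h3
        exact hno e h2 ⟨⟨E, Finset.mem_filter.mpr ⟨hE, h1⟩⟩, ⟨E₀, Finset.mem_filter.mpr ⟨hE₀, h3⟩⟩⟩
      · rintro ⟨h1, h2⟩
        refine ⟨?_, h2⟩
        by_contra h3
        exact hno e h2 ⟨⟨E₀, Finset.mem_filter.mpr ⟨hE₀, h1⟩⟩, ⟨E, Finset.mem_filter.mpr ⟨hE, h3⟩⟩⟩
    have heq : pinned d Q P = fib d v (atV v E₀) := by
      ext E
      rw [mem_fib]
      constructor
      · intro hE
        exact ⟨(Finset.mem_filter.mp hE).1, hstar E hE⟩
      · rintro ⟨hE, hA⟩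
        refine Finset.mem_filter.mpr ⟨hE, ?_⟩
        rw [← hE₀'.2]
        ext e
        simp only [Finset.mem_inter]
        constructor
        · rintro ⟨h1, h2⟩
          have : e ∈ atV v E := mem_atV.mpr ⟨h1, hQ e h2⟩
          rw [hA] at this
          exact ⟨(mem_atV.mp this).1, h2⟩
        · rintro ⟨h1, h2⟩
          have : e ∈ atV v E₀ := mem_atV.mpr ⟨h1, hQ e h2⟩
          rw [← hA] at this
          exact ⟨(mem_atV.mp this).1, h2⟩
    rw [heq]
    exact hfib (atV v E₀) E₀ (mem_fib.mpr ⟨hE₀'.1, rfl⟩)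

/-- Inner induction: decide the pairs at `v` one at a time. -/
lemma PI_pinned {d : Fin n → ℕ} {v : Fin n} {c κ : ℝ} (hc : 0 ≤ c) (hκ : 0 ≤ κ)
    (hfib : ∀ A E₀, E₀ ∈ fib d v A → PI (fib d v A) c) (hbit : BitAt d v κ) :
    ∀ (k : ℕ) (Q P : Finset (Edge n)), (∀ e ∈ Q, v ∈ e.1) → P ⊆ Q →
      (mixedAt v (pinned d Q P)).card ≤ k → PI (pinned d Q P) (c + κ * k) := by
  intro k
  induction k with
  | zero =>
    intro Q P hQ hP hk
    have hno : ∀ e : Edge n, v ∈ e.1 → ¬ mixed (pinned d Q P) e := by
      intro e hev hmix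
      have : e ∈ mixedAt v (pinned d Q P) := mem_mixedAt.mpr ⟨hev, hmix⟩
      have := Finset.card_pos.mpr ⟨e, this⟩
      omega
    exact PI_mono (PI_pinned_base hc hQ hno hfib) (by simp)
  | succ k ih =>
    intro Q P hQ hP hk
    by_cases hex : ∃ e : Edge n, v ∈ e.1 ∧ mixed (pinned d Q P) e
    · obtain ⟨e, hev, hmix, hb⟩ := hbit Q P hQ hP hex
      have heQ : e ∉ Q := by
        intro heQ
        obtain ⟨⟨E, hE⟩, ⟨E', hE'⟩⟩ := hmix
        rw [Finset.mem_filter] at hE hE'
        have h1 : E ∩ Q = P := (Finset.mem_filter.mp hE.1).2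
        have h2 : E' ∩ Q = P := (Finset.mem_filter.mp hE'.1).2
        have h3 : e ∈ E' ∩ Q := by
          rw [h2, ← h1]
          exact Finset.mem_inter.mpr ⟨hE.2, heQ⟩
        exact hE'.2 (Finset.mem_inter.mp h3).1
      have hQ' : ∀ e' ∈ insert e Q, v ∈ e'.1 := by
        intro e' he'
        rcases Finset.mem_insert.mp he' with rfl | h
        · exact hev
        · exact hQ e' h
      have hc' : 0 ≤ c + κ * k := by positivity
      have c1 : PI ((pinned d Q P).filter (fun E => e ∈ E)) (c + κ * k) := by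
        have hlt := card_mixedAt_filter_lt (v := v) (fun E => e ∈ E) hev hmix not_mixed_filter_mem
        rw [pinned_filter_mem heQ hP] at hlt ⊢
        exact ih (insert e Q) (insert e P) hQ' (Finset.insert_subset_insert e hP) (by omega)
      have c0 : PI ((pinned d Q P).filter (fun E => e ∉ E)) (c + κ * k) := by
        have hlt := card_mixedAt_filter_lt (v := v) (fun E => e ∉ E) hev hmix
          not_mixed_filter_not_mem
        rw [pinned_filter_not_mem heQ hP] at hlt ⊢
        exact ih (insert e Q) P hQ' (hP.trans (Finset.subset_insert e Q)) (by omega)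
      have hstep := PI_step (C := pinned d Q P) (fun E => e ∈ E) hc' hκ c1 c0 hb
      refine PI_mono hstep (le_of_eq ?_)
      push_cast
      ring
    · have hno : ∀ e : Edge n, v ∈ e.1 → ¬ mixed (pinned d Q P) e := by
        intro e hev hmix
        exact hex ⟨e, hev, hmix⟩
      refine PI_mono (PI_pinned_base hc hQ hno hfib) ?_
      have : (0 : ℝ) ≤ κ * ((k + 1 : ℕ) : ℝ) := by positivity
      linarith

/-! ### Outer induction on the number of non-isolated vertices -/

/-- The non-isolated vertices of a degree vector. -/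
def nonIsol (d : Fin n → ℕ) : Finset (Fin n) := univ.filter (fun u => 0 < d u)

lemma mem_nonIsol {d : Fin n → ℕ} {u : Fin n} : u ∈ nonIsol d ↔ 0 < d u := by
  unfold nonIsol
  simp

/-- The bit lemma for all classes on `n` vertices: every class with at least two realizations
has a non-isolated vertex `v` at which the bit estimates hold with constant `κ`. -/
def BitLemma (n : ℕ) (κ : ℝ) : Prop :=
  ∀ d : Fin n → ℕ, 2 ≤ (realizations d).card → ∃ v, 0 < d v ∧ BitAt d v κ

lemma deg_atV_self (v : Fin n) (E : Finset (Edge n)) : deg (atV v E) v = deg E v := by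
  have h := deg_split v E v
  rw [deg_offV_self] at h
  omega

lemma nonIsol_dA_subset {d : Fin n → ℕ} {v : Fin n} {E₀ : Finset (Edge n)}
    (hE₀ : E₀ ∈ realizations d) : nonIsol (dA d (atV v E₀)) ⊆ (nonIsol d).erase v := by
  intro u hu
  rw [mem_nonIsol] at hu
  rw [Finset.mem_erase, mem_nonIsol]
  unfold dA at hu
  refine ⟨?_, by omega⟩
  rintro rfl
  have h1 : deg (atV u E₀) u = d u := by
    rw [deg_atV_self, (mem_realizations.mp hE₀) u]
  omega

lemma card_mixedAt_le {d : Fin n → ℕ} {v : Fin n} (hv : 0 < d v) :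
    (mixedAt v (realizations d)).card ≤ (nonIsol d).card - 1 := by
  rw [← Finset.card_erase_of_mem (mem_nonIsol.mpr hv)]
  apply Finset.card_le_card_of_injOn (fun e => if h : v ∈ e.1 then Sym2.Mem.other' h else v)
  · intro e he
    rw [Finset.mem_coe, mem_mixedAt] at he
    obtain ⟨hve, hmix⟩ := he
    simp only [dif_pos hve]
    have hspec : s(v, Sym2.Mem.other' hve) = e.1 := Sym2.other_spec' hve
    have hav : Sym2.Mem.other' hve ≠ v := by
      intro h
      apply e.2
      rw [← hspec, h]
      exact Sym2.mk_isDiag_iff.mpr rfl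
    obtain ⟨E, hE⟩ := hmix.1
    rw [Finset.mem_filter] at hE
    have hdeg : 0 < deg E (Sym2.Mem.other' hve) := by
      unfold deg
      apply Finset.card_pos.mpr
      exact ⟨e, Finset.mem_filter.mpr ⟨hE.2, Sym2.other_mem' hve⟩⟩
    rw [(mem_realizations.mp hE.1) _] at hdeg
    rw [Finset.mem_coe, Finset.mem_erase, mem_nonIsol]
    exact ⟨hav, hdeg⟩
  · intro e he e' he' h
    rw [Finset.mem_coe, mem_mixedAt] at he he'
    simp only [dif_pos he.1, dif_pos he'.1] at h
    apply Subtype.ext
    rw [← Sym2.other_spec' he.1, ← Sym2.other_spec' he'.1, h]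

/-- The bit lemma with constant `κ` gives the Poincaré inequality in switch form with constant
`κ · C(m,2)` for every class with at most `m` non-isolated vertices. -/
theorem PI_of_bitLemma {κ : ℝ} (hκ : 0 ≤ κ) (h : BitLemma n κ) :
    ∀ (m : ℕ) (d : Fin n → ℕ), (nonIsol d).card ≤ m →
      PI (realizations d) (κ * (m.choose 2 : ℝ)) := by
  intro m
  induction m with
  | zero =>
    intro d hd
    by_cases h2 : 2 ≤ (realizations d).card
    · obtain ⟨v, hv, -⟩ := h d h2
      have := Finset.card_pos.mpr ⟨v, mem_nonIsol.mpr hv⟩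
      omega
    · exact PI_of_card_le_one (by omega) (by positivity)
  | succ m ih =>
    intro d hd
    by_cases h2 : 2 ≤ (realizations d).card
    · obtain ⟨v, hv, hbit⟩ := h d h2
      have hpos : 0 < (nonIsol d).card := Finset.card_pos.mpr ⟨v, mem_nonIsol.mpr hv⟩
      have hfib : ∀ A E₀, E₀ ∈ fib d v A → PI (fib d v A) (κ * (m.choose 2 : ℝ)) := by
        intro A E₀ hE₀
        apply PI_fib hE₀
        apply ih
        have hA : A = atV v E₀ := ((mem_fib.mp hE₀).2).symm
        rw [hA]
        have h1 := Finset.card_le_card (nonIsol_dA_subset (v := v) (mem_fib.mp hE₀).1)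
        rw [Finset.card_erase_of_mem (mem_nonIsol.mpr hv)] at h1
        omega
      have hk := card_mixedAt_le hv
      have h3 := PI_pinned (d := d) (v := v) (c := κ * (m.choose 2 : ℝ)) (κ := κ) (by positivity)
        hκ hfib hbit m ∅ ∅ (by simp) (by simp) (by rw [pinned_empty]; omega)
      rw [pinned_empty] at h3
      refine PI_mono h3 (le_of_eq ?_)
      have h4 : ((m + 1).choose 2 : ℝ) = (m : ℝ) + (m.choose 2 : ℝ) := by
        rw [show (2 : ℕ) = 1 + 1 from rfl, Nat.choose_succ_succ', Nat.choose_one_right]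
        push_cast
        ring
      rw [h4]
      ring
    · exact PI_of_card_le_one (by omega) (by positivity)

/-- The bit lemma with constant `2` (ordered-pair energy; `= 4` for unordered switch edges)
gives the switch-form Poincaré inequality with constant `n²`. -/
theorem SW_of_bitLemma (h : BitLemma n 2) (d : Fin n → ℕ) :
    PI (realizations d) ((n : ℝ) ^ 2) := by
  have hcard : (nonIsol d).card ≤ n := by
    have := Finset.card_le_univ (nonIsol d)
    simpa using this
  have h1 := PI_of_bitLemma (by norm_num) h n d hcard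
  refine PI_mono h1 ?_
  have h2 : n.choose 2 * 2 ≤ n ^ 2 := by
    rw [Nat.choose_two_right]
    have h3 : n * (n - 1) / 2 * 2 ≤ n * (n - 1) := Nat.div_mul_le_self _ _
    have h4 : n * (n - 1) ≤ n ^ 2 := by
      rw [pow_two]
      exact Nat.mul_le_mul_left n (Nat.sub_le n 1)
    omega
  have h5 : ((n.choose 2 * 2 : ℕ) : ℝ) ≤ ((n ^ 2 : ℕ) : ℝ) := by exact_mod_cast h2
  push_cast at h5
  linarith

/-- The full statement S0453 from the bit lemma with constant `2`. -/
theorem S0453_of_bitLemma (n : ℕ) (hn : 4 ≤ n) (h : BitLemma n 2) (d : Fin n → ℕ)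
    (hd : (Crest.SwitchChain.realizations d).Nonempty) :
    (∃ t : ℕ, t ≤ 2 * n ^ 8 ∧ ∀ G ∈ Crest.SwitchChain.realizations d,
        Crest.SwitchChain.tvDist (fun G' => (Crest.SwitchChain.kernel n ^ t) G G')
          (Crest.SwitchChain.unifOn (Crest.SwitchChain.realizations d)) ≤ 1 / 4) ∧
      ∀ f : Finset (Crest.SwitchChain.Edge n) → ℝ,
        ((Crest.SwitchChain.realizations d).card : ℝ) *
              (∑ G ∈ Crest.SwitchChain.realizations d, f G ^ 2) -
            (∑ G ∈ Crest.SwitchChain.realizations d, f G) ^ 2 ≤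
          24 * (n : ℝ) ^ 2 * (n.choose 4 : ℝ) * (Crest.SwitchChain.realizations d).card *
            ∑ G ∈ Crest.SwitchChain.realizations d,
              f G * (f G - ∑ G' ∈ Crest.SwitchChain.realizations d,
                Crest.SwitchChain.kernel n G G' * f G') :=
  S0453_of_poincare n hn d hd (poincare_of_switch_form n hn d (fun f => by
    have h1 := SW_of_bitLemma h d f
    unfold energy at h1
    exact h1))

end Crest.Agent.S0453.Helper76
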