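import Mathlib
import Crest.Prelude.Def_SwitchChain
import Crest.Agent.Lib.S0453.Helper76Rec

set_option autoImplicit false
open Finset

namespace Crest.Agent.S0453.Helper76

open Crest.SwitchChain

variable {n : ℕ}

/-! ### Sufficient conditions for the bit estimate: flows and two-step couplings -/

lemma one_le_cast_proposalCount {Z Z' : Finset (Edge n)} (h : proposalCount Z Z' ≠ 0) :
    (1 : ℝ) ≤ (proposalCount Z Z' : ℝ) := by
  exact_mod_cast Nat.one_le_iff_ne_zero.mpr h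

/-- The difference of the (scaled) block sums as a sum against the block indicator. -/
lemma block_diff_eq {C : Finset (Finset (Edge n))} (p : Finset (Edge n) → Prop) [DecidablePred p]
    (f : Finset (Edge n) → ℝ) :
    ((C.filter (fun E => ¬ p E)).card : ℝ) * ∑ G ∈ C.filter p, f G -
        ((C.filter p).card : ℝ) * ∑ G ∈ C.filter (fun E => ¬ p E), f G =
      ∑ Z ∈ C, f Z * (if p Z then ((C.filter (fun E => ¬ p E)).card : ℝ)
        else -((C.filter p).card : ℝ)) := by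
  rw [← Finset.sum_filter_add_sum_filter_not C p]
  have h1 : ∑ Z ∈ C.filter p, f Z * (if p Z then ((C.filter (fun E => ¬ p E)).card : ℝ)
        else -((C.filter p).card : ℝ)) =
      ((C.filter (fun E => ¬ p E)).card : ℝ) * ∑ G ∈ C.filter p, f G := by
    rw [Finset.mul_sum]
    apply Finset.sum_congr rfl
    intro Z hZ
    rw [if_pos (Finset.mem_filter.mp hZ).2]
    ring
  have h2 : ∑ Z ∈ C.filter (fun E => ¬ p E), f Z *
        (if p Z then ((C.filter (fun E => ¬ p E)).card : ℝ) else -((C.filter p).card : ℝ)) =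
      -(((C.filter p).card : ℝ) * ∑ G ∈ C.filter (fun E => ¬ p E), f G) := by
    rw [Finset.mul_sum, ← Finset.sum_neg_distrib]
    apply Finset.sum_congr rfl
    intro Z hZ
    rw [if_neg (Finset.mem_filter.mp hZ).2]
    ring
  rw [h1, h2]
  ring

/-- FLOW FORM of the bit estimate: a flow `θ` on ordered switch pairs inside `C` whose
divergence is `N0` on the block `p` and `-N1` on its complement (i.e. `N1 N0` times
`unif(p-block) - unif(complement)`), with energy `∑ θ² ≤ K`, gives the two-block estimate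
with `K` in place of `κ N N1 N0`. -/
lemma bit_of_flow {C : Finset (Finset (Edge n))} (p : Finset (Edge n) → Prop) [DecidablePred p]
    (θ : Finset (Edge n) → Finset (Edge n) → ℝ) {K : ℝ}
    (hsupp : ∀ Z ∈ C, ∀ Z' ∈ C, θ Z Z' ≠ 0 → proposalCount Z Z' ≠ 0)
    (hdiv : ∀ Z ∈ C, ∑ Z' ∈ C, (θ Z Z' - θ Z' Z) =
      if p Z then ((C.filter (fun E => ¬ p E)).card : ℝ) else -((C.filter p).card : ℝ))
    (hen : ∑ Z ∈ C, ∑ Z' ∈ C, θ Z Z' ^ 2 ≤ K) (f : Finset (Edge n) → ℝ) :
    (((C.filter (fun E => ¬ p E)).card : ℝ) * ∑ G ∈ C.filter p, f G -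
        ((C.filter p).card : ℝ) * ∑ G ∈ C.filter (fun E => ¬ p E), f G) ^ 2 ≤
      K * energy C f := by
  classical
  rw [block_diff_eq p f]
  -- rewrite as a double sum of θ (f Z - f Z')
  have h1 : ∑ Z ∈ C, f Z * (if p Z then ((C.filter (fun E => ¬ p E)).card : ℝ)
        else -((C.filter p).card : ℝ)) =
      ∑ Z ∈ C, ∑ Z' ∈ C, θ Z Z' * (f Z - f Z') := by
    have e1 : ∑ Z ∈ C, f Z * (if p Z then ((C.filter (fun E => ¬ p E)).card : ℝ)
          else -((C.filter p).card : ℝ)) =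
        ∑ Z ∈ C, f Z * ∑ Z' ∈ C, (θ Z Z' - θ Z' Z) :=
      Finset.sum_congr rfl (fun Z hZ => by rw [hdiv Z hZ])
    rw [e1]
    have e2 : ∑ Z ∈ C, f Z * ∑ Z' ∈ C, (θ Z Z' - θ Z' Z) =
        ∑ Z ∈ C, ∑ Z' ∈ C, θ Z Z' * f Z - ∑ Z ∈ C, ∑ Z' ∈ C, θ Z' Z * f Z := by
      rw [← Finset.sum_sub_distrib]
      apply Finset.sum_congr rfl
      intro Z _
      rw [Finset.mul_sum, ← Finset.sum_sub_distrib]
      apply Finset.sum_congr rfl
      intro Z' _
      ring
    have e3 : ∑ Z ∈ C, ∑ Z' ∈ C, θ Z' Z * f Z = ∑ Z ∈ C, ∑ Z' ∈ C, θ Z Z' * f Z' :=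
      Finset.sum_comm
    rw [e2, e3, ← Finset.sum_sub_distrib]
    apply Finset.sum_congr rfl
    intro Z _
    rw [← Finset.sum_sub_distrib]
    apply Finset.sum_congr rfl
    intro Z' _
    ring
  rw [h1]
  -- Cauchy–Schwarz on the product index set
  have h2 : ∑ Z ∈ C, ∑ Z' ∈ C, θ Z Z' * (f Z - f Z') =
      ∑ x ∈ C ×ˢ C, θ x.1 x.2 * ((if θ x.1 x.2 ≠ 0 then 1 else 0) * (f x.1 - f x.2)) := by
    rw [Finset.sum_product]
    apply Finset.sum_congr rfl
    intro Z _
    apply Finset.sum_congr rfl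
    intro Z' _
    by_cases h : θ Z Z' = 0
    · simp [h]
    · simp [h]
  rw [h2]
  have hcs := Finset.sum_mul_sq_le_sq_mul_sq (C ×ˢ C) (fun x => θ x.1 x.2)
    (fun x => (if θ x.1 x.2 ≠ 0 then (1 : ℝ) else 0) * (f x.1 - f x.2))
  refine hcs.trans ?_
  have h3 : ∑ x ∈ C ×ˢ C, θ x.1 x.2 ^ 2 = ∑ Z ∈ C, ∑ Z' ∈ C, θ Z Z' ^ 2 := by
    rw [Finset.sum_product]
  have h4 : ∑ x ∈ C ×ˢ C, ((if θ x.1 x.2 ≠ 0 then (1 : ℝ) else 0) * (f x.1 - f x.2)) ^ 2 ≤
      energy C f := by
    unfold energy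
    rw [Finset.sum_product]
    apply Finset.sum_le_sum
    intro Z hZ
    apply Finset.sum_le_sum
    intro Z' hZ'
    by_cases h : θ Z Z' = 0
    · have h7 : ((if θ Z Z' ≠ 0 then (1 : ℝ) else 0) * (f Z - f Z')) ^ 2 = 0 := by simp [h]
      rw [h7]
      positivity
    · simp only [ne_eq, h, not_false_eq_true, if_true, one_mul]
      have h5 := one_le_cast_proposalCount (hsupp Z hZ Z' hZ' h)
      have h6 : 0 ≤ (f Z - f Z') ^ 2 := sq_nonneg _
      nlinarith
  rw [h3]
  have hE := energy_nonneg C f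
  have h0 : 0 ≤ ∑ Z ∈ C, ∑ Z' ∈ C, θ Z Z' ^ 2 := by
    apply Finset.sum_nonneg
    intro Z _
    apply Finset.sum_nonneg
    intro Z' _
    positivity
  calc (∑ Z ∈ C, ∑ Z' ∈ C, θ Z Z' ^ 2) *
        ∑ x ∈ C ×ˢ C, ((if θ x.1 x.2 ≠ 0 then (1 : ℝ) else 0) * (f x.1 - f x.2)) ^ 2
      ≤ (∑ Z ∈ C, ∑ Z' ∈ C, θ Z Z' ^ 2) * energy C f := mul_le_mul_of_nonneg_left h4 h0
    _ ≤ K * energy C f := mul_le_mul_of_nonneg_right hen hE

lemma sq_le_row_energy {C : Finset (Finset (Edge n))} (f : Finset (Edge n) → ℝ)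
    {X Z : Finset (Edge n)} (hZ : Z ∈ C) (h : X = Z ∨ proposalCount X Z ≠ 0) :
    (f X - f Z) ^ 2 ≤ ∑ Z' ∈ C, (proposalCount X Z' : ℝ) * (f X - f Z') ^ 2 := by
  have hnn : ∀ Z' ∈ C, 0 ≤ (proposalCount X Z' : ℝ) * (f X - f Z') ^ 2 :=
    fun Z' _ => mul_nonneg (Nat.cast_nonneg _) (sq_nonneg _)
  rcases h with h | h
  · rw [h, sub_self]
    have := Finset.sum_nonneg hnn
    rw [h] at this
    simpa using this
  · have h1 := Finset.single_le_sum hnn hZ
    have h5 := one_le_cast_proposalCount h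
    have h6 : (f X - f Z) ^ 2 ≤ (proposalCount X Z : ℝ) * (f X - f Z) ^ 2 :=
      le_mul_of_one_le_left (sq_nonneg _) h5
    exact h6.trans h1

lemma sq_le_col_energy {C : Finset (Finset (Edge n))} (f : Finset (Edge n) → ℝ)
    {Z Y : Finset (Edge n)} (hZ : Z ∈ C) (h : Z = Y ∨ proposalCount Z Y ≠ 0) :
    (f Z - f Y) ^ 2 ≤ ∑ Z' ∈ C, (proposalCount Z' Y : ℝ) * (f Z' - f Y) ^ 2 := by
  have hnn : ∀ Z' ∈ C, 0 ≤ (proposalCount Z' Y : ℝ) * (f Z' - f Y) ^ 2 :=
    fun Z' _ => mul_nonneg (Nat.cast_nonneg _) (sq_nonneg _)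
  rcases h with h | h
  · rw [h, sub_self]
    have := Finset.sum_nonneg hnn
    simpa using this
  · have h1 := Finset.single_le_sum hnn hZ
    have h5 := one_le_cast_proposalCount h
    have h6 : (f Z - f Y) ^ 2 ≤ (proposalCount Z Y : ℝ) * (f Z - f Y) ^ 2 :=
      le_mul_of_one_le_left (sq_nonneg _) h5
    exact h6.trans h1

lemma sq_sub_le_two (a b c : ℝ) : (a - c) ^ 2 ≤ 2 * (a - b) ^ 2 + 2 * (b - c) ^ 2 := by
  nlinarith [sq_nonneg (a - 2 * b + c)]

/-- COUPLING FORM (switch distance at most two): weights `w X Y ≥ 0` on `A × B`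
(`A` = the `p`-block, `B` = its complement) with row sums `|B|` and column sums `|A|`
(i.e. `|A||B|` times a coupling of the two uniform laws), and for every pair of positive weight a
midpoint `z X Y ∈ C` with `X = z` or `X ~ z`, and `z = Y` or `z ~ Y` (`~` = one switch),
give the bit estimate with `κ = 2` (i.e. `4` per unordered switch edge). -/
lemma bit_of_coupling2 {C : Finset (Finset (Edge n))} (p : Finset (Edge n) → Prop)
    [DecidablePred p] (w : Finset (Edge n) → Finset (Edge n) → ℝ)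
    (z : Finset (Edge n) → Finset (Edge n) → Finset (Edge n))
    (hw : ∀ X ∈ C.filter p, ∀ Y ∈ C.filter (fun E => ¬ p E), 0 ≤ w X Y)
    (hA : ∀ X ∈ C.filter p, ∑ Y ∈ C.filter (fun E => ¬ p E), w X Y =
      ((C.filter (fun E => ¬ p E)).card : ℝ))
    (hB : ∀ Y ∈ C.filter (fun E => ¬ p E), ∑ X ∈ C.filter p, w X Y = ((C.filter p).card : ℝ))
    (hz : ∀ X ∈ C.filter p, ∀ Y ∈ C.filter (fun E => ¬ p E), w X Y ≠ 0 →
      z X Y ∈ C ∧ (X = z X Y ∨ proposalCount X (z X Y) ≠ 0) ∧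
        (z X Y = Y ∨ proposalCount (z X Y) Y ≠ 0))
    (f : Finset (Edge n) → ℝ) :
    (((C.filter (fun E => ¬ p E)).card : ℝ) * ∑ G ∈ C.filter p, f G -
        ((C.filter p).card : ℝ) * ∑ G ∈ C.filter (fun E => ¬ p E), f G) ^ 2 ≤
      2 * C.card * (C.filter p).card * (C.filter (fun E => ¬ p E)).card * energy C f := by
  classical
  set A := C.filter p with hAdef
  set B := C.filter (fun E => ¬ p E) with hBdef
  have hcard : (C.card : ℝ) = (A.card : ℝ) + (B.card : ℝ) := by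
    rw [← Nat.cast_add, hAdef, hBdef, Finset.card_filter_add_card_filter_not]
  have hAC : A ⊆ C := Finset.filter_subset _ _
  have hBC : B ⊆ C := Finset.filter_subset _ _
  -- (a) the difference as a weighted sum
  have hD : (B.card : ℝ) * ∑ G ∈ A, f G - (A.card : ℝ) * ∑ G ∈ B, f G =
      ∑ x ∈ A ×ˢ B, w x.1 x.2 * (f x.1 - f x.2) := by
    rw [Finset.sum_product]
    have e1 : (B.card : ℝ) * ∑ G ∈ A, f G = ∑ X ∈ A, ∑ Y ∈ B, w X Y * f X := by
      rw [Finset.mul_sum]
      apply Finset.sum_congr rfl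
      intro X hX
      rw [← Finset.sum_mul, hA X hX]
    have e2 : (A.card : ℝ) * ∑ G ∈ B, f G = ∑ X ∈ A, ∑ Y ∈ B, w X Y * f Y := by
      rw [Finset.sum_comm, Finset.mul_sum]
      apply Finset.sum_congr rfl
      intro Y hY
      rw [← Finset.sum_mul, hB Y hY]
    rw [e1, e2, ← Finset.sum_sub_distrib]
    apply Finset.sum_congr rfl
    intro X _
    rw [← Finset.sum_sub_distrib]
    apply Finset.sum_congr rfl
    intro Y _
    ring
  -- (b) total mass
  have hW : ∑ x ∈ A ×ˢ B, w x.1 x.2 = (A.card : ℝ) * (B.card : ℝ) := by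
    rw [Finset.sum_product]
    rw [Finset.sum_congr rfl hA]
    simp
  -- (c) weighted Cauchy–Schwarz
  have hcs : (∑ x ∈ A ×ˢ B, w x.1 x.2 * (f x.1 - f x.2)) ^ 2 ≤
      (∑ x ∈ A ×ˢ B, w x.1 x.2) * ∑ x ∈ A ×ˢ B, w x.1 x.2 * (f x.1 - f x.2) ^ 2 := by
    apply Finset.sum_sq_le_sum_mul_sum_of_sq_le_mul
    · intro x hx
      rw [Finset.mem_product] at hx
      exact hw x.1 hx.1 x.2 hx.2
    · intro x hx
      rw [Finset.mem_product] at hx
      exact mul_nonneg (hw x.1 hx.1 x.2 hx.2) (sq_nonneg _)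
    · intro x _
      exact le_of_eq (by ring)
  -- (d)-(f) bound the weighted squared differences by the energy
  have hE := energy_nonneg C f
  have hterm : ∀ X ∈ C, 0 ≤ ∑ Z ∈ C, (proposalCount X Z : ℝ) * (f X - f Z) ^ 2 := by
    intro X _
    apply Finset.sum_nonneg
    intro Z _
    positivity
  have hterm' : ∀ Y ∈ C, 0 ≤ ∑ Z ∈ C, (proposalCount Z Y : ℝ) * (f Z - f Y) ^ 2 := by
    intro Y _
    apply Finset.sum_nonneg
    intro Z _
    positivity
  have hpt : ∀ x ∈ A ×ˢ B, w x.1 x.2 * (f x.1 - f x.2) ^ 2 ≤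
      2 * (w x.1 x.2 * ∑ Z ∈ C, (proposalCount x.1 Z : ℝ) * (f x.1 - f Z) ^ 2) +
      2 * (w x.1 x.2 * ∑ Z ∈ C, (proposalCount Z x.2 : ℝ) * (f Z - f x.2) ^ 2) := by
    intro x hx
    rw [Finset.mem_product] at hx
    obtain ⟨hX, hY⟩ := hx
    have hw0 := hw x.1 hX x.2 hY
    have t1 := hterm x.1 (hAC hX)
    have t2 := hterm' x.2 (hBC hY)
    by_cases h0 : w x.1 x.2 = 0
    · rw [h0]; simp
    · obtain ⟨hzC, hz1, hz2⟩ := hz x.1 hX x.2 hY h0
      have s1 : (f x.1 - f (z x.1 x.2)) ^ 2 ≤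
          ∑ Z ∈ C, (proposalCount x.1 Z : ℝ) * (f x.1 - f Z) ^ 2 := sq_le_row_energy f hzC hz1
      have s2 : (f (z x.1 x.2) - f x.2) ^ 2 ≤
          ∑ Z ∈ C, (proposalCount Z x.2 : ℝ) * (f Z - f x.2) ^ 2 := sq_le_col_energy f hzC hz2
      have s3 : (f x.1 - f x.2) ^ 2 ≤
          2 * (f x.1 - f (z x.1 x.2)) ^ 2 + 2 * (f (z x.1 x.2) - f x.2) ^ 2 :=
        sq_sub_le_two _ _ _
      calc w x.1 x.2 * (f x.1 - f x.2) ^ 2
          ≤ w x.1 x.2 * (2 * (f x.1 - f (z x.1 x.2)) ^ 2 + 2 * (f (z x.1 x.2) - f x.2) ^ 2) :=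
            mul_le_mul_of_nonneg_left s3 hw0
        _ ≤ w x.1 x.2 * (2 * (∑ Z ∈ C, (proposalCount x.1 Z : ℝ) * (f x.1 - f Z) ^ 2) +
              2 * ∑ Z ∈ C, (proposalCount Z x.2 : ℝ) * (f Z - f x.2) ^ 2) :=
            mul_le_mul_of_nonneg_left (by linarith) hw0
        _ = _ := by ring
  have hsum1 : ∑ x ∈ A ×ˢ B, w x.1 x.2 * ∑ Z ∈ C, (proposalCount x.1 Z : ℝ) * (f x.1 - f Z) ^ 2
      ≤ (B.card : ℝ) * energy C f := by
    rw [Finset.sum_product]
    have e1 : ∑ X ∈ A, ∑ Y ∈ B, w X Y * ∑ Z ∈ C, (proposalCount X Z : ℝ) * (f X - f Z) ^ 2 =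
        ∑ X ∈ A, (B.card : ℝ) * ∑ Z ∈ C, (proposalCount X Z : ℝ) * (f X - f Z) ^ 2 := by
      apply Finset.sum_congr rfl
      intro X hX
      rw [← Finset.sum_mul, hA X hX]
    rw [e1, ← Finset.mul_sum]
    apply mul_le_mul_of_nonneg_left _ (Nat.cast_nonneg _)
    unfold energy
    exact Finset.sum_le_sum_of_subset_of_nonneg hAC (fun X hX _ => hterm X hX)
  have hsum2 : ∑ x ∈ A ×ˢ B, w x.1 x.2 * ∑ Z ∈ C, (proposalCount Z x.2 : ℝ) * (f Z - f x.2) ^ 2
      ≤ (A.card : ℝ) * energy C f := by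
    rw [Finset.sum_product, Finset.sum_comm]
    have e1 : ∑ Y ∈ B, ∑ X ∈ A, w X Y * ∑ Z ∈ C, (proposalCount Z Y : ℝ) * (f Z - f Y) ^ 2 =
        ∑ Y ∈ B, (A.card : ℝ) * ∑ Z ∈ C, (proposalCount Z Y : ℝ) * (f Z - f Y) ^ 2 := by
      apply Finset.sum_congr rfl
      intro Y hY
      rw [← Finset.sum_mul, hB Y hY]
    rw [e1, ← Finset.mul_sum]
    apply mul_le_mul_of_nonneg_left _ (Nat.cast_nonneg _)
    have e2 : energy C f = ∑ Y ∈ C, ∑ Z ∈ C, (proposalCount Z Y : ℝ) * (f Z - f Y) ^ 2 := by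
      unfold energy
      exact Finset.sum_comm
    rw [e2]
    exact Finset.sum_le_sum_of_subset_of_nonneg hBC (fun Y hY _ => hterm' Y hY)
  have hsq : ∑ x ∈ A ×ˢ B, w x.1 x.2 * (f x.1 - f x.2) ^ 2 ≤
      2 * ((B.card : ℝ) * energy C f) + 2 * ((A.card : ℝ) * energy C f) := by
    refine (Finset.sum_le_sum hpt).trans ?_
    rw [Finset.sum_add_distrib, ← Finset.mul_sum, ← Finset.mul_sum]
    linarith
  rw [hD]
  refine hcs.trans ?_
  rw [hW, hcard]
  have hAB : (0 : ℝ) ≤ (A.card : ℝ) * (B.card : ℝ) := by positivity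
  calc (A.card : ℝ) * (B.card : ℝ) * ∑ x ∈ A ×ˢ B, w x.1 x.2 * (f x.1 - f x.2) ^ 2
      ≤ (A.card : ℝ) * (B.card : ℝ) *
          (2 * ((B.card : ℝ) * energy C f) + 2 * ((A.card : ℝ) * energy C f)) :=
        mul_le_mul_of_nonneg_left hsq hAB
    _ = 2 * ((A.card : ℝ) + (B.card : ℝ)) * (A.card : ℝ) * (B.card : ℝ) * energy C f := by ring

/-! ### General exposure trees (arbitrary, possibly adaptive, order of the pairs) -/

open Classical in
/-- All mixed pairs of `C`. -/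
noncomputable def mixedAll (C : Finset (Finset (Edge n))) : Finset (Edge n) :=
  univ.filter (fun e => mixed C e)

lemma mem_mixedAll {C : Finset (Finset (Edge n))} {e : Edge n} : e ∈ mixedAll C ↔ mixed C e := by
  unfold mixedAll
  simp

lemma card_le_one_of_no_mixed {C : Finset (Finset (Edge n))} (h : ∀ e, ¬ mixed C e) :
    C.card ≤ 1 := by
  rw [Finset.card_le_one]
  intro E hE E' hE'
  ext e
  constructor
  · intro he
    by_contra he'
    exact h e ⟨⟨E, Finset.mem_filter.mpr ⟨hE, he⟩⟩, ⟨E', Finset.mem_filter.mpr ⟨hE', he'⟩⟩⟩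
  · intro he
    by_contra he'
    exact h e ⟨⟨E', Finset.mem_filter.mpr ⟨hE', he⟩⟩, ⟨E, Finset.mem_filter.mpr ⟨hE, he'⟩⟩⟩

lemma card_mixedAll_filter_lt {C : Finset (Finset (Edge n))} {e : Edge n}
    (p : Finset (Edge n) → Prop) [DecidablePred p] (hmix : mixed C e)
    (hnm : ¬ mixed (C.filter p) e) :
    (mixedAll (C.filter p)).card < (mixedAll C).card := by
  have hmem : e ∈ mixedAll C := mem_mixedAll.mpr hmix
  have hsub : mixedAll (C.filter p) ⊆ (mixedAll C).erase e := by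
    intro e' he'
    rw [mem_mixedAll] at he'
    rw [Finset.mem_erase, mem_mixedAll]
    refine ⟨?_, mixed_of_mixed_filter he'⟩
    rintro rfl
    exact hnm he'
  have h1 := Finset.card_le_card hsub
  rw [Finset.card_erase_of_mem hmem] at h1
  have h2 : 0 < (mixedAll C).card := Finset.card_pos.mpr ⟨e, hmem⟩
  omega

/-- The bit estimate for the pair `e` in the class `C` with constant `κ` (ordered-pair energy). -/
def BitIneq (C : Finset (Finset (Edge n))) (e : Edge n) (κ : ℝ) : Prop :=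
  ∀ f : Finset (Edge n) → ℝ,
    (((C.filter (fun E => e ∉ E)).card : ℝ) * ∑ G ∈ C.filter (fun E => e ∈ E), f G -
      ((C.filter (fun E => e ∈ E)).card : ℝ) * ∑ G ∈ C.filter (fun E => e ∉ E), f G) ^ 2 ≤
    κ * C.card * (C.filter (fun E => e ∈ E)).card * (C.filter (fun E => e ∉ E)).card *
      energy C f

/-- Exposure-tree recursion for an arbitrary (adaptive) order of the pairs: `Good Q P` is any
invariant of the visited nodes `(Q, P)` (decided pairs, decided-present pairs) that is preserved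
by deciding the chosen pair either way. -/
theorem PI_of_strategy {d : Fin n → ℕ} {κ : ℝ} (hκ : 0 ≤ κ)
    (Good : Finset (Edge n) → Finset (Edge n) → Prop)
    (hstep : ∀ Q P, Good Q P → P ⊆ Q → (∃ e, mixed (pinned d Q P) e) →
      ∃ e, mixed (pinned d Q P) e ∧ Good (insert e Q) (insert e P) ∧ Good (insert e Q) P ∧
        BitIneq (pinned d Q P) e κ) :
    ∀ (k : ℕ) (Q P : Finset (Edge n)), Good Q P → P ⊆ Q →
      (mixedAll (pinned d Q P)).card ≤ k → PI (pinned d Q P) (κ * k) := by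
  intro k
  induction k with
  | zero =>
    intro Q P _ _ hk
    have hno : ∀ e : Edge n, ¬ mixed (pinned d Q P) e := by
      intro e hmix
      have := Finset.card_pos.mpr ⟨e, mem_mixedAll.mpr hmix⟩
      omega
    exact PI_of_card_le_one (card_le_one_of_no_mixed hno) (by simp)
  | succ k ih =>
    intro Q P hG hP hk
    by_cases hex : ∃ e : Edge n, mixed (pinned d Q P) e
    · obtain ⟨e, hmix, hG1, hG0, hb⟩ := hstep Q P hG hP hex
      have heQ : e ∉ Q := by
        intro heQ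
        obtain ⟨⟨E, hE⟩, ⟨E', hE'⟩⟩ := hmix
        rw [Finset.mem_filter] at hE hE'
        have h1 : E ∩ Q = P := (Finset.mem_filter.mp hE.1).2
        have h2 : E' ∩ Q = P := (Finset.mem_filter.mp hE'.1).2
        have h3 : e ∈ E' ∩ Q := by
          rw [h2, ← h1]
          exact Finset.mem_inter.mpr ⟨hE.2, heQ⟩
        exact hE'.2 (Finset.mem_inter.mp h3).1
      have hc' : 0 ≤ κ * k := by positivity
      have c1 : PI ((pinned d Q P).filter (fun E => e ∈ E)) (κ * k) := by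
        have hlt := card_mixedAll_filter_lt (fun E => e ∈ E) hmix not_mixed_filter_mem
        rw [pinned_filter_mem heQ hP] at hlt ⊢
        exact ih (insert e Q) (insert e P) hG1 (Finset.insert_subset_insert e hP) (by omega)
      have c0 : PI ((pinned d Q P).filter (fun E => e ∉ E)) (κ * k) := by
        have hlt := card_mixedAll_filter_lt (fun E => e ∉ E) hmix not_mixed_filter_not_mem
        rw [pinned_filter_not_mem heQ hP] at hlt ⊢
        exact ih (insert e Q) P hG0 (hP.trans (Finset.subset_insert e Q)) (by omega)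
      have hstep' := PI_step (C := pinned d Q P) (fun E => e ∈ E) hc' hκ c1 c0 hb
      refine PI_mono hstep' (le_of_eq ?_)
      push_cast
      ring
    · have hno : ∀ e : Edge n, ¬ mixed (pinned d Q P) e := fun e hmix => hex ⟨e, hmix⟩
      exact PI_of_card_le_one (card_le_one_of_no_mixed hno) (by positivity)

lemma card_edge_eq (n : ℕ) : Fintype.card (Edge n) = n.choose 2 := by
  have h := Sym2.card_subtype_not_diag (α := Fin n)
  rw [Fintype.card_fin] at h
  exact h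

lemma two_mul_choose_two_le (n : ℕ) : (2 : ℝ) * (n.choose 2 : ℝ) ≤ (n : ℝ) ^ 2 := by
  have h2 : n.choose 2 * 2 ≤ n ^ 2 := by
    rw [Nat.choose_two_right]
    have h3 : n * (n - 1) / 2 * 2 ≤ n * (n - 1) := Nat.div_mul_le_self _ _
    have h4 : n * (n - 1) ≤ n ^ 2 := by
      rw [pow_two]
      exact Nat.mul_le_mul_left n (Nat.sub_le n 1)
    omega
  have h5 : ((n.choose 2 * 2 : ℕ) : ℝ) ≤ ((n ^ 2 : ℕ) : ℝ) := by exact_mod_cast h2
  push_cast at h5
  linarith

/-- General exposure tree with bit constant `2` gives the switch-form Poincaré inequality with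
constant `n²`. -/
theorem SW_of_strategy {d : Fin n → ℕ} (Good : Finset (Edge n) → Finset (Edge n) → Prop)
    (h0 : Good ∅ ∅)
    (hstep : ∀ Q P, Good Q P → P ⊆ Q → (∃ e, mixed (pinned d Q P) e) →
      ∃ e, mixed (pinned d Q P) e ∧ Good (insert e Q) (insert e P) ∧ Good (insert e Q) P ∧
        BitIneq (pinned d Q P) e 2) :
    PI (realizations d) ((n : ℝ) ^ 2) := by
  have hk : (mixedAll (pinned d ∅ ∅)).card ≤ n.choose 2 := by
    rw [← card_edge_eq n]
    exact Finset.card_le_univ _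
  have h1 := PI_of_strategy (by norm_num : (0 : ℝ) ≤ 2) Good hstep (n.choose 2) ∅ ∅ h0
    (Finset.Subset.refl _) hk
  rw [pinned_empty] at h1
  exact PI_mono h1 (two_mul_choose_two_le n)

/-- The full statement S0453 from a general exposure-tree strategy with bit constant `2`. -/
theorem S0453_of_strategy (n : ℕ) (hn : 4 ≤ n) (d : Fin n → ℕ)
    (hd : (Crest.SwitchChain.realizations d).Nonempty)
    (Good : Finset (Edge n) → Finset (Edge n) → Prop) (h0 : Good ∅ ∅)
    (hstep : ∀ Q P, Good Q P → P ⊆ Q → (∃ e, mixed (pinned d Q P) e) →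
      ∃ e, mixed (pinned d Q P) e ∧ Good (insert e Q) (insert e P) ∧ Good (insert e Q) P ∧
        BitIneq (pinned d Q P) e 2) :
    (∃ t : ℕ, t ≤ 2 * n ^ 8 ∧ ∀ G ∈ Crest.SwitchChain.realizations d,
        Crest.SwitchChain.tvDist (fun G' => (Crest.SwitchChain.kernel n ^ t) G G')
          (Crest.SwitchChain.unifOn (Crest.SwitchChain.realizations d)) ≤ 1 / 4) ∧
      ∀ f : Finset (Crest.SwitchChain.Edge n) → ℝ,
        ((Crest.SwitchChain.realizations d).card : ℝ) *
              (∑ G ∈ Crest.SwitchChain.realizations d, f G ^ 2) -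
            (∑ G ∈ Crest.SwitchChain.realizations d, f G) ^ 2 ≤
          24 * (n : ℝ) ^ 2 * (n.choose 4 : ℝ) * (Crest.SwitchChain.realizations d).card *
            ∑ G ∈ Crest.SwitchChain.realizations d,
              f G * (f G - ∑ G' ∈ Crest.SwitchChain.realizations d,
                Crest.SwitchChain.kernel n G G' * f G') :=
  S0453_of_poincare n hn d hd (poincare_of_switch_form n hn d (fun f => by
    have h1 := SW_of_strategy Good h0 hstep f
    unfold energy at h1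
    exact h1))

end Crest.Agent.S0453.Helper76
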