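import Mathlib
import Crest.Prelude.Def_SwitchChain
import Crest.Agent.Lib.S0453.Helper76Flow

set_option autoImplicit false
open Finset

namespace Crest.Agent.S0453.Helper76

open Crest.SwitchChain

variable {n : ℕ}

/-! ### Top-level interface: the whole statement S0453 from a Poincaré inequality in switch form

`energy C f = ∑_{G, G' ∈ C} proposalCount G G' * (f G - f G')^2` is the sum over ORDERED switch
pairs (so `energy = 2 ⟨f, L f⟩` for the switch Laplacian `L` with one unit per unordered switch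
edge), and `PI C c` says `|C| ∑ f² - (∑ f)² ≤ c |C| energy C f`, i.e.
`∑_{G ∈ C} (f G - mean)² ≤ c * energy C f`.  So `λ₂(L) ≥ γ` is `PI (realizations d) (1 / (2 γ))`,
and the statement needs any constant `c ≤ n²`. -/

/-- **The full statement S0453 from `PI (realizations d) c` with `c ≤ n²`.** -/
theorem S0453_of_PI (n : ℕ) (hn : 4 ≤ n) (d : Fin n → ℕ)
    (hd : (Crest.SwitchChain.realizations d).Nonempty) {c : ℝ} (hc : c ≤ (n : ℝ) ^ 2)
    (h : PI (realizations d) c) :
    (∃ t : ℕ, t ≤ 2 * n ^ 8 ∧ ∀ G ∈ Crest.SwitchChain.realizations d,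
        Crest.SwitchChain.tvDist (fun G' => (Crest.SwitchChain.kernel n ^ t) G G')
          (Crest.SwitchChain.unifOn (Crest.SwitchChain.realizations d)) ≤ 1 / 4) ∧
      ∀ f : Finset (Crest.SwitchChain.Edge n) → ℝ,
        ((Crest.SwitchChain.realizations d).card : ℝ) *
              (∑ G ∈ Crest.SwitchChain.realizations d, f G ^ 2) -
            (∑ G ∈ Crest.SwitchChain.realizations d, f G) ^ 2 ≤
          24 * (n : ℝ) ^ 2 * (n.choose 4 : ℝ) * (Crest.SwitchChain.realizations d).card *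
            ∑ G ∈ Crest.SwitchChain.realizations d,
              f G * (f G - ∑ G' ∈ Crest.SwitchChain.realizations d,
                Crest.SwitchChain.kernel n G G' * f G') :=
  S0453_of_poincare n hn d hd (poincare_of_switch_form n hn d (fun f => by
    have h1 := PI_mono h hc f
    unfold energy at h1
    exact h1))

/-- Centred form of `PI`: it suffices to bound `∑ (f - m)²` for ONE real `m` (e.g. the mean, or
any constant produced by a kernel argument). -/
lemma PI_of_centered {C : Finset (Finset (Edge n))} {c : ℝ}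
    (h : ∀ f : Finset (Edge n) → ℝ, ∃ m : ℝ, ∑ G ∈ C, (f G - m) ^ 2 ≤ c * energy C f) :
    PI C c := by
  intro f
  obtain ⟨m, hm⟩ := h f
  have hN : (0 : ℝ) ≤ C.card := Nat.cast_nonneg _
  -- |C| ∑ f² - (∑ f)² ≤ |C| ∑ (f - m)²
  have key : (C.card : ℝ) * ∑ G ∈ C, f G ^ 2 - (∑ G ∈ C, f G) ^ 2 ≤
      (C.card : ℝ) * ∑ G ∈ C, (f G - m) ^ 2 := by
    have e1 : ∑ G ∈ C, (f G - m) ^ 2 =
        ∑ G ∈ C, f G ^ 2 - 2 * m * ∑ G ∈ C, f G + (C.card : ℝ) * m ^ 2 := by
      have : ∀ G ∈ C, (f G - m) ^ 2 = f G ^ 2 - 2 * m * f G + m ^ 2 := fun G _ => by ring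
      rw [Finset.sum_congr rfl this, Finset.sum_add_distrib, Finset.sum_sub_distrib,
        ← Finset.mul_sum, Finset.sum_const, nsmul_eq_mul]
    rw [e1]
    nlinarith [sq_nonneg ((C.card : ℝ) * m - ∑ G ∈ C, f G)]
  calc (C.card : ℝ) * ∑ G ∈ C, f G ^ 2 - (∑ G ∈ C, f G) ^ 2
      ≤ (C.card : ℝ) * ∑ G ∈ C, (f G - m) ^ 2 := key
    _ ≤ (C.card : ℝ) * (c * energy C f) := mul_le_mul_of_nonneg_left hm hN
    _ = c * C.card * energy C f := by ring

end Crest.Agent.S0453.Helper76
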