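import Mathlib
import Crest.Prelude.Def_SwitchChain
import Crest.Agent.Lib.S0453.Helper76Knabe
import Crest.Agent.Lib.S0453.Helper76Top

/-!
# Row 299 / S0453: interface of the `H² ≥ H` (Knabe) route

Definitions and the *statements* of the packages (as `Prop`-valued definitions, so that the
assembly `Helper47Asm.lean` is complete and each package proves exactly one of them).

`Ω := realizations d`; all sums are over `Ω`; `cavg`, `energy`, `PI` are helper76's.
-/

set_option autoImplicit false
open Finset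

namespace Crest.Agent.S0453.Helper47

open Crest.SwitchChain Crest.Agent.S0453.Helper76

variable {n : ℕ}

/-- Hinge label of the pair `{a, b}`: the graph with all slots at `a` or `b` deleted. -/
def hinge (a b : Fin n) (G : Finset (Edge n)) : Finset (Edge n) :=
  G.filter (fun s => a ∉ s.1 ∧ b ∉ s.1)

/-- Adjacency in the graph `G`. -/
def adj (G : Finset (Edge n)) (a b : Fin n) : Prop := ∃ s ∈ G, s.1 = s(a, b)

instance (G : Finset (Edge n)) (a b : Fin n) : Decidable (adj G a b) := by
  unfold adj; infer_instance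

/-- The four slots of the block `{a, b} × {c, e}`. -/
def inX (a b c e : Fin n) (s : Edge n) : Prop :=
  s.1 = s(a, c) ∨ s.1 = s(a, e) ∨ s.1 = s(b, c) ∨ s.1 = s(b, e)

instance (a b c e : Fin n) (s : Edge n) : Decidable (inX a b c e s) := by
  unfold inX; infer_instance

/-- Block label: the graph with the four slots of the block `{a, b} × {c, e}` deleted. -/
def blockX (a b c e : Fin n) (G : Finset (Edge n)) : Finset (Edge n) :=
  G.filter (fun s => ¬ inX a b c e s)

/-- `a` has exactly one neighbour among `c, e`. -/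
def one (G : Finset (Edge n)) (a c e : Fin n) : Prop :=
  (adj G a c ∧ ¬ adj G a e) ∨ (¬ adj G a c ∧ adj G a e)

instance (G : Finset (Edge n)) (a c e : Fin n) : Decidable (one G a c e) := by
  unfold one; infer_instance

/-- `alpha a b c e G`: each of `a`, `b` has exactly one neighbour among `c, e`. -/
def alpha (a b c e : Fin n) (G : Finset (Edge n)) : Bool :=
  decide (one G a c e) && decide (one G b c e)

/-- Refined hinge label (the label of `Ê_{ab;ce}`). -/
def hingeA (a b c e : Fin n) (G : Finset (Edge n)) : Finset (Edge n) × Bool :=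
  (hinge a b G, alpha a b c e G)

/-- Energy of the ordered switch pairs inside one hinge fibre of `{a, b}`
(= directed Johnson moves of the pair `{a, b}`). -/
noncomputable def henergy (Ω : Finset (Finset (Edge n))) (a b : Fin n)
    (f : Finset (Edge n) → ℝ) : ℝ :=
  ∑ G ∈ Ω, ∑ G' ∈ Ω,
    if hinge a b G = hinge a b G' then (proposalCount G G' : ℝ) * (f G - f G') ^ 2 else 0

/-- Energy of the ordered switch pairs inside one fibre of the block `{a, b} × {c, e}`. -/
noncomputable def xenergy (Ω : Finset (Finset (Edge n))) (a b c e : Fin n)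
    (f : Finset (Edge n) → ℝ) : ℝ :=
  ∑ G ∈ Ω, ∑ G' ∈ Ω,
    if blockX a b c e G = blockX a b c e G' then (proposalCount G G' : ℝ) * (f G - f G') ^ 2 else 0

/-- Four pairwise distinct vertices (in the shape used by the interface). -/
def D4 (a b c e : Fin n) : Prop := a ≠ b ∧ c ≠ e ∧ c ≠ a ∧ c ≠ b ∧ e ≠ a ∧ e ≠ b

instance (a b c e : Fin n) : Decidable (D4 a b c e) := by unfold D4; infer_instance

/-! ### The package statements -/

/-- **[HG]** Johnson gap on hinge fibres: `‖P_ab f‖² ≤ (1/4) henergy`. -/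
def HG (d : Fin n → ℕ) : Prop :=
  ∀ a b : Fin n, a ≠ b → ∀ f : Finset (Edge n) → ℝ,
    ∑ G ∈ realizations d, (f G - cavg (realizations d) (hinge a b) f G) ^ 2 ≤
      1 / 4 * henergy (realizations d) a b f

/-- **[HF]** Johnson frame bound on hinge fibres. -/
def HF (d : Fin n → ℕ) : Prop :=
  ∀ a b : Fin n, a ≠ b → ∀ f : Finset (Edge n) → ℝ,
    ∑ c : Fin n, ∑ e : Fin n,
      (if c ≠ e ∧ c ≠ a ∧ c ≠ b ∧ e ≠ a ∧ e ≠ b then
        ∑ G ∈ realizations d, (cavg (realizations d) (hingeA a b c e) f G -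
          cavg (realizations d) (hinge a b) f G) ^ 2 else 0) ≤
      1 / 2 * henergy (realizations d) a b f

/-- **[TR]** triples: `H_T² ≥ H_T`, i.e. the sum of the three mixed products is nonnegative. -/
def TR (d : Fin n → ℕ) : Prop :=
  ∀ a b c : Fin n, a ≠ b → a ≠ c → b ≠ c → ∀ f : Finset (Edge n) → ℝ,
    0 ≤ ∑ G ∈ realizations d,
      ((f G - cavg (realizations d) (hinge a b) f G) * (f G - cavg (realizations d) (hinge a c) f G) +
       (f G - cavg (realizations d) (hinge a b) f G) * (f G - cavg (realizations d) (hinge b c) f G) +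
       (f G - cavg (realizations d) (hinge a c) f G) * (f G - cavg (realizations d) (hinge b c) f G))

/-- **[CR]** disjoint pairs: `⟨P_ab f, P_ce f⟩ ≥ ‖P_X f‖² - ½‖Π_{ab;ce} f‖² - ½‖Π_{ce;ab} f‖²`. -/
def CR (d : Fin n → ℕ) : Prop :=
  ∀ a b c e : Fin n, D4 a b c e → ∀ f : Finset (Edge n) → ℝ,
    ∑ G ∈ realizations d, (f G - cavg (realizations d) (blockX a b c e) f G) ^ 2
      - 1 / 2 * ∑ G ∈ realizations d, (cavg (realizations d) (hingeA a b c e) f G -
          cavg (realizations d) (hinge a b) f G) ^ 2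
      - 1 / 2 * ∑ G ∈ realizations d, (cavg (realizations d) (hingeA c e a b) f G -
          cavg (realizations d) (hinge c e) f G) ^ 2 ≤
    ∑ G ∈ realizations d,
      (f G - cavg (realizations d) (hinge a b) f G) * (f G - cavg (realizations d) (hinge c e) f G)

/-- **[BX]** the block projection: `(1/4) xenergy ≤ ‖P_X f‖²` (equality in fact). -/
def BX (d : Fin n → ℕ) : Prop :=
  ∀ a b c e : Fin n, D4 a b c e → ∀ f : Finset (Edge n) → ℝ,
    1 / 4 * xenergy (realizations d) a b c e f ≤
      ∑ G ∈ realizations d, (f G - cavg (realizations d) (blockX a b c e) f G) ^ 2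

/-- **[EN4]** every switch pair is a Johnson move of (at most) 4 ordered pairs. -/
def EN4 (d : Fin n → ℕ) : Prop :=
  ∀ f : Finset (Edge n) → ℝ,
    ∑ a : Fin n, ∑ b : Fin n, (if a ≠ b then henergy (realizations d) a b f else 0) ≤
      4 * energy (realizations d) f

/-- **[EN8]** every switch pair lies in the block of (at least) 8 ordered 4-tuples. -/
def EN8 (d : Fin n → ℕ) : Prop :=
  ∀ f : Finset (Edge n) → ℝ,
    8 * energy (realizations d) f ≤
      ∑ a : Fin n, ∑ b : Fin n, ∑ c : Fin n, ∑ e : Fin n,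
        (if D4 a b c e then xenergy (realizations d) a b c e f else 0)

/-- **[CONN]** switch-connectivity in hinge form (`ker H` = constants). -/
def CONN (d : Fin n → ℕ) : Prop :=
  ∀ f : Finset (Edge n) → ℝ,
    (∀ a b : Fin n, a ≠ b → ∀ G ∈ realizations d, ∀ G' ∈ realizations d,
      hinge a b G = hinge a b G' → f G = f G') →
    ∀ G ∈ realizations d, ∀ G' ∈ realizations d, f G = f G'

/-! ### [CR-abs]: the abstract cross lemma (pure sums, no graphs) -/

/-- **[CR-abs]** Two label maps `k1, k2` on a finite set, Boolean functions `al` (a function of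
`k2`) and `be` (a function of `k1`), a sector label `s` coarser than both, and the counting
hypothesis `#{z | k2 z = k2 x ∧ k1 z = k1 y} = [al x] + [be y]` inside every sector.  Then for
every `g` that is a function of `(k1, k2)`:
`⟨g - E₁ g, g - E₂ g⟩ ≥ -½ ‖Ê₁ g - E₁ g‖² - ½ ‖Ê₂ g - E₂ g‖²`,
`Ê₁ = cavg (k1, al)`, `Ê₂ = cavg (k2, be)`. -/
def CRabs : Prop :=
  ∀ (α β1 β2 σ : Type) [DecidableEq α] [DecidableEq β1] [DecidableEq β2] [DecidableEq σ]
    (Ω : Finset α) (k1 : α → β1) (k2 : α → β2) (s : α → σ) (al be : α → Bool),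
    (∀ x ∈ Ω, ∀ y ∈ Ω, k2 x = k2 y → al x = al y) →
    (∀ x ∈ Ω, ∀ y ∈ Ω, k1 x = k1 y → be x = be y) →
    (∀ x ∈ Ω, ∀ y ∈ Ω, k1 x = k1 y → s x = s y) →
    (∀ x ∈ Ω, ∀ y ∈ Ω, k2 x = k2 y → s x = s y) →
    (∀ x ∈ Ω, ∀ y ∈ Ω, s x = s y →
      (Ω.filter (fun z => k2 z = k2 x ∧ k1 z = k1 y)).card =
        (if al x then 1 else 0) + (if be y then 1 else 0)) →
    ∀ g : α → ℝ, (∀ x ∈ Ω, ∀ y ∈ Ω, k1 x = k1 y → k2 x = k2 y → g x = g y) →
      - (1 / 2) * ∑ x ∈ Ω, (cavg Ω (fun z => (k1 z, al z)) g x - cavg Ω k1 g x) ^ 2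
        - 1 / 2 * ∑ x ∈ Ω, (cavg Ω (fun z => (k2 z, be z)) g x - cavg Ω k2 g x) ^ 2 ≤
      ∑ x ∈ Ω, (g x - cavg Ω k1 g x) * (g x - cavg Ω k2 g x)

end Crest.Agent.S0453.Helper47
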