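import Mathlib
import Crest.Prelude.Def_SwitchChain
import Crest.Agent.Lib.S0453.Helper76TV
import Crest.Agent.Lib.S0453.Helper76Rec
import Crest.Agent.Lib.S0453.Helper47Defs

set_option autoImplicit false
open Finset

namespace Crest.Agent.S0453.Helper22

open Crest.SwitchChain
open Crest.Agent.S0453.Helper76
open Crest.Agent.S0453.Helper47 (hinge inX blockX D4 henergy xenergy)

variable {n : ℕ}

/-! ### Normal form of a nontrivial switch -/

/-- `G'` arises from `G` by the switch `x1y1, x2y2 → x1y2, x2y1`. -/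
structure SwitchNF (G G' : Finset (Edge n)) (x1 y1 x2 y2 : Fin n) : Prop where
  dx : x1 ≠ x2
  dy : y1 ≠ y2
  d11 : x1 ≠ y1
  d12 : x1 ≠ y2
  d21 : x2 ≠ y1
  d22 : x2 ≠ y2
  in1 : ∀ s : Edge n, s.1 = s(x1, y1) → s ∈ G
  in2 : ∀ s : Edge n, s.1 = s(x2, y2) → s ∈ G
  out1 : ∀ s : Edge n, s.1 = s(x1, y2) → s ∉ G
  out2 : ∀ s : Edge n, s.1 = s(x2, y1) → s ∉ G
  mem_iff : ∀ s : Edge n, s ∈ G' ↔
    (s ∈ G ∧ s.1 ≠ s(x1, y1) ∧ s.1 ≠ s(x2, y2)) ∨ s.1 = s(x1, y2) ∨ s.1 = s(x2, y1)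

lemma mem_pair_mkEdge {a b c d : Fin n} (hab : a ≠ b) (hcd : c ≠ d) (s : Edge n) :
    s ∈ ({mkEdge a b hab, mkEdge c d hcd} : Finset (Edge n)) ↔ s.1 = s(a, b) ∨ s.1 = s(c, d) := by
  simp only [Finset.mem_insert, Finset.mem_singleton, Subtype.ext_iff, mkEdge_val]

/-- Two matchings in "crossed" position give a switch normal form. -/
lemma switchNF_of_matchings {G : Finset (Edge n)} {F F' : Finset (Edge n)} {x1 y1 x2 y2 : Fin n}
    (dx : x1 ≠ x2) (dy : y1 ≠ y2) (d11 : x1 ≠ y1) (d12 : x1 ≠ y2) (d21 : x2 ≠ y1) (d22 : x2 ≠ y2)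
    (hF : ∀ s : Edge n, s ∈ F ↔ s.1 = s(x1, y1) ∨ s.1 = s(x2, y2))
    (hF' : ∀ s : Edge n, s ∈ F' ↔ s.1 = s(x1, y2) ∨ s.1 = s(x2, y1))
    (hsub : F ⊆ G) (hdisj : Disjoint F' G) :
    SwitchNF G (G \ F ∪ F') x1 y1 x2 y2 := by
  refine ⟨dx, dy, d11, d12, d21, d22, ?_, ?_, ?_, ?_, ?_⟩
  · intro s hs; exact hsub ((hF s).2 (Or.inl hs))
  · intro s hs; exact hsub ((hF s).2 (Or.inr hs))
  · intro s hs; exact Finset.disjoint_left.mp hdisj ((hF' s).2 (Or.inl hs))
  · intro s hs; exact Finset.disjoint_left.mp hdisj ((hF' s).2 (Or.inr hs))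
  · intro s
    rw [Finset.mem_union, Finset.mem_sdiff, hF, hF', not_or]

/-- **Switch normal form**: a pair `G ≠ G'` with a positive proposal count is a switch. -/
theorem switch_normal_form {G G' : Finset (Edge n)} (hne : G ≠ G')
    (hpc : proposalCount G G' ≠ 0) :
    ∃ x1 y1 x2 y2 : Fin n, SwitchNF G G' x1 y1 x2 y2 := by
  unfold proposalCount at hpc
  obtain ⟨S, hS, hS'⟩ := Finset.exists_ne_zero_of_sum_ne_zero hpc
  obtain ⟨F, hF, hF'⟩ := Finset.exists_ne_zero_of_sum_ne_zero hS'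
  obtain ⟨F', hF'mem, hne0⟩ := Finset.exists_ne_zero_of_sum_ne_zero hF'
  have hsw : switchResult G F F' = G' := by
    by_contra h; exact hne0 (if_neg h)
  rw [Finset.mem_powersetCard] at hS
  obtain ⟨-, hS4⟩ := hS
  rw [Finset.card_eq_succ] at hS4
  obtain ⟨a, t, hat, rfl, ht⟩ := hS4
  rw [Finset.card_eq_three] at ht
  obtain ⟨b, c, d, hbc, hbd, hcd, rfl⟩ := ht
  simp only [Finset.mem_insert, Finset.mem_singleton, not_or] at hat
  obtain ⟨hab, hac, had⟩ := hat
  have hFF' : F' ≠ F := (Finset.mem_erase.mp hF'mem).1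
  have hF'pm : F' ∈ pmSet ({a, b, c, d} : Finset (Fin n)) := (Finset.mem_erase.mp hF'mem).2
  unfold switchResult at hsw
  split_ifs at hsw with hc
  swap
  · exact absurd hsw hne
  obtain ⟨hsub, hdisj⟩ := hc
  subst hsw
  rcases pmSet_cases_of_four hab hac had hbc hbd hcd hF with h1 | h1 | h1 <;>
  rcases pmSet_cases_of_four hab hac had hbc hbd hcd hF'pm with h2 | h2 | h2
  · exact absurd (h2.trans h1.symm) hFF'
  · -- F = {ab, cd}, F' = {ac, bd}
    refine ⟨a, b, d, c, switchNF_of_matchings had hbc hab hac hbd.symm hcd.symm ?_ ?_ hsub hdisj⟩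
    · intro s; rw [h1, mem_pair_mkEdge]; simp [Sym2.eq_swap]
    · intro s; rw [h2, mem_pair_mkEdge]; simp [Sym2.eq_swap]
  · -- F = {ab, cd}, F' = {ad, bc}
    refine ⟨a, b, c, d, switchNF_of_matchings hac hbd hab had hbc.symm hcd ?_ ?_ hsub hdisj⟩
    · intro s; rw [h1, mem_pair_mkEdge]
    · intro s; rw [h2, mem_pair_mkEdge]; simp [Sym2.eq_swap]
  · -- F = {ac, bd}, F' = {ab, cd}
    refine ⟨a, c, d, b, switchNF_of_matchings had hbc.symm hac hab hcd.symm hbd.symm ?_ ?_ hsub hdisj⟩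
    · intro s; rw [h1, mem_pair_mkEdge]; simp [Sym2.eq_swap]
    · intro s; rw [h2, mem_pair_mkEdge]; simp [Sym2.eq_swap]
  · exact absurd (h2.trans h1.symm) hFF'
  · -- F = {ac, bd}, F' = {ad, bc}
    refine ⟨a, c, b, d, switchNF_of_matchings hab hcd hac had hbc hbd ?_ ?_ hsub hdisj⟩
    · intro s; rw [h1, mem_pair_mkEdge]
    · intro s; rw [h2, mem_pair_mkEdge]
  · -- F = {ad, bc}, F' = {ab, cd}
    refine ⟨a, d, c, b, switchNF_of_matchings hac hbd.symm had hab hcd hbc.symm ?_ ?_ hsub hdisj⟩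
    · intro s; rw [h1, mem_pair_mkEdge]; simp [Sym2.eq_swap]
    · intro s; rw [h2, mem_pair_mkEdge]
  · -- F = {ad, bc}, F' = {ac, bd}
    refine ⟨a, d, b, c, switchNF_of_matchings hab hcd.symm had hac hbd hbc ?_ ?_ hsub hdisj⟩
    · intro s; rw [h1, mem_pair_mkEdge]
    · intro s; rw [h2, mem_pair_mkEdge]
  · exact absurd (h2.trans h1.symm) hFF'

/-! ### Hinge labels of a switch pair -/

lemma mem_or_mem_of_hinge_eq {a b : Fin n} {G G' : Finset (Edge n)}
    (h : hinge a b G = hinge a b G') {s : Edge n} (hs : s ∈ G) (hs' : s ∉ G') :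
    a ∈ s.1 ∨ b ∈ s.1 := by
  by_contra hcon
  rw [not_or] at hcon
  have h1 : s ∈ hinge a b G := Finset.mem_filter.mpr ⟨hs, hcon⟩
  rw [h] at h1
  exact hs' (Finset.mem_filter.mp h1).1

/-- A switch pair has the same hinge label only for the two "diagonals" of its 4-cycle. -/
theorem hinge_eq_cases {G G' : Finset (Edge n)} {x1 y1 x2 y2 : Fin n}
    (hNF : SwitchNF G G' x1 y1 x2 y2) {a b : Fin n}
    (h : hinge a b G = hinge a b G') :
    (a = x1 ∧ b = x2) ∨ (a = x2 ∧ b = x1) ∨ (a = y1 ∧ b = y2) ∨ (a = y2 ∧ b = y1) := by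
  obtain ⟨dx, dy, d11, d12, d21, d22, in1, in2, out1, out2, mem_iff⟩ := hNF
  -- the four changed edges
  have e1 : a ∈ (mkEdge x1 y1 d11).1 ∨ b ∈ (mkEdge x1 y1 d11).1 := by
    refine mem_or_mem_of_hinge_eq h (in1 _ rfl) ?_
    rw [mem_iff]
    simp only [mkEdge_val, ne_eq, not_true_eq_false, false_and, and_false, false_or, not_or]
    constructor
    · intro h'; rw [Sym2.eq_iff] at h'; tauto
    · intro h'; rw [Sym2.eq_iff] at h'; tauto
  have e2 : a ∈ (mkEdge x2 y2 d22).1 ∨ b ∈ (mkEdge x2 y2 d22).1 := by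
    refine mem_or_mem_of_hinge_eq h (in2 _ rfl) ?_
    rw [mem_iff]
    simp only [mkEdge_val, ne_eq, not_true_eq_false, and_false, false_or, not_or]
    constructor
    · intro h'; rw [Sym2.eq_iff] at h'; tauto
    · intro h'; rw [Sym2.eq_iff] at h'; tauto
  have e3 : a ∈ (mkEdge x1 y2 d12).1 ∨ b ∈ (mkEdge x1 y2 d12).1 := by
    refine mem_or_mem_of_hinge_eq h.symm ?_ (out1 _ rfl)
    rw [mem_iff]
    exact Or.inr (Or.inl rfl)
  have e4 : a ∈ (mkEdge x2 y1 d21).1 ∨ b ∈ (mkEdge x2 y1 d21).1 := by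
    refine mem_or_mem_of_hinge_eq h.symm ?_ (out2 _ rfl)
    rw [mem_iff]
    exact Or.inr (Or.inr rfl)
  simp only [mem_mkEdge] at e1 e2 e3 e4
  simp only [Fin.ext_iff, ne_eq] at *
  omega

/-- At most four ordered pairs `(a,b)` see a given switch pair in one hinge fibre. -/
theorem card_hinge_pairs_le {G G' : Finset (Edge n)} (hne : G ≠ G')
    (hpc : proposalCount G G' ≠ 0) :
    (univ.filter (fun p : Fin n × Fin n => p.1 ≠ p.2 ∧ hinge p.1 p.2 G = hinge p.1 p.2 G')).card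
      ≤ 4 := by
  obtain ⟨x1, y1, x2, y2, hNF⟩ := switch_normal_form hne hpc
  have hsub : univ.filter (fun p : Fin n × Fin n => p.1 ≠ p.2 ∧
      hinge p.1 p.2 G = hinge p.1 p.2 G') ⊆
      ({(x1, x2), (x2, x1), (y1, y2), (y2, y1)} : Finset (Fin n × Fin n)) := by
    intro p hp
    rw [Finset.mem_filter] at hp
    have := hinge_eq_cases hNF hp.2.2
    simp only [Finset.mem_insert, Finset.mem_singleton, Prod.ext_iff]
    exact this
  exact (Finset.card_le_card hsub).trans Finset.card_le_four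

/-! ### Block labels of a switch pair -/

lemma blockX_eq_of_cover {G G' : Finset (Edge n)} {x1 y1 x2 y2 : Fin n}
    (hNF : SwitchNF G G' x1 y1 x2 y2) (a b c e : Fin n)
    (hcov : ∀ s : Edge n, (s.1 = s(x1, y1) ∨ s.1 = s(x2, y2) ∨ s.1 = s(x1, y2) ∨ s.1 = s(x2, y1)) →
      inX a b c e s) :
    blockX a b c e G = blockX a b c e G' := by
  ext s
  simp only [blockX, Finset.mem_filter]
  by_cases hs : inX a b c e s
  · simp [hs]
  · simp only [hs, not_false_eq_true, and_true]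
    rw [hNF.mem_iff]
    constructor
    · intro h
      exact Or.inl ⟨h, fun h' => hs (hcov s (Or.inl h')), fun h' => hs (hcov s (Or.inr (Or.inl h')))⟩
    · rintro (h | h | h)
      · exact h.1
      · exact absurd (hcov s (Or.inr (Or.inr (Or.inl h)))) hs
      · exact absurd (hcov s (Or.inr (Or.inr (Or.inr h)))) hs

/-- The eight ordered names of the block of a switch. -/
def names8 (x1 y1 x2 y2 : Fin n) : Finset (Fin n × Fin n × Fin n × Fin n) :=
  {(x1, x2, y1, y2), (x2, x1, y1, y2), (x1, x2, y2, y1), (x2, x1, y2, y1),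
   (y1, y2, x1, x2), (y2, y1, x1, x2), (y1, y2, x2, x1), (y2, y1, x2, x1)}

lemma card_names8 {x1 y1 x2 y2 : Fin n} (dx : x1 ≠ x2) (dy : y1 ≠ y2) (d11 : x1 ≠ y1)
    (d12 : x1 ≠ y2) (d21 : x2 ≠ y1) (d22 : x2 ≠ y2) : (names8 x1 y1 x2 y2).card = 8 := by
  unfold names8
  rw [Finset.card_insert_of_notMem, Finset.card_insert_of_notMem, Finset.card_insert_of_notMem,
    Finset.card_insert_of_notMem, Finset.card_insert_of_notMem, Finset.card_insert_of_notMem,
    Finset.card_insert_of_notMem, Finset.card_singleton]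
  all_goals
    simp only [Finset.mem_insert, Finset.mem_singleton, Prod.mk.injEq, Fin.ext_iff, ne_eq] at *
    omega

/-- At least eight ordered 4-tuples see a given switch pair in one block fibre. -/
theorem card_block_tuples_ge {G G' : Finset (Edge n)} (hne : G ≠ G')
    (hpc : proposalCount G G' ≠ 0) :
    8 ≤ (univ.filter (fun p : Fin n × Fin n × Fin n × Fin n =>
      D4 p.1 p.2.1 p.2.2.1 p.2.2.2 ∧
        blockX p.1 p.2.1 p.2.2.1 p.2.2.2 G = blockX p.1 p.2.1 p.2.2.1 p.2.2.2 G')).card := by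
  obtain ⟨x1, y1, x2, y2, hNF⟩ := switch_normal_form hne hpc
  have hsub : names8 x1 y1 x2 y2 ⊆ univ.filter (fun p : Fin n × Fin n × Fin n × Fin n =>
      D4 p.1 p.2.1 p.2.2.1 p.2.2.2 ∧
        blockX p.1 p.2.1 p.2.2.1 p.2.2.2 G = blockX p.1 p.2.1 p.2.2.1 p.2.2.2 G') := by
    intro p hp
    rw [Finset.mem_filter]
    refine ⟨Finset.mem_univ _, ?_⟩
    have dx := hNF.dx
    have dy := hNF.dy
    have d11 := hNF.d11
    have d12 := hNF.d12
    have d21 := hNF.d21
    have d22 := hNF.d22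
    unfold names8 at hp
    simp only [Finset.mem_insert, Finset.mem_singleton] at hp
    rcases hp with rfl | rfl | rfl | rfl | rfl | rfl | rfl | rfl
    all_goals
      refine ⟨?_, blockX_eq_of_cover hNF _ _ _ _ ?_⟩
      · unfold D4
        simp only [Fin.ext_iff, ne_eq] at *
        omega
      · intro s hs
        unfold inX
        simp only [Sym2.eq_swap (a := y1), Sym2.eq_swap (a := y2)] at hs ⊢
        tauto
  calc 8 = (names8 x1 y1 x2 y2).card :=
        (card_names8 hNF.dx hNF.dy hNF.d11 hNF.d12 hNF.d21 hNF.d22).symm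
    _ ≤ _ := Finset.card_le_card hsub

/-! ### Double counting -/

section count
variable {ι γ : Type*} [Fintype ι]

lemma sum_ite_count (P : ι → Prop) [DecidablePred P] (w : ℝ) :
    ∑ i : ι, (if P i then w else 0) = ((univ.filter P).card : ℝ) * w := by
  rw [← Finset.sum_filter, Finset.sum_const, nsmul_eq_mul]

lemma sum_comm3 (Om : Finset γ) (P : ι → γ → γ → Prop) [∀ i x y, Decidable (P i x y)]
    (w : γ → γ → ℝ) :
    ∑ i : ι, ∑ x ∈ Om, ∑ y ∈ Om, (if P i x y then w x y else 0) =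
      ∑ x ∈ Om, ∑ y ∈ Om, ∑ i : ι, (if P i x y then w x y else 0) := by
  rw [Finset.sum_comm]
  apply Finset.sum_congr rfl
  intro x _
  rw [Finset.sum_comm]

lemma sum_count_le (Om : Finset γ) (P : ι → γ → γ → Prop) [∀ i x y, Decidable (P i x y)]
    (w : γ → γ → ℝ) (hw : ∀ x y, 0 ≤ w x y) (k : ℕ)
    (hk : ∀ x ∈ Om, ∀ y ∈ Om, w x y ≠ 0 → (univ.filter (fun i => P i x y)).card ≤ k) :
    ∑ i : ι, ∑ x ∈ Om, ∑ y ∈ Om, (if P i x y then w x y else 0) ≤
      (k : ℝ) * ∑ x ∈ Om, ∑ y ∈ Om, w x y := by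
  rw [sum_comm3 Om P w, Finset.mul_sum]
  apply Finset.sum_le_sum
  intro x hx
  rw [Finset.mul_sum]
  apply Finset.sum_le_sum
  intro y hy
  rw [sum_ite_count]
  by_cases h0 : w x y = 0
  · rw [h0]; simp
  · exact mul_le_mul_of_nonneg_right (by exact_mod_cast hk x hx y hy h0) (hw x y)

lemma le_sum_count (Om : Finset γ) (P : ι → γ → γ → Prop) [∀ i x y, Decidable (P i x y)]
    (w : γ → γ → ℝ) (hw : ∀ x y, 0 ≤ w x y) (k : ℕ)
    (hk : ∀ x ∈ Om, ∀ y ∈ Om, w x y ≠ 0 → k ≤ (univ.filter (fun i => P i x y)).card) :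
    (k : ℝ) * ∑ x ∈ Om, ∑ y ∈ Om, w x y ≤
      ∑ i : ι, ∑ x ∈ Om, ∑ y ∈ Om, (if P i x y then w x y else 0) := by
  rw [sum_comm3 Om P w, Finset.mul_sum]
  apply Finset.sum_le_sum
  intro x hx
  rw [Finset.mul_sum]
  apply Finset.sum_le_sum
  intro y hy
  rw [sum_ite_count]
  by_cases h0 : w x y = 0
  · rw [h0]; simp
  · exact mul_le_mul_of_nonneg_right (by exact_mod_cast hk x hx y hy h0) (hw x y)

end count

lemma weight_nonneg (f : Finset (Edge n) → ℝ) (G G' : Finset (Edge n)) :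
    0 ≤ (proposalCount G G' : ℝ) * (f G - f G') ^ 2 := by positivity

lemma weight_ne_zero {f : Finset (Edge n) → ℝ} {G G' : Finset (Edge n)}
    (h : (proposalCount G G' : ℝ) * (f G - f G') ^ 2 ≠ 0) :
    G ≠ G' ∧ proposalCount G G' ≠ 0 := by
  constructor
  · rintro rfl
    apply h
    simp
  · intro h0
    apply h
    rw [h0]
    simp

/-! ### The two inequalities of `[EN]` -/

/-- **(EN1)** every switch pair is a Johnson move of at most `4` ordered hinge pairs. -/
theorem EN1 (Om : Finset (Finset (Edge n))) (f : Finset (Edge n) → ℝ) :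
    ∑ a : Fin n, ∑ b : Fin n, (if a ≠ b then henergy Om a b f else 0) ≤ 4 * energy Om f := by
  have h1 : ∑ a : Fin n, ∑ b : Fin n, (if a ≠ b then henergy Om a b f else 0) =
      ∑ p : Fin n × Fin n, ∑ G ∈ Om, ∑ G' ∈ Om,
        (if p.1 ≠ p.2 ∧ hinge p.1 p.2 G = hinge p.1 p.2 G'
          then (proposalCount G G' : ℝ) * (f G - f G') ^ 2 else 0) := by
    rw [Fintype.sum_prod_type]
    apply Finset.sum_congr rfl
    intro a _
    apply Finset.sum_congr rfl
    intro b _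
    unfold henergy
    by_cases hab : a ≠ b
    · simp only [hab, ne_eq, not_false_eq_true, if_true, true_and]
    · simp only [hab, if_false, false_and, Finset.sum_const_zero]
  rw [h1]
  have h2 := sum_count_le (ι := Fin n × Fin n) Om
    (fun p G G' => p.1 ≠ p.2 ∧ hinge p.1 p.2 G = hinge p.1 p.2 G')
    (fun G G' => (proposalCount G G' : ℝ) * (f G - f G') ^ 2) (weight_nonneg f) 4
    (fun G _ G' _ hw => card_hinge_pairs_le (weight_ne_zero hw).1 (weight_ne_zero hw).2)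
  unfold energy
  exact_mod_cast h2

/-- **(EN2)** every switch pair lies in one block fibre for at least `8` ordered 4-tuples. -/
theorem EN2 (Om : Finset (Finset (Edge n))) (f : Finset (Edge n) → ℝ) :
    8 * energy Om f ≤ ∑ a : Fin n, ∑ b : Fin n, ∑ c : Fin n, ∑ e : Fin n,
      (if D4 a b c e then xenergy Om a b c e f else 0) := by
  have h1 : ∑ a : Fin n, ∑ b : Fin n, ∑ c : Fin n, ∑ e : Fin n,
      (if D4 a b c e then xenergy Om a b c e f else 0) =
      ∑ p : Fin n × Fin n × Fin n × Fin n, ∑ G ∈ Om, ∑ G' ∈ Om,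
        (if D4 p.1 p.2.1 p.2.2.1 p.2.2.2 ∧
            blockX p.1 p.2.1 p.2.2.1 p.2.2.2 G = blockX p.1 p.2.1 p.2.2.1 p.2.2.2 G'
          then (proposalCount G G' : ℝ) * (f G - f G') ^ 2 else 0) := by
    rw [Fintype.sum_prod_type]
    apply Finset.sum_congr rfl
    intro a _
    rw [Fintype.sum_prod_type]
    apply Finset.sum_congr rfl
    intro b _
    rw [Fintype.sum_prod_type]
    apply Finset.sum_congr rfl
    intro c _
    apply Finset.sum_congr rfl
    intro e _
    unfold xenergy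
    by_cases hD : D4 a b c e
    · simp only [hD, if_true, true_and]
    · simp only [hD, if_false, false_and, Finset.sum_const_zero]
  rw [h1]
  have h2 := le_sum_count (ι := Fin n × Fin n × Fin n × Fin n) Om
    (fun p G G' => D4 p.1 p.2.1 p.2.2.1 p.2.2.2 ∧
            blockX p.1 p.2.1 p.2.2.1 p.2.2.2 G = blockX p.1 p.2.1 p.2.2.1 p.2.2.2 G')
    (fun G G' => (proposalCount G G' : ℝ) * (f G - f G') ^ 2) (weight_nonneg f) 8
    (fun G _ G' _ hw => card_block_tuples_ge (weight_ne_zero hw).1 (weight_ne_zero hw).2)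
  unfold energy
  exact_mod_cast h2

/-! ### Delivery in the interface shape of `Helper47Defs` -/

/-- **DELIVERED [EN4]**. -/
theorem en4 (d : Fin n → ℕ) : Crest.Agent.S0453.Helper47.EN4 d :=
  fun f => EN1 (realizations d) f

/-- **DELIVERED [EN8]**. -/
theorem en8 (d : Fin n → ℕ) : Crest.Agent.S0453.Helper47.EN8 d :=
  fun f => EN2 (realizations d) f

end Crest.Agent.S0453.Helper22
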