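import Mathlib

set_option autoImplicit false
set_option linter.unusedSectionVars false
open Finset

namespace Crest.Agent.S0453.Helper76

/-! ### The Johnson graph `J(U, t)` has spectral gap at least `2` (Poincaré form)

`jEnergy U t g` is the sum of `(g T - g T')²` over the DIRECTED Johnson moves `T → T' = T - a + b`
(`a ∈ T`, `b ∈ U \ T`), so it is twice the Dirichlet form of the Johnson graph.  `johnson_gap`:
`N ∑ g² - (∑ g)² ≤ (N / 4) jEnergy`, i.e. `∑ (g - mean)² ≤ (1/2) ∑_{unordered moves} (Δ g)²`. -/

section johnson
variable {α : Type*} [DecidableEq α]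

/-- Directed Johnson energy. -/
noncomputable def jEnergy (U : Finset α) (t : ℕ) (g : Finset α → ℝ) : ℝ :=
  ∑ T ∈ U.powersetCard t, ∑ a ∈ T, ∑ b ∈ U \ T, (g T - g (insert b (T.erase a))) ^ 2

lemma jEnergy_nonneg (U : Finset α) (t : ℕ) (g : Finset α → ℝ) : 0 ≤ jEnergy U t g :=
  Finset.sum_nonneg (fun _ _ => Finset.sum_nonneg (fun _ _ =>
    Finset.sum_nonneg (fun _ _ => sq_nonneg _)))

/-- Double counting of flags `S ⊂ T`, `|T| = |S| + 1`. -/
lemma flag_sum (U : Finset α) (s : ℕ) (F : Finset α → α → ℝ) :
    ∑ T ∈ U.powersetCard (s + 1), ∑ a ∈ T, F (T.erase a) a =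
      ∑ S ∈ U.powersetCard s, ∑ b ∈ U \ S, F S b := by
  rw [Finset.sum_sigma', Finset.sum_sigma']
  refine Finset.sum_bij' (fun x _ => ⟨x.1.erase x.2, x.2⟩) (fun y _ => ⟨insert y.2 y.1, y.2⟩)
    ?_ ?_ ?_ ?_ ?_
  · rintro ⟨T, a⟩ h
    simp only [Finset.mem_sigma, Finset.mem_powersetCard] at h ⊢
    obtain ⟨⟨hTU, hTc⟩, ha⟩ := h
    refine ⟨⟨(Finset.erase_subset a T).trans hTU, ?_⟩, ?_⟩
    · rw [Finset.card_erase_of_mem ha, hTc]; rfl
    · rw [Finset.mem_sdiff]
      exact ⟨hTU ha, Finset.notMem_erase a T⟩
  · rintro ⟨S, b⟩ h
    simp only [Finset.mem_sigma, Finset.mem_powersetCard, Finset.mem_sdiff] at h ⊢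
    obtain ⟨⟨hSU, hSc⟩, hbU, hbS⟩ := h
    refine ⟨⟨Finset.insert_subset hbU hSU, ?_⟩, Finset.mem_insert_self b S⟩
    rw [Finset.card_insert_of_notMem hbS, hSc]
  · rintro ⟨T, a⟩ h
    simp only [Finset.mem_sigma] at h
    simp only [Finset.insert_erase h.2]
  · rintro ⟨S, b⟩ h
    simp only [Finset.mem_sigma, Finset.mem_sdiff] at h
    simp only [Finset.erase_insert h.2.2]
  · rintro ⟨T, a⟩ _
    rfl

/-- The real-number core of the two-block step. -/
lemma two_block_real {NA NB k r QA QB SA SB EA EB C2 : ℝ}
    (hNA : 0 < NA) (hNB : 0 < NB) (hk : 0 < k) (hkr : NA * k = NB * r) (hkr2 : 2 ≤ k + r)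
    (hA : NA * QA - SA ^ 2 ≤ NA / 4 * EA) (hB : NB * QB - SB ^ 2 ≤ NB / 4 * EB)
    (hD : (k * SA - r * SB) ^ 2 ≤ NA * k * C2) (hC2 : 0 ≤ C2) :
    (NA + NB) * (QA + QB) - (SA + SB) ^ 2 ≤ (NA + NB) / 4 * (EA + EB + 2 * C2) := by
  have hN : 0 < NA + NB := by linarith
  -- the cross term
  have hcross : (NB * SA - NA * SB) ^ 2 ≤ NA * NB * ((NA + NB) / 2) * C2 := by
    have e1 : (NB * SA - NA * SB) * k = NB * (k * SA - r * SB) := by
      have : NA * SB * k = NB * r * SB := by rw [mul_right_comm, hkr]
      linarith
    have e2 : (NB * SA - NA * SB) ^ 2 * k ^ 2 = NB ^ 2 * (k * SA - r * SB) ^ 2 := by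
      rw [← mul_pow, e1, mul_pow]
    have e3 : (NB * SA - NA * SB) ^ 2 * k ^ 2 ≤ NB ^ 2 * (NA * k * C2) := by
      rw [e2]
      exact mul_le_mul_of_nonneg_left hD (sq_nonneg NB)
    have e4 : 2 * NB ≤ (NA + NB) * k := by
      have : (NA + NB) * k = NB * (k + r) := by
        rw [add_mul, hkr]; ring
      rw [this]
      nlinarith
    -- (..)² k² ≤ NB² NA k C2 ≤ NA NB (N/2) C2 k²
    have e5 : NB ^ 2 * (NA * k * C2) ≤ NA * NB * ((NA + NB) / 2) * C2 * k ^ 2 := by
      have h1 : 0 ≤ NA * NB * k * C2 := by positivity
      have : NA * NB * ((NA + NB) / 2) * C2 * k ^ 2 - NB ^ 2 * (NA * k * C2) =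
          NA * NB * k * C2 * (((NA + NB) * k - 2 * NB) / 2) := by ring
      have h2 : 0 ≤ ((NA + NB) * k - 2 * NB) / 2 := by linarith
      nlinarith [mul_nonneg h1 h2]
    have hk2 : 0 < k ^ 2 := by positivity
    exact le_of_mul_le_mul_right (e3.trans e5) hk2
  -- the variance identity, multiplied by NA NB
  have hid : NA * NB * ((NA + NB) * (QA + QB) - (SA + SB) ^ 2) =
      NB * (NA + NB) * (NA * QA - SA ^ 2) + NA * (NA + NB) * (NB * QB - SB ^ 2) +
        (NB * SA - NA * SB) ^ 2 := by ring
  have h1 : NB * (NA + NB) * (NA * QA - SA ^ 2) ≤ NB * (NA + NB) * (NA / 4 * EA) :=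
    mul_le_mul_of_nonneg_left hA (by positivity)
  have h2 : NA * (NA + NB) * (NB * QB - SB ^ 2) ≤ NA * (NA + NB) * (NB / 4 * EB) :=
    mul_le_mul_of_nonneg_left hB (by positivity)
  have hAB : 0 < NA * NB := by positivity
  have hfinal : NA * NB * ((NA + NB) * (QA + QB) - (SA + SB) ^ 2) ≤
      NA * NB * ((NA + NB) / 4 * (EA + EB + 2 * C2)) := by
    rw [hid]
    have : NA * NB * ((NA + NB) / 4 * (EA + EB + 2 * C2)) =
        NB * (NA + NB) * (NA / 4 * EA) + NA * (NA + NB) * (NB / 4 * EB) +
          NA * NB * ((NA + NB) / 2) * C2 := by ring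
    rw [this]
    linarith
  exact le_of_mul_le_mul_left hfinal hAB

lemma var_nonpos_of_card_le_one {β : Type*} (S : Finset β) (h : S.card ≤ 1) (g : β → ℝ) :
    (S.card : ℝ) * ∑ T ∈ S, g T ^ 2 - (∑ T ∈ S, g T) ^ 2 ≤ 0 := by
  rcases Nat.lt_or_eq_of_le h with h0 | h1
  · have h0' : S = ∅ := Finset.card_eq_zero.mp (by omega)
    subst h0'
    simp
  · obtain ⟨a, rfl⟩ := Finset.card_eq_one.mp h1
    simp

/-- **Johnson gap ≥ 2** (Poincaré inequality for `J(U, t)` with directed energy). -/
theorem johnson_gap (U : Finset α) : ∀ (t : ℕ) (g : Finset α → ℝ),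
    ((U.powersetCard t).card : ℝ) * ∑ T ∈ U.powersetCard t, g T ^ 2 -
        (∑ T ∈ U.powersetCard t, g T) ^ 2 ≤
      ((U.powersetCard t).card : ℝ) / 4 * jEnergy U t g := by
  induction U using Finset.induction_on with
  | empty =>
    intro t g
    have hE := jEnergy_nonneg (∅ : Finset α) t g
    have hc : ((∅ : Finset α).powersetCard t).card ≤ 1 := by
      rw [Finset.card_powersetCard, Finset.card_empty]
      rcases Nat.eq_zero_or_pos t with rfl | ht
      · simp
      · rw [Nat.choose_eq_zero_of_lt ht]; omega
    have h1 := var_nonpos_of_card_le_one _ hc g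
    have h2 : (0 : ℝ) ≤ (((∅ : Finset α).powersetCard t).card : ℝ) / 4 * jEnergy ∅ t g := by
      positivity
    linarith
  | insert x U hx ih =>
    intro t g
    have hE := jEnergy_nonneg (insert x U) t g
    have hR : (0 : ℝ) ≤ (((insert x U).powersetCard t).card : ℝ) / 4 * jEnergy (insert x U) t g := by
      positivity
    cases t with
    | zero =>
      have hc : ((insert x U).powersetCard 0).card ≤ 1 := by
        rw [Finset.card_powersetCard]; simp
      have h1 := var_nonpos_of_card_le_one _ hc g
      linarith
    | succ s =>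
      set B := U.powersetCard (s + 1) with hBdef
      set A' := U.powersetCard s with hAdef
      set p := U.card with hp
      have hPC : (insert x U).powersetCard (s + 1) = B ∪ A'.image (insert x) :=
        Finset.powersetCard_succ_insert hx s
      have hxS : ∀ S ∈ A', x ∉ S := fun S hS hxS =>
        hx ((Finset.mem_powersetCard.mp hS).1 hxS)
      have hxT : ∀ T ∈ B, x ∉ T := fun T hT hxT =>
        hx ((Finset.mem_powersetCard.mp hT).1 hxT)
      have hdisj : Disjoint B (A'.image (insert x)) := by
        rw [Finset.disjoint_left]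
        intro T hT hT'
        obtain ⟨S, _, rfl⟩ := Finset.mem_image.mp hT'
        exact hxT _ hT (Finset.mem_insert_self x S)
      have hinj : Set.InjOn (insert x : Finset α → Finset α) (A' : Set (Finset α)) := by
        intro S hS S' hS' h
        have h1 : (insert x S).erase x = (insert x S').erase x := by rw [h]
        rwa [Finset.erase_insert (hxS S hS), Finset.erase_insert (hxS S' hS')] at h1
      have hsum : ∀ h : Finset α → ℝ, ∑ T ∈ (insert x U).powersetCard (s + 1), h T =
          ∑ T ∈ B, h T + ∑ S ∈ A', h (insert x S) := by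
        intro h
        rw [hPC, Finset.sum_union hdisj, Finset.sum_image hinj]
      have hcard : (((insert x U).powersetCard (s + 1)).card : ℝ) = (A'.card : ℝ) + (B.card : ℝ) := by
        rw [hPC, Finset.card_union_of_disjoint hdisj, Finset.card_image_of_injOn hinj]
        push_cast
        ring
      have hBc : B.card = p.choose (s + 1) := Finset.card_powersetCard _ _
      have hAc : A'.card = p.choose s := Finset.card_powersetCard _ _
      by_cases hNB : B.card = 0
      · -- then the whole level has at most one set
        have hc : ((insert x U).powersetCard (s + 1)).card ≤ 1 := by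
          rw [hPC, Finset.card_union_of_disjoint hdisj, Finset.card_image_of_injOn hinj, hNB,
            hAc, zero_add]
          rw [hBc] at hNB
          have hlt : p < s + 1 := by
            by_contra hcon
            exact (Nat.choose_pos (Nat.le_of_not_lt hcon)).ne' hNB
          rcases Nat.lt_or_eq_of_le (Nat.lt_succ_iff.mp hlt) with h1 | h1
          · rw [Nat.choose_eq_zero_of_lt h1]; omega
          · rw [h1, Nat.choose_self]
        have h1 := var_nonpos_of_card_le_one _ hc g
        linarith
      · have hsp : s + 1 ≤ p := by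
          by_contra hcon
          apply hNB
          rw [hBc]
          exact Nat.choose_eq_zero_of_lt (Nat.lt_of_not_le hcon)
        have hNBpos : (0 : ℝ) < (B.card : ℝ) := by
          exact_mod_cast Nat.pos_of_ne_zero hNB
        have hNApos : (0 : ℝ) < (A'.card : ℝ) := by
          rw [hAc]
          exact_mod_cast Nat.choose_pos (by omega : s ≤ p)
        set gx : Finset α → ℝ := fun S => g (insert x S) with hgx
        have ihB := ih (s + 1) g
        have ihA := ih s gx
        -- cross sums
        set C2 : ℝ := ∑ S ∈ A', ∑ b ∈ U \ S, (g (insert x S) - g (insert b S)) ^ 2 with hC2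
        set C1 : ℝ := ∑ T ∈ B, ∑ a ∈ T, (g T - g (insert x (T.erase a))) ^ 2 with hC1
        have hC12 : C1 = C2 := by
          have h := flag_sum U s (fun S b => (g (insert b S) - g (insert x S)) ^ 2)
          rw [hC1, hC2]
          refine Eq.trans ?_ (h.trans ?_)
          · apply Finset.sum_congr rfl
            intro T _
            apply Finset.sum_congr rfl
            intro a ha
            rw [Finset.insert_erase ha]
          · apply Finset.sum_congr rfl
            intro S _
            apply Finset.sum_congr rfl
            intro b _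
            ring
        have hC2nn : 0 ≤ C2 :=
          Finset.sum_nonneg (fun _ _ => Finset.sum_nonneg (fun _ _ => sq_nonneg _))
        -- energy decomposition
        have hEdec : jEnergy (insert x U) (s + 1) g =
            jEnergy U s gx + jEnergy U (s + 1) g + 2 * C2 := by
          have hBpart : ∑ T ∈ B, ∑ a ∈ T, ∑ b ∈ insert x U \ T,
              (g T - g (insert b (T.erase a))) ^ 2 = jEnergy U (s + 1) g + C1 := by
            unfold jEnergy
            rw [hC1, ← Finset.sum_add_distrib]
            apply Finset.sum_congr rfl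
            intro T hT
            rw [← Finset.sum_add_distrib]
            apply Finset.sum_congr rfl
            intro a _
            have hxT' := hxT T hT
            rw [Finset.insert_sdiff_of_notMem _ hxT', Finset.sum_insert (by
              rw [Finset.mem_sdiff]; exact fun h => hx h.1)]
            ring
          have hApart : ∑ S ∈ A', ∑ a ∈ insert x S, ∑ b ∈ insert x U \ insert x S,
              (g (insert x S) - g (insert b ((insert x S).erase a))) ^ 2 =
                jEnergy U s gx + C2 := by
            unfold jEnergy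
            rw [hC2, ← Finset.sum_add_distrib]
            apply Finset.sum_congr rfl
            intro S hS
            have hxS' := hxS S hS
            have hsd : insert x U \ insert x S = U \ S := by
              ext z
              simp only [Finset.mem_sdiff, Finset.mem_insert]
              constructor
              · rintro ⟨h1, h2⟩
                have h2' := not_or.mp h2
                rcases h1 with h1 | h1
                · exact absurd h1 h2'.1
                · exact ⟨h1, h2'.2⟩
              · rintro ⟨h1, h2⟩
                refine ⟨Or.inr h1, ?_⟩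
                exact not_or.mpr ⟨fun h => hx (h ▸ h1), h2⟩
            rw [hsd, Finset.sum_insert hxS', Finset.erase_insert hxS', add_comm]
            congr 1
            apply Finset.sum_congr rfl
            intro a ha
            apply Finset.sum_congr rfl
            intro b _
            have hax : x ≠ a := fun h => hxS' (h ▸ ha)
            rw [Finset.erase_insert_of_ne hax, Finset.insert_comm]
          unfold jEnergy at hBpart hApart ⊢
          rw [hsum, hBpart, hApart, hC12]
          ring
        -- the linear identity and Cauchy–Schwarz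
        set SA : ℝ := ∑ S ∈ A', gx S with hSA
        set SB : ℝ := ∑ T ∈ B, g T with hSB
        have hcardsd : ∀ S ∈ A', (U \ S).card = p - s := by
          intro S hS
          obtain ⟨hSU, hSc⟩ := Finset.mem_powersetCard.mp hS
          rw [Finset.card_sdiff_of_subset hSU, hSc]
        have hD : ∑ S ∈ A', ∑ b ∈ U \ S, (g (insert x S) - g (insert b S)) =
            ((p - s : ℕ) : ℝ) * SA - ((s : ℝ) + 1) * SB := by
          have h1 : ∑ S ∈ A', ∑ b ∈ U \ S, g (insert x S) = ((p - s : ℕ) : ℝ) * SA := by
            rw [hSA, Finset.mul_sum]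
            apply Finset.sum_congr rfl
            intro S hS
            rw [Finset.sum_const, hcardsd S hS, nsmul_eq_mul]
          have h2 : ∑ S ∈ A', ∑ b ∈ U \ S, g (insert b S) = ((s : ℝ) + 1) * SB := by
            have h := flag_sum U s (fun S b => g (insert b S))
            rw [← h, hSB, Finset.mul_sum]
            apply Finset.sum_congr rfl
            intro T hT
            rw [Finset.sum_congr rfl (fun a ha => by rw [Finset.insert_erase ha]),
              Finset.sum_const, (Finset.mem_powersetCard.mp hT).2, nsmul_eq_mul]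
            push_cast
            ring
          rw [← h1, ← h2, ← Finset.sum_sub_distrib]
          apply Finset.sum_congr rfl
          intro S _
          rw [Finset.sum_sub_distrib]
        have hCS : (((p - s : ℕ) : ℝ) * SA - ((s : ℝ) + 1) * SB) ^ 2 ≤
            (A'.card : ℝ) * ((p - s : ℕ) : ℝ) * C2 := by
          rw [← hD, hC2, Finset.sum_sigma', Finset.sum_sigma']
          have h := sq_sum_le_card_mul_sum_sq (s := A'.sigma (fun S => U \ S))
            (f := fun y => g (insert x y.1) - g (insert y.2 y.1))
          refine h.trans (le_of_eq ?_)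
          congr 1
          rw [Finset.card_sigma, Finset.sum_congr rfl hcardsd, Finset.sum_const, smul_eq_mul]
          push_cast
          ring
        have hkr : (A'.card : ℝ) * ((p - s : ℕ) : ℝ) = (B.card : ℝ) * ((s : ℝ) + 1) := by
          rw [hAc, hBc]
          have h := Nat.choose_succ_right_eq p s
          have h' : ((p.choose (s + 1) * (s + 1) : ℕ) : ℝ) = ((p.choose s * (p - s) : ℕ) : ℝ) := by
            rw [h]
          push_cast at h'
          linarith
        have hkpos : (0 : ℝ) < ((p - s : ℕ) : ℝ) := by
          exact_mod_cast (by omega : 0 < p - s)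
        have hkr2 : (2 : ℝ) ≤ ((p - s : ℕ) : ℝ) + ((s : ℝ) + 1) := by
          have h1 : (1 : ℝ) ≤ ((p - s : ℕ) : ℝ) := by exact_mod_cast (by omega : 1 ≤ p - s)
          have h2 : (0 : ℝ) ≤ (s : ℝ) := Nat.cast_nonneg s
          linarith
        have key := two_block_real hNApos hNBpos hkpos hkr hkr2 ihA ihB hCS hC2nn
        rw [hsum, hsum, hcard, hEdec]
        have e1 : ∑ T ∈ B, g T ^ 2 + ∑ S ∈ A', g (insert x S) ^ 2 =
            ∑ S ∈ A', gx S ^ 2 + ∑ T ∈ B, g T ^ 2 := by
          rw [add_comm]
        have e2 : ∑ T ∈ B, g T + ∑ S ∈ A', g (insert x S) = SA + SB := by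
          rw [hSA, hSB, add_comm]
        rw [e1, e2]
        exact key

end johnson

end Crest.Agent.S0453.Helper76
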