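import Mathlib
import Crest.Prelude.Def_SwitchChain
import Crest.Agent.Lib.S0453.Helper76Knabe
import Crest.Agent.Lib.S0453.Helper76Johnson
import Crest.Agent.Lib.S0453.Helper47Defs

/-!
Row 299 / S0453, package FRAME-LINK (helper27).

For a hinge pair `(a, b)` the refined fibre averages `Ê_{e,ce}` (label = hinge label together with
the bit "`a` and `b` have exactly one neighbour each in `{c, e}`") satisfy

  `∑_{c<e off {a,b}} (‖Ê_{e,ce} f‖² - ‖E_e f‖²) ≤ (1/4) · (directed energy of the (a,b)-Johnson moves)`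

given (i) the Johnson parametrisation of the hinge fibres and (ii) the Johnson frame bound in
two-block form.  This file contains the abstract part (two-block identity, transfer along the
parametrisation, summation over fibres).
-/

set_option autoImplicit false
set_option linter.unusedSectionVars false
open Finset

namespace Crest.Agent.S0453.Helper27

open Crest.SwitchChain Crest.Agent.S0453.Helper76 Crest.Agent.S0453.Helper47

/-! ### Abstract part: labels, fibres, two-block terms -/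

section abstract
variable {α β γ δ : Type*} [DecidableEq α] [DecidableEq β] [DecidableEq γ] [DecidableEq δ]

/-- The fibre of a label only depends on the kernel of the label on `Ω`. -/
lemma fibre_eq_of_kernel (Ω : Finset α) (φ : α → β) (ψ : α → γ)
    (h : ∀ x ∈ Ω, ∀ y ∈ Ω, φ x = φ y ↔ ψ x = ψ y) {x : α} (hx : x ∈ Ω) :
    fibre Ω φ x = fibre Ω ψ x := by
  ext y
  simp only [mem_fibre]
  constructor
  · rintro ⟨hy, hxy⟩
    exact ⟨hy, (h y hy x hx).1 hxy⟩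
  · rintro ⟨hy, hxy⟩
    exact ⟨hy, (h y hy x hx).2 hxy⟩

/-- The fibre average only depends on the kernel of the label on `Ω`. -/
lemma cavg_eq_of_kernel (Ω : Finset α) (φ : α → β) (ψ : α → γ)
    (h : ∀ x ∈ Ω, ∀ y ∈ Ω, φ x = φ y ↔ ψ x = ψ y) (f : α → ℝ) {x : α} (hx : x ∈ Ω) :
    cavg Ω φ f x = cavg Ω ψ f x := by
  unfold cavg
  rw [fibre_eq_of_kernel Ω φ ψ h hx]

/-- Summation over `Ω`, fibre by fibre. -/
lemma sum_eq_sum_fibres (Ω : Finset α) (φ : α → β) (F : α → ℝ) :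
    ∑ x ∈ Ω, F x = ∑ y ∈ Ω.image φ, ∑ x ∈ Ω.filter (fun x => φ x = y), F x :=
  (Finset.sum_fiberwise_of_maps_to (fun _ hx => Finset.mem_image_of_mem φ hx) F).symm

/-- An inequality between sums over `Ω` follows from the inequalities on all fibres. -/
lemma sum_le_sum_of_fibrewise (Ω : Finset α) (φ : α → β) (A B : α → ℝ)
    (h : ∀ x₀ ∈ Ω, ∑ x ∈ fibre Ω φ x₀, A x ≤ ∑ x ∈ fibre Ω φ x₀, B x) :
    ∑ x ∈ Ω, A x ≤ ∑ x ∈ Ω, B x := by
  rw [sum_eq_sum_fibres Ω φ A, sum_eq_sum_fibres Ω φ B]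
  apply Finset.sum_le_sum
  intro y hy
  obtain ⟨x₀, hx₀, rfl⟩ := Finset.mem_image.mp hy
  exact h x₀ hx₀

/-- The two-block term: `S₁²/N₁ + S₀²/N₀ - S²/N` for the split of `Φ` by the predicate `p`
(`= (N₁ N₀ / N) (m₁ - m₀)²`, and `0` when a block is empty). -/
noncomputable def blk (Φ : Finset α) (p : α → Prop) [DecidablePred p] (f : α → ℝ) : ℝ :=
  (∑ x ∈ Φ.filter p, f x) ^ 2 / ((Φ.filter p).card : ℝ) +
    (∑ x ∈ Φ.filter (fun x => ¬ p x), f x) ^ 2 / ((Φ.filter (fun x => ¬ p x)).card : ℝ) -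
    (∑ x ∈ Φ, f x) ^ 2 / (Φ.card : ℝ)

lemma blk_congr (Φ : Finset α) (p q : α → Prop) [DecidablePred p] [DecidablePred q]
    (f : α → ℝ) (h : ∀ x ∈ Φ, p x ↔ q x) : blk Φ p f = blk Φ q f := by
  have e1 : Φ.filter p = Φ.filter q := Finset.filter_congr h
  have e2 : Φ.filter (fun x => ¬ p x) = Φ.filter (fun x => ¬ q x) :=
    Finset.filter_congr (fun x hx => not_congr (h x hx))
  unfold blk
  rw [e1, e2]

/-- The two-block term vanishes when the predicate is constant on `Φ`. -/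
lemma blk_eq_zero_of_const (Φ : Finset α) (p : α → Prop) [DecidablePred p] (f : α → ℝ)
    (h : ∀ x ∈ Φ, ∀ y ∈ Φ, p x ↔ p y) : blk Φ p f = 0 := by
  by_cases hex : ∃ x ∈ Φ, p x
  · obtain ⟨x, hx, hpx⟩ := hex
    have e1 : Φ.filter p = Φ := Finset.filter_true_of_mem (fun y hy => (h x hx y hy).1 hpx)
    have e2 : Φ.filter (fun x => ¬ p x) = ∅ :=
      Finset.filter_false_of_mem (fun y hy => not_not.mpr ((h x hx y hy).1 hpx))
    unfold blk
    rw [e1, e2]
    simp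
  · have hno : ∀ x ∈ Φ, ¬ p x := fun x hx hpx => hex ⟨x, hx, hpx⟩
    have e1 : Φ.filter p = ∅ := Finset.filter_false_of_mem hno
    have e2 : Φ.filter (fun x => ¬ p x) = Φ := Finset.filter_true_of_mem hno
    unfold blk
    rw [e1, e2]
    simp

lemma card_mul_div_sq (N S : ℝ) : N * (S / N) ^ 2 = S ^ 2 / N := by
  by_cases hN : N = 0
  · rw [hN]; simp
  · field_simp

/-- **Two-block identity.**  If the refined label `ψ` has kernel `(φ, p)` on `Ω`, then on every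
`φ`-fibre `Φ` the difference `∑ (cavg ψ f)² - ∑ (cavg φ f)²` is the two-block term. -/
lemma sum_sq_cavg_refined (Ω : Finset α) (φ : α → β) (ψ : α → γ) (p : α → Prop) [DecidablePred p]
    (hψ : ∀ x ∈ Ω, ∀ y ∈ Ω, ψ x = ψ y ↔ (φ x = φ y ∧ (p x ↔ p y)))
    (f : α → ℝ) (x₀ : α) :
    ∑ x ∈ fibre Ω φ x₀, (cavg Ω ψ f x ^ 2 - cavg Ω φ f x ^ 2) = blk (fibre Ω φ x₀) p f := by
  set Φ := fibre Ω φ x₀ with hΦ
  have hmem : ∀ x ∈ Φ, x ∈ Ω ∧ φ x = φ x₀ := fun x hx => mem_fibre.mp hx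
  -- coarse averages
  have hc : ∀ x ∈ Φ, cavg Ω φ f x = (∑ y ∈ Φ, f y) / (Φ.card : ℝ) := by
    intro x hx
    unfold cavg
    rw [fibre_congr Ω (hmem x hx).2]
  -- fine averages
  have hf1 : ∀ x ∈ Φ.filter p, cavg Ω ψ f x =
      (∑ y ∈ Φ.filter p, f y) / ((Φ.filter p).card : ℝ) := by
    intro x hx
    obtain ⟨hxΦ, hpx⟩ := Finset.mem_filter.mp hx
    have hfib : fibre Ω ψ x = Φ.filter p := by
      ext y
      simp only [mem_fibre, Finset.mem_filter, hΦ]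
      constructor
      · rintro ⟨hy, hyx⟩
        have h1 := (hψ y hy x (hmem x hxΦ).1).1 hyx
        exact ⟨⟨hy, h1.1.trans (hmem x hxΦ).2⟩, h1.2.2 hpx⟩
      · rintro ⟨⟨hy, hyx⟩, hpy⟩
        exact ⟨hy, (hψ y hy x (hmem x hxΦ).1).2
          ⟨hyx.trans (hmem x hxΦ).2.symm, ⟨fun _ => hpx, fun _ => hpy⟩⟩⟩
    unfold cavg
    rw [hfib]
  have hf0 : ∀ x ∈ Φ.filter (fun x => ¬ p x), cavg Ω ψ f x =
      (∑ y ∈ Φ.filter (fun x => ¬ p x), f y) / ((Φ.filter (fun x => ¬ p x)).card : ℝ) := by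
    intro x hx
    obtain ⟨hxΦ, hpx⟩ := Finset.mem_filter.mp hx
    have hfib : fibre Ω ψ x = Φ.filter (fun x => ¬ p x) := by
      ext y
      simp only [mem_fibre, Finset.mem_filter, hΦ]
      constructor
      · rintro ⟨hy, hyx⟩
        have h1 := (hψ y hy x (hmem x hxΦ).1).1 hyx
        exact ⟨⟨hy, h1.1.trans (hmem x hxΦ).2⟩, fun hpy => hpx (h1.2.1 hpy)⟩
      · rintro ⟨⟨hy, hyx⟩, hpy⟩
        exact ⟨hy, (hψ y hy x (hmem x hxΦ).1).2
          ⟨hyx.trans (hmem x hxΦ).2.symm, ⟨fun h => absurd h hpy, fun h => absurd h hpx⟩⟩⟩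
    unfold cavg
    rw [hfib]
  rw [Finset.sum_sub_distrib]
  have s1 : ∑ x ∈ Φ, cavg Ω φ f x ^ 2 = (∑ y ∈ Φ, f y) ^ 2 / (Φ.card : ℝ) := by
    have e : ∑ x ∈ Φ, cavg Ω φ f x ^ 2 =
        ∑ _x ∈ Φ, ((∑ y ∈ Φ, f y) / (Φ.card : ℝ)) ^ 2 :=
      Finset.sum_congr rfl (fun x hx => by rw [hc x hx])
    rw [e, Finset.sum_const, nsmul_eq_mul, card_mul_div_sq]
  have t1 : ∑ x ∈ Φ.filter p, cavg Ω ψ f x ^ 2 =
      (∑ x ∈ Φ.filter p, f x) ^ 2 / ((Φ.filter p).card : ℝ) := by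
    have e : ∑ x ∈ Φ.filter p, cavg Ω ψ f x ^ 2 =
        ∑ _x ∈ Φ.filter p, ((∑ y ∈ Φ.filter p, f y) / ((Φ.filter p).card : ℝ)) ^ 2 :=
      Finset.sum_congr rfl (fun x hx => by rw [hf1 x hx])
    rw [e, Finset.sum_const, nsmul_eq_mul, card_mul_div_sq]
  have t0 : ∑ x ∈ Φ.filter (fun x => ¬ p x), cavg Ω ψ f x ^ 2 =
      (∑ x ∈ Φ.filter (fun x => ¬ p x), f x) ^ 2 /
        ((Φ.filter (fun x => ¬ p x)).card : ℝ) := by
    have e : ∑ x ∈ Φ.filter (fun x => ¬ p x), cavg Ω ψ f x ^ 2 =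
        ∑ _x ∈ Φ.filter (fun x => ¬ p x), ((∑ y ∈ Φ.filter (fun x => ¬ p x), f y) /
          ((Φ.filter (fun x => ¬ p x)).card : ℝ)) ^ 2 :=
      Finset.sum_congr rfl (fun x hx => by rw [hf0 x hx])
    rw [e, Finset.sum_const, nsmul_eq_mul, card_mul_div_sq]
  have s2 : ∑ x ∈ Φ, cavg Ω ψ f x ^ 2 =
      (∑ x ∈ Φ.filter p, f x) ^ 2 / ((Φ.filter p).card : ℝ) +
        (∑ x ∈ Φ.filter (fun x => ¬ p x), f x) ^ 2 /
          ((Φ.filter (fun x => ¬ p x)).card : ℝ) := by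
    rw [← Finset.sum_filter_add_sum_filter_not Φ p, t1, t0]
  rw [s1, s2]
  rfl

lemma two_block_alg (N1 N0 S1 S0 : ℝ) (h1 : N1 = 0 → S1 = 0) (h0 : N0 = 0 → S0 = 0)
    (hN1 : 0 ≤ N1) (hN0 : 0 ≤ N0) :
    N1 * (S1 / N1 - (S1 + S0) / (N1 + N0)) ^ 2 + N0 * (S0 / N0 - (S1 + S0) / (N1 + N0)) ^ 2 =
      S1 ^ 2 / N1 + S0 ^ 2 / N0 - (S1 + S0) ^ 2 / (N1 + N0) := by
  by_cases e1 : N1 = 0
  · have hS1 := h1 e1
    subst e1
    subst hS1
    by_cases e0 : N0 = 0
    · have hS0 := h0 e0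
      subst e0
      subst hS0
      simp
    · simp
  · by_cases e0 : N0 = 0
    · have hS0 := h0 e0
      subst e0
      subst hS0
      simp
    · have hp1 : 0 < N1 := lt_of_le_of_ne hN1 (Ne.symm e1)
      have hp0 : 0 < N0 := lt_of_le_of_ne hN0 (Ne.symm e0)
      have hp : N1 + N0 ≠ 0 := by positivity
      field_simp
      ring

/-- **Two-block identity, difference form.**  If the refined label `ψ` has kernel `(φ, p)` on
`Ω`, then on every `φ`-fibre `Φ` the sum `∑ (cavg ψ f - cavg φ f)²` is the two-block term. -/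
lemma sum_sq_cavg_sub_refined (Ω : Finset α) (φ : α → β) (ψ : α → γ) (p : α → Prop)
    [DecidablePred p]
    (hψ : ∀ x ∈ Ω, ∀ y ∈ Ω, ψ x = ψ y ↔ (φ x = φ y ∧ (p x ↔ p y)))
    (f : α → ℝ) (x₀ : α) :
    ∑ x ∈ fibre Ω φ x₀, (cavg Ω ψ f x - cavg Ω φ f x) ^ 2 = blk (fibre Ω φ x₀) p f := by
  set Φ := fibre Ω φ x₀ with hΦ
  have hmem : ∀ x ∈ Φ, x ∈ Ω ∧ φ x = φ x₀ := fun x hx => mem_fibre.mp hx
  have hc : ∀ x ∈ Φ, cavg Ω φ f x = (∑ y ∈ Φ, f y) / (Φ.card : ℝ) := by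
    intro x hx
    unfold cavg
    rw [fibre_congr Ω (hmem x hx).2]
  have hf1 : ∀ x ∈ Φ.filter p, cavg Ω ψ f x =
      (∑ y ∈ Φ.filter p, f y) / ((Φ.filter p).card : ℝ) := by
    intro x hx
    obtain ⟨hxΦ, hpx⟩ := Finset.mem_filter.mp hx
    have hfib : fibre Ω ψ x = Φ.filter p := by
      ext y
      simp only [mem_fibre, Finset.mem_filter, hΦ]
      constructor
      · rintro ⟨hy, hyx⟩
        have h1 := (hψ y hy x (hmem x hxΦ).1).1 hyx
        exact ⟨⟨hy, h1.1.trans (hmem x hxΦ).2⟩, h1.2.2 hpx⟩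
      · rintro ⟨⟨hy, hyx⟩, hpy⟩
        exact ⟨hy, (hψ y hy x (hmem x hxΦ).1).2
          ⟨hyx.trans (hmem x hxΦ).2.symm, ⟨fun _ => hpx, fun _ => hpy⟩⟩⟩
    unfold cavg
    rw [hfib]
  have hf0 : ∀ x ∈ Φ.filter (fun x => ¬ p x), cavg Ω ψ f x =
      (∑ y ∈ Φ.filter (fun x => ¬ p x), f y) / ((Φ.filter (fun x => ¬ p x)).card : ℝ) := by
    intro x hx
    obtain ⟨hxΦ, hpx⟩ := Finset.mem_filter.mp hx
    have hfib : fibre Ω ψ x = Φ.filter (fun x => ¬ p x) := by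
      ext y
      simp only [mem_fibre, Finset.mem_filter, hΦ]
      constructor
      · rintro ⟨hy, hyx⟩
        have h1 := (hψ y hy x (hmem x hxΦ).1).1 hyx
        exact ⟨⟨hy, h1.1.trans (hmem x hxΦ).2⟩, fun hpy => hpx (h1.2.1 hpy)⟩
      · rintro ⟨⟨hy, hyx⟩, hpy⟩
        exact ⟨hy, (hψ y hy x (hmem x hxΦ).1).2
          ⟨hyx.trans (hmem x hxΦ).2.symm, ⟨fun h => absurd h hpy, fun h => absurd h hpx⟩⟩⟩
    unfold cavg
    rw [hfib]
  have hS : ∑ y ∈ Φ, f y = ∑ y ∈ Φ.filter p, f y + ∑ y ∈ Φ.filter (fun x => ¬ p x), f y :=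
    (Finset.sum_filter_add_sum_filter_not Φ p f).symm
  have hN : (Φ.card : ℝ) = ((Φ.filter p).card : ℝ) + ((Φ.filter (fun x => ¬ p x)).card : ℝ) := by
    have := Finset.card_filter_add_card_filter_not (s := Φ) p
    exact_mod_cast this.symm
  have t1 : ∑ x ∈ Φ.filter p, (cavg Ω ψ f x - cavg Ω φ f x) ^ 2 =
      ((Φ.filter p).card : ℝ) * ((∑ y ∈ Φ.filter p, f y) / ((Φ.filter p).card : ℝ) -
        (∑ y ∈ Φ, f y) / (Φ.card : ℝ)) ^ 2 := by
    have e : ∑ x ∈ Φ.filter p, (cavg Ω ψ f x - cavg Ω φ f x) ^ 2 =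
        ∑ _x ∈ Φ.filter p, ((∑ y ∈ Φ.filter p, f y) / ((Φ.filter p).card : ℝ) -
          (∑ y ∈ Φ, f y) / (Φ.card : ℝ)) ^ 2 :=
      Finset.sum_congr rfl (fun x hx => by
        rw [hf1 x hx, hc x (Finset.mem_filter.mp hx).1])
    rw [e, Finset.sum_const, nsmul_eq_mul]
  have t0 : ∑ x ∈ Φ.filter (fun x => ¬ p x), (cavg Ω ψ f x - cavg Ω φ f x) ^ 2 =
      ((Φ.filter (fun x => ¬ p x)).card : ℝ) *
        ((∑ y ∈ Φ.filter (fun x => ¬ p x), f y) / ((Φ.filter (fun x => ¬ p x)).card : ℝ) -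
          (∑ y ∈ Φ, f y) / (Φ.card : ℝ)) ^ 2 := by
    have e : ∑ x ∈ Φ.filter (fun x => ¬ p x), (cavg Ω ψ f x - cavg Ω φ f x) ^ 2 =
        ∑ _x ∈ Φ.filter (fun x => ¬ p x),
          ((∑ y ∈ Φ.filter (fun x => ¬ p x), f y) / ((Φ.filter (fun x => ¬ p x)).card : ℝ) -
            (∑ y ∈ Φ, f y) / (Φ.card : ℝ)) ^ 2 :=
      Finset.sum_congr rfl (fun x hx => by
        rw [hf0 x hx, hc x (Finset.mem_filter.mp hx).1])
    rw [e, Finset.sum_const, nsmul_eq_mul]
  rw [← Finset.sum_filter_add_sum_filter_not Φ p, t1, t0]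
  unfold blk
  rw [hS, hN]
  apply two_block_alg
  · intro h
    have : Φ.filter p = ∅ := Finset.card_eq_zero.mp (by exact_mod_cast h)
    rw [this, Finset.sum_empty]
  · intro h
    have : Φ.filter (fun x => ¬ p x) = ∅ := Finset.card_eq_zero.mp (by exact_mod_cast h)
    rw [this, Finset.sum_empty]
  · exact Nat.cast_nonneg _
  · exact Nat.cast_nonneg _

/-- Sums over a filtered set, transported along a bijection `τ : Φ → P`. -/
lemma sum_filter_transfer (Φ : Finset α) (P : Finset δ) (τ : α → δ)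
    (hmaps : ∀ x ∈ Φ, τ x ∈ P) (r : δ → Prop) [DecidablePred r] (f : α → ℝ) :
    ∑ T ∈ P.filter r, ∑ x ∈ Φ.filter (fun x => τ x = T), f x =
      ∑ x ∈ Φ.filter (fun x => r (τ x)), f x := by
  have h1 : ∀ x ∈ Φ.filter (fun x => r (τ x)), τ x ∈ P.filter r := by
    intro x hx
    obtain ⟨hxΦ, hrx⟩ := Finset.mem_filter.mp hx
    exact Finset.mem_filter.mpr ⟨hmaps x hxΦ, hrx⟩
  rw [← Finset.sum_fiberwise_of_maps_to h1 f]
  apply Finset.sum_congr rfl
  intro T hT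
  have hrT := (Finset.mem_filter.mp hT).2
  apply Finset.sum_congr _ (fun _ _ => rfl)
  ext x
  simp only [Finset.mem_filter]
  constructor
  · rintro ⟨hx, hxT⟩
    exact ⟨⟨hx, by rw [hxT]; exact hrT⟩, hxT⟩
  · rintro ⟨⟨hx, _⟩, hxT⟩
    exact ⟨hx, hxT⟩

lemma card_filter_transfer (Φ : Finset α) (P : Finset δ) (τ : α → δ)
    (hmaps : ∀ x ∈ Φ, τ x ∈ P) (hinj : ∀ x ∈ Φ, ∀ y ∈ Φ, τ x = τ y → x = y)
    (hsurj : ∀ T ∈ P, ∃ x ∈ Φ, τ x = T) (r : δ → Prop) [DecidablePred r] :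
    (Φ.filter (fun x => r (τ x))).card = (P.filter r).card := by
  apply Finset.card_bij (fun x _ => τ x)
  · intro x hx
    obtain ⟨hxΦ, hrx⟩ := Finset.mem_filter.mp hx
    exact Finset.mem_filter.mpr ⟨hmaps x hxΦ, hrx⟩
  · intro x hx y hy hxy
    exact hinj x (Finset.mem_filter.mp hx).1 y (Finset.mem_filter.mp hy).1 hxy
  · intro T hT
    obtain ⟨hTP, hrT⟩ := Finset.mem_filter.mp hT
    obtain ⟨x, hx, rfl⟩ := hsurj T hTP
    exact ⟨x, Finset.mem_filter.mpr ⟨hx, hrT⟩, rfl⟩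

/-- The two-block term is transported along a bijection `τ : Φ → P`. -/
lemma blk_transfer (Φ : Finset α) (P : Finset δ) (τ : α → δ)
    (hmaps : ∀ x ∈ Φ, τ x ∈ P) (hinj : ∀ x ∈ Φ, ∀ y ∈ Φ, τ x = τ y → x = y)
    (hsurj : ∀ T ∈ P, ∃ x ∈ Φ, τ x = T) (q : δ → Prop) [DecidablePred q] (f : α → ℝ) :
    blk Φ (fun x => q (τ x)) f =
      blk P q (fun T => ∑ x ∈ Φ.filter (fun x => τ x = T), f x) := by
  unfold blk
  rw [sum_filter_transfer Φ P τ hmaps q f,
    sum_filter_transfer Φ P τ hmaps (fun T => ¬ q T) f,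
    card_filter_transfer Φ P τ hmaps hinj hsurj q,
    card_filter_transfer Φ P τ hmaps hinj hsurj (fun T => ¬ q T)]
  have e1 : ∑ T ∈ P, ∑ x ∈ Φ.filter (fun x => τ x = T), f x = ∑ x ∈ Φ, f x :=
    Finset.sum_fiberwise_of_maps_to hmaps f
  have e2 : Φ.card = P.card := by
    have := card_filter_transfer Φ P τ hmaps hinj hsurj (fun _ => True)
    simpa using this
  rw [e1, e2]

/-- Moving a sum over `s` out of a conditional double sum. -/
lemma sum_sum_ite_sum_comm {ι κ : Type*} (s : Finset α) (I : Finset ι) (J : Finset κ)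
    (P : ι → κ → Prop) [∀ i j, Decidable (P i j)] (X : ι → κ → α → ℝ) :
    ∑ i ∈ I, ∑ j ∈ J, (if P i j then ∑ x ∈ s, X i j x else 0) =
      ∑ x ∈ s, ∑ i ∈ I, ∑ j ∈ J, (if P i j then X i j x else 0) := by
  have e1 : ∀ i j, (if P i j then ∑ x ∈ s, X i j x else 0) =
      ∑ x ∈ s, (if P i j then X i j x else 0) := by
    intro i j
    by_cases h : P i j
    · simp only [if_pos h]
    · simp only [if_neg h]
      exact Finset.sum_const_zero.symm
  calc ∑ i ∈ I, ∑ j ∈ J, (if P i j then ∑ x ∈ s, X i j x else 0)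
      = ∑ i ∈ I, ∑ j ∈ J, ∑ x ∈ s, (if P i j then X i j x else 0) :=
        Finset.sum_congr rfl (fun i _ => Finset.sum_congr rfl (fun j _ => e1 i j))
    _ = ∑ i ∈ I, ∑ x ∈ s, ∑ j ∈ J, (if P i j then X i j x else 0) :=
        Finset.sum_congr rfl (fun i _ => Finset.sum_comm)
    _ = ∑ x ∈ s, ∑ i ∈ I, ∑ j ∈ J, (if P i j then X i j x else 0) := Finset.sum_comm

end abstract

/-! ### Graph part -/

section graph
variable {n : ℕ}

/-- `a` and `b` have exactly one neighbour each in `{c, e}` (the `Prop` form of `alpha`). -/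
def sep (a b c e : Fin n) (G : Finset (Edge n)) : Prop :=
  ¬ (adj G a c ↔ adj G a e) ∧ ¬ (adj G b c ↔ adj G b e)

instance (a b c e : Fin n) : DecidablePred (sep a b c e) := by
  intro G; unfold sep; infer_instance

lemma prop_one_iff (X Y : Prop) : ((X ∧ ¬ Y) ∨ (¬ X ∧ Y)) ↔ ¬ (X ↔ Y) := by
  by_cases hX : X <;> by_cases hY : Y <;> simp [hX, hY]

lemma alpha_eq_true_iff (a b c e : Fin n) (G : Finset (Edge n)) :
    alpha a b c e G = true ↔ sep a b c e G := by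
  unfold alpha sep
  rw [Bool.and_eq_true, decide_eq_true_eq, decide_eq_true_eq]
  unfold one
  rw [prop_one_iff, prop_one_iff]

/-- The kernel of the refined hinge label `hingeA`. -/
lemma hingeA_eq_iff (a b c e : Fin n) (G G' : Finset (Edge n)) :
    hingeA a b c e G = hingeA a b c e G' ↔
      (hinge a b G = hinge a b G' ∧ (sep a b c e G ↔ sep a b c e G')) := by
  unfold hingeA
  rw [Prod.mk.injEq, ← alpha_eq_true_iff, ← alpha_eq_true_iff, Bool.eq_iff_iff]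

/-- Johnson parametrisation of a hinge fibre `Φ` of the pair `(a, b)`: `U` is the private set,
`τ G` the set of private neighbours of `a`. -/
structure JPar (a b : Fin n) (Φ : Finset (Finset (Edge n))) (U : Finset (Fin n)) (t : ℕ)
    (τ : Finset (Edge n) → Finset (Fin n)) : Prop where
  off : ∀ w ∈ U, w ≠ a ∧ w ≠ b
  maps : ∀ G ∈ Φ, τ G ∈ U.powersetCard t
  inj : ∀ G ∈ Φ, ∀ G' ∈ Φ, τ G = τ G' → G = G'
  surj : ∀ T ∈ U.powersetCard t, ∃ G ∈ Φ, τ G = T
  adjU : ∀ G ∈ Φ, ∀ w ∈ U, (adj G a w ↔ w ∈ τ G) ∧ (adj G b w ↔ w ∉ τ G)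
  adjC : ∀ G ∈ Φ, ∀ G' ∈ Φ, ∀ w, w ∉ U → w ≠ a → w ≠ b →
    (adj G a w ↔ adj G' a w) ∧ (adj G b w ↔ adj G' b w) ∧ (adj G a w ↔ adj G b w)
  move : ∀ G ∈ Φ, ∀ G' ∈ Φ, ∀ x ∈ τ G, ∀ y ∈ U \ τ G,
    τ G' = insert y ((τ G).erase x) → 1 ≤ proposalCount G G'

/-- The Johnson frame bound in two-block form, for `J(U, t)`: ordered pairs `c ≠ e` of `U` on
the left, directed Johnson energy on the right. -/
def FrameBlock {V : Type*} [DecidableEq V] (U : Finset V) (t : ℕ) : Prop :=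
  ∀ g : Finset V → ℝ,
    ∑ c ∈ U, ∑ e ∈ U.erase c, blk (U.powersetCard t) (fun T => ¬ (c ∈ T ↔ e ∈ T)) g ≤
      1 / 2 * jEnergy U t g

lemma insert_erase_inj {V : Type*} [DecidableEq V] {T : Finset V} {x x' y y' : V}
    (hx : x ∈ T) (hy : y ∉ T)
    (h : insert y (T.erase x) = insert y' (T.erase x')) : x = x' ∧ y = y' := by
  have hy1 : y ∈ insert y' (T.erase x') := by rw [← h]; exact Finset.mem_insert_self _ _
  have hyy : y = y' := by
    rcases Finset.mem_insert.mp hy1 with h1 | h1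
    · exact h1
    · exact absurd (Finset.mem_of_mem_erase h1) hy
  have hxy : x ≠ y := fun hh => hy (hh ▸ hx)
  have hx1 : x ∉ insert y (T.erase x) := by
    intro h1
    rcases Finset.mem_insert.mp h1 with h2 | h2
    · exact hxy h2
    · exact (Finset.notMem_erase x T) h2
  rw [h] at hx1
  have hxx : x = x' := by
    by_contra hne
    exact hx1 (Finset.mem_insert_of_mem (Finset.mem_erase.mpr ⟨hne, hx⟩))
  exact ⟨hxx, hyy⟩

lemma prop_sep_false (X Y : Prop) : ¬ (¬ (X ↔ Y) ∧ ¬ (X ↔ ¬ Y)) := by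
  by_cases hX : X <;> by_cases hY : Y <;> simp [hX, hY]

lemma prop_sep_false' (X Y : Prop) : ¬ (¬ (Y ↔ X) ∧ ¬ (¬ Y ↔ X)) := by
  by_cases hX : X <;> by_cases hY : Y <;> simp [hX, hY]

lemma prop_sep_iff (X Y : Prop) : (¬ (X ↔ Y) ∧ ¬ (¬ X ↔ ¬ Y)) ↔ ¬ (X ↔ Y) := by
  by_cases hX : X <;> by_cases hY : Y <;> simp [hX, hY]

/-- On a Johnson-parametrised hinge fibre, `sep` is "`τ G` separates `c, e`" when both are
private, and constant otherwise. -/
lemma blk_sep_eq {a b : Fin n} {Φ : Finset (Finset (Edge n))} {U : Finset (Fin n)} {t : ℕ}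
    {τ : Finset (Edge n) → Finset (Fin n)} (hJ : JPar a b Φ U t τ)
    (f : Finset (Edge n) → ℝ) (c e : Fin n) (hca : c ≠ a) (hcb : c ≠ b) (hea : e ≠ a)
    (heb : e ≠ b) :
    blk Φ (sep a b c e) f =
      if (c ∈ U ∧ e ∈ U) then
        blk (U.powersetCard t) (fun T => ¬ (c ∈ T ↔ e ∈ T))
          (fun T => ∑ G ∈ Φ.filter (fun G => τ G = T), f G)
      else 0 := by
  by_cases hc : c ∈ U
  · by_cases he : e ∈ U
    · rw [if_pos ⟨hc, he⟩]
      have h1 : blk Φ (sep a b c e) f = blk Φ (fun G => ¬ (c ∈ τ G ↔ e ∈ τ G)) f := by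
        apply blk_congr
        intro G hG
        have hc1 := hJ.adjU G hG c hc
        have he1 := hJ.adjU G hG e he
        unfold sep
        rw [hc1.1, hc1.2, he1.1, he1.2]
        exact prop_sep_iff _ _
      rw [h1]
      exact blk_transfer Φ (U.powersetCard t) τ hJ.maps hJ.inj hJ.surj
        (fun T => ¬ (c ∈ T ↔ e ∈ T)) f
    · rw [if_neg (fun h => he h.2)]
      apply blk_eq_zero_of_const
      have hfalse : ∀ G ∈ Φ, ¬ sep a b c e G := by
        intro G hG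
        have hc1 := hJ.adjU G hG c hc
        have he1 := hJ.adjC G hG G hG e he hea heb
        unfold sep
        rw [hc1.1, hc1.2, he1.2.2]
        exact prop_sep_false' _ _
      intro G hG G' hG'
      exact ⟨fun h => absurd h (hfalse G hG), fun h => absurd h (hfalse G' hG')⟩
  · rw [if_neg (fun h => hc h.1)]
    apply blk_eq_zero_of_const
    by_cases he : e ∈ U
    · have hfalse : ∀ G ∈ Φ, ¬ sep a b c e G := by
        intro G hG
        have he1 := hJ.adjU G hG e he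
        have hc1 := hJ.adjC G hG G hG c hc hca hcb
        unfold sep
        rw [he1.1, he1.2, hc1.2.2]
        exact prop_sep_false _ _
      intro G hG G' hG'
      exact ⟨fun h => absurd h (hfalse G hG), fun h => absurd h (hfalse G' hG')⟩
    · intro G hG G' hG'
      have hc1 := hJ.adjC G hG G' hG' c hc hca hcb
      have he1 := hJ.adjC G hG G' hG' e he hea heb
      unfold sep
      rw [hc1.1, hc1.2.1, he1.1, he1.2.1]

/-- The Johnson energy of the transported function is dominated by the switch energy inside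
the fibre. -/
lemma jEnergy_le_fibre_energy {a b : Fin n} {Φ : Finset (Finset (Edge n))} {U : Finset (Fin n)}
    {t : ℕ} {τ : Finset (Edge n) → Finset (Fin n)} (hJ : JPar a b Φ U t τ)
    (f : Finset (Edge n) → ℝ) :
    jEnergy U t (fun T => ∑ G ∈ Φ.filter (fun G => τ G = T), f G) ≤
      ∑ G ∈ Φ, ∑ G' ∈ Φ, (proposalCount G G' : ℝ) * (f G - f G') ^ 2 := by
  classical
  set g : Finset (Fin n) → ℝ := fun T => ∑ G ∈ Φ.filter (fun G => τ G = T), f G with hg
  have hgτ : ∀ G ∈ Φ, g (τ G) = f G := by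
    intro G hG
    have : Φ.filter (fun G' => τ G' = τ G) = {G} := by
      ext G'
      simp only [Finset.mem_filter, Finset.mem_singleton]
      constructor
      · rintro ⟨hG', h⟩
        exact hJ.inj G' hG' G hG h
      · rintro rfl
        exact ⟨hG, rfl⟩
    simp only [hg]
    rw [this, Finset.sum_singleton]
  unfold jEnergy
  have hre : ∑ T ∈ U.powersetCard t, ∑ x ∈ T, ∑ y ∈ U \ T,
        (g T - g (insert y (T.erase x))) ^ 2 =
      ∑ G ∈ Φ, ∑ x ∈ τ G, ∑ y ∈ U \ τ G, (g (τ G) - g (insert y ((τ G).erase x))) ^ 2 := by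
    symm
    apply Finset.sum_bij (fun G _ => τ G)
    · intro G hG; exact hJ.maps G hG
    · intro G hG G' hG' h; exact hJ.inj G hG G' hG' h
    · intro T hT
      obtain ⟨G, hG, hGT⟩ := hJ.surj T hT
      exact ⟨G, hG, hGT⟩
    · intro G _; rfl
  rw [hre]
  apply Finset.sum_le_sum
  intro G hG
  have hTP : τ G ∈ U.powersetCard t := hJ.maps G hG
  have hTU : τ G ⊆ U := (Finset.mem_powersetCard.mp hTP).1
  have hTc : (τ G).card = t := (Finset.mem_powersetCard.mp hTP).2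
  set W : Finset (Fin n) → ℝ := fun T' =>
    ∑ G' ∈ Φ.filter (fun G' => τ G' = T'), (proposalCount G G' : ℝ) * (f G - f G') ^ 2 with hW
  have hWnn : ∀ T', 0 ≤ W T' := fun T' =>
    Finset.sum_nonneg (fun G' _ => mul_nonneg (Nat.cast_nonneg _) (sq_nonneg _))
  have hRHS : ∑ G' ∈ Φ, (proposalCount G G' : ℝ) * (f G - f G') ^ 2 =
      ∑ T' ∈ U.powersetCard t, W T' :=
    (Finset.sum_fiberwise_of_maps_to hJ.maps _).symm
  rw [hRHS, hgτ G hG]
  have hmove : ∀ x ∈ τ G, ∀ y ∈ U \ τ G,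
      insert y ((τ G).erase x) ∈ U.powersetCard t ∧
        (f G - g (insert y ((τ G).erase x))) ^ 2 ≤ W (insert y ((τ G).erase x)) := by
    intro x hx y hy
    obtain ⟨hyU, hyT⟩ := Finset.mem_sdiff.mp hy
    have hT' : insert y ((τ G).erase x) ∈ U.powersetCard t := by
      rw [Finset.mem_powersetCard]
      refine ⟨Finset.insert_subset hyU ((Finset.erase_subset x (τ G)).trans hTU), ?_⟩
      rw [Finset.card_insert_of_notMem (fun h => hyT (Finset.mem_of_mem_erase h)),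
        Finset.card_erase_of_mem hx, hTc]
      have : 0 < t := by rw [← hTc]; exact Finset.card_pos.mpr ⟨x, hx⟩
      omega
    refine ⟨hT', ?_⟩
    obtain ⟨G', hG', hG'T⟩ := hJ.surj _ hT'
    have hfil : Φ.filter (fun G'' => τ G'' = insert y ((τ G).erase x)) = {G'} := by
      ext G''
      simp only [Finset.mem_filter, Finset.mem_singleton]
      constructor
      · rintro ⟨hG'', h⟩
        exact hJ.inj G'' hG'' G' hG' (h.trans hG'T.symm)
      · rintro rfl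
        exact ⟨hG', hG'T⟩
    have hpc : (1 : ℝ) ≤ (proposalCount G G' : ℝ) := by
      exact_mod_cast hJ.move G hG G' hG' x hx y hy hG'T
    have hgT' : g (insert y ((τ G).erase x)) = f G' := by
      rw [← hG'T]; exact hgτ G' hG'
    have hWT' : W (insert y ((τ G).erase x)) = (proposalCount G G' : ℝ) * (f G - f G') ^ 2 := by
      simp only [hW]
      rw [hfil, Finset.sum_singleton]
    rw [hWT', hgT']
    nlinarith [sq_nonneg (f G - f G')]
  calc ∑ x ∈ τ G, ∑ y ∈ U \ τ G, (f G - g (insert y ((τ G).erase x))) ^ 2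
      ≤ ∑ x ∈ τ G, ∑ y ∈ U \ τ G, W (insert y ((τ G).erase x)) :=
        Finset.sum_le_sum (fun x hx => Finset.sum_le_sum (fun y hy => (hmove x hx y hy).2))
    _ = ∑ q ∈ τ G ×ˢ (U \ τ G), W (insert q.2 ((τ G).erase q.1)) := by
        rw [Finset.sum_product]
    _ = ∑ T' ∈ (τ G ×ˢ (U \ τ G)).image (fun q => insert q.2 ((τ G).erase q.1)), W T' := by
        rw [Finset.sum_image]
        rintro ⟨x, y⟩ hq ⟨x', y'⟩ hq' h
        simp only [Finset.coe_product, Set.mem_prod, Finset.mem_coe, Finset.mem_sdiff] at hq hq'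
        obtain ⟨h1, h2⟩ := insert_erase_inj hq.1 hq.2.2 h
        rw [h1, h2]
    _ ≤ ∑ T' ∈ U.powersetCard t, W T' := by
        apply Finset.sum_le_sum_of_subset_of_nonneg
        · intro T' hT'
          obtain ⟨⟨x, y⟩, hq, rfl⟩ := Finset.mem_image.mp hT'
          obtain ⟨hx, hy⟩ := Finset.mem_product.mp hq
          exact (hmove x hx y hy).1
        · intro T' _ _
          exact hWnn T'

/-- **Frame link on one hinge fibre** (ordered pairs `c ≠ e` off `{a, b}`). -/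
theorem frame_fibre {a b : Fin n} {Φ : Finset (Finset (Edge n))} {U : Finset (Fin n)} {t : ℕ}
    {τ : Finset (Edge n) → Finset (Fin n)} (hJ : JPar a b Φ U t τ) (hF : FrameBlock U t)
    (f : Finset (Edge n) → ℝ) :
    ∑ c : Fin n, ∑ e : Fin n,
        (if c ≠ e ∧ c ≠ a ∧ c ≠ b ∧ e ≠ a ∧ e ≠ b then blk Φ (sep a b c e) f else 0) ≤
      1 / 2 * ∑ G ∈ Φ, ∑ G' ∈ Φ, (proposalCount G G' : ℝ) * (f G - f G') ^ 2 := by
  classical
  set g : Finset (Fin n) → ℝ := fun T => ∑ G ∈ Φ.filter (fun G => τ G = T), f G with hg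
  set B : Fin n → Fin n → ℝ :=
    fun c e => blk (U.powersetCard t) (fun T => ¬ (c ∈ T ↔ e ∈ T)) g with hB
  have step1 : ∀ c e : Fin n,
      (if c ≠ e ∧ c ≠ a ∧ c ≠ b ∧ e ≠ a ∧ e ≠ b then blk Φ (sep a b c e) f else 0) =
        if c ∈ U then (if e ∈ U.erase c then B c e else 0) else 0 := by
    intro c e
    by_cases hcond : c ≠ e ∧ c ≠ a ∧ c ≠ b ∧ e ≠ a ∧ e ≠ b
    · rw [if_pos hcond, blk_sep_eq hJ f c e hcond.2.1 hcond.2.2.1 hcond.2.2.2.1 hcond.2.2.2.2]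
      by_cases hc : c ∈ U
      · rw [if_pos hc]
        by_cases he : e ∈ U
        · rw [if_pos ⟨hc, he⟩, if_pos (Finset.mem_erase.mpr ⟨fun h => hcond.1 h.symm, he⟩)]
        · rw [if_neg (fun h => he h.2), if_neg (fun h => he (Finset.mem_of_mem_erase h))]
      · rw [if_neg (fun h => hc h.1), if_neg hc]
    · rw [if_neg hcond]
      by_cases hc : c ∈ U
      · rw [if_pos hc]
        by_cases he : e ∈ U.erase c
        · exfalso
          obtain ⟨hne, heU⟩ := Finset.mem_erase.mp he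
          exact hcond ⟨fun h => hne h.symm, (hJ.off c hc).1, (hJ.off c hc).2,
            (hJ.off e heU).1, (hJ.off e heU).2⟩
        · rw [if_neg he]
      · rw [if_neg hc]
  have step2 : ∑ c : Fin n, ∑ e : Fin n,
        (if c ≠ e ∧ c ≠ a ∧ c ≠ b ∧ e ≠ a ∧ e ≠ b then blk Φ (sep a b c e) f else 0) =
      ∑ c ∈ U, ∑ e ∈ U.erase c, B c e := by
    have e1 : ∀ c : Fin n, ∑ e : Fin n,
        (if c ≠ e ∧ c ≠ a ∧ c ≠ b ∧ e ≠ a ∧ e ≠ b then blk Φ (sep a b c e) f else 0) =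
          if c ∈ U then ∑ e ∈ U.erase c, B c e else 0 := by
      intro c
      rw [Finset.sum_congr rfl (fun e _ => step1 c e)]
      by_cases hc : c ∈ U
      · simp only [if_pos hc]
        rw [Finset.sum_ite_mem, Finset.univ_inter]
      · simp only [if_neg hc]
        exact Finset.sum_const_zero
    rw [Finset.sum_congr rfl (fun c _ => e1 c), Finset.sum_ite_mem, Finset.univ_inter]
  have step3 : ∑ c ∈ U, ∑ e ∈ U.erase c, B c e ≤ 1 / 2 * jEnergy U t g := hF g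
  have step4 := jEnergy_le_fibre_energy hJ f
  rw [step2]
  linarith

/-- `henergy` as a sum over hinge fibres. -/
lemma henergy_eq (Om : Finset (Finset (Edge n))) (a b : Fin n) (f : Finset (Edge n) → ℝ) :
    henergy Om a b f = ∑ G ∈ Om, ∑ G' ∈ fibre Om (hinge a b) G,
      (proposalCount G G' : ℝ) * (f G - f G') ^ 2 := by
  unfold henergy fibre
  apply Finset.sum_congr rfl
  intro G _
  rw [Finset.sum_filter]
  apply Finset.sum_congr rfl
  intro G' _
  by_cases h : hinge a b G = hinge a b G'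
  · rw [if_pos h, if_pos h.symm]
  · rw [if_neg h, if_neg (fun h' => h h'.symm)]

/-- **[HF] from the Johnson parametrisation of the hinge fibres and the Johnson frame bound**
(two-block form). -/
theorem HF_of_JPar_of_FrameBlock (d : Fin n → ℕ)
    (hJ : ∀ a b : Fin n, a ≠ b → ∀ G₀ ∈ realizations d, ∃ (U : Finset (Fin n)) (t : ℕ)
      (τ : Finset (Edge n) → Finset (Fin n)),
        JPar a b (fibre (realizations d) (hinge a b) G₀) U t τ)
    (hF : ∀ (U : Finset (Fin n)) (t : ℕ), FrameBlock U t) : HF d := by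
  classical
  intro a b hab f
  set Om := realizations d with hOm
  have hL : ∑ c : Fin n, ∑ e : Fin n,
        (if c ≠ e ∧ c ≠ a ∧ c ≠ b ∧ e ≠ a ∧ e ≠ b then
          ∑ G ∈ Om, (cavg Om (hingeA a b c e) f G - cavg Om (hinge a b) f G) ^ 2 else 0) =
      ∑ G ∈ Om, ∑ c : Fin n, ∑ e : Fin n,
        (if c ≠ e ∧ c ≠ a ∧ c ≠ b ∧ e ≠ a ∧ e ≠ b then
          (cavg Om (hingeA a b c e) f G - cavg Om (hinge a b) f G) ^ 2 else 0) :=
    sum_sum_ite_sum_comm Om univ univ (fun c e => c ≠ e ∧ c ≠ a ∧ c ≠ b ∧ e ≠ a ∧ e ≠ b)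
      (fun c e G => (cavg Om (hingeA a b c e) f G - cavg Om (hinge a b) f G) ^ 2)
  have hR : 1 / 2 * henergy Om a b f =
      ∑ G ∈ Om, 1 / 2 * ∑ G' ∈ fibre Om (hinge a b) G,
        (proposalCount G G' : ℝ) * (f G - f G') ^ 2 := by
    rw [henergy_eq, Finset.mul_sum]
  rw [hL, hR]
  apply sum_le_sum_of_fibrewise Om (hinge a b)
  intro G₀ hG₀
  obtain ⟨U, t, τ, hJ₀⟩ := hJ a b hab G₀ hG₀
  set Φ := fibre Om (hinge a b) G₀ with hΦ
  have h1 : ∑ G ∈ Φ, ∑ c : Fin n, ∑ e : Fin n,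
        (if c ≠ e ∧ c ≠ a ∧ c ≠ b ∧ e ≠ a ∧ e ≠ b then
          (cavg Om (hingeA a b c e) f G - cavg Om (hinge a b) f G) ^ 2 else 0) =
      ∑ c : Fin n, ∑ e : Fin n,
        (if c ≠ e ∧ c ≠ a ∧ c ≠ b ∧ e ≠ a ∧ e ≠ b then blk Φ (sep a b c e) f else 0) := by
    rw [← sum_sum_ite_sum_comm Φ univ univ (fun c e => c ≠ e ∧ c ≠ a ∧ c ≠ b ∧ e ≠ a ∧ e ≠ b)
      (fun c e G => (cavg Om (hingeA a b c e) f G - cavg Om (hinge a b) f G) ^ 2)]
    apply Finset.sum_congr rfl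
    intro c _
    apply Finset.sum_congr rfl
    intro e _
    by_cases hcond : c ≠ e ∧ c ≠ a ∧ c ≠ b ∧ e ≠ a ∧ e ≠ b
    · simp only [if_pos hcond]
      exact sum_sq_cavg_sub_refined Om (hinge a b) (hingeA a b c e) (sep a b c e)
        (fun x _ y _ => hingeA_eq_iff a b c e x y) f G₀
    · simp only [if_neg hcond]
  have h2 : ∑ G ∈ Φ, 1 / 2 * ∑ G' ∈ fibre Om (hinge a b) G,
        (proposalCount G G' : ℝ) * (f G - f G') ^ 2 =
      1 / 2 * ∑ G ∈ Φ, ∑ G' ∈ Φ, (proposalCount G G' : ℝ) * (f G - f G') ^ 2 := by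
    rw [Finset.mul_sum]
    apply Finset.sum_congr rfl
    intro G hG
    rw [fibre_congr Om (mem_fibre.mp hG).2]
  rw [h1, h2]
  exact frame_fibre hJ₀ (hF U t) f

end graph

end Crest.Agent.S0453.Helper27
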