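import Mathlib
import Crest.Prelude.Def_SwitchChain
import Crest.Agent.Lib.S0453.Helper76Top
import Crest.Agent.Lib.S0453.Helper76Knabe
import Crest.Agent.Lib.S0453.Helper76Johnson

set_option autoImplicit false
set_option linter.unusedSectionVars false
open Finset

namespace Crest.Agent.S0453.Helper76

open Crest.SwitchChain

variable {n : ℕ}

/-! ### Explicit switches -/

lemma mkEdge_comm (a b : Fin n) (h : a ≠ b) : mkEdge a b h = mkEdge b a h.symm := by
  apply Subtype.ext
  exact Sym2.eq_swap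

lemma mkEdge_eq_iff {a b c d : Fin n} (hab : a ≠ b) (hcd : c ≠ d) :
    mkEdge a b hab = mkEdge c d hcd ↔ (a = c ∧ b = d) ∨ (a = d ∧ b = c) := by
  constructor
  · intro h
    have h' : s(a, b) = s(c, d) := congrArg Subtype.val h
    rwa [Sym2.eq_iff] at h'
  · intro h
    apply Subtype.ext
    show s(a, b) = s(c, d)
    rw [Sym2.eq_iff]
    exact h

/-- An edge is determined by two distinct endpoints. -/
lemma mem_mem_iff {u w : Fin n} (h : u ≠ w) (s : Edge n) :
    (u ∈ s.1 ∧ w ∈ s.1) ↔ s = mkEdge u w h := by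
  constructor
  · intro hs
    apply Subtype.ext
    exact (Sym2.mem_and_mem_iff h).mp hs
  · rintro rfl
    exact ⟨(mem_mkEdge h u).mpr (Or.inl rfl), (mem_mkEdge h w).mpr (Or.inr rfl)⟩

/-- **Explicit switch ⟹ positive proposal count.** If `ab, cd ∈ G`, `ac, bd ∉ G` (`a, b, c, d`
distinct) then `G - ab - cd + ac + bd` is one switch away from `G`. -/
lemma proposalCount_sw_ne_zero {G : Finset (Edge n)} {a b c d : Fin n} (hab : a ≠ b) (hac : a ≠ c)
    (had : a ≠ d) (hbc : b ≠ c) (hbd : b ≠ d) (hcd : c ≠ d)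
    (h1 : mkEdge a b hab ∈ G) (h2 : mkEdge c d hcd ∈ G) (h3 : mkEdge a c hac ∉ G)
    (h4 : mkEdge b d hbd ∉ G) :
    proposalCount G ((G \ {mkEdge a b hab, mkEdge c d hcd}) ∪ {mkEdge a c hac, mkEdge b d hbd})
      ≠ 0 := by
  intro h0
  unfold proposalCount at h0
  have hS : ({a, b, c, d} : Finset (Fin n)) ∈ (univ : Finset (Fin n)).powersetCard 4 := by
    rw [Finset.mem_powersetCard]
    refine ⟨Finset.subset_univ _, ?_⟩
    rw [Finset.card_insert_of_notMem, Finset.card_insert_of_notMem, Finset.card_pair hcd]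
    · simp only [Finset.mem_insert, Finset.mem_singleton]
      exact fun h => h.elim hbc hbd
    · simp only [Finset.mem_insert, Finset.mem_singleton]
      exact fun h => h.elim hab (fun h => h.elim hac had)
  have hF : ({mkEdge a b hab, mkEdge c d hcd} : Finset (Edge n)) ∈
      pmSet ({a, b, c, d} : Finset (Fin n)) := pair_mem_pmSet hab hac had hbc hbd hcd
  have hF' : ({mkEdge a c hac, mkEdge b d hbd} : Finset (Edge n)) ∈
      pmSet ({a, b, c, d} : Finset (Fin n)) := by
    have h := pair_mem_pmSet hac hab had hbc.symm hcd hbd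
    have e : ({a, c, b, d} : Finset (Fin n)) = {a, b, c, d} := by
      ext x
      simp only [Finset.mem_insert, Finset.mem_singleton]
      tauto
    rwa [e] at h
  have hne : ({mkEdge a c hac, mkEdge b d hbd} : Finset (Edge n)) ≠
      {mkEdge a b hab, mkEdge c d hcd} := by
    apply pair_ne_pair
    · rw [Ne, mkEdge_eq_iff]
      rintro (⟨-, h⟩ | ⟨h, -⟩)
      · exact hbc h.symm
      · exact hab h
    · rw [Ne, mkEdge_eq_iff]
      rintro (⟨h, -⟩ | ⟨h, -⟩)
      · exact hac h
      · exact had h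
  have h1' := (Finset.sum_eq_zero_iff.mp h0) _ hS
  have h2' := (Finset.sum_eq_zero_iff.mp h1') _ hF
  have h3' := (Finset.sum_eq_zero_iff.mp h2') _ (Finset.mem_erase.mpr ⟨hne, hF'⟩)
  have hsw : switchResult G {mkEdge a b hab, mkEdge c d hcd} {mkEdge a c hac, mkEdge b d hbd} =
      (G \ {mkEdge a b hab, mkEdge c d hcd}) ∪ {mkEdge a c hac, mkEdge b d hbd} := by
    unfold switchResult
    rw [if_pos]
    refine ⟨?_, ?_⟩
    · intro e he
      simp only [Finset.mem_insert, Finset.mem_singleton] at he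
      rcases he with rfl | rfl
      · exact h1
      · exact h2
    · rw [Finset.disjoint_left]
      intro e he heG
      simp only [Finset.mem_insert, Finset.mem_singleton] at he
      rcases he with rfl | rfl
      · exact h3 heG
      · exact h4 heG
  rw [if_pos hsw] at h3'
  exact one_ne_zero h3'

/-! ### Adjacency and neighbour counts -/

/-- `u` and `w` are adjacent in `G`. -/
def adj (G : Finset (Edge n)) (u w : Fin n) : Prop := ∃ h : u ≠ w, mkEdge u w h ∈ G

instance (G : Finset (Edge n)) (u w : Fin n) : Decidable (adj G u w) := by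
  unfold adj
  infer_instance

lemma adj_comm {G : Finset (Edge n)} {u w : Fin n} : adj G u w ↔ adj G w u := by
  constructor
  · rintro ⟨h, hm⟩
    exact ⟨h.symm, by rwa [← mkEdge_comm]⟩
  · rintro ⟨h, hm⟩
    exact ⟨h.symm, by rwa [← mkEdge_comm]⟩

lemma adj_ne {G : Finset (Edge n)} {u w : Fin n} (h : adj G u w) : u ≠ w := h.1

lemma adj_iff_mem {G : Finset (Edge n)} {u w : Fin n} (h : u ≠ w) :
    adj G u w ↔ mkEdge u w h ∈ G :=
  ⟨fun ⟨_, hm⟩ => hm, fun hm => ⟨h, hm⟩⟩

/-- The neighbours of `a`. -/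
def nbrs (G : Finset (Edge n)) (a : Fin n) : Finset (Fin n) := univ.filter (fun z => adj G a z)

lemma mem_nbrs {G : Finset (Edge n)} {a z : Fin n} : z ∈ nbrs G a ↔ adj G a z := by
  unfold nbrs
  simp

/-- The degree is the number of neighbours. -/
lemma deg_eq_card_nbrs (G : Finset (Edge n)) (a : Fin n) : deg G a = (nbrs G a).card := by
  unfold deg
  refine Finset.card_bij (fun s hs => Sym2.Mem.other' (Finset.mem_filter.mp hs).2) ?_ ?_ ?_
  · intro s hs
    have hsG := (Finset.mem_filter.mp hs).1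
    have ha := (Finset.mem_filter.mp hs).2
    have hspec := Sym2.other_spec' ha
    rw [mem_nbrs]
    have hne : a ≠ Sym2.Mem.other' ha := by
      intro h
      apply s.2
      rw [← hspec, ← h]
      exact Sym2.mk_isDiag_iff.mpr rfl
    refine ⟨hne, ?_⟩
    have : mkEdge a (Sym2.Mem.other' ha) hne = s := Subtype.ext hspec
    rw [this]
    exact hsG
  · intro s hs s' hs' h
    have ha := (Finset.mem_filter.mp hs).2
    have ha' := (Finset.mem_filter.mp hs').2
    apply Subtype.ext
    rw [← Sym2.other_spec' ha, ← Sym2.other_spec' ha', h]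
  · intro z hz
    rw [mem_nbrs] at hz
    obtain ⟨hne, hm⟩ := hz
    have ha : a ∈ (mkEdge a z hne).1 := (mem_mkEdge hne a).mpr (Or.inl rfl)
    refine ⟨mkEdge a z hne, Finset.mem_filter.mpr ⟨hm, ha⟩, ?_⟩
    have hspec := Sym2.other_spec' ha
    have h2 : s(a, Sym2.Mem.other' ha) = s(a, z) := hspec
    exact Sym2.congr_right.mp h2


/-! ### Edge extensionality -/

lemma edge_ext {G G' : Finset (Edge n)}
    (h : ∀ (u w : Fin n) (huw : u ≠ w), mkEdge u w huw ∈ G ↔ mkEdge u w huw ∈ G') : G = G' := by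
  ext ⟨s, hs⟩
  induction s using Sym2.ind with
  | _ x y =>
    have hxy : x ≠ y := fun e => hs (by rw [e]; exact Sym2.mk_isDiag_iff.mpr rfl)
    exact h x y hxy

lemma adj_ext {G G' : Finset (Edge n)} (h : ∀ u w : Fin n, adj G u w ↔ adj G' u w) : G = G' :=
  edge_ext (fun u w huw => by rw [← adj_iff_mem huw, ← adj_iff_mem huw]; exact h u w)

/-- Our `adj` agrees with the `Sym2` formulation `∃ s ∈ G, s.1 = s(u, w)`. -/
lemma adj_iff_exists {G : Finset (Edge n)} {u w : Fin n} :
    adj G u w ↔ ∃ s ∈ G, s.1 = s(u, w) := by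
  constructor
  · rintro ⟨h, hm⟩
    exact ⟨_, hm, rfl⟩
  · rintro ⟨s, hs, he⟩
    have hne : u ≠ w := by
      intro e
      apply s.2
      rw [he, e]
      exact Sym2.mk_isDiag_iff.mpr rfl
    refine ⟨hne, ?_⟩
    have : mkEdge u w hne = s := Subtype.ext he.symm
    rwa [this]

/-! ### The hinge label -/

/-- The hinge label of the pair `{a, b}`: the graph with all edges at `a` or `b` removed. -/
def hlab (a b : Fin n) (G : Finset (Edge n)) : Finset (Edge n) :=
  G.filter (fun s => a ∉ s.1 ∧ b ∉ s.1)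

lemma mem_hlab {a b : Fin n} {G : Finset (Edge n)} {s : Edge n} :
    s ∈ hlab a b G ↔ s ∈ G ∧ a ∉ s.1 ∧ b ∉ s.1 := by
  unfold hlab
  rw [Finset.mem_filter]

lemma hlab_comm (a b : Fin n) (G : Finset (Edge n)) : hlab a b G = hlab b a G := by
  ext s
  rw [mem_hlab, mem_hlab]
  tauto

/-- Adjacency off `{a, b}` is determined by the hinge label. -/
lemma adj_of_hlab_eq {a b : Fin n} {G G' : Finset (Edge n)} (h : hlab a b G = hlab a b G')
    {u w : Fin n} (hua : u ≠ a) (hub : u ≠ b) (hwa : w ≠ a) (hwb : w ≠ b) :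
    adj G u w ↔ adj G' u w := by
  have key : ∀ {G G' : Finset (Edge n)}, hlab a b G = hlab a b G' → adj G u w → adj G' u w := by
    intro G G' h ⟨hne, hm⟩
    refine ⟨hne, ?_⟩
    have hm' : mkEdge u w hne ∈ hlab a b G := by
      rw [mem_hlab]
      refine ⟨hm, ?_, ?_⟩
      · rw [mem_mkEdge]
        rintro (h | h)
        · exact hua h.symm
        · exact hwa h.symm
      · rw [mem_mkEdge]
        rintro (h | h)
        · exact hub h.symm
        · exact hwb h.symm
    rw [h] at hm'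
    exact (mem_hlab.mp hm').1
  exact ⟨key h, key h.symm⟩

/-! ### Neighbour counts at the hinge -/

lemma card_nbrs_pair {a b : Fin n} (hab : a ≠ b) (G : Finset (Edge n)) (z : Fin n) :
    ((nbrs G z).filter (fun w => w = a ∨ w = b)).card =
      (if adj G z a then 1 else 0) + (if adj G z b then 1 else 0) := by
  have e : (nbrs G z).filter (fun w => w = a ∨ w = b) =
      (if adj G z a then {a} else ∅) ∪ (if adj G z b then {b} else ∅) := by
    ext w
    simp only [Finset.mem_filter, mem_nbrs, Finset.mem_union]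
    constructor
    · rintro ⟨hw, rfl | rfl⟩
      · left
        rw [if_pos hw]
        exact Finset.mem_singleton_self _
      · right
        rw [if_pos hw]
        exact Finset.mem_singleton_self _
    · rintro (hw | hw)
      · split_ifs at hw with h
        · rw [Finset.mem_singleton] at hw
          subst hw
          exact ⟨h, Or.inl rfl⟩
        · simp at hw
      · split_ifs at hw with h
        · rw [Finset.mem_singleton] at hw
          subst hw
          exact ⟨h, Or.inr rfl⟩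
        · simp at hw
  rw [e, Finset.card_union_of_disjoint]
  · split_ifs <;> simp
  · split_ifs <;> simp [hab]

/-- On a hinge fibre (same degrees, same hinge label) the number of neighbours of `z ∉ {a, b}`
in `{a, b}` is constant. -/
lemma cnt_eq {a b : Fin n} (hab : a ≠ b) {G G' : Finset (Edge n)}
    (hdeg : ∀ v, deg G v = deg G' v) (h : hlab a b G = hlab a b G') {z : Fin n}
    (hza : z ≠ a) (hzb : z ≠ b) :
    ((if adj G a z then 1 else 0) + (if adj G b z then 1 else 0) : ℕ) =
      (if adj G' a z then 1 else 0) + (if adj G' b z then 1 else 0) := by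
  have h1 := card_nbrs_pair hab G z
  have h2 := card_nbrs_pair hab G' z
  have h3 := Finset.card_filter_add_card_filter_not (s := nbrs G z)
    (fun w => w = a ∨ w = b)
  have h4 := Finset.card_filter_add_card_filter_not (s := nbrs G' z)
    (fun w => w = a ∨ w = b)
  have h5 : (nbrs G z).filter (fun w => ¬(w = a ∨ w = b)) =
      (nbrs G' z).filter (fun w => ¬(w = a ∨ w = b)) := by
    ext w
    simp only [Finset.mem_filter, mem_nbrs, not_or]
    constructor
    · rintro ⟨hw, hwa, hwb⟩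
      exact ⟨(adj_of_hlab_eq h hza hzb hwa hwb).mp hw, hwa, hwb⟩
    · rintro ⟨hw, hwa, hwb⟩
      exact ⟨(adj_of_hlab_eq h hza hzb hwa hwb).mpr hw, hwa, hwb⟩
  have h6 := hdeg z
  rw [deg_eq_card_nbrs, deg_eq_card_nbrs] at h6
  rw [h5] at h3
  have e1 : adj G a z ↔ adj G z a := adj_comm
  have e2 : adj G b z ↔ adj G z b := adj_comm
  have e3 : adj G' a z ↔ adj G' z a := adj_comm
  have e4 : adj G' b z ↔ adj G' z b := adj_comm
  simp only [e1, e2, e3, e4]
  omega

lemma both_iff {a b : Fin n} (hab : a ≠ b) {G G' : Finset (Edge n)}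
    (hdeg : ∀ v, deg G v = deg G' v) (h : hlab a b G = hlab a b G') {z : Fin n}
    (hza : z ≠ a) (hzb : z ≠ b) :
    (adj G a z ∧ adj G b z) ↔ (adj G' a z ∧ adj G' b z) := by
  have h1 := cnt_eq hab hdeg h hza hzb
  by_cases p1 : adj G a z <;> by_cases p2 : adj G b z <;> by_cases p3 : adj G' a z <;>
    by_cases p4 : adj G' b z <;> simp [p1, p2, p3, p4] at h1 ⊢

lemma one_iff {a b : Fin n} (hab : a ≠ b) {G G' : Finset (Edge n)}
    (hdeg : ∀ v, deg G v = deg G' v) (h : hlab a b G = hlab a b G') {z : Fin n}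
    (hza : z ≠ a) (hzb : z ≠ b) :
    (adj G a z ↔ ¬ adj G b z) ↔ (adj G' a z ↔ ¬ adj G' b z) := by
  have h1 := cnt_eq hab hdeg h hza hzb
  by_cases p1 : adj G a z <;> by_cases p2 : adj G b z <;> by_cases p3 : adj G' a z <;>
    by_cases p4 : adj G' b z <;> simp [p1, p2, p3, p4] at h1 ⊢

/-- The private neighbours of `a` (w.r.t. the pair `{a, b}`): adjacent to `a`, not to `b`, and
different from `b`. -/
def pA (a b : Fin n) (G : Finset (Edge n)) : Finset (Fin n) :=
  univ.filter (fun z => z ≠ b ∧ adj G a z ∧ ¬ adj G b z)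

/-- The common neighbours of `a` and `b`. -/
def cmn (a b : Fin n) (G : Finset (Edge n)) : Finset (Fin n) :=
  univ.filter (fun z => adj G a z ∧ adj G b z)

/-- The free set of the hinge `{a, b}`: the vertices adjacent to exactly one of `a`, `b`. -/
def hU (a b : Fin n) (G : Finset (Edge n)) : Finset (Fin n) :=
  univ.filter (fun z => z ≠ a ∧ z ≠ b ∧ (adj G a z ↔ ¬ adj G b z))

lemma mem_pA {a b : Fin n} {G : Finset (Edge n)} {z : Fin n} :
    z ∈ pA a b G ↔ z ≠ b ∧ adj G a z ∧ ¬ adj G b z := by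
  unfold pA
  simp

lemma mem_cmn {a b : Fin n} {G : Finset (Edge n)} {z : Fin n} :
    z ∈ cmn a b G ↔ adj G a z ∧ adj G b z := by
  unfold cmn
  simp

lemma mem_hU {a b : Fin n} {G : Finset (Edge n)} {z : Fin n} :
    z ∈ hU a b G ↔ z ≠ a ∧ z ≠ b ∧ (adj G a z ↔ ¬ adj G b z) := by
  unfold hU
  simp

lemma cmn_comm (a b : Fin n) (G : Finset (Edge n)) : cmn a b G = cmn b a G := by
  ext z
  rw [mem_cmn, mem_cmn]
  tauto

lemma hU_comm (a b : Fin n) (G : Finset (Edge n)) : hU a b G = hU b a G := by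
  ext z
  rw [mem_hU, mem_hU]
  tauto

lemma pA_union (a b : Fin n) (G : Finset (Edge n)) : pA a b G ∪ pA b a G = hU a b G := by
  ext z
  rw [Finset.mem_union, mem_pA, mem_pA, mem_hU]
  constructor
  · rintro (⟨h1, h2, h3⟩ | ⟨h1, h2, h3⟩)
    · exact ⟨fun e => (adj_ne h2) e.symm, h1, by tauto⟩
    · exact ⟨h1, fun e => (adj_ne h2) e.symm, by tauto⟩
  · rintro ⟨h1, h2, h3⟩
    by_cases h4 : adj G a z
    · exact Or.inl ⟨h2, h4, h3.mp h4⟩
    · exact Or.inr ⟨h1, by tauto, h4⟩

lemma pA_disjoint (a b : Fin n) (G : Finset (Edge n)) : Disjoint (pA a b G) (pA b a G) := by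
  rw [Finset.disjoint_left]
  intro z h1 h2
  rw [mem_pA] at h1 h2
  exact h2.2.2 h1.2.1

lemma hU_sdiff_pA (a b : Fin n) (G : Finset (Edge n)) : hU a b G \ pA a b G = pA b a G := by
  rw [← pA_union, Finset.union_sdiff_left]
  exact Finset.sdiff_eq_self_of_disjoint (pA_disjoint b a G)

lemma pA_subset_hU (a b : Fin n) (G : Finset (Edge n)) : pA a b G ⊆ hU a b G := by
  rw [← pA_union]
  exact Finset.subset_union_left

/-- `deg a = [a ~ b] + #common + #private`. -/
lemma deg_a_split (a b : Fin n) (G : Finset (Edge n)) :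
    deg G a = (if adj G a b then 1 else 0) + (cmn a b G).card + (pA a b G).card := by
  rw [deg_eq_card_nbrs]
  have h1 := Finset.card_filter_add_card_filter_not (s := nbrs G a) (fun w => w = b)
  have h2 := Finset.card_filter_add_card_filter_not
    (s := (nbrs G a).filter (fun w => ¬ w = b)) (fun w => adj G b w)
  have e1 : ((nbrs G a).filter (fun w => w = b)).card = if adj G a b then 1 else 0 := by
    by_cases hb : adj G a b
    · rw [if_pos hb]
      have : (nbrs G a).filter (fun w => w = b) = {b} := by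
        ext w
        simp only [Finset.mem_filter, mem_nbrs, Finset.mem_singleton]
        constructor
        · exact fun h => h.2
        · rintro rfl
          exact ⟨hb, rfl⟩
      rw [this, Finset.card_singleton]
    · rw [if_neg hb]
      rw [Finset.card_eq_zero]
      ext w
      simp only [Finset.mem_filter, mem_nbrs, Finset.notMem_empty, iff_false, not_and]
      intro hw e
      exact hb (e ▸ hw)
  have e2 : ((nbrs G a).filter (fun w => ¬ w = b)).filter (fun w => adj G b w) = cmn a b G := by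
    ext w
    simp only [Finset.mem_filter, mem_nbrs, mem_cmn]
    constructor
    · exact fun h => ⟨h.1.1, h.2⟩
    · exact fun h => ⟨⟨h.1, fun e => (adj_ne h.2) e.symm⟩, h.2⟩
  have e3 : ((nbrs G a).filter (fun w => ¬ w = b)).filter (fun w => ¬ adj G b w) = pA a b G := by
    ext w
    simp only [Finset.mem_filter, mem_nbrs, mem_pA]
    tauto
  rw [e2, e3] at h2
  rw [e1] at h1
  omega

section FibreInvariants

variable {a b : Fin n} (hab : a ≠ b) {G G' : Finset (Edge n)}
  (hdeg : ∀ v, deg G v = deg G' v) (h : hlab a b G = hlab a b G')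

include hab hdeg h

lemma cmn_eq : cmn a b G = cmn a b G' := by
  ext z
  rw [mem_cmn, mem_cmn]
  by_cases hza : z = a
  · subst hza
    constructor
    · exact fun h => absurd rfl (adj_ne h.1)
    · exact fun h => absurd rfl (adj_ne h.1)
  by_cases hzb : z = b
  · subst hzb
    constructor
    · exact fun h => absurd rfl (adj_ne h.2)
    · exact fun h => absurd rfl (adj_ne h.2)
  exact both_iff hab hdeg h hza hzb

lemma hU_eq : hU a b G = hU a b G' := by
  ext z
  rw [mem_hU, mem_hU]
  constructor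
  · rintro ⟨hza, hzb, h3⟩
    exact ⟨hza, hzb, (one_iff hab hdeg h hza hzb).mp h3⟩
  · rintro ⟨hza, hzb, h3⟩
    exact ⟨hza, hzb, (one_iff hab hdeg h hza hzb).mpr h3⟩

lemma adj_ab_iff : adj G a b ↔ adj G' a b := by
  have h1 := deg_a_split a b G
  have h2 := deg_a_split b a G
  have h3 := deg_a_split a b G'
  have h4 := deg_a_split b a G'
  have hc := cmn_eq hab hdeg h
  have hUe := hU_eq hab hdeg h
  have c1 : (pA a b G).card + (pA b a G).card = (hU a b G).card := by
    rw [← pA_union, Finset.card_union_of_disjoint (pA_disjoint a b G)]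
  have c2 : (pA a b G').card + (pA b a G').card = (hU a b G').card := by
    rw [← pA_union, Finset.card_union_of_disjoint (pA_disjoint a b G')]
  have d1 := hdeg a
  have d2 := hdeg b
  rw [← cmn_comm] at h2 h4
  rw [← hc] at h3 h4
  rw [← hUe] at c2
  have e1 : adj G b a ↔ adj G a b := adj_comm
  have e2 : adj G' b a ↔ adj G' a b := adj_comm
  simp only [e1, e2] at h2 h4
  by_cases p1 : adj G a b <;> by_cases p2 : adj G' a b <;> simp [p1, p2] at h1 h2 h3 h4 ⊢ <;> omega

lemma card_pA_eq : (pA a b G).card = (pA a b G').card := by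
  have h1 := deg_a_split a b G
  have h3 := deg_a_split a b G'
  have hc := cmn_eq hab hdeg h
  have hb := adj_ab_iff hab hdeg h
  have d1 := hdeg a
  rw [← hc] at h3
  by_cases p1 : adj G a b
  · have p2 := hb.mp p1
    simp [p1, p2] at h1 h3
    omega
  · have p2 : ¬ adj G' a b := fun h => p1 (hb.mpr h)
    simp [p1, p2] at h1 h3
    omega

end FibreInvariants

lemma adj_a_iff (a b : Fin n) (G : Finset (Edge n)) (w : Fin n) :
    adj G a w ↔ (w = b ∧ adj G a b) ∨ w ∈ cmn a b G ∨ w ∈ pA a b G := by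
  rw [mem_cmn, mem_pA]
  constructor
  · intro hw
    by_cases hwb : w = b
    · subst hwb
      exact Or.inl ⟨rfl, hw⟩
    · by_cases h2 : adj G b w
      · exact Or.inr (Or.inl ⟨hw, h2⟩)
      · exact Or.inr (Or.inr ⟨hwb, hw, h2⟩)
  · rintro (⟨rfl, h⟩ | ⟨h, -⟩ | ⟨-, h, -⟩)
    · exact h
    · exact h
    · exact h

/-- **Injectivity of the private-neighbour map on a hinge fibre.** -/
lemma eq_of_pA_eq {a b : Fin n} (hab : a ≠ b) {G G' : Finset (Edge n)}
    (hdeg : ∀ v, deg G v = deg G' v) (h : hlab a b G = hlab a b G')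
    (hp : pA a b G = pA a b G') : G = G' := by
  have hc := cmn_eq hab hdeg h
  have hUe := hU_eq hab hdeg h
  have hb := adj_ab_iff hab hdeg h
  have hpB : pA b a G = pA b a G' := by
    rw [← hU_sdiff_pA a b G, ← hU_sdiff_pA a b G', hUe, hp]
  have ha : ∀ w, adj G a w ↔ adj G' a w := fun w => by
    rw [adj_a_iff a b G w, adj_a_iff a b G' w, hc, hp, hb]
  have hb' : ∀ w, adj G b w ↔ adj G' b w := fun w => by
    have e1 : adj G b a ↔ adj G a b := adj_comm
    have e2 : adj G' b a ↔ adj G' a b := adj_comm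
    rw [adj_a_iff b a G w, adj_a_iff b a G' w, ← cmn_comm a b G, ← cmn_comm a b G', hc, hpB, e1,
      e2, hb]
  apply adj_ext
  intro u w
  by_cases hua : u = a
  · subst hua
    exact ha w
  by_cases hub : u = b
  · subst hub
    exact hb' w
  by_cases hwa : w = a
  · subst hwa
    rw [adj_comm, adj_comm (G := G')]
    exact ha u
  by_cases hwb : w = b
  · subst hwb
    rw [adj_comm, adj_comm (G := G')]
    exact hb' u
  exact adj_of_hlab_eq h hua hub hwa hwb


/-! ### Trades -/

/-- The `{a, b}`-trade: `a` gives up its neighbour `z` for `z'`, and `b` gives up `z'` for `z`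
(`G - az - z'b + az' + zb`).  Total definition by filters. -/
def trade (a b : Fin n) (G : Finset (Edge n)) (z z' : Fin n) : Finset (Edge n) :=
  G.filter (fun s => ¬((a ∈ s.1 ∧ z ∈ s.1) ∨ (z' ∈ s.1 ∧ b ∈ s.1))) ∪
    univ.filter (fun s => (a ∈ s.1 ∧ z' ∈ s.1) ∨ (z ∈ s.1 ∧ b ∈ s.1))

lemma mem_trade {a b : Fin n} {G : Finset (Edge n)} {z z' : Fin n} {s : Edge n} :
    s ∈ trade a b G z z' ↔ (s ∈ G ∧ ¬((a ∈ s.1 ∧ z ∈ s.1) ∨ (z' ∈ s.1 ∧ b ∈ s.1))) ∨
      ((a ∈ s.1 ∧ z' ∈ s.1) ∨ (z ∈ s.1 ∧ b ∈ s.1)) := by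
  unfold trade
  simp

lemma trade_comm (a b : Fin n) (G : Finset (Edge n)) (z z' : Fin n) :
    trade a b G z z' = trade b a G z' z := by
  ext s
  rw [mem_trade, mem_trade]
  tauto

lemma trade_eq {a b : Fin n} (G : Finset (Edge n)) {z z' : Fin n} (haz : a ≠ z) (hzb' : z' ≠ b)
    (haz' : a ≠ z') (hzb : z ≠ b) :
    trade a b G z z' =
      (G \ {mkEdge a z haz, mkEdge z' b hzb'}) ∪ {mkEdge a z' haz', mkEdge z b hzb} := by
  ext s
  rw [mem_trade, mem_mem_iff haz, mem_mem_iff hzb', mem_mem_iff haz', mem_mem_iff hzb]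
  simp only [Finset.mem_union, Finset.mem_sdiff, Finset.mem_insert, Finset.mem_singleton]

/-- A trade does not change the hinge label. -/
lemma hlab_trade (a b : Fin n) (G : Finset (Edge n)) (z z' : Fin n) :
    hlab a b (trade a b G z z') = hlab a b G := by
  ext s
  rw [mem_hlab, mem_hlab, mem_trade]
  tauto

lemma adj_trade_a {a b : Fin n} (hab : a ≠ b) (G : Finset (Edge n)) {z z' : Fin n} (haz : a ≠ z)
    (hzb' : z' ≠ b) (haz' : a ≠ z') (hzb : z ≠ b) (w : Fin n) :
    adj (trade a b G z z') a w ↔ (adj G a w ∧ w ≠ z) ∨ w = z' := by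
  by_cases haw : a = w
  · subst haw
    constructor
    · intro h
      exact absurd rfl (adj_ne h)
    · rintro (⟨h, -⟩ | h)
      · exact absurd rfl (adj_ne h)
      · exact absurd h haz'
  rw [adj_iff_mem haw, adj_iff_mem haw, trade_eq G haz hzb' haz' hzb]
  simp only [Finset.mem_union, Finset.mem_sdiff, Finset.mem_insert, Finset.mem_singleton,
    mkEdge_eq_iff, haz, haz', hab, true_and, false_and, or_false, ne_eq]

lemma adj_trade_b {a b : Fin n} (hab : a ≠ b) (G : Finset (Edge n)) {z z' : Fin n} (haz : a ≠ z)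
    (hzb' : z' ≠ b) (haz' : a ≠ z') (hzb : z ≠ b) (w : Fin n) :
    adj (trade a b G z z') b w ↔ (adj G b w ∧ w ≠ z') ∨ w = z := by
  rw [trade_comm]
  exact adj_trade_a hab.symm G hzb'.symm haz.symm hzb.symm haz'.symm w

/-- The private neighbourhood after a trade. -/
lemma pA_trade {a b : Fin n} (hab : a ≠ b) (G : Finset (Edge n)) {z z' : Fin n} (haz : a ≠ z)
    (hzb' : z' ≠ b) (haz' : a ≠ z') (hzb : z ≠ b) (hzz' : z ≠ z') :
    pA a b (trade a b G z z') = insert z' ((pA a b G).erase z) := by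
  ext w
  rw [mem_pA, Finset.mem_insert, Finset.mem_erase, mem_pA, adj_trade_a hab G haz hzb' haz' hzb,
    adj_trade_b hab G haz hzb' haz' hzb]
  by_cases hwz' : w = z'
  · subst hwz'
    simp [hzb', Ne.symm hzz']
  · simp only [hwz', or_false, false_or, ne_eq, not_false_eq_true, and_true]
    tauto

/-- A trade between a private neighbour of `a` and a private neighbour of `b` is a switch. -/
lemma proposalCount_trade {a b : Fin n} (hab : a ≠ b) {G : Finset (Edge n)} {z z' : Fin n}
    (hz : z ∈ pA a b G) (hz' : z' ∈ pA b a G) :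
    proposalCount G (trade a b G z z') ≠ 0 := by
  rw [mem_pA] at hz hz'
  obtain ⟨hzb, hza, hzb2⟩ := hz
  obtain ⟨hz'a, hz'b, hz'a2⟩ := hz'
  have haz : a ≠ z := adj_ne hza
  have hbz' : b ≠ z' := adj_ne hz'b
  have hzz' : z ≠ z' := fun e => hz'a2 (e ▸ hza)
  rw [trade_eq G haz hbz'.symm hz'a.symm hzb]
  refine proposalCount_sw_ne_zero haz hz'a.symm hab hzz' hzb hbz'.symm
    ((adj_iff_mem haz).mp hza) ?_ (fun h => hz'a2 ⟨_, h⟩) (fun h => hzb2 (adj_comm.mp ⟨_, h⟩))
  have := (adj_iff_mem hbz').mp hz'b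
  rwa [mkEdge_comm] at this

lemma trade_distinct {a b : Fin n} {G : Finset (Edge n)} {z z' : Fin n}
    (hz : z ∈ pA a b G) (hz' : z' ∈ pA b a G) :
    a ≠ z ∧ z' ≠ b ∧ a ≠ z' ∧ z ≠ b ∧ z ≠ z' := by
  rw [mem_pA] at hz hz'
  obtain ⟨hzb, hza, hzb2⟩ := hz
  obtain ⟨hz'a, hz'b, hz'a2⟩ := hz'
  exact ⟨adj_ne hza, (adj_ne hz'b).symm, hz'a.symm, hzb, fun e => hz'a2 (e ▸ hza)⟩

/-- `pA` after a trade between private neighbours. -/
lemma pA_trade' {a b : Fin n} (hab : a ≠ b) {G : Finset (Edge n)} {z z' : Fin n}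
    (hz : z ∈ pA a b G) (hz' : z' ∈ pA b a G) :
    pA a b (trade a b G z z') = insert z' ((pA a b G).erase z) := by
  obtain ⟨h1, h2, h3, h4, h5⟩ := trade_distinct hz hz'
  exact pA_trade hab G h1 h2 h3 h4 h5

/-- A trade between private neighbours stays in the hinge fibre. -/
lemma trade_mem_fibre {a b : Fin n} (hab : a ≠ b) {d : Fin n → ℕ} {G₀ G : Finset (Edge n)}
    (hG : G ∈ fibre (realizations d) (hlab a b) G₀) {z z' : Fin n}
    (hz : z ∈ pA a b G) (hz' : z' ∈ pA b a G) :
    trade a b G z z' ∈ fibre (realizations d) (hlab a b) G₀ := by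
  rw [mem_fibre] at hG ⊢
  refine ⟨?_, ?_⟩
  · rw [mem_realizations]
    intro v
    rw [deg_eq_of_proposalCount_ne_zero (proposalCount_trade hab hz hz') v]
    exact mem_realizations.mp hG.1 v
  · rw [hlab_trade]
    exact hG.2


/-! ### The hinge fibre is a Johnson graph -/

section Fibre

variable {a b : Fin n} (hab : a ≠ b) {d : Fin n → ℕ} {G₀ : Finset (Edge n)}

lemma deg_eq_of_mem_fibre {G : Finset (Edge n)} (hG₀ : G₀ ∈ realizations d)
    (hG : G ∈ fibre (realizations d) (hlab a b) G₀) : ∀ v, deg G v = deg G₀ v := by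
  intro v
  rw [mem_realizations.mp (mem_fibre.mp hG).1 v, mem_realizations.mp hG₀ v]

include hab in
/-- On the hinge fibre of `G₀` the free set is constant. -/
lemma hU_eq_of_mem_fibre {G : Finset (Edge n)} (hG₀ : G₀ ∈ realizations d)
    (hG : G ∈ fibre (realizations d) (hlab a b) G₀) : hU a b G = hU a b G₀ :=
  hU_eq hab (deg_eq_of_mem_fibre hG₀ hG) (mem_fibre.mp hG).2

include hab in
/-- On the hinge fibre of `G₀` the private neighbourhood of `a` is a `t`-subset of the free set. -/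
lemma pA_mem_powersetCard {G : Finset (Edge n)} (hG₀ : G₀ ∈ realizations d)
    (hG : G ∈ fibre (realizations d) (hlab a b) G₀) :
    pA a b G ∈ (hU a b G₀).powersetCard (pA a b G₀).card := by
  rw [Finset.mem_powersetCard]
  refine ⟨?_, card_pA_eq hab (deg_eq_of_mem_fibre hG₀ hG) (mem_fibre.mp hG).2⟩
  rw [← hU_eq_of_mem_fibre hab hG₀ hG]
  exact pA_subset_hU a b G

include hab in
/-- On the hinge fibre of `G₀`: the private neighbours of `b` are the free vertices that are not
private neighbours of `a`. -/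
lemma pB_eq_of_mem_fibre {G : Finset (Edge n)} (hG₀ : G₀ ∈ realizations d)
    (hG : G ∈ fibre (realizations d) (hlab a b) G₀) : pA b a G = hU a b G₀ \ pA a b G := by
  rw [← hU_eq_of_mem_fibre hab hG₀ hG, hU_sdiff_pA]

include hab in
/-- `pA a b` is injective on the hinge fibre. -/
lemma pA_injOn {G G' : Finset (Edge n)} (hG₀ : G₀ ∈ realizations d)
    (hG : G ∈ fibre (realizations d) (hlab a b) G₀)
    (hG' : G' ∈ fibre (realizations d) (hlab a b) G₀) (hp : pA a b G = pA a b G') : G = G' := by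
  apply eq_of_pA_eq hab _ _ hp
  · intro v
    rw [deg_eq_of_mem_fibre hG₀ hG v, deg_eq_of_mem_fibre hG₀ hG' v]
  · rw [(mem_fibre.mp hG).2, (mem_fibre.mp hG').2]

include hab in
lemma exists_pA_eq_aux (hG₀ : G₀ ∈ realizations d) (T : Finset (Fin n))
    (hTU : T ⊆ hU a b G₀) (hTc : T.card = (pA a b G₀).card) :
    ∀ (k : ℕ), ∀ G ∈ fibre (realizations d) (hlab a b) G₀, (T \ pA a b G).card = k →
      ∃ G' ∈ fibre (realizations d) (hlab a b) G₀, pA a b G' = T := by
  intro k
  induction k with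
  | zero =>
    intro G hG hk
    refine ⟨G, hG, ?_⟩
    have hsub : T ⊆ pA a b G := Finset.sdiff_eq_empty_iff_subset.mp (Finset.card_eq_zero.mp hk)
    have hc : (pA a b G).card = (pA a b G₀).card :=
      (Finset.mem_powersetCard.mp (pA_mem_powersetCard hab hG₀ hG)).2
    exact (Finset.eq_of_subset_of_card_le hsub (by rw [hc, hTc])).symm
  | succ k ih =>
    intro G hG hk
    have hc : (pA a b G).card = (pA a b G₀).card :=
      (Finset.mem_powersetCard.mp (pA_mem_powersetCard hab hG₀ hG)).2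
    have hne : (T \ pA a b G).Nonempty := Finset.card_pos.mp (by omega)
    obtain ⟨z', hz'⟩ := hne
    rw [Finset.mem_sdiff] at hz'
    have hz'B : z' ∈ pA b a G := by
      rw [pB_eq_of_mem_fibre hab hG₀ hG, Finset.mem_sdiff]
      exact ⟨hTU hz'.1, hz'.2⟩
    have hex : ∃ z ∈ pA a b G, z ∉ T := by
      by_contra hcon
      have hcon' : pA a b G ⊆ T := fun z hz => by_contra (fun h => hcon ⟨z, hz, h⟩)
      have := Finset.eq_of_subset_of_card_le hcon' (by rw [hc, hTc])
      exact hz'.2 (this ▸ hz'.1)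
    obtain ⟨z, hz, hzT⟩ := hex
    apply ih (trade a b G z z') (trade_mem_fibre hab hG hz hz'B)
    rw [pA_trade' hab hz hz'B]
    have e : T \ insert z' ((pA a b G).erase z) = (T \ pA a b G).erase z' := by
      ext w
      simp only [Finset.mem_sdiff, Finset.mem_insert, Finset.mem_erase, not_or, not_and]
      constructor
      · rintro ⟨h1, h2, h3⟩
        exact ⟨h2, h1, fun h => h3 (fun e => hzT (e ▸ h1)) h⟩
      · rintro ⟨h1, h2, h3⟩
        exact ⟨h2, h1, fun _ h => h3 h⟩
    rw [e, Finset.card_erase_of_mem (Finset.mem_sdiff.mpr hz'), hk]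
    rfl

include hab in
/-- `pA a b` maps the hinge fibre ONTO the `t`-subsets of the free set. -/
lemma exists_pA_eq (hG₀ : G₀ ∈ realizations d) {T : Finset (Fin n)}
    (hT : T ∈ (hU a b G₀).powersetCard (pA a b G₀).card) :
    ∃ G ∈ fibre (realizations d) (hlab a b) G₀, pA a b G = T := by
  rw [Finset.mem_powersetCard] at hT
  exact exists_pA_eq_aux hab hG₀ T hT.1 hT.2 _ G₀ (self_mem_fibre _ hG₀) rfl

include hab in
/-- **Transport of sums along the fibre parametrisation** `G ↦ pA a b G`. -/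
lemma sum_fibre_eq (hG₀ : G₀ ∈ realizations d) (h : Finset (Edge n) → ℝ)
    (k : Finset (Fin n) → ℝ)
    (hk : ∀ G ∈ fibre (realizations d) (hlab a b) G₀, h G = k (pA a b G)) :
    ∑ G ∈ fibre (realizations d) (hlab a b) G₀, h G =
      ∑ T ∈ (hU a b G₀).powersetCard (pA a b G₀).card, k T := by
  refine Finset.sum_bij (fun G _ => pA a b G) ?_ ?_ ?_ ?_
  · intro G hG
    exact pA_mem_powersetCard hab hG₀ hG
  · intro G hG G' hG' hp
    exact pA_injOn hab hG₀ hG hG' hp
  · intro T hT
    obtain ⟨G, hG, hGT⟩ := exists_pA_eq hab hG₀ hT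
    exact ⟨G, hG, hGT⟩
  · intro G hG
    exact hk G hG

include hab in
/-- **Poincaré inequality on a hinge fibre** (from the Johnson gap): the variance of `f` on the
fibre is at most a quarter of its trade energy. -/
theorem hinge_fibre_PI (hG₀ : G₀ ∈ realizations d) (f : Finset (Edge n) → ℝ) :
    ((fibre (realizations d) (hlab a b) G₀).card : ℝ) *
          ∑ G ∈ fibre (realizations d) (hlab a b) G₀, f G ^ 2 -
        (∑ G ∈ fibre (realizations d) (hlab a b) G₀, f G) ^ 2 ≤
      ((fibre (realizations d) (hlab a b) G₀).card : ℝ) / 4 *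
        ∑ G ∈ fibre (realizations d) (hlab a b) G₀, ∑ z ∈ pA a b G, ∑ z' ∈ pA b a G,
          (f G - f (trade a b G z z')) ^ 2 := by
  classical
  set F := fibre (realizations d) (hlab a b) G₀ with hF
  set U := hU a b G₀ with hU'
  set t := (pA a b G₀).card with ht
  -- the transported function
  let g : Finset (Fin n) → ℝ := fun T =>
    if h : ∃ G ∈ F, pA a b G = T then f (Classical.choose h) else 0
  have hg : ∀ G ∈ F, g (pA a b G) = f G := by
    intro G hG
    have hex : ∃ G' ∈ F, pA a b G' = pA a b G := ⟨G, hG, rfl⟩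
    show (if h : ∃ G' ∈ F, pA a b G' = pA a b G then f (Classical.choose h) else 0) = f G
    rw [dif_pos hex]
    have hspec := Classical.choose_spec hex
    rw [pA_injOn hab hG₀ hspec.1 hG hspec.2]
  have h1 : ∑ G ∈ F, f G ^ 2 = ∑ T ∈ U.powersetCard t, g T ^ 2 :=
    sum_fibre_eq hab hG₀ (fun G => f G ^ 2) (fun T => g T ^ 2) (fun G hG => by rw [hg G hG])
  have h2 : ∑ G ∈ F, f G = ∑ T ∈ U.powersetCard t, g T :=
    sum_fibre_eq hab hG₀ f g (fun G hG => by rw [hg G hG])
  have h3 : (F.card : ℝ) = ((U.powersetCard t).card : ℝ) := by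
    have := sum_fibre_eq hab hG₀ (fun _ => (1 : ℝ)) (fun _ => (1 : ℝ)) (fun G hG => rfl)
    simpa using this
  have h4 : ∑ G ∈ F, ∑ z ∈ pA a b G, ∑ z' ∈ pA b a G, (f G - f (trade a b G z z')) ^ 2 =
      jEnergy U t g := by
    unfold jEnergy
    apply sum_fibre_eq hab hG₀
    intro G hG
    rw [pB_eq_of_mem_fibre hab hG₀ hG]
    apply Finset.sum_congr rfl
    intro z hz
    apply Finset.sum_congr rfl
    intro z' hz'
    rw [← pB_eq_of_mem_fibre hab hG₀ hG] at hz'
    rw [hg G hG, ← pA_trade' hab hz hz', hg _ (trade_mem_fibre hab hG hz hz')]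
  rw [h1, h2, h3, h4]
  exact johnson_gap U t g

end Fibre


/-! ### From fibrewise Poincaré inequalities to `f - cavg f` -/

section Abstract

variable {α β : Type*} [DecidableEq α] [DecidableEq β]

lemma fibre_sq_le (Ω : Finset α) (φ : α → β) (f : α → ℝ) {x₀ : α} (hx₀ : x₀ ∈ Ω) {R : ℝ}
    (h0 : ((fibre Ω φ x₀).card : ℝ) * ∑ x ∈ fibre Ω φ x₀, f x ^ 2 -
        (∑ x ∈ fibre Ω φ x₀, f x) ^ 2 ≤ ((fibre Ω φ x₀).card : ℝ) * R) :
    ∑ x ∈ fibre Ω φ x₀, (f x - cavg Ω φ f x) ^ 2 ≤ R := by
  have hpos := fibre_card_pos φ hx₀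
  have e1 : ∑ x ∈ fibre Ω φ x₀, (f x - cavg Ω φ f x) ^ 2 =
      ∑ x ∈ fibre Ω φ x₀, (f x - cavg Ω φ f x₀) ^ 2 := by
    apply Finset.sum_congr rfl
    intro x hx
    rw [cavg_congr_fibre Ω f (mem_fibre.mp hx).2]
  rw [e1]
  have hm : cavg Ω φ f x₀ * ((fibre Ω φ x₀).card : ℝ) = ∑ x ∈ fibre Ω φ x₀, f x := by
    unfold cavg
    field_simp
  generalize cavg Ω φ f x₀ = m at hm
  generalize fibre Ω φ x₀ = F at hm h0 hpos
  have e3 : ∑ x ∈ F, (f x - m) ^ 2 =
      ∑ x ∈ F, f x ^ 2 - 2 * m * ∑ x ∈ F, f x + (F.card : ℝ) * m ^ 2 := by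
    have : ∀ x ∈ F, (f x - m) ^ 2 = f x ^ 2 - 2 * m * f x + m ^ 2 := fun x _ => by ring
    rw [Finset.sum_congr rfl this, Finset.sum_add_distrib, Finset.sum_sub_distrib,
      ← Finset.mul_sum, Finset.sum_const, nsmul_eq_mul]
  have e4 : (F.card : ℝ) * ∑ x ∈ F, (f x - m) ^ 2 =
      (F.card : ℝ) * ∑ x ∈ F, f x ^ 2 - (∑ x ∈ F, f x) ^ 2 := by
    rw [e3, ← hm]
    ring
  have h5 : (F.card : ℝ) * ∑ x ∈ F, (f x - m) ^ 2 ≤ (F.card : ℝ) * R := by
    rw [e4]
    exact h0
  exact le_of_mul_le_mul_left h5 hpos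

/-- **Fibrewise Poincaré inequalities give the global bound on `f - cavg f`.** -/
lemma sum_sq_sub_cavg_le (Ω : Finset α) (φ : α → β) (f : α → ℝ) (c : ℝ) (W : α → α → ℝ)
    (h : ∀ x₀ ∈ Ω, ((fibre Ω φ x₀).card : ℝ) * ∑ x ∈ fibre Ω φ x₀, f x ^ 2 -
        (∑ x ∈ fibre Ω φ x₀, f x) ^ 2 ≤
      ((fibre Ω φ x₀).card : ℝ) * (c * ∑ x ∈ fibre Ω φ x₀, ∑ y ∈ fibre Ω φ x₀, W x y)) :
    ∑ x ∈ Ω, (f x - cavg Ω φ f x) ^ 2 ≤
      c * ∑ x ∈ Ω, ∑ y ∈ Ω, if φ x = φ y then W x y else 0 := by
  rw [Finset.mul_sum]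
  rw [← Finset.sum_fiberwise_of_maps_to (g := φ) (t := Ω.image φ)
    (fun x hx => Finset.mem_image_of_mem φ hx) (fun x => (f x - cavg Ω φ f x) ^ 2)]
  rw [← Finset.sum_fiberwise_of_maps_to (g := φ) (t := Ω.image φ)
    (fun x hx => Finset.mem_image_of_mem φ hx)
    (fun x => c * ∑ y ∈ Ω, if φ x = φ y then W x y else 0)]
  apply Finset.sum_le_sum
  intro l hl
  obtain ⟨x₀, hx₀, rfl⟩ := Finset.mem_image.mp hl
  have e2 : ∑ x ∈ Ω.filter (fun x => φ x = φ x₀), c * ∑ y ∈ Ω, (if φ x = φ y then W x y else 0) =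
      c * ∑ x ∈ fibre Ω φ x₀, ∑ y ∈ fibre Ω φ x₀, W x y := by
    rw [Finset.mul_sum]
    apply Finset.sum_congr rfl
    intro x hx
    congr 1
    have hxe : φ x = φ x₀ := (Finset.mem_filter.mp hx).2
    unfold fibre
    rw [Finset.sum_filter]
    apply Finset.sum_congr rfl
    intro y _
    rw [hxe]
    by_cases hy : φ y = φ x₀
    · rw [if_pos hy, if_pos hy.symm]
    · rw [if_neg hy, if_neg (fun h => hy h.symm)]
  rw [e2]
  exact fibre_sq_le Ω φ f hx₀ (h x₀ hx₀)

end Abstract

/-! ### The hinge Poincaré inequality `[HG]` -/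

section HG

variable {a b : Fin n} (hab : a ≠ b) {d : Fin n → ℕ} {G₀ : Finset (Edge n)}

include hab in
/-- For a fixed graph of the fibre, the trade energy is bounded by the switch energy. -/
lemma trade_energy_le {G : Finset (Edge n)}
    (hG : G ∈ fibre (realizations d) (hlab a b) G₀) (f : Finset (Edge n) → ℝ) :
    ∑ z ∈ pA a b G, ∑ z' ∈ pA b a G, (f G - f (trade a b G z z')) ^ 2 ≤
      ∑ G' ∈ fibre (realizations d) (hlab a b) G₀,
        (proposalCount G G' : ℝ) * (f G - f G') ^ 2 := by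
  classical
  rw [← Finset.sum_product' (pA a b G) (pA b a G) (fun z z' => (f G - f (trade a b G z z')) ^ 2)]
  have hinj : ∀ p ∈ pA a b G ×ˢ pA b a G, ∀ q ∈ pA a b G ×ˢ pA b a G,
      trade a b G p.1 p.2 = trade a b G q.1 q.2 → p = q := by
    rintro ⟨z, z'⟩ hp ⟨w, w'⟩ hq he
    rw [Finset.mem_product] at hp hq
    simp only at hp hq he
    have h1 := pA_trade' hab hp.1 hp.2
    have h2 := pA_trade' hab hq.1 hq.2
    rw [he, h2] at h1
    have hz'A : z' ∉ pA a b G := fun h => Finset.disjoint_left.mp (pA_disjoint a b G) h hp.2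
    have hw'A : w' ∉ pA a b G := fun h => Finset.disjoint_left.mp (pA_disjoint a b G) h hq.2
    have hzz' : z ≠ z' := fun e => hz'A (e ▸ hp.1)
    have e1 : z' = w' := by
      have : z' ∈ insert w' ((pA a b G).erase w) := by
        rw [h1]
        exact Finset.mem_insert_self _ _
      rcases Finset.mem_insert.mp this with h | h
      · exact h
      · exact absurd (Finset.mem_of_mem_erase h) hz'A
    have e2 : z = w := by
      have hz : z ∉ insert w' ((pA a b G).erase w) := by
        rw [h1, Finset.mem_insert, Finset.mem_erase]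
        rintro (h | h)
        · exact hzz' h
        · exact h.1 rfl
      by_contra hne
      exact hz (Finset.mem_insert_of_mem (Finset.mem_erase.mpr ⟨hne, hp.1⟩))
    rw [e1, e2]
  have e : ∑ p ∈ pA a b G ×ˢ pA b a G, (f G - f (trade a b G p.1 p.2)) ^ 2 =
      ∑ G' ∈ (pA a b G ×ˢ pA b a G).image (fun p => trade a b G p.1 p.2), (f G - f G') ^ 2 := by
    rw [Finset.sum_image hinj]
  rw [e]
  have hsub : (pA a b G ×ˢ pA b a G).image (fun p => trade a b G p.1 p.2) ⊆
      fibre (realizations d) (hlab a b) G₀ := by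
    intro G' hG'
    obtain ⟨p, hp, rfl⟩ := Finset.mem_image.mp hG'
    rw [Finset.mem_product] at hp
    exact trade_mem_fibre hab hG hp.1 hp.2
  calc ∑ G' ∈ (pA a b G ×ˢ pA b a G).image (fun p => trade a b G p.1 p.2), (f G - f G') ^ 2
      ≤ ∑ G' ∈ (pA a b G ×ˢ pA b a G).image (fun p => trade a b G p.1 p.2),
          (proposalCount G G' : ℝ) * (f G - f G') ^ 2 := by
        apply Finset.sum_le_sum
        intro G' hG'
        obtain ⟨p, hp, rfl⟩ := Finset.mem_image.mp hG'
        rw [Finset.mem_product] at hp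
        have h1 : (1 : ℝ) ≤ (proposalCount G (trade a b G p.1 p.2) : ℝ) := by
          exact_mod_cast Nat.one_le_iff_ne_zero.mpr (proposalCount_trade hab hp.1 hp.2)
        nlinarith [sq_nonneg (f G - f (trade a b G p.1 p.2))]
    _ ≤ ∑ G' ∈ fibre (realizations d) (hlab a b) G₀,
          (proposalCount G G' : ℝ) * (f G - f G') ^ 2 := by
        apply Finset.sum_le_sum_of_subset_of_nonneg hsub
        intro G' _ _
        exact mul_nonneg (Nat.cast_nonneg _) (sq_nonneg _)

include hab in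
/-- **`[HG]`: the hinge Poincaré inequality.** For `a ≠ b`, the squared distance of `f` to its
hinge-fibre average is at most a quarter of the energy of the switches inside the hinge fibres
(ordered pairs, weight `proposalCount`). -/
theorem hinge_poincare (d : Fin n → ℕ) (f : Finset (Edge n) → ℝ) :
    ∑ G ∈ realizations d, (f G - cavg (realizations d) (hlab a b) f G) ^ 2 ≤
      1 / 4 * ∑ G ∈ realizations d, ∑ G' ∈ realizations d,
        if hlab a b G = hlab a b G' then (proposalCount G G' : ℝ) * (f G - f G') ^ 2 else 0 := by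
  apply sum_sq_sub_cavg_le (realizations d) (hlab a b) f (1 / 4)
    (fun G G' => (proposalCount G G' : ℝ) * (f G - f G') ^ 2)
  intro G₀ hG₀
  have h1 := hinge_fibre_PI hab hG₀ f
  have h2 : ∑ G ∈ fibre (realizations d) (hlab a b) G₀, ∑ z ∈ pA a b G, ∑ z' ∈ pA b a G,
        (f G - f (trade a b G z z')) ^ 2 ≤
      ∑ G ∈ fibre (realizations d) (hlab a b) G₀, ∑ G' ∈ fibre (realizations d) (hlab a b) G₀,
        (proposalCount G G' : ℝ) * (f G - f G') ^ 2 :=
    Finset.sum_le_sum (fun G hG => trade_energy_le hab hG f)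
  have hN : (0 : ℝ) ≤ ((fibre (realizations d) (hlab a b) G₀).card : ℝ) := Nat.cast_nonneg _
  calc _ ≤ ((fibre (realizations d) (hlab a b) G₀).card : ℝ) / 4 *
        ∑ G ∈ fibre (realizations d) (hlab a b) G₀, ∑ z ∈ pA a b G, ∑ z' ∈ pA b a G,
          (f G - f (trade a b G z z')) ^ 2 := h1
    _ ≤ ((fibre (realizations d) (hlab a b) G₀).card : ℝ) / 4 *
        ∑ G ∈ fibre (realizations d) (hlab a b) G₀,
          ∑ G' ∈ fibre (realizations d) (hlab a b) G₀,
            (proposalCount G G' : ℝ) * (f G - f G') ^ 2 :=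
        mul_le_mul_of_nonneg_left h2 (by positivity)
    _ = _ := by ring

include hab in
/-- `[HG]` with the hinge label written out as a raw filter (for users with their own name for
the label). -/
theorem hinge_poincare_raw (d : Fin n → ℕ) (f : Finset (Edge n) → ℝ) :
    ∑ G ∈ realizations d,
        (f G - cavg (realizations d) (fun G => G.filter (fun s => a ∉ s.1 ∧ b ∉ s.1)) f G) ^ 2 ≤
      1 / 4 * ∑ G ∈ realizations d, ∑ G' ∈ realizations d,
        if G.filter (fun s => a ∉ s.1 ∧ b ∉ s.1) = G'.filter (fun s => a ∉ s.1 ∧ b ∉ s.1) then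
          (proposalCount G G' : ℝ) * (f G - f G') ^ 2 else 0 :=
  hinge_poincare hab d f

end HG

end Crest.Agent.S0453.Helper76
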