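import Mathlib
import Crest.Prelude.Def_SwitchChain
import Crest.Agent.Lib.S0453.Helper76Knabe
import Crest.Agent.Lib.S0453.Helper76Johnson
import Crest.Agent.Lib.S0453.Helper76Hinge
import Crest.Agent.Lib.S0453.Helper47Defs
import Crest.Agent.Lib.S0453.Helper16Frame
import Crest.Agent.Lib.S0453.Helper27FrameLink

/-!
Row 299 / S0453, package [HF] (helper27): delivery of `Helper47.HF d`.

`HF d` = `Helper27.HF_of_JPar_of_FrameBlock` (transfer of the Johnson frame bound to the hinge
fibres, this package) applied to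
* helper76's parametrisation of the hinge fibres (`Helper76Hinge`: `pA`, `hU`, `trade`), and
* helper16's Johnson frame bound (`Helper16Frame.frame_bound`).
-/

set_option autoImplicit false
set_option linter.unusedSectionVars false
open Finset

namespace Crest.Agent.S0453.Helper27

open Crest.SwitchChain Crest.Agent.S0453.Helper76

/-- helper16's frame bound is the two-block frame bound `FrameBlock`. -/
theorem frameBlock {V : Type*} [DecidableEq V] (U : Finset V) (t : ℕ) : FrameBlock U t := by
  intro g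
  have h := Crest.Agent.S0453.Helper16.frame_bound U t g
  have e : ∀ c e : V, blk (U.powersetCard t) (fun T => ¬ (c ∈ T ↔ e ∈ T)) g =
      Crest.Agent.S0453.Helper16.Bvar U t g c e := by
    intro c e
    unfold blk Crest.Agent.S0453.Helper16.Bvar Crest.Agent.S0453.Helper16.sepSet
      Crest.Agent.S0453.Helper16.nonSet
    have e2 : (U.powersetCard t).filter (fun T => ¬ ¬ (c ∈ T ↔ e ∈ T)) =
        (U.powersetCard t).filter (fun T => (c ∈ T ↔ e ∈ T)) :=
      Finset.filter_congr (fun T _ => not_not)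
    rw [e2]
  rw [Finset.sum_congr rfl (fun c _ => Finset.sum_congr rfl (fun e' _ => e c e'))]
  unfold jEnergy
  exact h

variable {n : ℕ}

lemma hinge_eq_hlab (a b : Fin n) : Crest.Agent.S0453.Helper47.hinge a b = hlab a b := rfl

lemma adj47_iff (G : Finset (Edge n)) (u w : Fin n) :
    Crest.Agent.S0453.Helper47.adj G u w ↔ Crest.Agent.S0453.Helper76.adj G u w :=
  (adj_iff_exists (G := G) (u := u) (w := w)).symm

/-- helper76's parametrisation of the hinge fibre of `G₀` (free set `hU a b G₀`, map
`G ↦ pA a b G`) is a Johnson parametrisation in the sense of `JPar`. -/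
theorem jpar {a b : Fin n} (hab : a ≠ b) {d : Fin n → ℕ} {G₀ : Finset (Edge n)}
    (hG₀ : G₀ ∈ realizations d) :
    JPar a b (fibre (realizations d) (Crest.Agent.S0453.Helper47.hinge a b) G₀)
      (hU a b G₀) (pA a b G₀).card (pA a b) := by
  rw [hinge_eq_hlab]
  have hdeg : ∀ G ∈ fibre (realizations d) (hlab a b) G₀, ∀ G' ∈ fibre (realizations d)
      (hlab a b) G₀, (∀ v, deg G v = deg G' v) ∧ hlab a b G = hlab a b G' := by
    intro G hG G' hG'
    refine ⟨fun v => ?_, ?_⟩
    · rw [deg_eq_of_mem_fibre hG₀ hG v, deg_eq_of_mem_fibre hG₀ hG' v]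
    · rw [(mem_fibre.mp hG).2, (mem_fibre.mp hG').2]
  refine ⟨?_, ?_, ?_, ?_, ?_, ?_, ?_⟩
  · -- off
    intro w hw
    rw [mem_hU] at hw
    exact ⟨hw.1, hw.2.1⟩
  · -- maps
    intro G hG
    exact pA_mem_powersetCard hab hG₀ hG
  · -- inj
    intro G hG G' hG' h
    exact pA_injOn hab hG₀ hG hG' h
  · -- surj
    intro T hT
    exact exists_pA_eq hab hG₀ hT
  · -- adjU
    intro G hG w hw
    rw [← hU_eq_of_mem_fibre hab hG₀ hG, mem_hU] at hw
    obtain ⟨_, hwb, hiff⟩ := hw
    rw [adj47_iff, adj47_iff, mem_pA]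
    constructor
    · constructor
      · intro h
        exact ⟨hwb, h, hiff.mp h⟩
      · intro h
        exact h.2.1
    · constructor
      · intro h h'
        exact h'.2.2 h
      · intro h
        by_contra hb
        exact h ⟨hwb, hiff.mpr hb, hb⟩
  · -- adjC
    intro G hG G' hG' w hw hwa hwb
    have hw1 : w ∉ hU a b G := by rw [hU_eq_of_mem_fibre hab hG₀ hG]; exact hw
    have hw2 : w ∉ hU a b G' := by rw [hU_eq_of_mem_fibre hab hG₀ hG']; exact hw
    rw [mem_hU] at hw1 hw2
    have h1 : Crest.Agent.S0453.Helper76.adj G a w ↔ Crest.Agent.S0453.Helper76.adj G b w := by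
      by_cases p : Crest.Agent.S0453.Helper76.adj G a w <;>
        by_cases q : Crest.Agent.S0453.Helper76.adj G b w <;> simp [p, q]
      · exact hw1 ⟨hwa, hwb, by simp [p, q]⟩
      · exact hw1 ⟨hwa, hwb, by simp [p, q]⟩
    have h2 : Crest.Agent.S0453.Helper76.adj G' a w ↔ Crest.Agent.S0453.Helper76.adj G' b w := by
      by_cases p : Crest.Agent.S0453.Helper76.adj G' a w <;>
        by_cases q : Crest.Agent.S0453.Helper76.adj G' b w <;> simp [p, q]
      · exact hw2 ⟨hwa, hwb, by simp [p, q]⟩
      · exact hw2 ⟨hwa, hwb, by simp [p, q]⟩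
    have h3 := both_iff hab (hdeg G hG G' hG').1 (hdeg G hG G' hG').2 hwa hwb
    rw [adj47_iff, adj47_iff, adj47_iff, adj47_iff]
    refine ⟨?_, ?_, h1⟩
    · constructor
      · intro h
        exact (h3.mp ⟨h, h1.mp h⟩).1
      · intro h
        exact (h3.mpr ⟨h, h2.mp h⟩).1
    · constructor
      · intro h
        exact (h3.mp ⟨h1.mpr h, h⟩).2
      · intro h
        exact (h3.mpr ⟨h2.mpr h, h⟩).2
  · -- move
    intro G hG G' hG' x hx y hy hT
    have hyB : y ∈ pA b a G := by rw [pB_eq_of_mem_fibre hab hG₀ hG]; exact hy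
    have hmem := trade_mem_fibre hab hG hx hyB
    have hpA := pA_trade' hab hx hyB
    have hEq : G' = trade a b G x y := pA_injOn hab hG₀ hG' hmem (by rw [hT, hpA])
    rw [hEq]
    exact Nat.one_le_iff_ne_zero.mpr (proposalCount_trade hab hx hyB)

/-- **[HF] delivered**: the Johnson frame bound on hinge fibres, in helper47's interface shape. -/
theorem hf (d : Fin n → ℕ) : Crest.Agent.S0453.Helper47.HF d :=
  HF_of_JPar_of_FrameBlock d (fun _ _ hab _ hG₀ => ⟨_, _, _, jpar hab hG₀⟩)
    (fun U t => frameBlock U t)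

end Crest.Agent.S0453.Helper27
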