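import Mathlib
import Crest.Prelude.Def_SwitchChain

/-!
Row 299 / S0453, package CONN (helper34): hinge-connectivity of the realizations of a degree
vector.  A function on graphs that is constant on every hinge fibre (graphs of `realizations d`
with the same `G - a - b`) is constant on `realizations d`.  Proof: Havel–Hakimi exchange, by
induction on the set `S` of vertices at which the two graphs already agree.
-/

set_option autoImplicit false
open Finset

namespace Crest.Agent.S0453.Helper34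

open Crest.SwitchChain

variable {n : ℕ}

/-- The edge `{a, b}` for `a ≠ b`. -/
def mkE (a b : Fin n) (h : a ≠ b) : Edge n := ⟨s(a, b), fun hd => h (by simpa using hd)⟩

@[simp] lemma mkE_val (a b : Fin n) (h : a ≠ b) : (mkE a b h).1 = s(a, b) := rfl

/-- Adjacency in the graph with edge set `G`. -/
def Adj (G : Finset (Edge n)) (a b : Fin n) : Prop := ∃ e ∈ G, e.1 = s(a, b)

instance (G : Finset (Edge n)) (a b : Fin n) : Decidable (Adj G a b) := by
  unfold Adj; infer_instance

lemma Adj.symm {G : Finset (Edge n)} {a b : Fin n} (h : Adj G a b) : Adj G b a := by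
  obtain ⟨e, he, h1⟩ := h
  exact ⟨e, he, by rw [h1, Sym2.eq_swap]⟩

lemma adj_comm {G : Finset (Edge n)} {a b : Fin n} : Adj G a b ↔ Adj G b a := ⟨Adj.symm, Adj.symm⟩

lemma Adj.ne {G : Finset (Edge n)} {a b : Fin n} (h : Adj G a b) : a ≠ b := by
  obtain ⟨e, _, h1⟩ := h
  intro hab
  apply e.2
  rw [h1, hab]
  simp

lemma adj_iff_mkE {G : Finset (Edge n)} {a b : Fin n} (h : a ≠ b) : Adj G a b ↔ mkE a b h ∈ G := by
  constructor
  · rintro ⟨e, he, h1⟩
    have : e = mkE a b h := Subtype.ext h1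
    rwa [← this]
  · intro he
    exact ⟨_, he, rfl⟩

/-- The neighbourhood of `u`. -/
def nbr (G : Finset (Edge n)) (u : Fin n) : Finset (Fin n) := univ.filter fun w => Adj G u w

@[simp] lemma mem_nbr {G : Finset (Edge n)} {u w : Fin n} : w ∈ nbr G u ↔ Adj G u w := by
  simp [nbr]

lemma deg_eq_card_nbr (G : Finset (Edge n)) (u : Fin n) : deg G u = (nbr G u).card := by
  unfold deg
  refine Finset.card_bij (fun e he => Sym2.Mem.other' (mem_filter.1 he).2) ?_ ?_ ?_
  · intro e he
    have h2 := (mem_filter.1 he).2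
    rw [mem_nbr]
    exact ⟨e, (mem_filter.1 he).1, (Sym2.other_spec' h2).symm⟩
  · intro e he e' he' h
    have h2 := (mem_filter.1 he).2
    have h2' := (mem_filter.1 he').2
    apply Subtype.ext
    rw [← Sym2.other_spec' h2, ← Sym2.other_spec' h2', h]
  · intro w hw
    rw [mem_nbr] at hw
    obtain ⟨e, he, h1⟩ := hw
    have hu : u ∈ e.1 := by rw [h1]; simp
    refine ⟨e, mem_filter.2 ⟨he, hu⟩, ?_⟩
    exact Sym2.congr_right.1 ((Sym2.other_spec' hu).trans h1)

/-- Extensionality through adjacency. -/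
lemma eq_of_adj_iff {G G' : Finset (Edge n)} (h : ∀ a b, Adj G a b ↔ Adj G' a b) : G = G' := by
  ext e
  obtain ⟨s, hs⟩ := e
  induction s using Sym2.ind with
  | _ a b =>
    have hab : a ≠ b := fun hh => hs (by simp [hh])
    have e1 : (⟨s(a, b), hs⟩ : Edge n) = mkE a b hab := rfl
    rw [e1, ← adj_iff_mkE hab, ← adj_iff_mkE hab]
    exact h a b

/-- The switch `G - vx - zy + vy + zx`. -/
def sw (G : Finset (Edge n)) (v x y z : Fin n) (hvx : v ≠ x) (hzy : z ≠ y) (hvy : v ≠ y)
    (hzx : z ≠ x) : Finset (Edge n) :=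
  (G \ {mkE v x hvx, mkE z y hzy}) ∪ {mkE v y hvy, mkE z x hzx}

lemma mem_sw {G : Finset (Edge n)} {v x y z : Fin n} {hvx : v ≠ x} {hzy : z ≠ y} {hvy : v ≠ y}
    {hzx : z ≠ x} {e : Edge n} :
    e ∈ sw G v x y z hvx hzy hvy hzx ↔
      (e ∈ G ∧ e.1 ≠ s(v, x) ∧ e.1 ≠ s(z, y)) ∨ e.1 = s(v, y) ∨ e.1 = s(z, x) := by
  unfold sw
  simp only [mem_union, mem_sdiff, mem_insert, mem_singleton, not_or]
  have a1 : ∀ (a b : Fin n) (h : a ≠ b), e = mkE a b h ↔ e.1 = s(a, b) := fun a b h =>
    ⟨fun hh => by rw [hh]; rfl, fun hh => Subtype.ext hh⟩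
  rw [a1, a1, a1, a1]

lemma adj_sw {G : Finset (Edge n)} {v x y z : Fin n} {hvx : v ≠ x} {hzy : z ≠ y} {hvy : v ≠ y}
    {hzx : z ≠ x} (a b : Fin n) :
    Adj (sw G v x y z hvx hzy hvy hzx) a b ↔
      (Adj G a b ∧ s(a, b) ≠ s(v, x) ∧ s(a, b) ≠ s(z, y)) ∨ s(a, b) = s(v, y) ∨
        s(a, b) = s(z, x) := by
  constructor
  · rintro ⟨e, he, h1⟩
    rw [mem_sw] at he
    rcases he with ⟨h2, h3, h4⟩ | h2 | h2
    · exact Or.inl ⟨⟨e, h2, h1⟩, h1 ▸ h3, h1 ▸ h4⟩
    · exact Or.inr (Or.inl (h1 ▸ h2))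
    · exact Or.inr (Or.inr (h1 ▸ h2))
  · rintro (⟨⟨e, he, h1⟩, h3, h4⟩ | h2 | h2)
    · exact ⟨e, mem_sw.2 (Or.inl ⟨he, h1 ▸ h3, h1 ▸ h4⟩), h1⟩
    · exact ⟨mkE v y hvy, mem_sw.2 (Or.inr (Or.inl rfl)), h2.symm⟩
    · exact ⟨mkE z x hzx, mem_sw.2 (Or.inr (Or.inr rfl)), h2.symm⟩

lemma deg_eq_sum (E : Finset (Edge n)) (u : Fin n) :
    deg E u = ∑ e ∈ E, if u ∈ e.1 then 1 else 0 := by
  unfold deg
  rw [Finset.card_filter]

lemma mkE_ne_mkE {a b c e : Fin n} (hab : a ≠ b) (hce : c ≠ e) (h1 : a ≠ c) (h2 : a ≠ e) :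
    mkE a b hab ≠ mkE c e hce := by
  intro h
  have h' : s(a, b) = s(c, e) := congrArg Subtype.val h
  rw [Sym2.eq_iff] at h'
  rcases h' with ⟨h3, _⟩ | ⟨h3, _⟩
  · exact h1 h3
  · exact h2 h3

lemma ind_eq {v x y z : Fin n} (u : Fin n) (hvx : v ≠ x) (hzy : z ≠ y) (hvy : v ≠ y)
    (hzx : z ≠ x) (hvz : v ≠ z) (hxy : x ≠ y) :
    ((if u = v ∨ u = x then 1 else 0) + (if u = z ∨ u = y then 1 else 0) : ℕ) =
      (if u = v ∨ u = y then 1 else 0) + (if u = z ∨ u = x then 1 else 0) := by
  rcases eq_or_ne u v with rfl | a1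
  · simp [hvx, hvy, hvz]
  rcases eq_or_ne u x with rfl | a2
  · simp [a1, hxy, hzx.symm]
  rcases eq_or_ne u y with rfl | a3
  · simp [a1, a2, hzy.symm]
  rcases eq_or_ne u z with rfl | a4
  · simp [a1, a2, a3]
  · simp [a1, a2, a3, a4]

/-- The switch preserves all degrees. -/
lemma deg_sw {G : Finset (Edge n)} {v x y z : Fin n} (hvx : v ≠ x) (hzy : z ≠ y) (hvy : v ≠ y)
    (hzx : z ≠ x) (hvz : v ≠ z) (hxy : x ≠ y)
    (h1 : Adj G v x) (h2 : ¬ Adj G v y) (h3 : Adj G z y) (h4 : ¬ Adj G z x) (u : Fin n) :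
    deg (sw G v x y z hvx hzy hvy hzx) u = deg G u := by
  rw [deg_eq_sum, deg_eq_sum]
  unfold sw
  have hR : ({mkE v x hvx, mkE z y hzy} : Finset (Edge n)) ⊆ G := by
    intro e he
    rw [mem_insert, mem_singleton] at he
    rcases he with rfl | rfl
    · exact (adj_iff_mkE hvx).1 h1
    · exact (adj_iff_mkE hzy).1 h3
  have hA : Disjoint (G \ {mkE v x hvx, mkE z y hzy}) ({mkE v y hvy, mkE z x hzx} : Finset (Edge n)) := by
    rw [Finset.disjoint_right]
    intro e he
    rw [mem_insert, mem_singleton] at he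
    rw [mem_sdiff]
    rintro ⟨hG, _⟩
    rcases he with rfl | rfl
    · exact h2 ((adj_iff_mkE hvy).2 hG)
    · exact h4 ((adj_iff_mkE hzx).2 hG)
  rw [Finset.sum_union hA]
  have e1 := Finset.sum_sdiff (f := fun e : Edge n => if u ∈ e.1 then 1 else 0) hR
  have e2 : ∑ e ∈ ({mkE v x hvx, mkE z y hzy} : Finset (Edge n)), (if u ∈ e.1 then 1 else 0) =
      ∑ e ∈ ({mkE v y hvy, mkE z x hzx} : Finset (Edge n)), (if u ∈ e.1 then 1 else 0) := by
    rw [Finset.sum_pair (mkE_ne_mkE hvx hzy hvz hvy), Finset.sum_pair (mkE_ne_mkE hvy hzx hvz hvx)]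
    simp only [mkE_val, Sym2.mem_iff]
    exact ind_eq u hvx hzy hvy hzx hvz hxy
  omega

lemma sw_mem_realizations {d : Fin n → ℕ} {G : Finset (Edge n)} {v x y z : Fin n} (hvx : v ≠ x)
    (hzy : z ≠ y) (hvy : v ≠ y) (hzx : z ≠ x) (hvz : v ≠ z) (hxy : x ≠ y)
    (h1 : Adj G v x) (h2 : ¬ Adj G v y) (h3 : Adj G z y) (h4 : ¬ Adj G z x)
    (hG : G ∈ realizations d) : sw G v x y z hvx hzy hvy hzx ∈ realizations d := by
  unfold realizations at hG ⊢
  rw [mem_filter] at hG ⊢
  exact ⟨mem_univ _, fun u => by rw [deg_sw hvx hzy hvy hzx hvz hxy h1 h2 h3 h4 u]; exact hG.2 u⟩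

/-- The switch does not change `G - v - z`. -/
lemma sw_filter {G : Finset (Edge n)} {v x y z : Fin n} (hvx : v ≠ x) (hzy : z ≠ y) (hvy : v ≠ y)
    (hzx : z ≠ x) :
    (sw G v x y z hvx hzy hvy hzx).filter (fun s => v ∉ s.1 ∧ z ∉ s.1) =
      G.filter (fun s => v ∉ s.1 ∧ z ∉ s.1) := by
  ext e
  rw [mem_filter, mem_filter, mem_sw]
  constructor
  · rintro ⟨⟨hG, _, _⟩ | h | h, hv, hz⟩
    · exact ⟨hG, hv, hz⟩
    · exact absurd (by rw [h]; simp) hv
    · exact absurd (by rw [h]; simp) hz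
  · rintro ⟨hG, hv, hz⟩
    refine ⟨Or.inl ⟨hG, ?_, ?_⟩, hv, hz⟩
    · intro h; exact hv (by rw [h]; simp)
    · intro h; exact hz (by rw [h]; simp)

/-- `G` and `G'` have the same adjacencies at every vertex of `S`. -/
def Agree (S : Finset (Fin n)) (G G' : Finset (Edge n)) : Prop :=
  ∀ s ∈ S, ∀ w, Adj G s w ↔ Adj G' s w

lemma card_nbr_of_mem {d : Fin n → ℕ} {G : Finset (Edge n)} (hG : G ∈ realizations d) (u : Fin n) :
    (nbr G u).card = d u := by
  rw [← deg_eq_card_nbr]
  unfold realizations at hG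
  exact (mem_filter.1 hG).2 u

/-- Neighbours outside `S`. -/
def nbrOut (S : Finset (Fin n)) (G : Finset (Edge n)) (u : Fin n) : Finset (Fin n) :=
  (nbr G u).filter fun w => w ∉ S

lemma card_nbrOut_eq {d : Fin n → ℕ} {S : Finset (Fin n)} {G G' : Finset (Edge n)}
    (hG : G ∈ realizations d) (hG' : G' ∈ realizations d) (hA : Agree S G G') (u : Fin n) :
    (nbrOut S G u).card = (nbrOut S G' u).card := by
  have h1 := Finset.card_filter_add_card_filter_not (s := nbr G u) (fun w => w ∈ S)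
  have h2 := Finset.card_filter_add_card_filter_not (s := nbr G' u) (fun w => w ∈ S)
  have h3 : (nbr G u).filter (fun w => w ∈ S) = (nbr G' u).filter (fun w => w ∈ S) := by
    ext w
    simp only [mem_filter, mem_nbr]
    constructor
    · rintro ⟨h, hw⟩; exact ⟨((hA w hw u).1 h.symm).symm, hw⟩
    · rintro ⟨h, hw⟩; exact ⟨((hA w hw u).2 h.symm).symm, hw⟩
  rw [card_nbr_of_mem hG] at h1
  rw [card_nbr_of_mem hG', ← h3] at h2
  unfold nbrOut
  omega

/-- Counting step: if no exchange through a vertex outside `S` is available in `G`, then `y` has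
fewer outside neighbours than `x`. -/
lemma card_nbrOut_lt {S : Finset (Fin n)} {G : Finset (Edge n)} {v x y : Fin n}
    (hv : v ∉ S) (hy : y ∉ S) (h1 : Adj G v x) (h4 : ¬ Adj G v y) (hvy : v ≠ y)
    (hN : ∀ z, z ∉ S → z ≠ v → z ≠ x → z ≠ y → Adj G z y → Adj G z x) :
    (nbrOut S G y).card + 1 ≤ (nbrOut S G x).card := by
  have hsub : (nbrOut S G y).image (Equiv.swap x y) ⊆ (nbrOut S G x).erase v := by
    intro w' hw'
    rw [mem_image] at hw'
    obtain ⟨w, hw, rfl⟩ := hw'
    unfold nbrOut at hw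
    rw [mem_filter, mem_nbr] at hw
    obtain ⟨hyw, hwS⟩ := hw
    have hwy : w ≠ y := fun hh => hyw.ne hh.symm
    have hwv : w ≠ v := fun hh => h4 (hh ▸ hyw.symm)
    rw [mem_erase]
    unfold nbrOut
    rw [mem_filter, mem_nbr]
    rcases eq_or_ne w x with rfl | hwx
    · rw [Equiv.swap_apply_left]
      exact ⟨hvy.symm, hyw.symm, hy⟩
    · rw [Equiv.swap_apply_of_ne_of_ne hwx hwy]
      exact ⟨hwv, (hN w hwS hwv hwx hwy hyw.symm).symm, hwS⟩
  have hvx : v ∈ nbrOut S G x := by
    unfold nbrOut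
    rw [mem_filter, mem_nbr]
    exact ⟨h1.symm, hv⟩
  have h5 := Finset.card_le_card hsub
  rw [Finset.card_image_of_injective _ (Equiv.injective _)] at h5
  have h6 := Finset.card_erase_add_one hvx
  omega

lemma exists_switch {d : Fin n → ℕ} {S : Finset (Fin n)} {G G' : Finset (Edge n)}
    (hG : G ∈ realizations d) (hG' : G' ∈ realizations d) (hA : Agree S G G') {v x y : Fin n}
    (hv : v ∉ S) (hx : x ∉ S) (hy : y ∉ S) (h1 : Adj G v x) (h2 : ¬ Adj G' v x)
    (h3 : Adj G' v y) (h4 : ¬ Adj G v y) :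
    (∃ z, z ∉ S ∧ z ≠ v ∧ z ≠ x ∧ z ≠ y ∧ Adj G z y ∧ ¬ Adj G z x) ∨
      (∃ z, z ∉ S ∧ z ≠ v ∧ z ≠ x ∧ z ≠ y ∧ Adj G' z x ∧ ¬ Adj G' z y) := by
  by_contra hcon
  rw [not_or] at hcon
  obtain ⟨c1, c2⟩ := hcon
  have hN1 : ∀ z, z ∉ S → z ≠ v → z ≠ x → z ≠ y → Adj G z y → Adj G z x := by
    intro z a1 a2 a3 a4 a5
    by_contra a6
    exact c1 ⟨z, a1, a2, a3, a4, a5, a6⟩
  have hN2 : ∀ z, z ∉ S → z ≠ v → z ≠ y → z ≠ x → Adj G' z x → Adj G' z y := by
    intro z a1 a2 a3 a4 a5
    by_contra a6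
    exact c2 ⟨z, a1, a2, a4, a3, a5, a6⟩
  have e1 := card_nbrOut_lt hv hy h1 h4 h3.ne hN1
  have e2 := card_nbrOut_lt hv hx h3 h2 h1.ne hN2
  have e3 := card_nbrOut_eq hG hG' hA x
  have e4 := card_nbrOut_eq hG hG' hA y
  omega

lemma adj_sw_of_mem {S : Finset (Fin n)} {G : Finset (Edge n)} {v x y z : Fin n} {hvx : v ≠ x}
    {hzy : z ≠ y} {hvy : v ≠ y} {hzx : z ≠ x} (hv : v ∉ S) (hx : x ∉ S) (hy : y ∉ S) (hz : z ∉ S)
    {s : Fin n} (hs : s ∈ S) (w : Fin n) :
    Adj (sw G v x y z hvx hzy hvy hzx) s w ↔ Adj G s w := by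
  have n1 : s ≠ v := fun hh => hv (hh ▸ hs)
  have n2 : s ≠ x := fun hh => hx (hh ▸ hs)
  have n3 : s ≠ y := fun hh => hy (hh ▸ hs)
  have n4 : s ≠ z := fun hh => hz (hh ▸ hs)
  have key : ∀ a b : Fin n, s ≠ a → s ≠ b → s(s, w) ≠ s(a, b) := by
    intro a b ha hb hh
    rw [Sym2.eq_iff] at hh
    rcases hh with ⟨h, _⟩ | ⟨h, _⟩
    · exact ha h
    · exact hb h
  rw [adj_sw]
  constructor
  · rintro (⟨h, _, _⟩ | h | h)
    · exact h
    · exact absurd h (key _ _ n1 n3)
    · exact absurd h (key _ _ n4 n2)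
  · intro h
    exact Or.inl ⟨h, key _ _ n1 n2, key _ _ n4 n3⟩

lemma adj_sw_center {G : Finset (Edge n)} {v x y z : Fin n} {hvx : v ≠ x}
    {hzy : z ≠ y} {hvy : v ≠ y} {hzx : z ≠ x} (hvz : v ≠ z) (w : Fin n) :
    Adj (sw G v x y z hvx hzy hvy hzx) v w ↔ (Adj G v w ∧ w ≠ x) ∨ w = y := by
  rw [adj_sw]
  have k1 : s(v, w) = s(v, x) ↔ w = x := Sym2.congr_right
  have k2 : s(v, w) = s(v, y) ↔ w = y := Sym2.congr_right
  have k3 : ¬ s(v, w) = s(z, y) := by
    intro hh
    rw [Sym2.eq_iff] at hh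
    rcases hh with ⟨h, _⟩ | ⟨h, _⟩
    · exact hvz h
    · exact hvy h
  have k4 : ¬ s(v, w) = s(z, x) := by
    intro hh
    rw [Sym2.eq_iff] at hh
    rcases hh with ⟨h, _⟩ | ⟨h, _⟩
    · exact hvz h
    · exact hvx h
  constructor
  · rintro (⟨h, h', _⟩ | h | h)
    · exact Or.inl ⟨h, fun hh => h' (k1.2 hh)⟩
    · exact Or.inr (k2.1 h)
    · exact absurd h k4
  · rintro (⟨h, h'⟩ | h)
    · exact Or.inl ⟨h, fun hh => h' (k1.1 hh), k3⟩
    · exact Or.inr (Or.inl (k2.2 h))

/-- **Hinge connectivity.** A function that is constant on every hinge fibre (the graphs of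
`realizations d` with the same `G - a - b`) is constant on `realizations d`. -/
theorem hinge_invariant_const (d : Fin n → ℕ) (f : Finset (Edge n) → ℝ)
    (h : ∀ a b : Fin n, a ≠ b → ∀ G ∈ realizations d, ∀ G' ∈ realizations d,
      G.filter (fun s => a ∉ s.1 ∧ b ∉ s.1) = G'.filter (fun s => a ∉ s.1 ∧ b ∉ s.1) →
        f G = f G') :
    ∀ G ∈ realizations d, ∀ G' ∈ realizations d, f G = f G' := by
  have key : ∀ m : ℕ, ∀ S : Finset (Fin n), (univ \ S).card = m →
      ∀ G ∈ realizations d, ∀ G' ∈ realizations d, Agree S G G' → f G = f G' := by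
    intro m
    induction m with
    | zero =>
      intro S hS G _ G' _ hA
      have hS' : S = univ := by
        rw [Finset.card_eq_zero, Finset.sdiff_eq_empty_iff_subset] at hS
        exact Finset.eq_univ_of_forall fun a => hS (mem_univ a)
      rw [eq_of_adj_iff (G := G) (G' := G') fun a b => hA a (hS' ▸ mem_univ a) b]
    | succ m ih =>
      intro S hS G hG G' hG' hA
      have hne : (univ \ S).Nonempty := by
        rw [← Finset.card_pos]; omega
      obtain ⟨v, hv⟩ := hne
      have hvS : v ∉ S := (mem_sdiff.1 hv).2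
      have inner : ∀ k : ℕ, ∀ G ∈ realizations d, ∀ G' ∈ realizations d, Agree S G G' →
          (nbr G v \ nbr G' v).card = k → f G = f G' := by
        intro k
        induction k with
        | zero =>
          intro G hG G' hG' hA hk
          rw [Finset.card_eq_zero, Finset.sdiff_eq_empty_iff_subset] at hk
          have heq : nbr G v = nbr G' v :=
            Finset.eq_of_subset_of_card_le hk
              (by rw [card_nbr_of_mem hG, card_nbr_of_mem hG'])
          refine ih (insert v S) ?_ G hG G' hG' ?_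
          · have : univ \ insert v S = (univ \ S).erase v := by
              ext a; simp only [mem_sdiff, mem_univ, true_and, mem_insert, mem_erase, not_or]
            rw [this, Finset.card_erase_of_mem hv, hS]; rfl
          · intro s hs w
            rw [mem_insert] at hs
            rcases hs with rfl | hs
            · rw [← mem_nbr, ← mem_nbr, heq]
            · exact hA s hs w
        | succ k ihk =>
          intro G hG G' hG' hA hk
          have hne : (nbr G v \ nbr G' v).Nonempty := by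
            rw [← Finset.card_pos]; omega
          obtain ⟨x, hx⟩ := hne
          rw [mem_sdiff, mem_nbr, mem_nbr] at hx
          obtain ⟨h1, h2⟩ := hx
          have hns : ¬ nbr G' v ⊆ nbr G v := by
            intro hsub
            have heq : nbr G' v = nbr G v :=
              Finset.eq_of_subset_of_card_le hsub
                (by rw [card_nbr_of_mem hG, card_nbr_of_mem hG'])
            exact h2 (by rw [← mem_nbr, heq, mem_nbr]; exact h1)
          obtain ⟨y, hy3, hy4⟩ := Finset.not_subset.1 hns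
          rw [mem_nbr] at hy3 hy4
          have hxS : x ∉ S := fun hh => h2 (((hA x hh v).1 h1.symm).symm)
          have hyS : y ∉ S := fun hh => hy4 (((hA y hh v).2 hy3.symm).symm)
          have hvx : v ≠ x := h1.ne
          have hvy : v ≠ y := hy3.ne
          have hxy : x ≠ y := fun hh => hy4 (hh ▸ h1)
          have hcard : ((nbr G v \ nbr G' v).erase x).card = k := by
            rw [Finset.card_erase_of_mem (by rw [mem_sdiff, mem_nbr, mem_nbr]; exact ⟨h1, h2⟩), hk]
            rfl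
          rcases exists_switch hG hG' hA hvS hxS hyS h1 h2 hy3 hy4 with
            ⟨z, hzS, hzv, hzx, hzy, hz1, hz2⟩ | ⟨z, hzS, hzv, hzx, hzy, hz1, hz2⟩
          · -- switch in `G`
            have hG1 := sw_mem_realizations hvx hzy hvy hzx hzv.symm hxy h1 hy4 hz1 hz2 hG
            have hf : f G = f (sw G v x y z hvx hzy hvy hzx) :=
              h v z hzv.symm G hG _ hG1 (sw_filter hvx hzy hvy hzx).symm
            rw [hf]
            refine ihk _ hG1 G' hG' ?_ ?_
            · intro s hs w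
              rw [adj_sw_of_mem hvS hxS hyS hzS hs w]
              exact hA s hs w
            · rw [← hcard]
              congr 1
              ext w
              simp only [mem_sdiff, mem_nbr, mem_erase]
              rw [adj_sw_center hzv.symm]
              constructor
              · rintro ⟨⟨a1, a2⟩ | a1, a3⟩
                · exact ⟨a2, a1, a3⟩
                · exact absurd (a1 ▸ hy3) a3
              · rintro ⟨a2, a1, a3⟩
                exact ⟨Or.inl ⟨a1, a2⟩, a3⟩
          · -- switch in `G'`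
            have hG1 := sw_mem_realizations hvy hzx hvx hzy hzv.symm hxy.symm hy3 h2 hz1 hz2 hG'
            have hf : f G' = f (sw G' v y x z hvy hzx hvx hzy) :=
              h v z hzv.symm G' hG' _ hG1 (sw_filter hvy hzx hvx hzy).symm
            rw [hf]
            refine ihk G hG _ hG1 ?_ ?_
            · intro s hs w
              rw [adj_sw_of_mem hvS hyS hxS hzS hs w]
              exact hA s hs w
            · rw [← hcard]
              congr 1
              ext w
              simp only [mem_sdiff, mem_nbr, mem_erase]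
              rw [adj_sw_center hzv.symm]
              constructor
              · rintro ⟨a1, a3⟩
                rw [not_or, not_and_or, not_not] at a3
                obtain ⟨a4, a5⟩ := a3
                refine ⟨a5, a1, ?_⟩
                rcases a4 with a4 | a4
                · exact a4
                · exact absurd (a4 ▸ a1) hy4
              · rintro ⟨a2, a1, a3⟩
                refine ⟨a1, ?_⟩
                rw [not_or, not_and_or]
                exact ⟨Or.inl a3, a2⟩
      exact inner _ G hG G' hG' hA rfl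
  intro G hG G' hG'
  exact key _ ∅ rfl G hG G' hG' (fun s hs => absurd hs (Finset.notMem_empty s))

end Crest.Agent.S0453.Helper34
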