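import Mathlib
import Crest.Prelude.Def_SwitchChain
import Crest.Agent.Lib.S0453.Helper76Knabe
import Crest.Agent.Lib.S0453.Helper76Top
import Crest.Agent.Lib.S0453.Helper47Defs

/-!
# Row 299 / S0453: assembly of the `H² ≥ H` (Knabe) route

`PI (realizations d) 1` from the package statements `HG, HF, TR, CR, BX, EN4, EN8, CONN`
of `Helper47Defs.lean`, via helper76's `knabe_end` for the family of ordered pairs `a ≠ b`.
-/

set_option autoImplicit false
open Finset

namespace Crest.Agent.S0453.Helper47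

open Crest.SwitchChain Crest.Agent.S0453.Helper76

variable {n : ℕ}

lemma hinge_comm (a b : Fin n) : hinge a b = hinge b a := by
  funext G
  unfold hinge
  apply Finset.filter_congr
  intro s _
  exact and_comm

/-! ### Sum bookkeeping over ordered pairs -/

section sums

lemma sum2_single (x0 y0 : Fin n) (h : Fin n → Fin n → ℝ) :
    ∑ c : Fin n, ∑ e : Fin n, (if c = x0 ∧ e = y0 then h c e else 0) = h x0 y0 := by
  rw [Finset.sum_eq_single x0]
  · rw [Finset.sum_eq_single y0]
    · simp
    · intro e _ he; simp [he]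
    · intro h0; exact absurd (Finset.mem_univ _) h0
  · intro c _ hc
    apply Finset.sum_eq_zero
    intro e _
    simp [hc]
  · intro h0; exact absurd (Finset.mem_univ _) h0

lemma sum2_left (x0 : Fin n) (p : Fin n → Prop) [DecidablePred p] (h : Fin n → Fin n → ℝ) :
    ∑ c : Fin n, ∑ e : Fin n, (if c = x0 ∧ p e then h c e else 0) =
      ∑ e : Fin n, (if p e then h x0 e else 0) := by
  rw [Finset.sum_eq_single x0]
  · apply Finset.sum_congr rfl
    intro e _
    simp
  · intro c _ hc
    apply Finset.sum_eq_zero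
    intro e _
    simp [hc]
  · intro h0; exact absurd (Finset.mem_univ _) h0

lemma sum2_right (y0 : Fin n) (p : Fin n → Prop) [DecidablePred p] (h : Fin n → Fin n → ℝ) :
    ∑ c : Fin n, ∑ e : Fin n, (if e = y0 ∧ p c then h c e else 0) =
      ∑ c : Fin n, (if p c then h c y0 else 0) := by
  apply Finset.sum_congr rfl
  intro c _
  rw [Finset.sum_eq_single y0]
  · simp
  · intro e _ he; simp [he]
  · intro h0; exact absurd (Finset.mem_univ _) h0

/-- Splitting of the sum over ordered pairs `(c, e)`, `c ≠ e`, `(c, e) ≠ (a, b)` according to the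
position of `{c, e}` relative to `{a, b}`. -/
lemma split_pairs {a b : Fin n} (hab : a ≠ b) (h : Fin n → Fin n → ℝ) :
    ∑ c : Fin n, ∑ e : Fin n, (if c ≠ e ∧ ¬ (c = a ∧ e = b) then h c e else 0) =
      h b a
      + ∑ x : Fin n, (if x ≠ a ∧ x ≠ b then h a x else 0)
      + ∑ x : Fin n, (if x ≠ a ∧ x ≠ b then h x a else 0)
      + ∑ x : Fin n, (if x ≠ a ∧ x ≠ b then h b x else 0)
      + ∑ x : Fin n, (if x ≠ a ∧ x ≠ b then h x b else 0)
      + ∑ c : Fin n, ∑ e : Fin n,
          (if c ≠ e ∧ c ≠ a ∧ c ≠ b ∧ e ≠ a ∧ e ≠ b then h c e else 0) := by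
  have hpt : ∀ c e : Fin n, (if c ≠ e ∧ ¬ (c = a ∧ e = b) then h c e else 0) =
      (if c = b ∧ e = a then h c e else 0)
      + (if c = a ∧ (e ≠ a ∧ e ≠ b) then h c e else 0)
      + (if e = a ∧ (c ≠ a ∧ c ≠ b) then h c e else 0)
      + (if c = b ∧ (e ≠ a ∧ e ≠ b) then h c e else 0)
      + (if e = b ∧ (c ≠ a ∧ c ≠ b) then h c e else 0)
      + (if c ≠ e ∧ c ≠ a ∧ c ≠ b ∧ e ≠ a ∧ e ≠ b then h c e else 0) := by
    intro c e
    by_cases h1 : c = a
    · subst h1
      by_cases h2 : e = c
      · subst h2; simp [hab]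
      · by_cases h3 : e = b
        · subst h3; simp [hab, h2]
        · simp [hab, h2, h3, Ne.symm h2]
    · by_cases h2 : c = b
      · subst h2
        by_cases h3 : e = a
        · subst h3; simp [h1, Ne.symm h1]
        · by_cases h4 : e = c
          · subst h4; simp [h1]
          · simp [h1, h3, h4, Ne.symm h4]
      · by_cases h3 : e = a
        · subst h3; simp [h1, h2, hab]
        · by_cases h4 : e = b
          · subst h4; simp [h1, h2, Ne.symm hab]
          · by_cases h5 : c = e
            · subst h5; simp [h1, h2]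
            · simp [h1, h2, h3, h4, h5]
  simp_rw [hpt, Finset.sum_add_distrib]
  rw [sum2_single b a h, sum2_left a (fun e => e ≠ a ∧ e ≠ b) h,
    sum2_right a (fun c => c ≠ a ∧ c ≠ b) h, sum2_left b (fun e => e ≠ a ∧ e ≠ b) h,
    sum2_right b (fun c => c ≠ a ∧ c ≠ b) h]

end sums

/-! ### The assembly -/

section asm

variable (d : Fin n → ℕ) (f : Finset (Edge n) → ℝ)

/-- `⟨P_ab f, P_ce f⟩`. -/
noncomputable def tt (a b c e : Fin n) : ℝ :=
  ∑ G ∈ realizations d,
    (f G - cavg (realizations d) (hinge a b) f G) * (f G - cavg (realizations d) (hinge c e) f G)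

lemma tt_symm1 (a b c e : Fin n) : tt d f b a c e = tt d f a b c e := by
  unfold tt; rw [hinge_comm b a]

lemma tt_symm2 (a b c e : Fin n) : tt d f a b e c = tt d f a b c e := by
  unfold tt; rw [hinge_comm e c]

lemma tt_comm (a b c e : Fin n) : tt d f a b c e = tt d f c e a b := by
  unfold tt
  apply Finset.sum_congr rfl
  intro G _
  ring

lemma tt_self (a b : Fin n) :
    tt d f a b b a = ∑ G ∈ realizations d, (f G - cavg (realizations d) (hinge a b) f G) ^ 2 := by
  unfold tt
  rw [hinge_comm b a]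
  apply Finset.sum_congr rfl
  intro G _
  ring

/-- Sum over ordered triples of distinct vertices. -/
noncomputable def S3 (g : Fin n → Fin n → Fin n → ℝ) : ℝ :=
  ∑ a : Fin n, ∑ b : Fin n, ∑ x : Fin n, (if a ≠ b ∧ x ≠ a ∧ x ≠ b then g a b x else 0)

lemma S3_swap12 (g : Fin n → Fin n → Fin n → ℝ) : S3 (fun a b x => g b a x) = S3 g := by
  unfold S3
  rw [Finset.sum_comm]
  apply Finset.sum_congr rfl; intro a _
  apply Finset.sum_congr rfl; intro b _
  apply Finset.sum_congr rfl; intro x _
  by_cases h : a ≠ b ∧ x ≠ a ∧ x ≠ b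
  · rw [if_pos h, if_pos ⟨Ne.symm h.1, h.2.2, h.2.1⟩]
  · rw [if_neg h, if_neg (fun h' => h ⟨Ne.symm h'.1, h'.2.2, h'.2.1⟩)]

lemma S3_rot (g : Fin n → Fin n → Fin n → ℝ) : S3 (fun a b x => g x a b) = S3 g := by
  unfold S3
  calc ∑ a : Fin n, ∑ b : Fin n, ∑ x : Fin n, (if a ≠ b ∧ x ≠ a ∧ x ≠ b then g x a b else 0)
      = ∑ a : Fin n, ∑ x : Fin n, ∑ b : Fin n,
          (if x ≠ a ∧ b ≠ x ∧ b ≠ a then g x a b else 0) := by
        apply Finset.sum_congr rfl; intro a _
        rw [Finset.sum_comm]
        apply Finset.sum_congr rfl; intro x _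
        apply Finset.sum_congr rfl; intro b _
        exact if_congr ⟨fun h => ⟨h.2.1, Ne.symm h.2.2, Ne.symm h.1⟩,
          fun h => ⟨Ne.symm h.2.2, h.1, Ne.symm h.2.1⟩⟩ rfl rfl
    _ = ∑ x : Fin n, ∑ a : Fin n, ∑ b : Fin n,
          (if x ≠ a ∧ b ≠ x ∧ b ≠ a then g x a b else 0) := Finset.sum_comm

lemma S3_add (g h : Fin n → Fin n → Fin n → ℝ) :
    S3 (fun a b x => g a b x + h a b x) = S3 g + S3 h := by
  unfold S3
  simp only [← Finset.sum_add_distrib]
  apply Finset.sum_congr rfl; intro a _
  apply Finset.sum_congr rfl; intro b _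
  apply Finset.sum_congr rfl; intro x _
  split_ifs <;> ring

lemma S3_nonneg (g : Fin n → Fin n → Fin n → ℝ)
    (h : ∀ a b x : Fin n, a ≠ b → x ≠ a → x ≠ b → 0 ≤ g a b x) : 0 ≤ S3 g := by
  unfold S3
  apply Finset.sum_nonneg; intro a _
  apply Finset.sum_nonneg; intro b _
  apply Finset.sum_nonneg; intro x _
  split_ifs with hc
  · exact h a b x hc.1 hc.2.1 hc.2.2
  · exact le_refl _

lemma S3_congr (g h : Fin n → Fin n → Fin n → ℝ) (hgh : ∀ a b x : Fin n, g a b x = h a b x) :
    S3 g = S3 h := by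
  have : g = h := by funext a b x; exact hgh a b x
  rw [this]

lemma S3_as_pairs (g : Fin n → Fin n → Fin n → ℝ) :
    ∑ a : Fin n, ∑ b : Fin n,
      (if a ≠ b then ∑ x : Fin n, (if x ≠ a ∧ x ≠ b then g a b x else 0) else 0) = S3 g := by
  unfold S3
  apply Finset.sum_congr rfl; intro a _
  apply Finset.sum_congr rfl; intro b _
  by_cases hab : a ≠ b
  · rw [if_pos hab]
    apply Finset.sum_congr rfl; intro x _
    exact if_congr ⟨fun h => ⟨hab, h⟩, fun h => h.2⟩ rfl rfl
  · rw [if_neg hab]
    symm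
    apply Finset.sum_eq_zero; intro x _
    rw [if_neg (fun h => hab h.1)]

/-- Sum over ordered 4-tuples of distinct vertices. -/
noncomputable def S4 (g : Fin n → Fin n → Fin n → Fin n → ℝ) : ℝ :=
  ∑ a : Fin n, ∑ b : Fin n, ∑ c : Fin n, ∑ e : Fin n, (if D4 a b c e then g a b c e else 0)

lemma D4_symm {a b c e : Fin n} : D4 a b c e ↔ D4 c e a b := by
  unfold D4
  constructor
  · rintro ⟨h1, h2, h3, h4, h5, h6⟩
    exact ⟨h2, h1, Ne.symm h3, Ne.symm h5, Ne.symm h4, Ne.symm h6⟩
  · rintro ⟨h1, h2, h3, h4, h5, h6⟩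
    exact ⟨h2, h1, Ne.symm h3, Ne.symm h5, Ne.symm h4, Ne.symm h6⟩

lemma S4_swap (g : Fin n → Fin n → Fin n → Fin n → ℝ) :
    S4 (fun a b c e => g c e a b) = S4 g := by
  unfold S4
  have h1 : ∀ F : Fin n → Fin n → Fin n → Fin n → ℝ,
      ∑ a : Fin n, ∑ b : Fin n, ∑ c : Fin n, ∑ e : Fin n, F a b c e =
        ∑ p : Fin n × Fin n, ∑ q : Fin n × Fin n, F p.1 p.2 q.1 q.2 := by
    intro F
    rw [Fintype.sum_prod_type]
    apply Finset.sum_congr rfl; intro a _
    apply Finset.sum_congr rfl; intro b _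
    rw [Fintype.sum_prod_type]
  rw [h1 (fun a b c e => if D4 a b c e then g c e a b else 0),
    h1 (fun a b c e => if D4 a b c e then g a b c e else 0), Finset.sum_comm]
  apply Finset.sum_congr rfl; intro p _
  apply Finset.sum_congr rfl; intro q _
  exact if_congr D4_symm rfl rfl

lemma S4_mono (g h : Fin n → Fin n → Fin n → Fin n → ℝ)
    (hgh : ∀ a b c e : Fin n, D4 a b c e → g a b c e ≤ h a b c e) : S4 g ≤ S4 h := by
  unfold S4
  apply Finset.sum_le_sum; intro a _
  apply Finset.sum_le_sum; intro b _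
  apply Finset.sum_le_sum; intro c _
  apply Finset.sum_le_sum; intro e _
  split_ifs with hc
  · exact hgh a b c e hc
  · exact le_refl _

lemma S4_lin (g h k : Fin n → Fin n → Fin n → Fin n → ℝ) (r : ℝ) :
    S4 (fun a b c e => g a b c e - r * h a b c e - r * k a b c e) =
      S4 g - r * S4 h - r * S4 k := by
  unfold S4
  simp only [Finset.mul_sum, ← Finset.sum_sub_distrib]
  apply Finset.sum_congr rfl; intro a _
  apply Finset.sum_congr rfl; intro b _
  apply Finset.sum_congr rfl; intro c _
  apply Finset.sum_congr rfl; intro e _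
  split_ifs <;> ring

lemma S4_smul (g : Fin n → Fin n → Fin n → Fin n → ℝ) (r : ℝ) :
    S4 (fun a b c e => r * g a b c e) = r * S4 g := by
  unfold S4
  simp only [Finset.mul_sum]
  apply Finset.sum_congr rfl; intro a _
  apply Finset.sum_congr rfl; intro b _
  apply Finset.sum_congr rfl; intro c _
  apply Finset.sum_congr rfl; intro e _
  split_ifs <;> ring

lemma S4_as_pairs (g : Fin n → Fin n → Fin n → Fin n → ℝ) :
    ∑ a : Fin n, ∑ b : Fin n,
      (if a ≠ b then ∑ c : Fin n, ∑ e : Fin n,
        (if c ≠ e ∧ c ≠ a ∧ c ≠ b ∧ e ≠ a ∧ e ≠ b then g a b c e else 0) else 0) = S4 g := by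
  unfold S4
  apply Finset.sum_congr rfl; intro a _
  apply Finset.sum_congr rfl; intro b _
  by_cases hab : a ≠ b
  · rw [if_pos hab]
    apply Finset.sum_congr rfl; intro c _
    apply Finset.sum_congr rfl; intro e _
    exact if_congr ⟨fun h => ⟨hab, h⟩, fun h => h.2⟩ rfl rfl
  · rw [if_neg hab]
    symm
    apply Finset.sum_eq_zero; intro c _
    apply Finset.sum_eq_zero; intro e _
    rw [if_neg (fun h => hab h.1)]

/-- The share-one-vertex part is nonnegative (from `TR`). -/
lemma share_nonneg (hTR : TR d) : 0 ≤ S3 (fun a b x => tt d f a b a x) := by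
  have h3 : 0 ≤ S3 (fun a b x => tt d f a b a x + tt d f a b b x + tt d f a x b x) := by
    apply S3_nonneg
    intro a b x hab hxa hxb
    have := hTR a b x hab (Ne.symm hxa) (Ne.symm hxb) f
    unfold tt
    rw [← Finset.sum_add_distrib, ← Finset.sum_add_distrib]
    exact this
  have e1 : S3 (fun a b x => tt d f a b a x + tt d f a b b x + tt d f a x b x) =
      S3 (fun a b x => tt d f a b a x) + S3 (fun a b x => tt d f a b b x) +
        S3 (fun a b x => tt d f a x b x) := by
    rw [S3_add (fun a b x => tt d f a b a x + tt d f a b b x) (fun a b x => tt d f a x b x),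
      S3_add (fun a b x => tt d f a b a x) (fun a b x => tt d f a b b x)]
  have e2 : S3 (fun a b x => tt d f a b b x) = S3 (fun a b x => tt d f a b a x) := by
    rw [← S3_swap12 (fun a b x => tt d f a b a x)]
    apply S3_congr
    intro a b x
    exact (tt_symm1 d f a b b x).symm
  have e3 : S3 (fun a b x => tt d f a x b x) = S3 (fun a b x => tt d f a b a x) := by
    rw [← S3_rot (fun a b x => tt d f a b a x)]
    apply S3_congr
    intro a b x
    rw [tt_symm1 d f x a b x, tt_symm2 d f x a x b]
  rw [e1, e2, e3] at h3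
  linarith

/-- The disjoint part is nonnegative (from `CR`, `BX`, `HF`, `EN4`, `EN8`). -/
lemma disjoint_nonneg (hHF : HF d) (hCR : CR d) (hBX : BX d) (hEN4 : EN4 d) (hEN8 : EN8 d) :
    0 ≤ S4 (fun a b c e => tt d f a b c e) := by
  set px : Fin n → Fin n → Fin n → Fin n → ℝ := fun a b c e =>
    ∑ G ∈ realizations d, (f G - cavg (realizations d) (blockX a b c e) f G) ^ 2 with hpx
  set pi : Fin n → Fin n → Fin n → Fin n → ℝ := fun a b c e =>
    ∑ G ∈ realizations d, (cavg (realizations d) (hingeA a b c e) f G -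
      cavg (realizations d) (hinge a b) f G) ^ 2 with hpi
  have h1 : S4 (fun a b c e => px a b c e - 1 / 2 * pi a b c e - 1 / 2 * pi c e a b) ≤
      S4 (fun a b c e => tt d f a b c e) := by
    apply S4_mono
    intro a b c e hD
    exact hCR a b c e hD f
  rw [S4_lin px pi (fun a b c e => pi c e a b) (1 / 2), S4_swap pi] at h1
  -- lower bound for S4 px
  have h2 : 2 * energy (realizations d) f ≤ S4 px := by
    have hx : S4 (fun a b c e => 1 / 4 * xenergy (realizations d) a b c e f) ≤ S4 px := by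
      apply S4_mono
      intro a b c e hD
      exact hBX a b c e hD f
    rw [S4_smul] at hx
    have h8 := hEN8 f
    have : (8 : ℝ) * energy (realizations d) f ≤
        S4 (fun a b c e => xenergy (realizations d) a b c e f) := h8
    linarith
  -- upper bound for S4 pi
  have h3 : S4 pi ≤ 2 * energy (realizations d) f := by
    rw [← S4_as_pairs pi]
    have h4 := hEN4 f
    have : ∑ a : Fin n, ∑ b : Fin n,
        (if a ≠ b then ∑ c : Fin n, ∑ e : Fin n,
          (if c ≠ e ∧ c ≠ a ∧ c ≠ b ∧ e ≠ a ∧ e ≠ b then pi a b c e else 0) else 0) ≤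
        ∑ a : Fin n, ∑ b : Fin n,
          (if a ≠ b then 1 / 2 * henergy (realizations d) a b f else 0) := by
      apply Finset.sum_le_sum; intro a _
      apply Finset.sum_le_sum; intro b _
      split_ifs with hab
      · exact hHF a b hab f
      · exact le_refl _
    have e : ∑ a : Fin n, ∑ b : Fin n,
          (if a ≠ b then 1 / 2 * henergy (realizations d) a b f else 0) =
        1 / 2 * ∑ a : Fin n, ∑ b : Fin n,
          (if a ≠ b then henergy (realizations d) a b f else 0) := by
      simp only [Finset.mul_sum]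
      apply Finset.sum_congr rfl; intro a _
      apply Finset.sum_congr rfl; intro b _
      split_ifs <;> ring
    rw [e] at this
    linarith
  linarith

/-- The off-diagonal Knabe sum is nonnegative. -/
lemma offdiag_nonneg (hHF : HF d) (hTR : TR d) (hCR : CR d) (hBX : BX d) (hEN4 : EN4 d)
    (hEN8 : EN8 d) :
    0 ≤ ∑ a : Fin n, ∑ b : Fin n, (if a ≠ b then
      ∑ c : Fin n, ∑ e : Fin n, (if c ≠ e ∧ ¬ (c = a ∧ e = b) then tt d f a b c e else 0)
      else 0) := by
  have hsplit : ∑ a : Fin n, ∑ b : Fin n, (if a ≠ b then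
      ∑ c : Fin n, ∑ e : Fin n, (if c ≠ e ∧ ¬ (c = a ∧ e = b) then tt d f a b c e else 0)
      else 0) =
      ∑ a : Fin n, ∑ b : Fin n, (if a ≠ b then tt d f a b b a else 0)
      + S3 (fun a b x => tt d f a b a x) + S3 (fun a b x => tt d f a b x a)
      + S3 (fun a b x => tt d f a b b x) + S3 (fun a b x => tt d f a b x b)
      + S4 (fun a b c e => tt d f a b c e) := by
    rw [← S3_as_pairs, ← S3_as_pairs, ← S3_as_pairs, ← S3_as_pairs, ← S4_as_pairs]
    simp only [← Finset.sum_add_distrib]
    apply Finset.sum_congr rfl; intro a _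
    apply Finset.sum_congr rfl; intro b _
    by_cases hab : a ≠ b
    · simp only [if_pos hab]
      exact split_pairs hab (fun c e => tt d f a b c e)
    · simp only [if_neg hab]
      ring
  rw [hsplit]
  have hA : 0 ≤ ∑ a : Fin n, ∑ b : Fin n, (if a ≠ b then tt d f a b b a else 0) := by
    apply Finset.sum_nonneg; intro a _
    apply Finset.sum_nonneg; intro b _
    split_ifs
    · rw [tt_self]
      exact Finset.sum_nonneg (fun G _ => sq_nonneg _)
    · exact le_refl _
  have hU := share_nonneg d f hTR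
  have e2 : S3 (fun a b x => tt d f a b x a) = S3 (fun a b x => tt d f a b a x) :=
    S3_congr _ _ (fun a b x => tt_symm2 d f a b a x)
  have e4 : S3 (fun a b x => tt d f a b x b) = S3 (fun a b x => tt d f a b b x) :=
    S3_congr _ _ (fun a b x => tt_symm2 d f a b b x)
  have e3 : S3 (fun a b x => tt d f a b b x) = S3 (fun a b x => tt d f a b a x) := by
    rw [← S3_swap12 (fun a b x => tt d f a b a x)]
    apply S3_congr
    intro a b x
    exact (tt_symm1 d f a b b x).symm
  have hD := disjoint_nonneg d f hHF hCR hBX hEN4 hEN8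
  rw [e2, e4, e3]
  linarith

end asm

/-- **[LH]** `L ≥ H` in summed form over ordered pairs: `∑_{a ≠ b} ‖P_ab f‖² ≤ energy`. -/
def LH (d : Fin n → ℕ) : Prop :=
  ∀ f : Finset (Edge n) → ℝ,
    ∑ a : Fin n, ∑ b : Fin n,
      (if a ≠ b then ∑ G ∈ realizations d,
        (f G - cavg (realizations d) (hinge a b) f G) ^ 2 else 0) ≤ energy (realizations d) f

/-- `LH` from the per-pair Johnson gap `HG` and the counting `EN4`. -/
lemma LH_of_HG_EN4 (d : Fin n → ℕ) (hHG : HG d) (hEN4 : EN4 d) : LH d := by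
  intro f
  have h4 := hEN4 f
  have : ∑ a : Fin n, ∑ b : Fin n,
      (if a ≠ b then ∑ G ∈ realizations d,
        (f G - cavg (realizations d) (hinge a b) f G) ^ 2 else 0) ≤
      ∑ a : Fin n, ∑ b : Fin n, (if a ≠ b then 1 / 4 * henergy (realizations d) a b f else 0) := by
    apply Finset.sum_le_sum; intro a _
    apply Finset.sum_le_sum; intro b _
    by_cases hab : a ≠ b
    · rw [if_pos hab, if_pos hab]
      exact hHG a b hab f
    · rw [if_neg hab, if_neg hab]
  refine this.trans ?_
  have e : ∑ a : Fin n, ∑ b : Fin n,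
        (if a ≠ b then 1 / 4 * henergy (realizations d) a b f else 0) =
      1 / 4 * ∑ a : Fin n, ∑ b : Fin n,
        (if a ≠ b then henergy (realizations d) a b f else 0) := by
    simp only [Finset.mul_sum]
    apply Finset.sum_congr rfl; intro a _
    apply Finset.sum_congr rfl; intro b _
    split_ifs <;> ring
  rw [e]
  linarith

/-- `LH` from the summed form over pairs `a < b` with constant `1/2` (helper76's `L ≥ H`). -/
lemma LH_of_lt (d : Fin n → ℕ)
    (h : ∀ f : Finset (Edge n) → ℝ,
      ∑ p ∈ (univ.filter (fun p : Fin n × Fin n => p.1 < p.2)), ∑ G ∈ realizations d,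
        (f G - cavg (realizations d) (hinge p.1 p.2) f G) ^ 2 ≤
          1 / 2 * energy (realizations d) f) : LH d := by
  intro f
  have h1 := h f
  rw [Finset.sum_filter, Fintype.sum_prod_type] at h1
  set F : Fin n → Fin n → ℝ := fun a b =>
    ∑ G ∈ realizations d, (f G - cavg (realizations d) (hinge a b) f G) ^ 2 with hF
  have hsym : ∀ a b : Fin n, F a b = F b a := by
    intro a b
    simp only [hF]
    rw [hinge_comm a b]
  have h2 : ∑ a : Fin n, ∑ b : Fin n, (if a ≠ b then F a b else 0) =
      ∑ a : Fin n, ∑ b : Fin n, (if a < b then F a b else 0) +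
        ∑ a : Fin n, ∑ b : Fin n, (if b < a then F a b else 0) := by
    rw [← Finset.sum_add_distrib]
    apply Finset.sum_congr rfl; intro a _
    rw [← Finset.sum_add_distrib]
    apply Finset.sum_congr rfl; intro b _
    rcases lt_trichotomy a b with hlt | heq | hgt
    · rw [if_pos (ne_of_lt hlt), if_pos hlt, if_neg (not_lt.mpr (le_of_lt hlt)), add_zero]
    · subst heq
      simp
    · rw [if_pos (ne_of_gt hgt), if_neg (not_lt.mpr (le_of_lt hgt)), if_pos hgt, zero_add]
  have h3 : ∑ a : Fin n, ∑ b : Fin n, (if b < a then F a b else 0) =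
      ∑ a : Fin n, ∑ b : Fin n, (if a < b then F a b else 0) := by
    rw [Finset.sum_comm]
    apply Finset.sum_congr rfl; intro a _
    apply Finset.sum_congr rfl; intro b _
    rw [hsym b a]
  have h1' : ∑ a : Fin n, ∑ b : Fin n, (if a < b then F a b else 0) ≤
      1 / 2 * energy (realizations d) f := h1
  show ∑ a : Fin n, ∑ b : Fin n, (if a ≠ b then F a b else 0) ≤ energy (realizations d) f
  rw [h2, h3]
  linarith

/-- **Assembly.** The package statements give the Poincaré inequality `PI (realizations d) 1`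
(`λ₂(L) ≥ 1/2` in the normalisation of the switch Laplacian; the paper constant `1` is lost by a
harmless factor `2` because ordered pairs are used). -/
theorem PI_one' (d : Fin n → ℕ) (hLH : LH d) (hHF : HF d) (hTR : TR d) (hCR : CR d) (hBX : BX d)
    (hEN4 : EN4 d) (hEN8 : EN8 d) (hCONN : CONN d) : PI (realizations d) 1 := by
  apply PI_of_centered
  intro f
  -- Knabe end step for the family of ordered pairs
  have hS : ∀ f : Finset (Edge n) → ℝ,
      0 ≤ ∑ p ∈ (univ.filter (fun p : Fin n × Fin n => p.1 ≠ p.2)),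
        ∑ q ∈ (univ.filter (fun p : Fin n × Fin n => p.1 ≠ p.2)).erase p,
          ∑ x ∈ realizations d,
            (f x - cavg (realizations d) ((fun p : Fin n × Fin n => hinge p.1 p.2) p) f x) *
              (f x - cavg (realizations d) ((fun p : Fin n × Fin n => hinge p.1 p.2) q) f x) := by
    intro f
    have h0 := offdiag_nonneg d f hHF hTR hCR hBX hEN4 hEN8
    refine le_of_le_of_eq h0 ?_
    rw [Finset.sum_filter, Fintype.sum_prod_type]
    apply Finset.sum_congr rfl; intro a _
    apply Finset.sum_congr rfl; intro b _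
    by_cases hab : a ≠ b
    · rw [if_pos hab, if_pos hab]
      rw [← Finset.filter_ne', Finset.filter_filter, Finset.sum_filter, Fintype.sum_prod_type]
      apply Finset.sum_congr rfl; intro c _
      apply Finset.sum_congr rfl; intro e _
      refine if_congr ?_ rfl rfl
      constructor
      · rintro ⟨h1, h2⟩
        refine ⟨h1, ?_⟩
        intro h3
        apply h2
        exact ⟨by simpa using congrArg Prod.fst h3, by simpa using congrArg Prod.snd h3⟩
      · rintro ⟨h1, h2⟩
        refine ⟨h1, ?_⟩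
        rintro ⟨h3, h4⟩
        apply h2
        simp [h3, h4]
    · rw [if_neg hab, if_neg hab]
  have hker : ∀ f : Finset (Edge n) → ℝ,
      (∀ p ∈ (univ.filter (fun p : Fin n × Fin n => p.1 ≠ p.2)), ∀ x ∈ realizations d,
        ∀ y ∈ realizations d, (fun p : Fin n × Fin n => hinge p.1 p.2) p x =
          (fun p : Fin n × Fin n => hinge p.1 p.2) p y → f x = f y) →
      ∃ m : ℝ, ∀ x ∈ realizations d, f x = m := by
    intro f hf
    by_cases hne : (realizations d).Nonempty
    · obtain ⟨G0, hG0⟩ := hne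
      refine ⟨f G0, fun x hx => ?_⟩
      apply hCONN f _ x hx G0 hG0
      intro a b hab G hG G' hG' hh
      exact hf (a, b) (by simp [hab]) G hG G' hG' hh
    · refine ⟨0, fun x hx => ?_⟩
      exact absurd ⟨x, hx⟩ hne
  obtain ⟨m, hm⟩ := knabe_end (realizations d) (univ.filter (fun p : Fin n × Fin n => p.1 ≠ p.2))
    (fun p : Fin n × Fin n => hinge p.1 p.2) hS hker f
  refine ⟨m, hm.trans ?_⟩
  rw [Finset.sum_filter, Fintype.sum_prod_type]
  have h1 := hLH f
  rw [one_mul]
  exact h1

theorem PI_one (d : Fin n → ℕ) (hHG : HG d) (hHF : HF d) (hTR : TR d) (hCR : CR d) (hBX : BX d)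
    (hEN4 : EN4 d) (hEN8 : EN8 d) (hCONN : CONN d) : PI (realizations d) 1 :=
  PI_one' d (LH_of_HG_EN4 d hHG hEN4) hHF hTR hCR hBX hEN4 hEN8 hCONN

/-- **S0453 from the package statements.** -/
theorem S0453_of_pieces (n : ℕ) (hn : 4 ≤ n) (d : Fin n → ℕ)
    (hd : (Crest.SwitchChain.realizations d).Nonempty)
    (hHG : HG d) (hHF : HF d) (hTR : TR d) (hCR : CR d) (hBX : BX d)
    (hEN4 : EN4 d) (hEN8 : EN8 d) (hCONN : CONN d) :
    (∃ t : ℕ, t ≤ 2 * n ^ 8 ∧ ∀ G ∈ Crest.SwitchChain.realizations d,
        Crest.SwitchChain.tvDist (fun G' => (Crest.SwitchChain.kernel n ^ t) G G')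
          (Crest.SwitchChain.unifOn (Crest.SwitchChain.realizations d)) ≤ 1 / 4) ∧
      ∀ f : Finset (Crest.SwitchChain.Edge n) → ℝ,
        ((Crest.SwitchChain.realizations d).card : ℝ) *
              (∑ G ∈ Crest.SwitchChain.realizations d, f G ^ 2) -
            (∑ G ∈ Crest.SwitchChain.realizations d, f G) ^ 2 ≤
          24 * (n : ℝ) ^ 2 * (n.choose 4 : ℝ) * (Crest.SwitchChain.realizations d).card *
            ∑ G ∈ Crest.SwitchChain.realizations d,
              f G * (f G - ∑ G' ∈ Crest.SwitchChain.realizations d,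
                Crest.SwitchChain.kernel n G G' * f G') := by
  refine S0453_of_PI n hn d hd (c := 1) ?_ (PI_one d hHG hHF hTR hCR hBX hEN4 hEN8 hCONN)
  have h4 : (4 : ℝ) ≤ n := by exact_mod_cast hn
  nlinarith

/-- **S0453 from the package statements** (variant with the summed `L ≥ H`). -/
theorem S0453_of_pieces' (n : ℕ) (hn : 4 ≤ n) (d : Fin n → ℕ)
    (hd : (Crest.SwitchChain.realizations d).Nonempty)
    (hLH : LH d) (hHF : HF d) (hTR : TR d) (hCR : CR d) (hBX : BX d)
    (hEN4 : EN4 d) (hEN8 : EN8 d) (hCONN : CONN d) :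
    (∃ t : ℕ, t ≤ 2 * n ^ 8 ∧ ∀ G ∈ Crest.SwitchChain.realizations d,
        Crest.SwitchChain.tvDist (fun G' => (Crest.SwitchChain.kernel n ^ t) G G')
          (Crest.SwitchChain.unifOn (Crest.SwitchChain.realizations d)) ≤ 1 / 4) ∧
      ∀ f : Finset (Crest.SwitchChain.Edge n) → ℝ,
        ((Crest.SwitchChain.realizations d).card : ℝ) *
              (∑ G ∈ Crest.SwitchChain.realizations d, f G ^ 2) -
            (∑ G ∈ Crest.SwitchChain.realizations d, f G) ^ 2 ≤
          24 * (n : ℝ) ^ 2 * (n.choose 4 : ℝ) * (Crest.SwitchChain.realizations d).card *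
            ∑ G ∈ Crest.SwitchChain.realizations d,
              f G * (f G - ∑ G' ∈ Crest.SwitchChain.realizations d,
                Crest.SwitchChain.kernel n G G' * f G') := by
  refine S0453_of_PI n hn d hd (c := 1) ?_ (PI_one' d hLH hHF hTR hCR hBX hEN4 hEN8 hCONN)
  have h4 : (4 : ℝ) ≤ n := by exact_mod_cast hn
  nlinarith

end Crest.Agent.S0453.Helper47
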