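import Mathlib
import Crest.Prelude.Def_SwitchChain
import Crest.Agent.Lib.S0453.Helper47Defs
import Crest.Agent.Lib.S0453.Helper76Hinge

/-!
# Row 299 / S0453: the package `[BX]`

`BX d` in the shape of `Helper47Defs`: a quarter of the energy of the switch pairs inside the
fibres of the block label is at most `‖f - E_X f‖²`.

* `proposalCount_le_one`: two different graphs are joined by at most one proposal.
* `card_fibre_blockX_le_two`: a fibre of the block label inside `realizations d` has at most two
  elements (the degrees at `a, b, c, e` force the `2 × 2` block up to the block switch).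
* `pair_fibre_bound`: the pointwise bound for labels whose fibres have at most two elements.
-/

set_option autoImplicit false
open Finset

namespace Crest.Agent.S0453.Helper76

open Crest.SwitchChain

variable {n : ℕ}

/-! ### `proposalCount ≤ 1` off the diagonal -/

lemma switchResult_ne {G G' F F' : Finset (Edge n)} (hne : G ≠ G')
    (h : switchResult G F F' = G') : F = G \ G' ∧ F' = G' \ G := by
  unfold switchResult at h
  by_cases hc : F ⊆ G ∧ Disjoint F' G
  · rw [if_pos hc] at h
    subst h
    constructor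
    · ext s
      simp only [Finset.mem_sdiff, Finset.mem_union, not_or, not_and, not_not]
      constructor
      · intro hs
        exact ⟨hc.1 hs, fun _ => hs, fun hs' => (Finset.disjoint_left.mp hc.2 hs') (hc.1 hs)⟩
      · rintro ⟨h1, h2, -⟩
        exact h2 h1
    · ext s
      simp only [Finset.mem_sdiff, Finset.mem_union]
      constructor
      · intro hs
        exact ⟨Or.inr hs, fun h => Finset.disjoint_left.mp hc.2 hs h⟩
      · rintro ⟨(⟨h1, -⟩ | h1), h2⟩
        · exact absurd h1 h2
        · exact h1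
  · rw [if_neg hc] at h
    exact absurd h hne

lemma pmSet_support {S : Finset (Fin n)} {F : Finset (Edge n)} (hF : F ∈ pmSet S) :
    S = univ.filter (fun v => ∃ e ∈ F, v ∈ e.1) := by
  rw [mem_pmSet] at hF
  ext v
  simp only [Finset.mem_filter, Finset.mem_univ, true_and]
  constructor
  · intro hv
    have h1 := hF.2.2 v hv
    obtain ⟨e, he⟩ := Finset.card_pos.mp (by rw [h1]; exact Nat.one_pos)
    exact ⟨e, (Finset.mem_filter.mp he).1, (Finset.mem_filter.mp he).2⟩
  · rintro ⟨e, he, hv⟩
    exact hF.2.1 e he v hv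

lemma sum_ite_and_eq_le {α : Type*} [DecidableEq α] (A : Finset α) (x₀ : α) (p : Prop)
    [Decidable p] : ∑ x ∈ A, (if x = x₀ ∧ p then 1 else 0 : ℕ) ≤ if p then 1 else 0 := by
  by_cases hp : p
  · simp only [hp, and_true, if_true]
    rw [Finset.sum_ite_eq']
    split_ifs <;> simp
  · simp [hp]

/-- **Two different graphs are joined by at most one proposal.** -/
theorem proposalCount_le_one {G G' : Finset (Edge n)} (hne : G ≠ G') :
    proposalCount G G' ≤ 1 := by
  classical
  unfold proposalCount
  calc ∑ S ∈ (univ : Finset (Fin n)).powersetCard 4, ∑ F ∈ pmSet S, ∑ F' ∈ (pmSet S).erase F,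
        (if switchResult G F F' = G' then 1 else 0)
      ≤ ∑ S ∈ (univ : Finset (Fin n)).powersetCard 4, ∑ F ∈ pmSet S,
          ∑ F' ∈ (pmSet S).erase F,
            (if F' = G' \ G ∧ (F = G \ G' ∧
              S = univ.filter (fun v => ∃ e ∈ G \ G', v ∈ e.1)) then 1 else 0) := by
        apply Finset.sum_le_sum
        intro S _
        apply Finset.sum_le_sum
        intro F hF
        apply Finset.sum_le_sum
        intro F' _
        by_cases h : switchResult G F F' = G'
        · obtain ⟨h1, h2⟩ := switchResult_ne hne h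
          rw [if_pos h, if_pos]
          refine ⟨h2, h1, ?_⟩
          rw [← h1]
          exact pmSet_support hF
        · rw [if_neg h]
          exact Nat.zero_le _
    _ ≤ ∑ S ∈ (univ : Finset (Fin n)).powersetCard 4, ∑ F ∈ pmSet S,
          (if F = G \ G' ∧ S = univ.filter (fun v => ∃ e ∈ G \ G', v ∈ e.1) then 1 else 0) := by
        apply Finset.sum_le_sum
        intro S _
        apply Finset.sum_le_sum
        intro F _
        exact sum_ite_and_eq_le _ _ _
    _ ≤ ∑ S ∈ (univ : Finset (Fin n)).powersetCard 4,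
          (if S = univ.filter (fun v => ∃ e ∈ G \ G', v ∈ e.1) then 1 else 0) := by
        apply Finset.sum_le_sum
        intro S _
        exact sum_ite_and_eq_le _ _ _
    _ ≤ 1 := by
        have h := sum_ite_and_eq_le ((univ : Finset (Fin n)).powersetCard 4)
          (univ.filter (fun v => ∃ e ∈ G \ G', v ∈ e.1)) True
        simpa using h

/-! ### Labels with fibres of at most two elements -/

section Abstract

variable {α β : Type*} [DecidableEq α] [DecidableEq β]

/-- Pointwise bound for a label whose fibre through `x` has at most two elements. -/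
lemma pair_fibre_bound (Ω : Finset α) (φ : α → β) (f : α → ℝ) (w : α → α → ℝ)
    (hw1 : ∀ x y, x ≠ y → w x y ≤ 1) {x : α} (hx : x ∈ Ω)
    (hc : (fibre Ω φ x).card ≤ 2) :
    1 / 4 * ∑ y ∈ fibre Ω φ x, w x y * (f x - f y) ^ 2 ≤ (f x - cavg Ω φ f x) ^ 2 := by
  have hxF : x ∈ fibre Ω φ x := self_mem_fibre φ hx
  have hcard : (fibre Ω φ x).card = ((fibre Ω φ x).erase x).card + 1 :=
    (Finset.card_erase_add_one hxF).symm
  have hsum : ∑ y ∈ fibre Ω φ x, w x y * (f x - f y) ^ 2 =
      ∑ y ∈ (fibre Ω φ x).erase x, w x y * (f x - f y) ^ 2 := by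
    rw [← Finset.add_sum_erase _ _ hxF]
    simp
  have hsumf : ∑ y ∈ fibre Ω φ x, f y = f x + ∑ y ∈ (fibre Ω φ x).erase x, f y :=
    (Finset.add_sum_erase _ _ hxF).symm
  rw [hsum]
  unfold cavg
  rw [hsumf, hcard]
  have hle : ((fibre Ω φ x).erase x).card ≤ 1 := by omega
  rcases Nat.le_one_iff_eq_zero_or_eq_one.mp hle with h0 | h1
  · rw [Finset.card_eq_zero] at h0
    rw [h0]
    simp
  · obtain ⟨y, hy⟩ := Finset.card_eq_one.mp h1
    have hyx : y ≠ x := by
      have : y ∈ (fibre Ω φ x).erase x := by
        rw [hy]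
        exact Finset.mem_singleton_self y
      exact (Finset.mem_erase.mp this).1
    rw [hy]
    simp only [Finset.sum_singleton, Finset.card_singleton]
    have hw := hw1 x y hyx.symm
    have e : f x - (f x + f y) / ((1 : ℕ) + 1 : ℕ) = (f x - f y) / 2 := by
      push_cast
      ring
    rw [e]
    nlinarith [sq_nonneg (f x - f y)]

end Abstract

/-! ### The block label -/

section Block

open Crest.Agent.S0453.Helper47

variable {a b c e : Fin n}

/-- Adjacency outside the four slots of the block is determined by the block label. -/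
lemma adj_of_blockX_eq {G G' : Finset (Edge n)} (h : blockX a b c e G = blockX a b c e G')
    {u w : Fin n} (hX : ∀ huw : u ≠ w, ¬ inX a b c e (mkEdge u w huw)) :
    adj G u w ↔ adj G' u w := by
  have key : ∀ {G G' : Finset (Edge n)}, blockX a b c e G = blockX a b c e G' →
      adj G u w → adj G' u w := by
    intro G G' h ⟨hne, hm⟩
    refine ⟨hne, ?_⟩
    have hm' : mkEdge u w hne ∈ blockX a b c e G := by
      unfold blockX
      rw [Finset.mem_filter]
      exact ⟨hm, hX hne⟩
    rw [h] at hm'
    unfold blockX at hm'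
    exact (Finset.mem_filter.mp hm').1
  exact ⟨key h, key h.symm⟩

lemma inX_mkEdge_iff {u w : Fin n} (huw : u ≠ w) :
    inX a b c e (mkEdge u w huw) ↔
      ((u = a ∧ w = c) ∨ (u = c ∧ w = a)) ∨ ((u = a ∧ w = e) ∨ (u = e ∧ w = a)) ∨
        ((u = b ∧ w = c) ∨ (u = c ∧ w = b)) ∨ ((u = b ∧ w = e) ∨ (u = e ∧ w = b)) := by
  unfold inX
  simp only [mkEdge_val, Sym2.eq_iff]

/-- The number of neighbours of `p` among `q, r` is determined by the block label and the
degree of `p`, if all other slots at `p` lie outside the block. -/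
lemma cntX_eq {G G' : Finset (Edge n)} (h : blockX a b c e G = blockX a b c e G')
    {p q r : Fin n} (hqr : q ≠ r) (hdeg : deg G p = deg G' p)
    (hout : ∀ w, w ≠ q → w ≠ r → ∀ hpw : p ≠ w, ¬ inX a b c e (mkEdge p w hpw)) :
    ((if adj G p q then 1 else 0) + (if adj G p r then 1 else 0) : ℕ) =
      (if adj G' p q then 1 else 0) + (if adj G' p r then 1 else 0) := by
  have h1 := card_nbrs_pair hqr G p
  have h2 := card_nbrs_pair hqr G' p
  have h3 := Finset.card_filter_add_card_filter_not (s := nbrs G p) (fun w => w = q ∨ w = r)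
  have h4 := Finset.card_filter_add_card_filter_not (s := nbrs G' p) (fun w => w = q ∨ w = r)
  have h5 : (nbrs G p).filter (fun w => ¬(w = q ∨ w = r)) =
      (nbrs G' p).filter (fun w => ¬(w = q ∨ w = r)) := by
    ext w
    simp only [Finset.mem_filter, mem_nbrs, not_or]
    constructor
    · rintro ⟨hw, hwq, hwr⟩
      exact ⟨(adj_of_blockX_eq h (hout w hwq hwr)).mp hw, hwq, hwr⟩
    · rintro ⟨hw, hwq, hwr⟩
      exact ⟨(adj_of_blockX_eq h (hout w hwq hwr)).mpr hw, hwq, hwr⟩
  rw [deg_eq_card_nbrs, deg_eq_card_nbrs] at hdeg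
  rw [h5] at h3
  omega

lemma iff_of_cnt {p1 p2 q1 q2 : Prop} [Decidable p1] [Decidable p2] [Decidable q1] [Decidable q2]
    (h : ((if p1 then 1 else 0) + (if p2 then 1 else 0) : ℕ) =
      (if q1 then 1 else 0) + (if q2 then 1 else 0)) (h1 : p1 ↔ q1) : p2 ↔ q2 := by
  by_cases a1 : p1 <;> by_cases a2 : p2 <;> by_cases a3 : q1 <;> by_cases a4 : q2 <;>
    simp [a1, a2, a3, a4] at h h1 ⊢

/-- On a fibre of the block label (same degrees), the slot `ac` determines the graph. -/
lemma eq_of_blockX_eq (hD : D4 a b c e) {G G' : Finset (Edge n)}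
    (hdeg : ∀ v, deg G v = deg G' v) (h : blockX a b c e G = blockX a b c e G')
    (hac : adj G a c ↔ adj G' a c) : G = G' := by
  obtain ⟨hab, hce, hca, hcb, hea, heb⟩ := hD
  -- the four slots
  have cA := cntX_eq h (p := a) hce (hdeg a) (fun w hwc hwe hpw => by
    rw [inX_mkEdge_iff]
    intro hX
    rcases hX with (⟨-, h⟩ | ⟨h, -⟩) | (⟨-, h⟩ | ⟨h, -⟩) | (⟨h, -⟩ | ⟨h, -⟩) | (⟨h, -⟩ | ⟨h, -⟩)
    · exact hwc h
    · exact hca h.symm
    · exact hwe h
    · exact hea h.symm
    · exact hab h
    · exact hca h.symm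
    · exact hab h
    · exact hea h.symm)
  have cC := cntX_eq h (p := c) hab (hdeg c) (fun w hwa hwb hpw => by
    rw [inX_mkEdge_iff]
    intro hX
    rcases hX with (⟨h, -⟩ | ⟨-, h⟩) | (⟨h, -⟩ | ⟨h, -⟩) | (⟨h, -⟩ | ⟨-, h⟩) | (⟨h, -⟩ | ⟨h, -⟩)
    · exact hca h
    · exact hwa h
    · exact hca h
    · exact hce h
    · exact hcb h
    · exact hwb h
    · exact hcb h
    · exact hce h)
  have cE := cntX_eq h (p := e) hab (hdeg e) (fun w hwa hwb hpw => by
    rw [inX_mkEdge_iff]
    intro hX
    rcases hX with (⟨h, -⟩ | ⟨h, -⟩) | (⟨h, -⟩ | ⟨-, h⟩) | (⟨h, -⟩ | ⟨h, -⟩) | (⟨h, -⟩ | ⟨-, h⟩)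
    · exact hea h
    · exact hce h.symm
    · exact hea h
    · exact hwa h
    · exact heb h
    · exact hce h.symm
    · exact heb h
    · exact hwb h)
  have hae : adj G a e ↔ adj G' a e := iff_of_cnt cA hac
  have hca' : adj G c a ↔ adj G' c a := by
    rw [adj_comm, adj_comm (G := G')]
    exact hac
  have hcb' : adj G c b ↔ adj G' c b := iff_of_cnt cC hca'
  have hea' : adj G e a ↔ adj G' e a := by
    rw [adj_comm, adj_comm (G := G')]
    exact hae
  have heb' : adj G e b ↔ adj G' e b := iff_of_cnt cE hea'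
  apply adj_ext
  intro u w
  by_cases huw : u = w
  · subst huw
    constructor
    · exact fun h => absurd rfl (adj_ne h)
    · exact fun h => absurd rfl (adj_ne h)
  by_cases hX : inX a b c e (mkEdge u w huw)
  · rw [inX_mkEdge_iff] at hX
    rcases hX with (⟨rfl, rfl⟩ | ⟨rfl, rfl⟩) | (⟨rfl, rfl⟩ | ⟨rfl, rfl⟩) |
      (⟨rfl, rfl⟩ | ⟨rfl, rfl⟩) | (⟨rfl, rfl⟩ | ⟨rfl, rfl⟩)
    · exact hac
    · exact hca'
    · exact hae
    · exact hea'
    · rw [adj_comm, adj_comm (G := G')]
      exact hcb'
    · exact hcb'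
    · rw [adj_comm, adj_comm (G := G')]
      exact heb'
    · exact heb'
  · exact adj_of_blockX_eq h (fun _ => hX)

/-- **A fibre of the block label inside `realizations d` has at most two elements.** -/
lemma card_fibre_blockX_le_two (hD : D4 a b c e) (d : Fin n → ℕ) (G₀ : Finset (Edge n)) :
    (fibre (realizations d) (blockX a b c e) G₀).card ≤ 2 := by
  classical
  have h := Finset.card_le_card_of_injOn (s := fibre (realizations d) (blockX a b c e) G₀)
    (t := (Finset.univ : Finset Bool)) (fun G => decide (adj G a c))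
    (fun G _ => Finset.mem_univ _) (by
      intro G hG G' hG' hdec
      have hG1 := mem_fibre.mp (Finset.mem_coe.mp hG)
      have hG2 := mem_fibre.mp (Finset.mem_coe.mp hG')
      apply eq_of_blockX_eq hD
      · intro v
        rw [mem_realizations.mp hG1.1 v, mem_realizations.mp hG2.1 v]
      · rw [hG1.2, hG2.2]
      · simpa using hdec)
  simpa using h

/-- **DELIVERY of `[BX]`.** -/
theorem bx (d : Fin n → ℕ) : Crest.Agent.S0453.Helper47.BX d := by
  intro a b c e hD f
  unfold xenergy
  rw [Finset.mul_sum]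
  apply Finset.sum_le_sum
  intro G hG
  have h1 := pair_fibre_bound (realizations d) (blockX a b c e) f
    (fun G G' => (proposalCount G G' : ℝ))
    (fun G G' hne => by exact_mod_cast proposalCount_le_one hne) hG
    (card_fibre_blockX_le_two hD d G)
  have e1 : ∑ G' ∈ realizations d, (if blockX a b c e G = blockX a b c e G' then
      (proposalCount G G' : ℝ) * (f G - f G') ^ 2 else 0) =
      ∑ G' ∈ fibre (realizations d) (blockX a b c e) G,
        (proposalCount G G' : ℝ) * (f G - f G') ^ 2 := by
    unfold fibre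
    rw [Finset.sum_filter]
    apply Finset.sum_congr rfl
    intro G' _
    by_cases hy : blockX a b c e G' = blockX a b c e G
    · rw [if_pos hy, if_pos hy.symm]
    · rw [if_neg hy, if_neg (fun h => hy h.symm)]
  rw [e1]
  exact h1

end Block

end Crest.Agent.S0453.Helper76
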