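import Mathlib
import Crest.Prelude.Def_SwitchChain
import Crest.Agent.Lib.S0453.Helper47Defs
import Crest.Agent.Lib.S0453.Helper76Hinge

/-!
# Row 299 / S0453: delivery of the package `[HG]`

`HG d` (Johnson gap on the hinge fibres) in the shape of `Helper47Defs`, from
`Helper76.hinge_poincare_raw` (the hinge fibre is a Johnson graph, `Helper76Hinge.lean`, and the
Johnson gap, `Helper76Johnson.lean`).
-/

set_option autoImplicit false
open Finset

namespace Crest.Agent.S0453.Helper76

open Crest.SwitchChain

variable {n : ℕ}

/-- **DELIVERY of `[HG]`.** -/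
theorem hg (d : Fin n → ℕ) : Crest.Agent.S0453.Helper47.HG d := by
  intro a b hab f
  exact hinge_poincare_raw hab d f

end Crest.Agent.S0453.Helper76
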