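import Mathlib

/-!
# Abstract path coupling ⟹ L² contraction (helper58, row 299 / S0453)

`l2_of_lipschitz_contraction`: a symmetric, mean-preserving (not necessarily linear) operator `K`
on real functions on a finite set `Om` which contracts the Lipschitz seminorm of a weighted
connected graph metric by the factor `κ` satisfies `⟨f, K f⟩ ≤ κ ‖f‖²` on mean-zero functions.
No spectral theorem: `a_t = ‖K^t f‖²` is log-convex, and `a_t ≤ C κ^{2t}`.

`sq_ge_self_of_ge_proj`: the "local Knabe step": `A` symmetric, supported on the range of `P`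
and `≥ 1` there ⟹ `⟨f, A f⟩ ≤ ‖A f‖²`.
-/

set_option autoImplicit false
open Finset

namespace Crest.Agent.S0453.Helper58

section PathCoupling

variable {α : Type*}

/-- Log-convexity of `t ↦ ‖K^t f‖²` for a symmetric operator. -/
lemma sum_sq_logconvex (Om : Finset α) (K : (α → ℝ) → α → ℝ)
    (hsymm : ∀ f g : α → ℝ, ∑ x ∈ Om, f x * K g x = ∑ x ∈ Om, K f x * g x) (f : α → ℝ) :
    (∑ x ∈ Om, (K f x) ^ 2) ^ 2 ≤ (∑ x ∈ Om, f x ^ 2) * ∑ x ∈ Om, (K (K f) x) ^ 2 := by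
  have h1 : ∑ x ∈ Om, (K f x) ^ 2 = ∑ x ∈ Om, f x * K (K f) x := by
    rw [hsymm f (K f)]
    exact Finset.sum_congr rfl (fun x _ => by ring)
  rw [h1]
  exact Finset.sum_mul_sq_le_sq_mul_sq Om f (K (K f))

/-- Cauchy–Schwarz in the form used below. -/
lemma sum_mul_sq_le (Om : Finset α) (K : (α → ℝ) → α → ℝ) (f : α → ℝ) :
    (∑ x ∈ Om, f x * K f x) ^ 2 ≤ (∑ x ∈ Om, f x ^ 2) * ∑ x ∈ Om, (K f x) ^ 2 :=
  Finset.sum_mul_sq_le_sq_mul_sq Om f (K f)

/-- Connectivity gives a uniform oscillation bound in terms of the Lipschitz constant. -/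
lemma exists_osc_bound (Om : Finset α) (R : α → α → Prop) (c : α → α → ℝ)
    (hc : ∀ x y, R x y → 0 < c x y)
    (hconn : ∀ x ∈ Om, ∀ y ∈ Om,
      Relation.ReflTransGen (fun u v => u ∈ Om ∧ v ∈ Om ∧ R u v) x y) :
    ∃ D : ℝ, 0 ≤ D ∧ ∀ (g : α → ℝ) (L : ℝ), 0 ≤ L →
      (∀ u ∈ Om, ∀ v ∈ Om, R u v → |g u - g v| ≤ L * c u v) →
      ∀ x ∈ Om, ∀ y ∈ Om, |g x - g y| ≤ D * L := by
  classical
  have key : ∀ x y : α, Relation.ReflTransGen (fun u v => u ∈ Om ∧ v ∈ Om ∧ R u v) x y →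
      ∃ D : ℝ, 0 ≤ D ∧ ∀ (g : α → ℝ) (L : ℝ), 0 ≤ L →
        (∀ u ∈ Om, ∀ v ∈ Om, R u v → |g u - g v| ≤ L * c u v) → |g x - g y| ≤ D * L := by
    intro x y hxy
    induction hxy with
    | refl => exact ⟨0, le_refl _, fun g L _ _ => by simp⟩
    | @tail y z _ hyz ih =>
      obtain ⟨D, hD0, hD⟩ := ih
      obtain ⟨hy, hz, hR⟩ := hyz
      refine ⟨D + c y z, add_nonneg hD0 (hc y z hR).le, fun g L hL hg => ?_⟩
      have h1 := hD g L hL hg
      have h2 := hg y hy z hz hR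
      have h3 : |g x - g z| ≤ |g x - g y| + |g y - g z| := by
        have : g x - g z = (g x - g y) + (g y - g z) := by ring
        rw [this]
        exact abs_add_le _ _
      calc |g x - g z| ≤ |g x - g y| + |g y - g z| := h3
        _ ≤ D * L + L * c y z := add_le_add h1 h2
        _ = (D + c y z) * L := by ring
  have key2 : ∀ x y : α, ∃ D : ℝ, 0 ≤ D ∧ (x ∈ Om → y ∈ Om → ∀ (g : α → ℝ) (L : ℝ), 0 ≤ L →
        (∀ u ∈ Om, ∀ v ∈ Om, R u v → |g u - g v| ≤ L * c u v) → |g x - g y| ≤ D * L) := by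
    intro x y
    by_cases hx : x ∈ Om
    · by_cases hy : y ∈ Om
      · obtain ⟨D, hD0, hD⟩ := key x y (hconn x hx y hy)
        exact ⟨D, hD0, fun _ _ => hD⟩
      · exact ⟨0, le_refl _, fun _ h => absurd h hy⟩
    · exact ⟨0, le_refl _, fun h => absurd h hx⟩
  choose D hD0 hD using key2
  refine ⟨∑ x ∈ Om, ∑ y ∈ Om, D x y,
    Finset.sum_nonneg (fun x _ => Finset.sum_nonneg (fun y _ => hD0 x y)), ?_⟩
  intro g L hL hg x hx y hy
  have h1 := hD x y hx hy g L hL hg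
  have h2 : D x y ≤ ∑ x ∈ Om, ∑ y ∈ Om, D x y := by
    have h3 : D x y ≤ ∑ y ∈ Om, D x y :=
      Finset.single_le_sum (f := fun y => D x y) (fun y _ => hD0 x y) hy
    have h4 : ∑ y ∈ Om, D x y ≤ ∑ x ∈ Om, ∑ y ∈ Om, D x y :=
      Finset.single_le_sum (f := fun x => ∑ y ∈ Om, D x y)
        (fun x _ => Finset.sum_nonneg (fun y _ => hD0 x y)) hx
    exact le_trans h3 h4
  calc |g x - g y| ≤ D x y * L := h1
    _ ≤ (∑ x ∈ Om, ∑ y ∈ Om, D x y) * L := mul_le_mul_of_nonneg_right h2 hL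

/-- A mean-zero function with oscillation `≤ B` is bounded by `B`, hence `‖g‖² ≤ |Om| B²`. -/
lemma sum_sq_le_of_osc (Om : Finset α) (g : α → ℝ) (B : ℝ) (_hB : 0 ≤ B)
    (hmean : ∑ x ∈ Om, g x = 0) (hosc : ∀ x ∈ Om, ∀ y ∈ Om, |g x - g y| ≤ B) :
    ∑ x ∈ Om, g x ^ 2 ≤ (Om.card : ℝ) * B ^ 2 := by
  have hpt : ∀ x ∈ Om, |g x| ≤ B := by
    intro x hx
    have hN : (0 : ℝ) < Om.card := by
      exact_mod_cast Finset.card_pos.mpr ⟨x, hx⟩
    have h1 : (Om.card : ℝ) * g x = ∑ y ∈ Om, (g x - g y) := by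
      rw [Finset.sum_sub_distrib, hmean, Finset.sum_const, nsmul_eq_mul, sub_zero]
    have h2 : |(Om.card : ℝ) * g x| ≤ (Om.card : ℝ) * B := by
      rw [h1]
      calc |∑ y ∈ Om, (g x - g y)| ≤ ∑ y ∈ Om, |g x - g y| := Finset.abs_sum_le_sum_abs _ _
        _ ≤ ∑ _y ∈ Om, B := Finset.sum_le_sum (fun y hy => hosc x hx y hy)
        _ = (Om.card : ℝ) * B := by rw [Finset.sum_const, nsmul_eq_mul]
    rw [abs_mul, abs_of_pos hN] at h2
    exact le_of_mul_le_mul_left h2 hN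
  calc ∑ x ∈ Om, g x ^ 2 ≤ ∑ _x ∈ Om, B ^ 2 := by
        apply Finset.sum_le_sum
        intro x hx
        have := hpt x hx
        rw [← sq_abs]
        exact pow_le_pow_left₀ (abs_nonneg _) this 2
    _ = (Om.card : ℝ) * B ^ 2 := by rw [Finset.sum_const, nsmul_eq_mul]

/-- **Abstract path coupling ⟹ L² bound.**  `K` symmetric and mean preserving on `Om`
(linearity is not needed); `R`, `c` a connected weighted graph on `Om`; `hlip` = the coupling
in Kantorovich-dual form (`K` contracts the Lipschitz seminorm by `κ` across every edge).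
Then `⟨f, K f⟩ ≤ κ ‖f‖²` for every mean-zero `f`. -/
theorem l2_of_lipschitz_contraction (Om : Finset α) (K : (α → ℝ) → α → ℝ)
    (hsymm : ∀ f g : α → ℝ, ∑ x ∈ Om, f x * K g x = ∑ x ∈ Om, K f x * g x)
    (hmean : ∀ f : α → ℝ, ∑ x ∈ Om, K f x = ∑ x ∈ Om, f x)
    (R : α → α → Prop) (c : α → α → ℝ) (hc : ∀ x y, R x y → 0 < c x y)
    (hconn : ∀ x ∈ Om, ∀ y ∈ Om,
      Relation.ReflTransGen (fun u v => u ∈ Om ∧ v ∈ Om ∧ R u v) x y)
    (κ : ℝ) (hκ : 0 ≤ κ)
    (hlip : ∀ (g : α → ℝ) (L : ℝ), 0 ≤ L →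
      (∀ u ∈ Om, ∀ v ∈ Om, R u v → |g u - g v| ≤ L * c u v) →
      ∀ x ∈ Om, ∀ y ∈ Om, R x y → |K g x - K g y| ≤ κ * L * c x y) :
    ∀ f : α → ℝ, ∑ x ∈ Om, f x = 0 → ∑ x ∈ Om, f x * K f x ≤ κ * ∑ x ∈ Om, f x ^ 2 := by
  classical
  intro f hf0
  obtain ⟨D, hD0, hD⟩ := exists_osc_bound Om R c hc hconn
  -- iterates
  set F : ℕ → α → ℝ := fun t => K^[t] f with hF
  have hFs : ∀ t, F (t + 1) = K (F t) := fun t => by
    simp only [hF, Function.iterate_succ_apply']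
  have hF0 : F 0 = f := rfl
  set a : ℕ → ℝ := fun t => ∑ x ∈ Om, (F t x) ^ 2 with ha
  have ha0 : ∀ t, 0 ≤ a t := fun t => Finset.sum_nonneg (fun x _ => sq_nonneg _)
  have hlog : ∀ t, (a (t + 1)) ^ 2 ≤ a t * a (t + 2) := by
    intro t
    have := sum_sq_logconvex Om K hsymm (F t)
    simp only [ha]
    rw [show t + 2 = (t + 1) + 1 from rfl, hFs (t + 1), hFs t]
    exact this
  have hmean0 : ∀ t, ∑ x ∈ Om, F t x = 0 := by
    intro t
    induction t with
    | zero => exact hf0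
    | succ t ih => rw [hFs, hmean, ih]
  -- a Lipschitz constant of f
  set L0 : ℝ := ∑ u ∈ Om, ∑ v ∈ Om, |f u - f v| / |c u v| with hL0
  have hL0nn : 0 ≤ L0 := Finset.sum_nonneg (fun u _ => Finset.sum_nonneg (fun v _ =>
    div_nonneg (abs_nonneg _) (abs_nonneg _)))
  have hLf : ∀ u ∈ Om, ∀ v ∈ Om, R u v → |f u - f v| ≤ L0 * c u v := by
    intro u hu v hv hR
    have hcp := hc u v hR
    have h1 : |f u - f v| / |c u v| ≤ L0 := by
      have h3 : |f u - f v| / |c u v| ≤ ∑ v ∈ Om, |f u - f v| / |c u v| :=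
        Finset.single_le_sum (f := fun v => |f u - f v| / |c u v|)
          (fun v _ => div_nonneg (abs_nonneg _) (abs_nonneg _)) hv
      have h4 : ∑ v ∈ Om, |f u - f v| / |c u v| ≤ L0 :=
        Finset.single_le_sum (f := fun u => ∑ v ∈ Om, |f u - f v| / |c u v|)
          (fun u _ => Finset.sum_nonneg (fun v _ =>
            div_nonneg (abs_nonneg _) (abs_nonneg _))) hu
      exact le_trans h3 h4
    rw [abs_of_pos hcp] at h1
    calc |f u - f v| = |f u - f v| / c u v * c u v := by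
          field_simp
      _ ≤ L0 * c u v := mul_le_mul_of_nonneg_right h1 hcp.le
  have hLip : ∀ t, ∀ u ∈ Om, ∀ v ∈ Om, R u v → |F t u - F t v| ≤ (κ ^ t * L0) * c u v := by
    intro t
    induction t with
    | zero => simpa [hF0] using hLf
    | succ t ih =>
      intro u hu v hv hR
      have := hlip (F t) (κ ^ t * L0) (mul_nonneg (pow_nonneg hκ t) hL0nn) ih u hu v hv hR
      rw [hFs]
      calc |K (F t) u - K (F t) v| ≤ κ * (κ ^ t * L0) * c u v := this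
        _ = κ ^ (t + 1) * L0 * c u v := by ring
  -- geometric decay of a
  set C : ℝ := (Om.card : ℝ) * (D * L0) ^ 2 with hC
  have hC0 : 0 ≤ C := mul_nonneg (Nat.cast_nonneg _) (sq_nonneg _)
  have hdecay : ∀ t, a t ≤ C * (κ ^ 2) ^ t := by
    intro t
    have hB : 0 ≤ D * (κ ^ t * L0) :=
      mul_nonneg hD0 (mul_nonneg (pow_nonneg hκ t) hL0nn)
    have h1 := sum_sq_le_of_osc Om (F t) (D * (κ ^ t * L0)) hB (hmean0 t)
      (hD (F t) (κ ^ t * L0) (mul_nonneg (pow_nonneg hκ t) hL0nn) (hLip t))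
    calc a t ≤ (Om.card : ℝ) * (D * (κ ^ t * L0)) ^ 2 := h1
      _ = C * (κ ^ 2) ^ t := by rw [hC, ← pow_mul, mul_comm 2 t, pow_mul]; ring
  -- the key bound a 1 ≤ κ² a 0
  have hkey : a 1 ≤ κ ^ 2 * a 0 := by
    by_contra hcon
    push Not at hcon
    have ha1pos : 0 < a 1 := lt_of_le_of_lt (mul_nonneg (sq_nonneg _) (ha0 0)) hcon
    have ha0pos : 0 < a 0 := by
      rcases (ha0 0).lt_or_eq with h | h
      · exact h
      · exfalso
        have := hlog 0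
        rw [← h, zero_mul] at this
        have h2 : 0 < (a 1) ^ 2 := pow_pos ha1pos 2
        linarith
    set r : ℝ := a 1 / a 0 with hr
    have hrk : κ ^ 2 < r := by
      rw [hr, lt_div_iff₀ ha0pos]
      exact hcon
    have hrpos : 0 < r := lt_of_le_of_lt (sq_nonneg _) hrk
    have hgrow : ∀ t, 0 < a t ∧ r * a t ≤ a (t + 1) := by
      intro t
      induction t with
      | zero =>
        refine ⟨ha0pos, ?_⟩
        rw [hr, div_mul_cancel₀ _ ha0pos.ne']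
      | succ t ih =>
        obtain ⟨hpos, hstep⟩ := ih
        have hpos1 : 0 < a (t + 1) := lt_of_lt_of_le (mul_pos hrpos hpos) hstep
        refine ⟨hpos1, ?_⟩
        have h1 := hlog t
        -- a(t+1)^2 ≤ a t * a (t+2), and r * a t ≤ a (t+1)
        have h2 : r * a t * a (t + 1) ≤ a t * a (t + 2) := by
          calc r * a t * a (t + 1) ≤ a (t + 1) * a (t + 1) :=
                mul_le_mul_of_nonneg_right hstep hpos1.le
            _ = (a (t + 1)) ^ 2 := by ring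
            _ ≤ a t * a (t + 2) := h1
        have h3 : a t * (r * a (t + 1)) ≤ a t * a (t + 2) := by
          calc a t * (r * a (t + 1)) = r * a t * a (t + 1) := by ring
            _ ≤ a t * a (t + 2) := h2
        exact le_of_mul_le_mul_left h3 hpos
    have hpow : ∀ t, r ^ t * a 0 ≤ a t := by
      intro t
      induction t with
      | zero => simp
      | succ t ih =>
        calc r ^ (t + 1) * a 0 = r * (r ^ t * a 0) := by ring
          _ ≤ r * a t := mul_le_mul_of_nonneg_left ih hrpos.le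
          _ ≤ a (t + 1) := (hgrow t).2
    have hall : ∀ t, r ^ t * a 0 ≤ C * (κ ^ 2) ^ t := fun t => le_trans (hpow t) (hdecay t)
    rcases (sq_nonneg κ).lt_or_eq with hk | hk
    · -- κ² > 0 : (r/κ²)^t unbounded
      have hq : 1 < r / κ ^ 2 := by rw [lt_div_iff₀ hk]; linarith
      obtain ⟨t, ht⟩ := pow_unbounded_of_one_lt (C / a 0) hq
      have h1 := hall t
      have h2 : (r / κ ^ 2) ^ t * a 0 ≤ C := by
        rw [div_pow, div_mul_eq_mul_div, div_le_iff₀ (pow_pos hk t)]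
        exact h1
      have h3 : C / a 0 < C / a 0 := by
        calc C / a 0 < (r / κ ^ 2) ^ t := ht
          _ ≤ C / a 0 := by rw [le_div_iff₀ ha0pos]; exact h2
      exact lt_irrefl _ h3
    · have h1 := hall 1
      rw [← hk] at h1
      simp only [pow_one, mul_zero] at h1
      have : 0 < r * a 0 := mul_pos hrpos ha0pos
      linarith
  -- conclusion
  have hcs : (∑ x ∈ Om, f x * K f x) ^ 2 ≤ a 0 * a 1 := by
    have := sum_mul_sq_le Om K f
    simpa [ha, hF, Function.iterate_succ_apply'] using this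
  have hfin : (∑ x ∈ Om, f x * K f x) ^ 2 ≤ (κ * a 0) ^ 2 := by
    calc (∑ x ∈ Om, f x * K f x) ^ 2 ≤ a 0 * a 1 := hcs
      _ ≤ a 0 * (κ ^ 2 * a 0) := mul_le_mul_of_nonneg_left hkey (ha0 0)
      _ = (κ * a 0) ^ 2 := by ring
  have h5 := abs_le_of_sq_le_sq hfin (mul_nonneg hκ (ha0 0))
  have h6 : a 0 = ∑ x ∈ Om, f x ^ 2 := rfl
  rw [← h6]
  exact le_trans (le_abs_self _) h5

/-- The `ε → 0` wrapper: a bound with `κ (1 + ε)` for every `ε > 0` gives the bound with `κ`. -/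
lemma le_of_forall_eps {A κ B : ℝ} (h : ∀ ε : ℝ, 0 < ε → A ≤ κ * (1 + ε) * B) : A ≤ κ * B := by
  by_contra hcon
  push Not at hcon
  by_cases hkB : κ * B ≤ 0
  · have := h 1 one_pos
    nlinarith
  · push Not at hkB
    have hε : 0 < (A - κ * B) / (2 * (κ * B)) := div_pos (by linarith) (by linarith)
    have := h _ hε
    have h1 : κ * B * ((A - κ * B) / (2 * (κ * B))) = (A - κ * B) / 2 := by
      have hne : κ * B ≠ 0 := hkB.ne'
      rw [mul_comm 2 (κ * B), ← div_div, mul_div_assoc', mul_div_cancel₀ _ hne]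
    have h2 : κ * (1 + (A - κ * B) / (2 * (κ * B))) * B = κ * B + (A - κ * B) / 2 := by
      rw [← h1]; ring
    rw [h2] at this
    linarith

/-- Non-centred form, for operators commuting with subtraction of constants. -/
theorem l2_of_lipschitz_contraction' (Om : Finset α) (K : (α → ℝ) → α → ℝ)
    (hsymm : ∀ f g : α → ℝ, ∑ x ∈ Om, f x * K g x = ∑ x ∈ Om, K f x * g x)
    (hmean : ∀ f : α → ℝ, ∑ x ∈ Om, K f x = ∑ x ∈ Om, f x)
    (hsub : ∀ (f : α → ℝ) (m : ℝ), ∀ x ∈ Om, K (fun y => f y - m) x = K f x - m)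
    (R : α → α → Prop) (c : α → α → ℝ) (hc : ∀ x y, R x y → 0 < c x y)
    (hconn : ∀ x ∈ Om, ∀ y ∈ Om,
      Relation.ReflTransGen (fun u v => u ∈ Om ∧ v ∈ Om ∧ R u v) x y)
    (κ : ℝ) (hκ : 0 ≤ κ)
    (hlip : ∀ (g : α → ℝ) (L : ℝ), 0 ≤ L →
      (∀ u ∈ Om, ∀ v ∈ Om, R u v → |g u - g v| ≤ L * c u v) →
      ∀ x ∈ Om, ∀ y ∈ Om, R x y → |K g x - K g y| ≤ κ * L * c x y) (f : α → ℝ) :
    (Om.card : ℝ) * (∑ x ∈ Om, f x * K f x) - (∑ x ∈ Om, f x) ^ 2 ≤
      κ * ((Om.card : ℝ) * (∑ x ∈ Om, f x ^ 2) - (∑ x ∈ Om, f x) ^ 2) := by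
  classical
  rcases Om.eq_empty_or_nonempty with hE | hne
  · subst hE; simp
  have hN : (0 : ℝ) < Om.card := by exact_mod_cast Finset.card_pos.mpr hne
  set N : ℝ := (Om.card : ℝ) with hNdef
  set S : ℝ := ∑ x ∈ Om, f x with hS
  set m : ℝ := S / N with hm
  have hNm : N * m = S := by rw [hm]; field_simp
  set g : α → ℝ := fun y => f y - m with hg
  have hg0 : ∑ x ∈ Om, g x = 0 := by
    simp only [hg, Finset.sum_sub_distrib, Finset.sum_const, nsmul_eq_mul]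
    rw [← hS, ← hNdef, hNm]; ring
  have h := l2_of_lipschitz_contraction Om K hsymm hmean R c hc hconn κ hκ hlip g hg0
  have e1 : ∑ x ∈ Om, g x * K g x = (∑ x ∈ Om, f x * K f x) - N * m ^ 2 := by
    have : ∀ x ∈ Om, g x * K g x = f x * K f x - m * K f x - m * f x + m ^ 2 := by
      intro x hx
      rw [hsub f m x hx]
      simp only [hg]; ring
    rw [Finset.sum_congr rfl this, Finset.sum_add_distrib, Finset.sum_sub_distrib,
      Finset.sum_sub_distrib, ← Finset.mul_sum, ← Finset.mul_sum, hmean, Finset.sum_const,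
      nsmul_eq_mul, ← hS, ← hNdef, ← hNm]
    ring
  have e2 : ∑ x ∈ Om, g x ^ 2 = (∑ x ∈ Om, f x ^ 2) - N * m ^ 2 := by
    have : ∀ x ∈ Om, g x ^ 2 = f x ^ 2 - 2 * m * f x + m ^ 2 := by
      intro x _
      simp only [hg]; ring
    rw [Finset.sum_congr rfl this, Finset.sum_add_distrib, Finset.sum_sub_distrib,
      ← Finset.mul_sum, Finset.sum_const, nsmul_eq_mul, ← hS, ← hNdef, ← hNm]
    ring
  rw [e1, e2] at h
  have h3 : N * ((∑ x ∈ Om, f x * K f x) - N * m ^ 2) ≤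
      N * (κ * ((∑ x ∈ Om, f x ^ 2) - N * m ^ 2)) := mul_le_mul_of_nonneg_left h hN.le
  have h4 : S ^ 2 = N * (N * m ^ 2) := by rw [← hNm]; ring
  rw [h4]
  calc N * (∑ x ∈ Om, f x * K f x) - N * (N * m ^ 2)
      = N * ((∑ x ∈ Om, f x * K f x) - N * m ^ 2) := by ring
    _ ≤ N * (κ * ((∑ x ∈ Om, f x ^ 2) - N * m ^ 2)) := h3
    _ = κ * (N * (∑ x ∈ Om, f x ^ 2) - N * (N * m ^ 2)) := by ring

/-- A bound with an arbitrarily small additive error is a bound. -/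
lemma le_of_forall_small_add {A X Y : ℝ} (h : ∀ ε : ℝ, 0 < ε → ε ≤ 1 → A ≤ X + ε * Y) :
    A ≤ X := by
  by_contra hcon
  push Not at hcon
  by_cases hY : Y ≤ 0
  · have := h 1 one_pos le_rfl
    linarith
  · push Not at hY
    have hq : 0 < (A - X) / (2 * Y) := div_pos (by linarith) (by linarith)
    have hε : 0 < min 1 ((A - X) / (2 * Y)) := lt_min one_pos hq
    have h1 := h _ hε (min_le_left _ _)
    have h2 : min 1 ((A - X) / (2 * Y)) * Y ≤ (A - X) / (2 * Y) * Y :=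
      mul_le_mul_of_nonneg_right (min_le_right _ _) hY.le
    have h3 : (A - X) / (2 * Y) * Y = (A - X) / 2 := by
      field_simp
    rw [h3] at h2
    linarith

/-- **Two-seminorm variant of the abstract path coupling step (no `ε`, no costs).**
Two kinds of moves `RA` (cheap) and `RB`; for a function `g` whose increments are `≤ a` across
`RA`-moves and `≤ b` across `RB`-moves, `K g` has increments `≤ κ a` across `RA`-moves and
`≤ κ (M a + b)` across `RB`-moves.  Then `⟨f, K f⟩ ≤ κ ‖f‖²` on mean-zero functions. -/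
theorem l2_of_two_seminorm_contraction (Om : Finset α) (K : (α → ℝ) → α → ℝ)
    (hsymm : ∀ f g : α → ℝ, ∑ x ∈ Om, f x * K g x = ∑ x ∈ Om, K f x * g x)
    (hmean : ∀ f : α → ℝ, ∑ x ∈ Om, K f x = ∑ x ∈ Om, f x)
    (RA RB : α → α → Prop)
    (hconn : ∀ x ∈ Om, ∀ y ∈ Om,
      Relation.ReflTransGen (fun u v => u ∈ Om ∧ v ∈ Om ∧ (RA u v ∨ RB u v)) x y)
    (κ : ℝ) (hκ : 0 ≤ κ) (M : ℝ) (hM : 0 ≤ M)
    (hA : ∀ (g : α → ℝ) (a b : ℝ), 0 ≤ a → 0 ≤ b →
      (∀ u ∈ Om, ∀ v ∈ Om, RA u v → |g u - g v| ≤ a) →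
      (∀ u ∈ Om, ∀ v ∈ Om, RB u v → |g u - g v| ≤ b) →
      ∀ x ∈ Om, ∀ y ∈ Om, RA x y → |K g x - K g y| ≤ κ * a)
    (hB : ∀ (g : α → ℝ) (a b : ℝ), 0 ≤ a → 0 ≤ b →
      (∀ u ∈ Om, ∀ v ∈ Om, RA u v → |g u - g v| ≤ a) →
      (∀ u ∈ Om, ∀ v ∈ Om, RB u v → |g u - g v| ≤ b) →
      ∀ x ∈ Om, ∀ y ∈ Om, RB x y → |K g x - K g y| ≤ κ * (M * a + b)) :
    ∀ f : α → ℝ, ∑ x ∈ Om, f x = 0 → ∑ x ∈ Om, f x * K f x ≤ κ * ∑ x ∈ Om, f x ^ 2 := by
  classical
  intro f hf0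
  have hS0 : 0 ≤ ∑ x ∈ Om, f x ^ 2 := Finset.sum_nonneg (fun x _ => sq_nonneg _)
  apply le_of_forall_small_add (Y := κ * M * ∑ x ∈ Om, f x ^ 2)
  intro ε hε hε1
  -- weighted metric: cost ε on RA-edges, 1 on the other RB-edges
  set c : α → α → ℝ := fun u v => if RA u v then ε else 1 with hcdef
  have hc : ∀ x y, (RA x y ∨ RB x y) → 0 < c x y := by
    intro x y _
    simp only [hcdef]
    split_ifs
    · exact hε
    · exact one_pos
  have hκ' : 0 ≤ κ * (1 + M * ε) := mul_nonneg hκ (by positivity)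
  have hlip : ∀ (g : α → ℝ) (L : ℝ), 0 ≤ L →
      (∀ u ∈ Om, ∀ v ∈ Om, (RA u v ∨ RB u v) → |g u - g v| ≤ L * c u v) →
      ∀ x ∈ Om, ∀ y ∈ Om, (RA x y ∨ RB x y) →
        |K g x - K g y| ≤ κ * (1 + M * ε) * L * c x y := by
    intro g L hL hg
    have hgA : ∀ u ∈ Om, ∀ v ∈ Om, RA u v → |g u - g v| ≤ L * ε := by
      intro u hu v hv hR
      have := hg u hu v hv (Or.inl hR)
      simpa [hcdef, hR] using this
    have hgB : ∀ u ∈ Om, ∀ v ∈ Om, RB u v → |g u - g v| ≤ L := by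
      intro u hu v hv hR
      have h1 := hg u hu v hv (Or.inr hR)
      have h2 : c u v ≤ 1 := by
        simp only [hcdef]
        split_ifs
        · exact hε1
        · exact le_rfl
      calc |g u - g v| ≤ L * c u v := h1
        _ ≤ L * 1 := mul_le_mul_of_nonneg_left h2 hL
        _ = L := mul_one L
    have hLε : 0 ≤ L * ε := mul_nonneg hL hε.le
    intro x hx y hy hR
    by_cases hRA : RA x y
    · have h1 := hA g (L * ε) L hLε hL hgA hgB x hx y hy hRA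
      have hcxy : c x y = ε := by simp [hcdef, hRA]
      rw [hcxy]
      calc |K g x - K g y| ≤ κ * (L * ε) := h1
        _ ≤ κ * (1 + M * ε) * L * ε := by
          have : 0 ≤ κ * (M * ε) * L * ε := by positivity
          nlinarith
    · have hRB : RB x y := hR.resolve_left hRA
      have h1 := hB g (L * ε) L hLε hL hgA hgB x hx y hy hRB
      have hcxy : c x y = 1 := by simp [hcdef, hRA]
      rw [hcxy]
      calc |K g x - K g y| ≤ κ * (M * (L * ε) + L) := h1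
        _ = κ * (1 + M * ε) * L * 1 := by ring
  have h := l2_of_lipschitz_contraction Om K hsymm hmean (fun u v => RA u v ∨ RB u v) c hc hconn
    (κ * (1 + M * ε)) hκ' hlip f hf0
  calc ∑ x ∈ Om, f x * K f x ≤ κ * (1 + M * ε) * ∑ x ∈ Om, f x ^ 2 := h
    _ = κ * ∑ x ∈ Om, f x ^ 2 + ε * (κ * M * ∑ x ∈ Om, f x ^ 2) := by ring

end PathCoupling

section LocalKnabe

variable {α : Type*}

/-- **Local Knabe step without spectral theory.**  If `A` is symmetric, `A (P f) = A f`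
(`A` lives on the range of `P`) and `‖P f‖² ≤ ⟨P f, A (P f)⟩` (`A ≥ 1` on the range of `P`),
then `⟨f, A f⟩ ≤ ‖A f‖²`, i.e. `A² ≥ A`. -/
theorem sq_ge_self_of_ge_proj (Om : Finset α) (A P : (α → ℝ) → α → ℝ)
    (hsymm : ∀ f g : α → ℝ, ∑ x ∈ Om, f x * A g x = ∑ x ∈ Om, A f x * g x)
    (hAP : ∀ f : α → ℝ, ∀ x ∈ Om, A (P f) x = A f x)
    (hge : ∀ f : α → ℝ, ∑ x ∈ Om, (P f x) ^ 2 ≤ ∑ x ∈ Om, P f x * A (P f) x)
    (f : α → ℝ) :
    ∑ x ∈ Om, f x * A f x ≤ ∑ x ∈ Om, (A f x) ^ 2 := by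
  set g := P f with hg
  -- ⟨f, A f⟩ = ⟨g, A g⟩
  have e1 : ∑ x ∈ Om, f x * A f x = ∑ x ∈ Om, g x * A g x := by
    have h1 : ∑ x ∈ Om, f x * A f x = ∑ x ∈ Om, f x * A g x :=
      Finset.sum_congr rfl (fun x hx => by rw [hAP f x hx])
    have h2 : ∑ x ∈ Om, f x * A g x = ∑ x ∈ Om, A f x * g x := hsymm f g
    have h3 : ∑ x ∈ Om, A f x * g x = ∑ x ∈ Om, g x * A g x :=
      Finset.sum_congr rfl (fun x hx => by rw [hAP f x hx]; ring)
    rw [h1, h2, h3]
  have e2 : ∑ x ∈ Om, (A f x) ^ 2 = ∑ x ∈ Om, (A g x) ^ 2 :=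
    Finset.sum_congr rfl (fun x hx => by rw [hAP f x hx])
  rw [e1, e2]
  set q := ∑ x ∈ Om, g x * A g x with hq
  set b := ∑ x ∈ Om, (A g x) ^ 2 with hb
  set s := ∑ x ∈ Om, (g x) ^ 2 with hs
  have hs0 : 0 ≤ s := Finset.sum_nonneg (fun x _ => sq_nonneg _)
  have hb0 : 0 ≤ b := Finset.sum_nonneg (fun x _ => sq_nonneg _)
  have hsq : s ≤ q := hge f
  have hcs : q ^ 2 ≤ s * b := Finset.sum_mul_sq_le_sq_mul_sq Om g (A g)
  have hq0 : 0 ≤ q := le_trans hs0 hsq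
  rcases hq0.lt_or_eq with hpos | hzero
  · have h1 : q ^ 2 ≤ q * b := le_trans hcs (mul_le_mul_of_nonneg_right hsq hb0)
    have h2 : q * q ≤ q * b := by rw [← sq]; exact h1
    exact le_of_mul_le_mul_left h2 hpos
  · rw [← hzero]; exact hb0

end LocalKnabe

end Crest.Agent.S0453.Helper58
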