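import Crest.Agent.Lib.S0453.Helper69R23Core

/-!
# (R2)₃ for three-row tables — connectivity of the move graph (Ryser for three rows)
-/

set_option autoImplicit false
set_option linter.unusedSectionVars false
open Finset

namespace Crest.Agent.S0453.Helper69

lemma bool_col_diff : ∀ v w : Fin 3 → Bool, ∑ i, (v i).toNat = ∑ i, (w i).toNat → v ≠ w →
    ∃ i k, v i = true ∧ w i = false ∧ v k = false ∧ w k = true := by
  decide

lemma fin3_third (i k : Fin 3) : ∃ l : Fin 3, i ≠ l ∧ k ≠ l := by
  revert i k
  decide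

section
variable {C : Type} [Fintype C] [DecidableEq C] {r : Fin 3 → ℕ} {s : C → ℕ}

lemma Reps_symm {x y : Tab C} (h : Reps x y) : Reps y x := by
  obtain ⟨c, c', rfl⟩ := h
  exact ⟨c, c', (swapCols_swapCols c c' x).symm⟩

lemma R1_symm {x y : Tab C} (h : R1 x y) : R1 y x := by
  obtain ⟨c, c', hcc, hx, hy, hoff⟩ := h
  exact ⟨c, c', hcc, hy, hx, fun u h1 h2 => (hoff u h1 h2).symm⟩

lemma Rmove_symm {x y : Tab C} (h : Rmove x y) : Rmove y x := by
  rcases h with h | h
  · exact Or.inl (Reps_symm h)
  · exact Or.inr (R1_symm h)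

/-- The switch on rows `i`, `k` and columns `c₁`, `c₂`. -/
def sw (w : Tab C) (c₁ c₂ : C) (i k : Fin 3) : Tab C :=
  Function.update (Function.update w c₁ (fun m => w c₁ (Equiv.swap i k m))) c₂
    (fun m => w c₂ (Equiv.swap i k m))

lemma sw_c₁ (w : Tab C) {c₁ c₂ : C} (hc : c₁ ≠ c₂) (i k m : Fin 3) :
    sw w c₁ c₂ i k c₁ m = w c₁ (Equiv.swap i k m) := by
  unfold sw
  rw [Function.update_of_ne hc, Function.update_self]

lemma sw_c₂ (w : Tab C) (c₁ c₂ : C) (i k m : Fin 3) :
    sw w c₁ c₂ i k c₂ m = w c₂ (Equiv.swap i k m) := by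
  unfold sw
  rw [Function.update_self]

lemma sw_off (w : Tab C) {c₁ c₂ u : C} (h1 : u ≠ c₁) (h2 : u ≠ c₂) (i k : Fin 3) :
    sw w c₁ c₂ i k u = w u := by
  unfold sw
  rw [Function.update_of_ne h2, Function.update_of_ne h1]

lemma sw_mem {w : Tab C} (hw : w ∈ tables r s) {c₁ c₂ : C} (hc : c₁ ≠ c₂) {i k : Fin 3}
    (hik : i ≠ k) (h1 : w c₁ i = true) (h2 : w c₁ k = false) (h3 : w c₂ i = false)
    (h4 : w c₂ k = true) : sw w c₁ c₂ i k ∈ tables r s := by
  obtain ⟨l, hil, hkl⟩ := fin3_third i k
  rw [mem_tables] at hw ⊢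
  refine ⟨fun m => ?_, fun u => ?_⟩
  · rw [← hw.1 m]
    have e := rowSum_update2 w hc (fun m => w c₁ (Equiv.swap i k m))
      (fun m => w c₂ (Equiv.swap i k m)) m
    have e' : rowSum (sw w c₁ c₂ i k) m + (w c₁ m).toNat + (w c₂ m).toNat
        = rowSum w m + (w c₁ (Equiv.swap i k m)).toNat + (w c₂ (Equiv.swap i k m)).toNat := e
    rcases fin3_cases hik hil hkl m with rfl | rfl | rfl
    · rw [Equiv.swap_apply_left, h1, h2, h3, h4] at e'
      simpa using e'
    · rw [Equiv.swap_apply_right, h1, h2, h3, h4] at e'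
      simpa using e'
    · rw [Equiv.swap_apply_of_ne_of_ne (Ne.symm hil) (Ne.symm hkl)] at e'
      omega
  · rw [← hw.2 u]
    by_cases hu2 : u = c₂
    · subst hu2
      unfold colSum
      simp only [sw_c₂]
      exact Equiv.sum_comp (Equiv.swap i k) (fun m => (w u m).toNat)
    · by_cases hu1 : u = c₁
      · subst hu1
        unfold colSum
        simp only [sw_c₁ w hc]
        exact Equiv.sum_comp (Equiv.swap i k) (fun m => (w u m).toNat)
      · unfold colSum
        rw [sw_off w hu1 hu2]

/-- Every switch of a three-row table is a move. -/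
lemma sw_move (w : Tab C) {c₁ c₂ : C} (hc : c₁ ≠ c₂) {i k : Fin 3}
    (hik : i ≠ k) (h1 : w c₁ i = true) (h2 : w c₁ k = false) (h3 : w c₂ i = false)
    (h4 : w c₂ k = true) : Rmove w (sw w c₁ c₂ i k) := by
  obtain ⟨l, hil, hkl⟩ := fin3_third i k
  have hsl : Equiv.swap i k l = l := Equiv.swap_apply_of_ne_of_ne (Ne.symm hil) (Ne.symm hkl)
  by_cases hl : w c₁ l = w c₂ l
  · left
    refine ⟨c₁, c₂, ?_⟩
    funext u
    show _ = w (Equiv.swap c₁ c₂ u)
    by_cases hu2 : u = c₂
    · subst hu2
      rw [Equiv.swap_apply_right]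
      apply col_ext hik hil hkl
      · rw [sw_c₂, Equiv.swap_apply_left, h4, h1]
      · rw [sw_c₂, Equiv.swap_apply_right, h3, h2]
      · rw [sw_c₂, hsl, hl]
    · by_cases hu1 : u = c₁
      · subst hu1
        rw [Equiv.swap_apply_left]
        apply col_ext hik hil hkl
        · rw [sw_c₁ w hc, Equiv.swap_apply_left, h2, h3]
        · rw [sw_c₁ w hc, Equiv.swap_apply_right, h1, h4]
        · rw [sw_c₁ w hc, hsl, hl]
      · rw [sw_off w hu1 hu2, Equiv.swap_apply_of_ne_of_ne hu1 hu2]
  · right
    have hl' : w c₂ l = !w c₁ l := bool_ne_not _ _ hl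
    refine ⟨c₁, c₂, hc, fun m => ?_, fun m => ?_, fun u hu1 hu2 => sw_off w hu1 hu2 i k⟩
    · rcases fin3_cases hik hil hkl m with rfl | rfl | rfl
      · rw [h3, h1]; rfl
      · rw [h4, h2]; rfl
      · exact hl'
    · rw [sw_c₂, sw_c₁ w hc]
      rcases fin3_cases hik hil hkl m with rfl | rfl | rfl
      · rw [Equiv.swap_apply_left, h4, h2]; rfl
      · rw [Equiv.swap_apply_right, h3, h1]; rfl
      · rw [hsl]
        exact hl'

/-- Hamming distance between two tables. -/
def ham (x y : Tab C) : ℕ := ∑ u, ∑ m, (if x u m = y u m then 0 else 1)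

lemma ham_comm (x y : Tab C) : ham x y = ham y x := by
  unfold ham
  apply Finset.sum_congr rfl
  intro u _
  apply Finset.sum_congr rfl
  intro m _
  by_cases h : x u m = y u m
  · rw [if_pos h, if_pos h.symm]
  · rw [if_neg h, if_neg (fun h' => h h'.symm)]

lemma ham_eq_zero {x y : Tab C} (h : ham x y = 0) : x = y := by
  unfold ham at h
  funext u m
  by_contra hne
  have h1 : (∑ m, (if x u m = y u m then 0 else 1)) = 0 :=
    (Finset.sum_eq_zero_iff.mp h) u (mem_univ u)
  have h2 := (Finset.sum_eq_zero_iff.mp h1) m (mem_univ m)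
  rw [if_neg hne] at h2
  exact one_ne_zero h2

/-- A switch that repairs both entries of column `c₁` and at least one entry of column `c₂`
decreases the Hamming distance to the target. -/
lemma ham_sw_lt (w t : Tab C) {c₁ c₂ : C} (hc : c₁ ≠ c₂) {i k : Fin 3} (hik : i ≠ k)
    (h1 : w c₁ i = true) (h2 : w c₁ k = false) (h3 : w c₂ i = false) (h4 : w c₂ k = true)
    (t1 : t c₁ i = false) (t2 : t c₁ k = true) (t3 : t c₂ i = true ∨ t c₂ k = false) :
    ham (sw w c₁ c₂ i k) t < ham w t := by
  obtain ⟨l, hil, hkl⟩ := fin3_third i k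
  have hsl : Equiv.swap i k l = l := Equiv.swap_apply_of_ne_of_ne (Ne.symm hil) (Ne.symm hkl)
  unfold ham
  apply Finset.sum_lt_sum
  · intro u _
    by_cases hu2 : u = c₂
    · subst hu2
      rw [sum_fin3 hik hil hkl, sum_fin3 hik hil hkl]
      simp only [sw_c₂, Equiv.swap_apply_left, Equiv.swap_apply_right, hsl, h3, h4]
      rcases t3 with t3 | t3
      · rw [t3]
        cases t u k <;> simp
      · rw [t3]
        cases t u i <;> simp
    · by_cases hu1 : u = c₁
      · subst hu1
        rw [sum_fin3 hik hil hkl, sum_fin3 hik hil hkl]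
        simp only [sw_c₁ w hc, Equiv.swap_apply_left, Equiv.swap_apply_right, hsl, h1, h2, t1, t2]
        simp
      · rw [sw_off w hu1 hu2]
  · refine ⟨c₁, mem_univ _, ?_⟩
    rw [sum_fin3 hik hil hkl, sum_fin3 hik hil hkl]
    simp only [sw_c₁ w hc, Equiv.swap_apply_left, Equiv.swap_apply_right, hsl, h1, h2, t1, t2]
    simp

/-- If two tables with the same row sum differ at `(c, i)` in one direction, they differ
somewhere in row `i` in the other direction. -/
lemma exists_col_of_rowSum_eq {x y : Tab C} {i : Fin 3} (h : rowSum x i = rowSum y i) {c : C}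
    (hx : x c i = true) (hy : y c i = false) : ∃ c', x c' i = false ∧ y c' i = true := by
  by_contra hcon
  have hlt : rowSum y i < rowSum x i := by
    unfold rowSum
    apply Finset.sum_lt_sum
    · intro u _
      have := fun h => hcon ⟨u, h⟩
      revert this
      cases x u i <;> cases y u i <;> simp
    · exact ⟨c, mem_univ _, by rw [hx, hy]; decide⟩
  omega

/-- **Connectivity** of the class of three-row tables with given margins under the moves. -/
theorem hconn_table (x : Tab C) (hx : x ∈ tables r s) (y : Tab C) (hy : y ∈ tables r s) :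
    Relation.ReflTransGen (fun u v => u ∈ tables r s ∧ v ∈ tables r s ∧ Rmove u v) x y := by
  suffices H : ∀ n : ℕ, ∀ x ∈ tables r s, ∀ y ∈ tables r s, ham x y = n →
      Relation.ReflTransGen (fun u v => u ∈ tables r s ∧ v ∈ tables r s ∧ Rmove u v) x y from
    H _ x hx y hy rfl
  intro n
  induction n using Nat.strong_induction_on with
  | _ n ih =>
    intro x hx y hy hn
    by_cases hxy : x = y
    · subst hxy
      exact Relation.ReflTransGen.refl
    · obtain ⟨c, hc⟩ : ∃ c, x c ≠ y c := by
        by_contra hcon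
        exact hxy (funext fun c => by_contra fun h => hcon ⟨c, h⟩)
      have hcs : ∑ i, (x c i).toNat = ∑ i, (y c i).toNat := by
        have : colSum x c = colSum y c := by
          rw [(mem_tables.mp hx).2 c, (mem_tables.mp hy).2 c]
        exact this
      obtain ⟨i, k, hxi, hyi, hxk, hyk⟩ := bool_col_diff _ _ hcs hc
      have hik : i ≠ k := by
        rintro rfl
        rw [hxi] at hxk
        exact Bool.noConfusion hxk
      obtain ⟨c', hxc', hyc'⟩ := exists_col_of_rowSum_eq (by
        rw [(mem_tables.mp hx).1 i, (mem_tables.mp hy).1 i]) hxi hyi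
      have hcc : c ≠ c' := by
        rintro rfl
        rw [hxi] at hxc'
        exact Bool.noConfusion hxc'
      by_cases hxk' : x c' k = true
      · -- switch in `x`
        have hmem := sw_mem hx hcc hik hxi hxk hxc' hxk'
        have hmove := sw_move x hcc hik hxi hxk hxc' hxk'
        have hlt := ham_sw_lt x y hcc hik hxi hxk hxc' hxk' hyi hyk (Or.inl hyc')
        rw [hn] at hlt
        exact Relation.ReflTransGen.head ⟨hx, hmem, hmove⟩ (ih _ hlt _ hmem y hy rfl)
      · have hxk'' : x c' k = false := by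
          revert hxk'
          cases x c' k <;> simp
        by_cases hyk' : y c' k = false
        · -- switch in `y`
          have hmem := sw_mem hy hcc (Ne.symm hik) hyk hyi hyk' hyc'
          have hmove := sw_move y hcc (Ne.symm hik) hyk hyi hyk' hyc'
          have hlt := ham_sw_lt y x hcc (Ne.symm hik) hyk hyi hyk' hyc' hxk hxi (Or.inr hxc')
          rw [ham_comm y x, hn, ham_comm] at hlt
          exact Relation.ReflTransGen.tail (ih _ hlt x hx _ hmem rfl)
            ⟨hmem, hy, Rmove_symm hmove⟩
        · -- impossible: column `c'` would have different sums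
          exfalso
          have hyk'' : y c' k = true := by
            revert hyk'
            cases y c' k <;> simp
          obtain ⟨l, hil, hkl⟩ := fin3_third i k
          have h1 : colSum x c' = colSum y c' := by
            rw [(mem_tables.mp hx).2 c', (mem_tables.mp hy).2 c']
          rw [colSum_eq hik hil hkl, colSum_eq hik hil hkl, hxc', hxk'', hyc', hyk''] at h1
          have h2 := Bool.toNat_le (x c' l)
          simp at h1
          omega

end

end Crest.Agent.S0453.Helper69
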