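import Crest.Agent.Lib.S0453.Helper69R23Lip
import Crest.Agent.Lib.S0453.Helper69R23Conn
import Crest.Agent.Lib.S0453.Helper58PathCoupling

/-!
# (R2)₃ for three-row 0/1 tables — final statement (helper69)

`r23_table`: for three-row 0/1 tables with fixed margins the three "keep row `j`, resample the
other two rows" fibre averages satisfy `∑_j ⟨f, E_j f⟩ ≤ 2 ‖f‖² + ⟨f, E f⟩`.

Proof: path coupling in the two-scale metric (`Helper69R23Eps`, `Helper69R23Core`,
`Helper69R23Lip`), connectivity of the move graph (`Helper69R23Conn`), and helper58's abstract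
"path coupling ⟹ L² bound" (`Helper58PathCoupling`).
-/

set_option autoImplicit false
set_option linter.unusedSectionVars false
open Finset

namespace Crest.Agent.S0453.Helper69

section cavg_facts
variable {α β : Type*} [DecidableEq β]

/-- Fibre averaging is self-adjoint (same proof as `Helper76.sum_mul_cavg`). -/
lemma sum_mul_cavg (Ω : Finset α) (φ : α → β) (f g : α → ℝ) :
    ∑ x ∈ Ω, g x * cavg Ω φ f x = ∑ x ∈ Ω, cavg Ω φ g x * f x := by
  have h1 : ∀ x ∈ Ω, g x * cavg Ω φ f x =
      ∑ y ∈ Ω, if φ y = φ x then g x * f y / ((fibre Ω φ x).card : ℝ) else 0 := by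
    intro x _
    have : cavg Ω φ f x = (∑ y ∈ Ω, if φ y = φ x then f y else 0) / ((fibre Ω φ x).card : ℝ) := by
      unfold cavg
      congr 1
      unfold fibre
      rw [Finset.sum_filter]
    rw [this, Finset.sum_div, Finset.mul_sum]
    apply Finset.sum_congr rfl
    intro y _
    split_ifs <;> ring
  have h2 : ∀ x ∈ Ω, cavg Ω φ g x * f x =
      ∑ y ∈ Ω, if φ y = φ x then g y * f x / ((fibre Ω φ x).card : ℝ) else 0 := by
    intro x _
    have : cavg Ω φ g x = (∑ y ∈ Ω, if φ y = φ x then g y else 0) / ((fibre Ω φ x).card : ℝ) := by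
      unfold cavg
      congr 1
      unfold fibre
      rw [Finset.sum_filter]
    rw [this, Finset.sum_div, Finset.sum_mul]
    apply Finset.sum_congr rfl
    intro y _
    split_ifs <;> ring
  rw [Finset.sum_congr rfl h1, Finset.sum_congr rfl h2, Finset.sum_comm]
  apply Finset.sum_congr rfl
  intro y _
  apply Finset.sum_congr rfl
  intro x _
  by_cases h : φ y = φ x
  · rw [if_pos h, if_pos h.symm, fibre_congr Ω h]
  · rw [if_neg h, if_neg (fun h' => h h'.symm)]

lemma cavg_sub_const (Ω : Finset α) (φ : α → β) (f : α → ℝ) (m : ℝ) {x : α} (hx : x ∈ Ω) :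
    cavg Ω φ (fun y => f y - m) x = cavg Ω φ f x - m := by
  unfold cavg
  have hpos := fibre_card_pos φ hx
  rw [Finset.sum_sub_distrib, Finset.sum_const, nsmul_eq_mul]
  field_simp

lemma sum_cavg (Ω : Finset α) (φ : α → β) (f : α → ℝ) :
    ∑ x ∈ Ω, cavg Ω φ f x = ∑ x ∈ Ω, f x := by
  have h := sum_mul_cavg Ω φ f (fun _ => 1)
  simp only [one_mul] at h
  rw [h]
  apply Finset.sum_congr rfl
  intro x hx
  have h1 : cavg Ω φ (fun _ => (1 : ℝ)) x = 1 := by
    unfold cavg
    rw [Finset.sum_const, nsmul_eq_mul, mul_one]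
    exact div_self (ne_of_gt (fibre_card_pos φ hx))
  rw [h1, one_mul]

end cavg_facts

section final
variable {C : Type} [Fintype C] [DecidableEq C]

lemma sum_mul_K3 (r : Fin 3 → ℕ) (s : C → ℕ) (f g : Tab C → ℝ) :
    ∑ x ∈ tables r s, f x * K3 r s g x
      = (1 / 3 : ℝ) * ∑ j : Fin 3, ∑ x ∈ tables r s, f x * cavg (tables r s) (row j) g x := by
  unfold K3
  rw [Finset.sum_comm, Finset.mul_sum]
  apply Finset.sum_congr rfl
  intro x _
  rw [Finset.mul_sum, Finset.mul_sum, Finset.mul_sum]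
  apply Finset.sum_congr rfl
  intro j _
  ring

lemma sum_K3_mul (r : Fin 3 → ℕ) (s : C → ℕ) (f g : Tab C → ℝ) :
    ∑ x ∈ tables r s, K3 r s f x * g x
      = (1 / 3 : ℝ) * ∑ j : Fin 3, ∑ x ∈ tables r s, cavg (tables r s) (row j) f x * g x := by
  unfold K3
  rw [Finset.sum_comm, Finset.mul_sum]
  apply Finset.sum_congr rfl
  intro x _
  rw [Finset.mul_sum, Finset.sum_mul, Finset.mul_sum]
  apply Finset.sum_congr rfl
  intro j _
  ring

/-- **(R2)₃, table form.** For three-row 0/1 tables with fixed margins, the three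
"keep row `j`, resample the other two rows" fibre averages satisfy
`∑_j ⟨f, E_j f⟩ ≤ 2 ‖f‖² + ⟨f, E f⟩`. -/
theorem r23_table (r : Fin 3 → ℕ) (s : C → ℕ) (f : Tab C → ℝ) :
    ∑ j : Fin 3, ∑ x ∈ tables r s, f x * cavg (tables r s) (row j) f x
      ≤ 2 * ∑ x ∈ tables r s, f x ^ 2
        + (∑ x ∈ tables r s, f x) ^ 2 / ((tables r s).card : ℝ) := by
  rcases (tables r s).eq_empty_or_nonempty with hE | hne
  · rw [hE]
    simp
  have hN : (0 : ℝ) < ((tables r s).card : ℝ) := by exact_mod_cast Finset.card_pos.mpr hne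
  have hsymm : ∀ f g : Tab C → ℝ, ∑ x ∈ tables r s, f x * K3 r s g x
      = ∑ x ∈ tables r s, K3 r s f x * g x := by
    intro f g
    rw [sum_mul_K3, sum_K3_mul]
    congr 1
    apply Finset.sum_congr rfl
    intro j _
    exact sum_mul_cavg _ _ g f
  have hmean : ∀ f : Tab C → ℝ, ∑ x ∈ tables r s, K3 r s f x = ∑ x ∈ tables r s, f x := by
    intro f
    have h := sum_K3_mul r s f (fun _ => 1)
    simp only [mul_one] at h
    rw [h, Finset.sum_congr rfl (fun j _ => sum_cavg (tables r s) (row j) f), Finset.sum_const,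
      Finset.card_univ, Fintype.card_fin, nsmul_eq_mul]
    push_cast
    ring
  have hsub : ∀ (f : Tab C → ℝ) (m : ℝ), ∀ x ∈ tables r s,
      K3 r s (fun y => f y - m) x = K3 r s f x - m := by
    intro f m x hx
    unfold K3
    rw [Finset.sum_congr rfl (fun j _ => cavg_sub_const (tables r s) (row j) f m hx),
      Finset.sum_sub_distrib, Finset.sum_const, Finset.card_univ, Fintype.card_fin, nsmul_eq_mul]
    push_cast
    ring
  have key : ∀ ε : ℝ, 0 < ε → ε ≤ 1 →
      ((tables r s).card : ℝ) * (∑ x ∈ tables r s, f x * K3 r s f x) - (∑ x ∈ tables r s, f x) ^ 2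
        ≤ 2 / 3 * (((tables r s).card : ℝ) * (∑ x ∈ tables r s, f x ^ 2)
            - (∑ x ∈ tables r s, f x) ^ 2)
          + ε * (2 / 3 * (((tables r s).card : ℝ) * (∑ x ∈ tables r s, f x ^ 2)
            - (∑ x ∈ tables r s, f x) ^ 2)) := by
    intro ε hε hε1
    have h := Helper58.l2_of_lipschitz_contraction' (tables r s) (K3 r s) hsymm hmean hsub
      Rmove (cost ε) (fun x y _ => cost_pos hε x y) hconn_table (2 / 3 * (1 + ε))
      (by positivity) (fun g L hL hg x hx y hy hR => hlip_table hε.le hε1 g L hL hg x hx y hy hR) f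
    linarith
  have h := Helper58.le_of_forall_small_add key
  rw [sum_mul_K3] at h
  have e : 2 * ∑ x ∈ tables r s, f x ^ 2
        + (∑ x ∈ tables r s, f x) ^ 2 / ((tables r s).card : ℝ)
      = (2 * (∑ x ∈ tables r s, f x ^ 2) * ((tables r s).card : ℝ)
          + (∑ x ∈ tables r s, f x) ^ 2) / ((tables r s).card : ℝ) := by
    field_simp
  rw [e, le_div_iff₀ hN]
  linarith

end final

section transfer

/-- **(R2)₃, transfer form.** The same inequality on any finite set `Om` that is put in bijection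
with a class of three-row tables by `Φ`, for three label maps `φ j` whose fibres inside `Om` are
the fibres of "row `j` of `Φ`". -/
theorem r23_transfer {α β : Type*} [DecidableEq β] {C : Type} [Fintype C] [DecidableEq C]
    (Om : Finset α) (Φ : α → Tab C) (r : Fin 3 → ℕ) (s : C → ℕ)
    (hinj : ∀ x ∈ Om, ∀ y ∈ Om, Φ x = Φ y → x = y)
    (hmaps : ∀ x ∈ Om, Φ x ∈ tables r s)
    (hsurj : ∀ M ∈ tables r s, ∃ x ∈ Om, Φ x = M)
    (φ : Fin 3 → α → β)
    (hφ : ∀ j, ∀ x ∈ Om, ∀ y ∈ Om, (φ j x = φ j y ↔ row j (Φ x) = row j (Φ y)))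
    (f : α → ℝ) :
    ∑ j : Fin 3, ∑ x ∈ Om, f x * cavg Om (φ j) f x
      ≤ 2 * ∑ x ∈ Om, f x ^ 2 + (∑ x ∈ Om, f x) ^ 2 / (Om.card : ℝ) := by
  classical
  have hinjOn : Set.InjOn Φ (Om : Set α) := fun x hx y hy h => hinj x hx y hy h
  have himg : tables r s = Om.image Φ := by
    ext M
    rw [Finset.mem_image]
    constructor
    · intro hM
      obtain ⟨x, hx, hxM⟩ := hsurj M hM
      exact ⟨x, hx, hxM⟩
    · rintro ⟨x, hx, rfl⟩
      exact hmaps x hx
  -- the transported function
  let F : Tab C → ℝ := fun M => if h : ∃ x ∈ Om, Φ x = M then f h.choose else 0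
  have hF : ∀ x ∈ Om, F (Φ x) = f x := by
    intro x hx
    have h : ∃ y ∈ Om, Φ y = Φ x := ⟨x, hx, rfl⟩
    show (if h : ∃ y ∈ Om, Φ y = Φ x then f h.choose else 0) = f x
    rw [dif_pos h]
    congr 1
    exact hinj _ h.choose_spec.1 _ hx h.choose_spec.2
  have hsumT : ∀ G : Tab C → ℝ, ∑ M ∈ tables r s, G M = ∑ x ∈ Om, G (Φ x) := by
    intro G
    rw [himg, Finset.sum_image (fun x hx y hy h => hinj x hx y hy h)]
  have hcard : (tables r s).card = Om.card := by
    rw [himg, Finset.card_image_of_injOn hinjOn]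
  have hcavg : ∀ j, ∀ x ∈ Om, cavg (tables r s) (row j) F (Φ x) = cavg Om (φ j) f x := by
    intro j x hx
    have hfib : fibre (tables r s) (row j) (Φ x) = (fibre Om (φ j) x).image Φ := by
      unfold fibre
      rw [himg, Finset.filter_image]
      congr 1
      apply Finset.filter_congr
      intro y hy
      exact (hφ j y hy x hx).symm
    have hsub : ∀ y ∈ fibre Om (φ j) x, y ∈ Om := fun y hy => (mem_fibre.mp hy).1
    unfold cavg
    rw [hfib, Finset.sum_image (fun y hy z hz h => hinj y (hsub y hy) z (hsub z hz) h),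
      Finset.card_image_of_injOn (fun y hy z hz h => hinj y (hsub y hy) z (hsub z hz) h),
      Finset.sum_congr rfl (fun y hy => hF y (hsub y hy))]
  have h := r23_table r s F
  rw [hcard, hsumT (fun M => F M ^ 2), hsumT F,
    Finset.sum_congr rfl (fun j _ => hsumT (fun M => F M * cavg (tables r s) (row j) F M))] at h
  rw [Finset.sum_congr rfl (fun x hx => by rw [hF x hx] : ∀ x ∈ Om, F (Φ x) ^ 2 = f x ^ 2),
    Finset.sum_congr rfl (fun x hx => hF x hx : ∀ x ∈ Om, F (Φ x) = f x)] at h
  have h2 : ∀ j ∈ (univ : Finset (Fin 3)),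
      ∑ x ∈ Om, F (Φ x) * cavg (tables r s) (row j) F (Φ x)
        = ∑ x ∈ Om, f x * cavg Om (φ j) f x := by
    intro j _
    apply Finset.sum_congr rfl
    intro x hx
    rw [hF x hx, hcavg j x hx]
  rw [Finset.sum_congr rfl h2] at h
  exact h

end transfer

end Crest.Agent.S0453.Helper69
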