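import Crest.Agent.Lib.S0453.Helper82Enc
import Crest.Agent.Lib.S0453.Helper69R23

/-!
# Row 299 (S0453), package [TR]: final wrapper

`TR d` (helper47's interface) from helper69's `r23_transfer`.  This file is sorry-free exactly when
`Helper69R23.lean` is (the encoder `Helper82Enc.lean` and the abstract part `Helper82Triple.lean`
are sorry-free on their own).
-/

set_option autoImplicit false

namespace Crest.Agent.S0453.Helper82

/-- helper69's `r23_transfer` is exactly the hypothesis `R23Transfer` of the encoder. -/
theorem r23Transfer : R23Transfer := by
  intro α β _ C _ _ Om Φ r s hinj hmaps hsurj φ hφ f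
  exact Helper69.r23_transfer Om Φ r s hinj hmaps hsurj φ hφ f

/-- **[TR]** in helper47's interface shape. -/
theorem TR_main {n : ℕ} (d : Fin n → ℕ) : Helper47.TR d :=
  TR_of_R23 r23Transfer d

end Crest.Agent.S0453.Helper82
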