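import Mathlib
import Crest.Prelude.Def_SwitchChain
import Crest.Agent.Lib.S0453.Helper76Knabe
import Crest.Agent.Lib.S0453.Helper47Defs

set_option autoImplicit false
set_option linter.unusedSectionVars false
set_option linter.unusedVariables false
open Finset

namespace Crest.Agent.S0453.Helper96

open Crest.SwitchChain
open Crest.Agent.S0453.Helper76
open Crest.Agent.S0453.Helper47

/-! ### Part 1: abstract operator lemma (commuting projections) -/

section abstract
variable {E : Type*} [NormedAddCommGroup E] [InnerProductSpace ℝ E]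
open scoped RealInnerProductSpace

lemma app_of_mul_eq {A B C : E →ₗ[ℝ] E} (h : A * B = C) (x : E) : A (B x) = C x := by
  rw [← h]; rfl

/-- For commuting symmetric idempotents `A`, `B`: `⟪A f, B f⟫ ≥ 0`. -/
lemma inner_comm_proj_nonneg (A B : E →ₗ[ℝ] E) (hA : A.IsSymmetric) (hB : B.IsSymmetric)
    (hAA : A * A = A) (hBB : B * B = B) (hAB : A * B = B * A) (f : E) : 0 ≤ ⟪A f, B f⟫ := by
  have e3 : ∀ x, A (B x) = B (A x) := fun x => app_of_mul_eq hAB x
  have h1 : ⟪A f, B f⟫ = ⟪A (B f), A (B f)⟫ := by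
    calc ⟪A f, B f⟫ = ⟪A f, B (B f)⟫ := by rw [app_of_mul_eq hBB f]
      _ = ⟪B (A f), B f⟫ := (hB (A f) (B f)).symm
      _ = ⟪A (B f), B f⟫ := by rw [e3]
      _ = ⟪A (A (B f)), B f⟫ := by rw [app_of_mul_eq hAA (B f)]
      _ = ⟪A (B f), A (B f)⟫ := hA (A (B f)) (B f)
  rw [h1]; exact real_inner_self_nonneg

/-- If `T₂ T₁ T₂ = T₁ T₂` for symmetric `T₁, T₂`, then they commute. -/
lemma comm_of_absorb (T1 T2 : E →ₗ[ℝ] E) (h1 : T1.IsSymmetric) (h2 : T2.IsSymmetric)
    (h : T2 * (T1 * T2) = T1 * T2) : T1 * T2 = T2 * T1 := by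
  apply LinearMap.ext
  intro v
  apply ext_inner_right ℝ
  intro w
  have hw : T2 (T1 (T2 w)) = T1 (T2 w) := by
    have := congrArg (fun T : E →ₗ[ℝ] E => T w) h
    simpa using this
  have hv : T2 (T1 (T2 v)) = T1 (T2 v) := by
    have := congrArg (fun T : E →ₗ[ℝ] E => T v) h
    simpa using this
  calc ⟪(T1 * T2) v, w⟫ = ⟪T1 (T2 v), w⟫ := rfl
    _ = ⟪T2 (T1 (T2 v)), w⟫ := by rw [hv]
    _ = ⟪T1 (T2 v), T2 w⟫ := h2 _ _
    _ = ⟪T2 v, T1 (T2 w)⟫ := h1 _ _
    _ = ⟪v, T2 (T1 (T2 w))⟫ := h2 _ _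
    _ = ⟪v, T1 (T2 w)⟫ := by rw [hw]
    _ = ⟪T1 v, T2 w⟫ := (h1 _ _).symm
    _ = ⟪T2 (T1 v), w⟫ := (h2 _ _).symm
    _ = ⟪(T2 * T1) v, w⟫ := rfl

/-- **Abstract sector lemma.** Nested symmetric idempotents `E1 ≤ H1 ≤ EX ≥ H2 ≥ E2` with
`[H1,H2] = [H1,E2] = [E1,H2] = 0`. -/
theorem sector_abstract (E1 H1 E2 H2 EX : E →ₗ[ℝ] E)
    (sE1 : E1.IsSymmetric) (sH1 : H1.IsSymmetric) (sE2 : E2.IsSymmetric) (sH2 : H2.IsSymmetric)
    (sEX : EX.IsSymmetric)
    (iX : EX * EX = EX) (iH1 : H1 * H1 = H1) (iH2 : H2 * H2 = H2) (iE1 : E1 * E1 = E1)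
    (iE2 : E2 * E2 = E2)
    (n1 : H1 * EX = H1) (n1' : EX * H1 = H1) (m1 : E1 * H1 = E1) (m1' : H1 * E1 = E1)
    (n2 : H2 * EX = H2) (n2' : EX * H2 = H2) (m2 : E2 * H2 = E2) (m2' : H2 * E2 = E2)
    (c1 : H1 * H2 = H2 * H1) (c2 : H1 * E2 = E2 * H1) (c3 : E1 * H2 = H2 * E1) (f : E) :
    2 * ‖f - EX f‖ ^ 2 - ‖H1 f - E1 f‖ ^ 2 - ‖H2 f - E2 f‖ ^ 2 ≤ 2 * ⟪f - E1 f, f - E2 f⟫ := by
  have xE2 : EX * E2 = E2 := by
    calc EX * E2 = EX * (H2 * E2) := by rw [m2']
      _ = (EX * H2) * E2 := by rw [mul_assoc]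
      _ = E2 := by rw [n2', m2']
  have e2X : E2 * EX = E2 := by
    calc E2 * EX = (E2 * H2) * EX := by rw [m2]
      _ = E2 * (H2 * EX) := by rw [mul_assoc]
      _ = E2 := by rw [n2, m2]
  have xE1 : EX * E1 = E1 := by
    calc EX * E1 = EX * (H1 * E1) := by rw [m1']
      _ = (EX * H1) * E1 := by rw [mul_assoc]
      _ = E1 := by rw [n1', m1']
  have e1X : E1 * EX = E1 := by
    calc E1 * EX = (E1 * H1) * EX := by rw [m1]
      _ = E1 * (H1 * EX) := by rw [mul_assoc]
      _ = E1 := by rw [n1, m1]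
  -- the four projections
  have sA : (EX - H1).IsSymmetric := sEX.sub sH1
  have sB : (EX - H2).IsSymmetric := sEX.sub sH2
  have sa : (H1 - E1).IsSymmetric := sH1.sub sE1
  have sb : (H2 - E2).IsSymmetric := sH2.sub sE2
  have iA : (EX - H1) * (EX - H1) = EX - H1 := by
    rw [sub_mul, mul_sub, mul_sub, iX, n1, n1', iH1]; abel
  have iB : (EX - H2) * (EX - H2) = EX - H2 := by
    rw [sub_mul, mul_sub, mul_sub, iX, n2, n2', iH2]; abel
  have ia : (H1 - E1) * (H1 - E1) = H1 - E1 := by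
    rw [sub_mul, mul_sub, mul_sub, iH1, m1, m1', iE1]; abel
  have ib : (H2 - E2) * (H2 - E2) = H2 - E2 := by
    rw [sub_mul, mul_sub, mul_sub, iH2, m2, m2', iE2]; abel
  have cAB : (EX - H1) * (EX - H2) = (EX - H2) * (EX - H1) := by
    rw [sub_mul, mul_sub, mul_sub, sub_mul, mul_sub, mul_sub, iX, n1, n1', n2, n2', c1]; abel
  have cAb : (EX - H1) * (H2 - E2) = (H2 - E2) * (EX - H1) := by
    rw [sub_mul, mul_sub, mul_sub, sub_mul, mul_sub, mul_sub, n2, n2', xE2, e2X, c1, c2]; abel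
  have caB : (H1 - E1) * (EX - H2) = (EX - H2) * (H1 - E1) := by
    rw [sub_mul, mul_sub, mul_sub, sub_mul, mul_sub, mul_sub, n1, n1', xE1, e1X, c1, c3]; abel
  have hAB := inner_comm_proj_nonneg _ _ sA sB iA iB cAB f
  have hAb := inner_comm_proj_nonneg _ _ sA sb iA ib cAb f
  have haB := inner_comm_proj_nonneg _ _ sa sB ia iB caB f
  simp only [LinearMap.sub_apply] at hAB hAb haB
  -- orthogonality of `f - EX f` to the range of `EX`
  have hX : ∀ g : E, ⟪f - EX f, EX g⟫ = 0 := by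
    intro g
    rw [← sEX (f - EX f) g, map_sub, app_of_mul_eq iX f, sub_self, inner_zero_left]
  have o2 : ⟪f - EX f, EX f - E2 f⟫ = 0 := by
    have : EX f - E2 f = EX (f - E2 f) := by
      rw [map_sub, app_of_mul_eq xE2 f]
    rw [this]; exact hX _
  have o1 : ⟪EX f - E1 f, f - EX f⟫ = 0 := by
    have : EX f - E1 f = EX (f - E1 f) := by
      rw [map_sub, app_of_mul_eq xE1 f]
    rw [this, real_inner_comm]; exact hX _
  -- expand
  have d1 : f - E1 f = (f - EX f) + ((EX f - H1 f) + (H1 f - E1 f)) := by abel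
  have d2 : f - E2 f = (f - EX f) + ((EX f - H2 f) + (H2 f - E2 f)) := by abel
  have o2' : ⟪f - EX f, (EX f - H2 f) + (H2 f - E2 f)⟫ = 0 := by
    have : (EX f - H2 f) + (H2 f - E2 f) = EX f - E2 f := by abel
    rw [this]; exact o2
  have o1' : ⟪(EX f - H1 f) + (H1 f - E1 f), f - EX f⟫ = 0 := by
    have : (EX f - H1 f) + (H1 f - E1 f) = EX f - E1 f := by abel
    rw [this]; exact o1
  have key : ⟪f - E1 f, f - E2 f⟫ = ‖f - EX f‖ ^ 2 + ⟪EX f - H1 f, EX f - H2 f⟫ +
      ⟪EX f - H1 f, H2 f - E2 f⟫ + ⟪H1 f - E1 f, EX f - H2 f⟫ + ⟪H1 f - E1 f, H2 f - E2 f⟫ := by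
    rw [d1, d2]
    generalize f - EX f = p at *
    generalize EX f - H1 f = A at *
    generalize H1 f - E1 f = a at *
    generalize EX f - H2 f = B at *
    generalize H2 f - E2 f = b at *
    have e1 : ⟪p + (A + a), p + (B + b)⟫ = ⟪p, p⟫ + ⟪p, B + b⟫ + ⟪A + a, p⟫ + ⟪A + a, B + b⟫ := by
      rw [inner_add_left p (A + a) (p + (B + b)), inner_add_right p p (B + b),
        inner_add_right (A + a) p (B + b)]; ring
    have e2 : ⟪A + a, B + b⟫ = ⟪A, B⟫ + ⟪A, b⟫ + ⟪a, B⟫ + ⟪a, b⟫ := by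
      rw [inner_add_left A a (B + b), inner_add_right A B b, inner_add_right a B b]; ring
    rw [e1, e2, o2', o1', real_inner_self_eq_norm_sq]
    ring
  have hab : -(‖H1 f - E1 f‖ ^ 2 + ‖H2 f - E2 f‖ ^ 2) ≤ 2 * ⟪H1 f - E1 f, H2 f - E2 f⟫ := by
    have h := real_inner_self_nonneg (x := (H1 f - E1 f) + (H2 f - E2 f))
    rw [inner_add_left, inner_add_right, inner_add_right, real_inner_self_eq_norm_sq,
      real_inner_self_eq_norm_sq, real_inner_comm (H1 f - E1 f) (H2 f - E2 f)] at h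
    linarith
  rw [key]
  linarith

end abstract

/-! ### Part 2: fibre averages as symmetric idempotents on `EuclideanSpace ℝ Ω` -/

section transport
variable {α : Type*} [DecidableEq α]
open scoped RealInnerProductSpace

/-- `g` is measurable w.r.t. the label `φ` on `Ω`. -/
def Meas {β : Type*} (Ω : Finset α) (φ : α → β) (g : α → ℝ) : Prop :=
  ∀ x ∈ Ω, ∀ y ∈ Ω, φ x = φ y → g x = g y

lemma cavg_meas_self {β : Type*} [DecidableEq β] (Ω : Finset α) (φ : α → β) (f : α → ℝ) :
    Meas Ω φ (cavg Ω φ f) := fun _ _ _ _ h => cavg_congr_fibre Ω f h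

lemma cavg_of_meas {β : Type*} [DecidableEq β] {Ω : Finset α} {φ : α → β} {g : α → ℝ}
    (hg : Meas Ω φ g) {x : α} (hx : x ∈ Ω) : cavg Ω φ g x = g x := by
  have hpos := fibre_card_pos φ hx
  have h1 : ∑ y ∈ fibre Ω φ x, g y = ((fibre Ω φ x).card : ℝ) * g x := by
    rw [Finset.sum_congr rfl (fun y hy => hg y (mem_fibre.mp hy).1 x hx (mem_fibre.mp hy).2),
      Finset.sum_const, nsmul_eq_mul]
  unfold cavg
  rw [h1]
  field_simp

variable (Ω : Finset α)

/-- The fibre average as a linear operator on vectors indexed by `Ω`. -/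
noncomputable def cavgOp {β : Type*} [DecidableEq β] (φ : α → β) :
    EuclideanSpace ℝ Ω →ₗ[ℝ] EuclideanSpace ℝ Ω :=
  opOn Ω (cavg Ω φ) (fun f g x _ => cavg_add Ω φ f g x) (fun c f x _ => cavg_smul Ω φ c f x)
    (fun f g h x _ => cavg_congr Ω φ h x)

lemma restr_congr {g h : α → ℝ} (H : ∀ x ∈ Ω, g x = h x) : restr Ω g = restr Ω h := by
  ext i
  simp only [restr]
  exact H i.1 i.2

lemma cavgOp_restr {β : Type*} [DecidableEq β] (φ : α → β) (g : α → ℝ) :
    cavgOp Ω φ (restr Ω g) = restr Ω (cavg Ω φ g) := by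
  show restr Ω (cavg Ω φ (extend0 Ω (restr Ω g))) = restr Ω (cavg Ω φ g)
  apply restr_congr
  intro x hx
  exact cavg_congr Ω φ (fun y hy => extend0_restr g hy) x

lemma op_ext {S T : EuclideanSpace ℝ Ω →ₗ[ℝ] EuclideanSpace ℝ Ω}
    (h : ∀ g : α → ℝ, S (restr Ω g) = T (restr Ω g)) : S = T := by
  apply LinearMap.ext
  intro v
  rw [← restr_extend0 Ω v]
  exact h _

lemma inner_restr (g h : α → ℝ) : ⟪restr Ω g, restr Ω h⟫ = ∑ x ∈ Ω, g x * h x := by
  rw [inner_eq_sum_extend0]
  apply Finset.sum_congr rfl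
  intro x hx
  rw [extend0_restr g hx, extend0_restr h hx]

lemma restr_sub (g h : α → ℝ) : restr Ω (g - h) = restr Ω g - restr Ω h := by
  ext i
  simp [restr]

lemma norm_sq_restr (g : α → ℝ) : ‖restr Ω g‖ ^ 2 = ∑ x ∈ Ω, g x ^ 2 := by
  rw [← real_inner_self_eq_norm_sq, inner_restr]
  apply Finset.sum_congr rfl
  intro x _
  ring

lemma cavgOp_symm {β : Type*} [DecidableEq β] (φ : α → β) : (cavgOp Ω φ).IsSymmetric := by
  intro v w
  rw [← restr_extend0 Ω v, ← restr_extend0 Ω w, cavgOp_restr, cavgOp_restr, inner_restr,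
    inner_restr]
  rw [sum_mul_cavg Ω φ (extend0 Ω w) (extend0 Ω v)]

/-- If every `cavg φ f` is `ψ`-measurable then `E_ψ E_φ = E_φ`. -/
lemma cavgOp_mul_of_meas {β γ : Type*} [DecidableEq β] [DecidableEq γ] (φ : α → β) (ψ : α → γ)
    (h : ∀ f : α → ℝ, Meas Ω ψ (cavg Ω φ f)) : cavgOp Ω ψ * cavgOp Ω φ = cavgOp Ω φ := by
  apply op_ext
  intro g
  show cavgOp Ω ψ (cavgOp Ω φ (restr Ω g)) = cavgOp Ω φ (restr Ω g)
  rw [cavgOp_restr, cavgOp_restr]
  apply restr_congr
  intro x hx
  exact cavg_of_meas (h g) hx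

lemma mul_eq_of_mul_eq {E : Type*} [NormedAddCommGroup E] [InnerProductSpace ℝ E]
    (S T : E →ₗ[ℝ] E) (hS : S.IsSymmetric) (hT : T.IsSymmetric) (h : S * T = T) : T * S = T := by
  apply LinearMap.ext
  intro v
  apply ext_inner_right ℝ
  intro w
  calc ⟪(T * S) v, w⟫ = ⟪T (S v), w⟫ := rfl
    _ = ⟪S v, T w⟫ := hT _ _
    _ = ⟪v, S (T w)⟫ := hS _ _
    _ = ⟪v, T w⟫ := by rw [app_of_mul_eq h w]
    _ = ⟪T v, w⟫ := (hT _ _).symm

lemma cavgOp_idem {β : Type*} [DecidableEq β] (φ : α → β) :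
    cavgOp Ω φ * cavgOp Ω φ = cavgOp Ω φ :=
  cavgOp_mul_of_meas Ω φ φ (fun f => cavg_meas_self Ω φ f)

/-- Tower property: `ψ` finer than `φ` on `Ω`. -/
lemma cavgOp_tower {β γ : Type*} [DecidableEq β] [DecidableEq γ] (φ : α → β) (ψ : α → γ)
    (hr : ∀ x ∈ Ω, ∀ y ∈ Ω, ψ x = ψ y → φ x = φ y) :
    cavgOp Ω ψ * cavgOp Ω φ = cavgOp Ω φ ∧ cavgOp Ω φ * cavgOp Ω ψ = cavgOp Ω φ := by
  have h1 : cavgOp Ω ψ * cavgOp Ω φ = cavgOp Ω φ :=
    cavgOp_mul_of_meas Ω φ ψ (fun f x hx y hy hxy => cavg_meas_self Ω φ f x hx y hy (hr x hx y hy hxy))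
  exact ⟨h1, mul_eq_of_mul_eq _ _ (cavgOp_symm Ω ψ) (cavgOp_symm Ω φ) h1⟩

/-- Commutation from preservation of measurability. -/
lemma cavgOp_comm_of_preserve {β γ : Type*} [DecidableEq β] [DecidableEq γ] (φ : α → β)
    (ψ : α → γ) (h : ∀ g : α → ℝ, Meas Ω ψ g → Meas Ω ψ (cavg Ω φ g)) :
    cavgOp Ω φ * cavgOp Ω ψ = cavgOp Ω ψ * cavgOp Ω φ := by
  apply comm_of_absorb _ _ (cavgOp_symm Ω φ) (cavgOp_symm Ω ψ)
  apply op_ext
  intro g
  show cavgOp Ω ψ (cavgOp Ω φ (cavgOp Ω ψ (restr Ω g))) = cavgOp Ω φ (cavgOp Ω ψ (restr Ω g))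
  rw [cavgOp_restr, cavgOp_restr, cavgOp_restr]
  apply restr_congr
  intro x hx
  exact cavg_of_meas (h _ (cavg_meas_self Ω ψ g)) hx

/-- **Sector lemma for fibre averages.** Labels `φ1 ≤ ψ1 ≤ χ ≥ ψ2 ≥ φ2` (coarse to fine), with
`cavg ψ1` and `cavg φ1` preserving `ψ2`-measurability and `cavg φ2` preserving
`ψ1`-measurability. -/
theorem sector_cavg {β1 γ1 β2 γ2 δ : Type*} [DecidableEq β1] [DecidableEq γ1] [DecidableEq β2]
    [DecidableEq γ2] [DecidableEq δ]
    (φ1 : α → β1) (ψ1 : α → γ1) (φ2 : α → β2) (ψ2 : α → γ2) (χ : α → δ)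
    (r1 : ∀ x ∈ Ω, ∀ y ∈ Ω, χ x = χ y → ψ1 x = ψ1 y)
    (r1' : ∀ x ∈ Ω, ∀ y ∈ Ω, ψ1 x = ψ1 y → φ1 x = φ1 y)
    (r2 : ∀ x ∈ Ω, ∀ y ∈ Ω, χ x = χ y → ψ2 x = ψ2 y)
    (r2' : ∀ x ∈ Ω, ∀ y ∈ Ω, ψ2 x = ψ2 y → φ2 x = φ2 y)
    (c1 : ∀ g : α → ℝ, Meas Ω ψ2 g → Meas Ω ψ2 (cavg Ω ψ1 g))
    (c2 : ∀ g : α → ℝ, Meas Ω ψ1 g → Meas Ω ψ1 (cavg Ω φ2 g))
    (c3 : ∀ g : α → ℝ, Meas Ω ψ2 g → Meas Ω ψ2 (cavg Ω φ1 g))
    (f : α → ℝ) :
    2 * ∑ x ∈ Ω, (f x - cavg Ω χ f x) ^ 2 - ∑ x ∈ Ω, (cavg Ω ψ1 f x - cavg Ω φ1 f x) ^ 2 -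
        ∑ x ∈ Ω, (cavg Ω ψ2 f x - cavg Ω φ2 f x) ^ 2 ≤
      2 * ∑ x ∈ Ω, (f x - cavg Ω φ1 f x) * (f x - cavg Ω φ2 f x) := by
  have t1 := cavgOp_tower Ω ψ1 χ r1
  have t1' := cavgOp_tower Ω φ1 ψ1 r1'
  have t2 := cavgOp_tower Ω ψ2 χ r2
  have t2' := cavgOp_tower Ω φ2 ψ2 r2'
  have h := sector_abstract (cavgOp Ω φ1) (cavgOp Ω ψ1) (cavgOp Ω φ2) (cavgOp Ω ψ2) (cavgOp Ω χ)
    (cavgOp_symm Ω φ1) (cavgOp_symm Ω ψ1) (cavgOp_symm Ω φ2) (cavgOp_symm Ω ψ2) (cavgOp_symm Ω χ)
    (cavgOp_idem Ω χ) (cavgOp_idem Ω ψ1) (cavgOp_idem Ω ψ2) (cavgOp_idem Ω φ1) (cavgOp_idem Ω φ2)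
    t1.2 t1.1 t1'.2 t1'.1 t2.2 t2.1 t2'.2 t2'.1
    (cavgOp_comm_of_preserve Ω ψ1 ψ2 c1)
    (cavgOp_comm_of_preserve Ω φ2 ψ1 c2).symm
    (cavgOp_comm_of_preserve Ω φ1 ψ2 c3)
    (restr Ω f)
  rw [cavgOp_restr, cavgOp_restr, cavgOp_restr, cavgOp_restr, cavgOp_restr, ← restr_sub,
    ← restr_sub, ← restr_sub, ← restr_sub, ← restr_sub, norm_sq_restr, norm_sq_restr,
    norm_sq_restr, inner_restr] at h
  exact h

end transport

/-! ### Part 3: preservation of measurability from fibre bijections -/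

section bij
variable {α : Type*} [DecidableEq α]

lemma meas_cavg_of_bij {β γ : Type*} [DecidableEq β] [DecidableEq γ] (Ω : Finset α)
    (φ : α → β) (ψ : α → γ)
    (hbij : ∀ G ∈ Ω, ∀ G' ∈ Ω, ψ G = ψ G' → ∃ Θ Θ' : α → α,
      (∀ H ∈ fibre Ω φ G, Θ H ∈ fibre Ω φ G' ∧ Θ' (Θ H) = H ∧ ψ (Θ H) = ψ H) ∧
      (∀ H' ∈ fibre Ω φ G', Θ' H' ∈ fibre Ω φ G ∧ Θ (Θ' H') = H'))
    (g : α → ℝ) (hg : Meas Ω ψ g) : Meas Ω ψ (cavg Ω φ g) := by
  intro G hG G' hG' hψ
  obtain ⟨Θ, Θ', h1, h2⟩ := hbij G hG G' hG' hψ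
  unfold cavg
  have hcard : (fibre Ω φ G).card = (fibre Ω φ G').card :=
    Finset.card_nbij' Θ Θ' (fun H hH => (h1 H hH).1) (fun H hH => (h2 H hH).1)
      (fun H hH => (h1 H hH).2.1) (fun H hH => (h2 H hH).2)
  have hsum : ∑ H ∈ fibre Ω φ G, g H = ∑ H ∈ fibre Ω φ G', g H :=
    Finset.sum_nbij' Θ Θ' (fun H hH => (h1 H hH).1) (fun H hH => (h2 H hH).1)
      (fun H hH => (h1 H hH).2.1) (fun H hH => (h2 H hH).2)
      (fun H hH => hg H (mem_fibre.mp hH).1 (Θ H) (mem_fibre.mp (h1 H hH).1).1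
        (h1 H hH).2.2.symm)
  rw [hsum, hcard]

end bij

/-! ### Part 4: graphs -/

section graphs
variable {n : ℕ}

lemma edge_three {s : Edge n} {x y z : Fin n} (hx : x ∈ s.1) (hy : y ∈ s.1) (hz : z ∈ s.1)
    (hxy : x ≠ y) (hxz : x ≠ z) (hyz : y ≠ z) : False := by
  have h := (Sym2.mem_and_mem_iff hxy).mp ⟨hx, hy⟩
  rw [h, Sym2.mem_iff] at hz
  rcases hz with rfl | rfl
  · exact hxz rfl
  · exact hyz rfl

lemma edge_unique {s t : Edge n} {x y : Fin n} (hxy : x ≠ y) (hx : x ∈ s.1) (hy : y ∈ s.1)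
    (hx' : x ∈ t.1) (hy' : y ∈ t.1) : s = t := by
  apply Subtype.ext
  rw [(Sym2.mem_and_mem_iff hxy).mp ⟨hx, hy⟩, (Sym2.mem_and_mem_iff hxy).mp ⟨hx', hy'⟩]

/-- The slot obtained by exchanging the vertices `a` and `b`. -/
def swapE (a b : Fin n) (s : Edge n) : Edge n :=
  ⟨Sym2.map (Equiv.swap a b) s.1, by
    rw [Sym2.isDiag_map (Equiv.swap a b).injective]; exact s.2⟩

lemma mem_swapE {a b : Fin n} {s : Edge n} {v : Fin n} :
    v ∈ (swapE a b s).1 ↔ Equiv.swap a b v ∈ s.1 := by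
  unfold swapE
  simp only [Sym2.mem_map]
  constructor
  · rintro ⟨u, hu, rfl⟩
    simpa using hu
  · intro h
    exact ⟨_, h, by simp⟩

lemma swapE_swapE (a b : Fin n) (s : Edge n) : swapE a b (swapE a b s) = s := by
  apply Subtype.ext
  simp [swapE, Sym2.map_map]

/-- Block slots of the pair of pairs `{a,b}`, `{c,e}`: one end in `{a,b}`, one in `{c,e}`. -/
def blk (a b c e : Fin n) (s : Edge n) : Prop := (a ∈ s.1 ∨ b ∈ s.1) ∧ (c ∈ s.1 ∨ e ∈ s.1)

instance (a b c e : Fin n) : DecidablePred (blk a b c e) := fun s => by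
  unfold blk; infer_instance

/-- The block part of `G`. -/
def Xpart (a b c e : Fin n) (G : Finset (Edge n)) : Finset (Edge n) :=
  G.filter (fun s => blk a b c e s)

/-- The edges at `c` or `e` avoiding `a` and `b`. -/
def Ypart (a b c e : Fin n) (G : Finset (Edge n)) : Finset (Edge n) :=
  G.filter (fun s => (c ∈ s.1 ∨ e ∈ s.1) ∧ a ∉ s.1 ∧ b ∉ s.1)

/-- Number of block edges at `v`. -/
def rho (a b c e : Fin n) (G : Finset (Edge n)) (v : Fin n) : ℕ := deg (Xpart a b c e G) v

lemma deg_split (P : Edge n → Prop) [DecidablePred P] (G : Finset (Edge n)) (v : Fin n) :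
    deg G v = deg (G.filter P) v + deg (G.filter (fun s => ¬ P s)) v := by
  unfold deg
  rw [← Finset.card_filter_add_card_filter_not (s := G.filter (fun e => v ∈ e.1)) P]
  congr 1
  · congr 1; ext s; simp only [Finset.mem_filter]; tauto
  · congr 1; ext s; simp only [Finset.mem_filter]; tauto

lemma deg_split3 (a b c e : Fin n) (K : Finset (Edge n)) (v : Fin n) :
    deg K v = deg (hinge c e K) v + deg (Ypart a b c e K) v + deg (Xpart a b c e K) v := by
  rw [deg_split (fun s => c ∉ s.1 ∧ e ∉ s.1) K v,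
    deg_split (fun s => a ∉ s.1 ∧ b ∉ s.1) (K.filter (fun s => ¬ (c ∉ s.1 ∧ e ∉ s.1))) v]
  have h1 : (K.filter (fun s => ¬ (c ∉ s.1 ∧ e ∉ s.1))).filter (fun s => a ∉ s.1 ∧ b ∉ s.1) =
      Ypart a b c e K := by
    unfold Ypart
    rw [Finset.filter_filter]
    apply Finset.filter_congr
    intro s _
    tauto
  have h2 : (K.filter (fun s => ¬ (c ∉ s.1 ∧ e ∉ s.1))).filter (fun s => ¬ (a ∉ s.1 ∧ b ∉ s.1)) =
      Xpart a b c e K := by
    unfold Xpart blk
    rw [Finset.filter_filter]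
    apply Finset.filter_congr
    intro s _
    tauto
  rw [h1, h2]
  unfold hinge
  ring

lemma deg_eq_zero_of {S : Finset (Edge n)} {v : Fin n} (h : ∀ s ∈ S, v ∉ s.1) : deg S v = 0 := by
  unfold deg
  rw [Finset.card_eq_zero, Finset.filter_eq_empty_iff]
  exact h

lemma deg_hinge_left (c e : Fin n) (K : Finset (Edge n)) : deg (hinge c e K) c = 0 :=
  deg_eq_zero_of (fun s hs => (Finset.mem_filter.mp hs).2.1)

lemma deg_hinge_right (c e : Fin n) (K : Finset (Edge n)) : deg (hinge c e K) e = 0 :=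
  deg_eq_zero_of (fun s hs => (Finset.mem_filter.mp hs).2.2)

lemma deg_Ypart_left (a b c e : Fin n) (K : Finset (Edge n)) : deg (Ypart a b c e K) a = 0 :=
  deg_eq_zero_of (fun s hs => (Finset.mem_filter.mp hs).2.2.1)

lemma deg_Ypart_right (a b c e : Fin n) (K : Finset (Edge n)) : deg (Ypart a b c e K) b = 0 :=
  deg_eq_zero_of (fun s hs => (Finset.mem_filter.mp hs).2.2.2)

lemma deg_Xpart_other {a b c e : Fin n} (hac : a ≠ c) (hae : a ≠ e) (hbc : b ≠ c) (hbe : b ≠ e)
    (K : Finset (Edge n)) {w : Fin n} (hwa : w ≠ a) (hwb : w ≠ b) (hwc : w ≠ c) (hwe : w ≠ e) :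
    deg (Xpart a b c e K) w = 0 := by
  apply deg_eq_zero_of
  intro s hs hw
  obtain ⟨h1, h2⟩ := (Finset.mem_filter.mp hs).2
  rcases h1 with h1 | h1 <;> rcases h2 with h2 | h2
  · exact edge_three h1 h2 hw hac hwa.symm hwc.symm
  · exact edge_three h1 h2 hw hae hwa.symm hwe.symm
  · exact edge_three h1 h2 hw hbc hwb.symm hwc.symm
  · exact edge_three h1 h2 hw hbe hwb.symm hwe.symm

/-! #### slot counts, `rho`, `alpha` -/

lemma mem_realizations {d : Fin n → ℕ} {K : Finset (Edge n)} :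
    K ∈ realizations d ↔ ∀ v, deg K v = d v := by
  simp [realizations]

lemma card_filter_slot (K : Finset (Edge n)) (x y : Fin n) :
    (K.filter (fun s => s.1 = s(x, y))).card = if adj K x y then 1 else 0 := by
  by_cases h : adj K x y
  · rw [if_pos h]
    obtain ⟨s, hs, hs'⟩ := h
    have : K.filter (fun t => t.1 = s(x, y)) = {s} := by
      ext t
      simp only [Finset.mem_filter, Finset.mem_singleton]
      constructor
      · rintro ⟨_, ht⟩
        exact Subtype.ext (ht.trans hs'.symm)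
      · rintro rfl
        exact ⟨hs, hs'⟩
    rw [this, Finset.card_singleton]
  · rw [if_neg h, Finset.card_eq_zero, Finset.filter_eq_empty_iff]
    intro s hs hs'
    exact h ⟨s, hs, hs'⟩

lemma card_two_slots (K : Finset (Edge n)) {x c e : Fin n} (hxc : x ≠ c) (hxe : x ≠ e)
    (hce : c ≠ e) :
    (K.filter (fun s => x ∈ s.1 ∧ (c ∈ s.1 ∨ e ∈ s.1))).card =
      (if adj K x c then 1 else 0) + (if adj K x e then 1 else 0) := by
  rw [← card_filter_slot, ← card_filter_slot, ← Finset.card_union_of_disjoint]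
  · congr 1
    ext s
    simp only [Finset.mem_filter, Finset.mem_union]
    constructor
    · rintro ⟨hs, hx, hc | he⟩
      · exact Or.inl ⟨hs, (Sym2.mem_and_mem_iff hxc).mp ⟨hx, hc⟩⟩
      · exact Or.inr ⟨hs, (Sym2.mem_and_mem_iff hxe).mp ⟨hx, he⟩⟩
    · rintro (⟨hs, h⟩ | ⟨hs, h⟩)
      · exact ⟨hs, by rw [h]; exact Sym2.mem_mk_left _ _,
          Or.inl (by rw [h]; exact Sym2.mem_mk_right _ _)⟩
      · exact ⟨hs, by rw [h]; exact Sym2.mem_mk_left _ _,
          Or.inr (by rw [h]; exact Sym2.mem_mk_right _ _)⟩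
  · rw [Finset.disjoint_filter]
    intro s _ h1 h2
    have h3 : s(x, c) = s(x, e) := h1.symm.trans h2
    have hc : c ∈ s(x, e) := by rw [← h3]; exact Sym2.mem_mk_right _ _
    rw [Sym2.mem_iff] at hc
    rcases hc with rfl | rfl
    · exact hxc rfl
    · exact hce rfl

lemma rho_left (K : Finset (Edge n)) {a b c e : Fin n} (hac : a ≠ c) (hae : a ≠ e)
    (hce : c ≠ e) :
    rho a b c e K a = (if adj K a c then 1 else 0) + (if adj K a e then 1 else 0) := by
  rw [← card_two_slots K hac hae hce]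
  unfold rho deg Xpart blk
  rw [Finset.filter_filter]
  congr 1
  apply Finset.filter_congr
  intro s _
  tauto

lemma rho_right (K : Finset (Edge n)) {a b c e : Fin n} (hbc : b ≠ c) (hbe : b ≠ e)
    (hce : c ≠ e) :
    rho a b c e K b = (if adj K b c then 1 else 0) + (if adj K b e then 1 else 0) := by
  rw [← card_two_slots K hbc hbe hce]
  unfold rho deg Xpart blk
  rw [Finset.filter_filter]
  congr 1
  apply Finset.filter_congr
  intro s _
  tauto

lemma alpha_iff (K : Finset (Edge n)) {a b c e : Fin n} (hac : a ≠ c) (hae : a ≠ e)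
    (hbc : b ≠ c) (hbe : b ≠ e) (hce : c ≠ e) :
    alpha a b c e K = true ↔ rho a b c e K a = 1 ∧ rho a b c e K b = 1 := by
  rw [rho_left K hac hae hce, rho_right K hbc hbe hce]
  unfold alpha one
  by_cases h1 : adj K a c <;> by_cases h2 : adj K a e <;> by_cases h3 : adj K b c <;>
    by_cases h4 : adj K b e <;> simp [h1, h2, h3, h4]

lemma deg_add_of_xor {S : Finset (Edge n)} {x y : Fin n}
    (h : ∀ s ∈ S, (x ∈ s.1 ∨ y ∈ s.1) ∧ ¬ (x ∈ s.1 ∧ y ∈ s.1)) :
    deg S x + deg S y = S.card := by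
  unfold deg
  have : S.filter (fun s => y ∈ s.1) = S.filter (fun s => ¬ x ∈ s.1) := by
    apply Finset.filter_congr
    intro s hs
    have := h s hs
    tauto
  rw [this, Finset.card_filter_add_card_filter_not]

lemma rho_sum (K : Finset (Edge n)) {a b c e : Fin n} (hab : a ≠ b) (hac : a ≠ c) (hae : a ≠ e)
    (hbc : b ≠ c) (hbe : b ≠ e) (hce : c ≠ e) :
    rho a b c e K a + rho a b c e K b = rho a b c e K c + rho a b c e K e := by
  unfold rho
  rw [deg_add_of_xor, deg_add_of_xor]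
  · intro s hs
    obtain ⟨h1, h2⟩ := (Finset.mem_filter.mp hs).2
    refine ⟨h2, ?_⟩
    rintro ⟨hc, he⟩
    rcases h1 with h1 | h1
    · exact edge_three h1 hc he hac hae hce
    · exact edge_three h1 hc he hbc hbe hce
  · intro s hs
    obtain ⟨h1, h2⟩ := (Finset.mem_filter.mp hs).2
    refine ⟨h1, ?_⟩
    rintro ⟨ha, hb⟩
    rcases h2 with h2 | h2
    · exact edge_three ha hb h2 hab hac hbc
    · exact edge_three ha hb h2 hab hae hbe

lemma Ypart_eq_filter_hinge (a b c e : Fin n) (K : Finset (Edge n)) :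
    Ypart a b c e K = (hinge a b K).filter (fun s => c ∈ s.1 ∨ e ∈ s.1) := by
  unfold Ypart hinge
  rw [Finset.filter_filter]
  apply Finset.filter_congr
  intro s _
  tauto

/-- On realizations, the block degrees of `a`, `b` are functions of `G - c - e`. -/
lemma rho_ab_of_hinge {d : Fin n → ℕ} (a b c e : Fin n) {K K' : Finset (Edge n)}
    (hK : K ∈ realizations d) (hK' : K' ∈ realizations d) (h : hinge c e K = hinge c e K') :
    rho a b c e K a = rho a b c e K' a ∧ rho a b c e K b = rho a b c e K' b := by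
  have h1 := deg_split3 a b c e K a
  have h2 := deg_split3 a b c e K' a
  have h3 := deg_split3 a b c e K b
  have h4 := deg_split3 a b c e K' b
  rw [mem_realizations.mp hK a, deg_Ypart_left] at h1
  rw [mem_realizations.mp hK' a, deg_Ypart_left, ← h] at h2
  rw [mem_realizations.mp hK b, deg_Ypart_right] at h3
  rw [mem_realizations.mp hK' b, deg_Ypart_right, ← h] at h4
  unfold rho
  omega

/-- On realizations, the block degrees of `c`, `e` are functions of `G - a - b`. -/
lemma rho_ce_of_hinge {d : Fin n → ℕ} (a b c e : Fin n) {K K' : Finset (Edge n)}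
    (hK : K ∈ realizations d) (hK' : K' ∈ realizations d) (h : hinge a b K = hinge a b K') :
    rho a b c e K c = rho a b c e K' c ∧ rho a b c e K e = rho a b c e K' e := by
  have hY : Ypart a b c e K = Ypart a b c e K' := by
    rw [Ypart_eq_filter_hinge, Ypart_eq_filter_hinge, h]
  have h1 := deg_split3 a b c e K c
  have h2 := deg_split3 a b c e K' c
  have h3 := deg_split3 a b c e K e
  have h4 := deg_split3 a b c e K' e
  rw [mem_realizations.mp hK c, deg_hinge_left] at h1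
  rw [mem_realizations.mp hK' c, deg_hinge_left, ← hY] at h2
  rw [mem_realizations.mp hK e, deg_hinge_right] at h3
  rw [mem_realizations.mp hK' e, deg_hinge_right, ← hY] at h4
  unfold rho
  omega

/-- `alpha a b c e` is a function of `G - c - e` on realizations. -/
lemma alpha_of_hinge {d : Fin n → ℕ} {a b c e : Fin n} (hac : a ≠ c) (hae : a ≠ e)
    (hbc : b ≠ c) (hbe : b ≠ e) (hce : c ≠ e) {K K' : Finset (Edge n)}
    (hK : K ∈ realizations d) (hK' : K' ∈ realizations d) (h : hinge c e K = hinge c e K') :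
    alpha a b c e K = alpha a b c e K' := by
  have h1 := rho_ab_of_hinge a b c e hK hK' h
  have h2 := alpha_iff K hac hae hbc hbe hce
  have h3 := alpha_iff K' hac hae hbc hbe hce
  rw [h1.1, h1.2] at h2
  rw [Bool.eq_iff_iff, h2, h3]

/-- Same hinge label for `{a,b}` and same `alpha`: the block row sums agree up to a swap. -/
lemma rho_dichotomy {d : Fin n → ℕ} {a b c e : Fin n} (hab : a ≠ b) (hac : a ≠ c) (hae : a ≠ e)
    (hbc : b ≠ c) (hbe : b ≠ e) (hce : c ≠ e) {G G' : Finset (Edge n)}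
    (hG : G ∈ realizations d) (hG' : G' ∈ realizations d) (h1 : hinge a b G = hinge a b G')
    (h2 : alpha a b c e G = alpha a b c e G') :
    (rho a b c e G a = rho a b c e G' a ∧ rho a b c e G b = rho a b c e G' b) ∨
      (rho a b c e G' a = rho a b c e G b ∧ rho a b c e G' b = rho a b c e G a) := by
  have s1 := rho_sum G hab hac hae hbc hbe hce
  have s2 := rho_sum G' hab hac hae hbc hbe hce
  have s3 := rho_ce_of_hinge a b c e hG hG' h1
  have a1 := alpha_iff G hac hae hbc hbe hce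
  have a2 := alpha_iff G' hac hae hbc hbe hce
  rw [h2] at a1
  have a3 : (rho a b c e G a = 1 ∧ rho a b c e G b = 1) ↔
      (rho a b c e G' a = 1 ∧ rho a b c e G' b = 1) := a1.symm.trans a2
  have b1 : rho a b c e G a ≤ 2 := by
    rw [rho_left G hac hae hce]; split_ifs <;> omega
  have b2 : rho a b c e G b ≤ 2 := by
    rw [rho_right G hbc hbe hce]; split_ifs <;> omega
  have b3 : rho a b c e G' a ≤ 2 := by
    rw [rho_left G' hac hae hce]; split_ifs <;> omega
  have b4 : rho a b c e G' b ≤ 2 := by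
    rw [rho_right G' hbc hbe hce]; split_ifs <;> omega
  omega

/-! #### the transplant -/

/-- The three slot classes of the ordered pair of pairs `(a,b | c,e)` exhaust the graph. -/
lemma parts_union (a b c e : Fin n) (K : Finset (Edge n)) :
    hinge c e K ∪ Ypart a b c e K ∪ Xpart a b c e K = K := by
  ext s
  simp only [hinge, Ypart, Xpart, blk, Finset.mem_union, Finset.mem_filter]
  tauto

/-- `transplant a b c e keep G' H`: the graph with the slots avoiding `c, e` taken from `G'`,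
the slots at `c` or `e` avoiding `a, b` taken from `H`, and the block taken from `H`
(`keep = true`) or from `H` with the rows `a`, `b` exchanged (`keep = false`). -/
def transplant (a b c e : Fin n) (keep : Bool) (G' H : Finset (Edge n)) : Finset (Edge n) :=
  hinge c e G' ∪ Ypart a b c e H ∪
    (if keep then Xpart a b c e H else (Xpart a b c e H).image (swapE a b))

lemma blk_swapE {a b c e : Fin n} (hac : a ≠ c) (hae : a ≠ e) (hbc : b ≠ c) (hbe : b ≠ e)
    (s : Edge n) : blk a b c e (swapE a b s) ↔ blk a b c e s := by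
  unfold blk
  simp only [mem_swapE, Equiv.swap_apply_left, Equiv.swap_apply_right,
    Equiv.swap_apply_of_ne_of_ne hac.symm hbc.symm, Equiv.swap_apply_of_ne_of_ne hae.symm hbe.symm]
  tauto

lemma mem_Xp {a b c e : Fin n} (hac : a ≠ c) (hae : a ≠ e) (hbc : b ≠ c) (hbe : b ≠ e)
    {keep : Bool} {H : Finset (Edge n)} {t : Edge n}
    (ht : t ∈ (if keep then Xpart a b c e H else (Xpart a b c e H).image (swapE a b))) :
    blk a b c e t := by
  cases keep
  · simp only [Bool.false_eq_true, ↓reduceIte, Finset.mem_image] at ht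
    obtain ⟨s, hs, rfl⟩ := ht
    exact (blk_swapE hac hae hbc hbe s).mpr (Finset.mem_filter.mp hs).2
  · simp only [↓reduceIte] at ht
    exact (Finset.mem_filter.mp ht).2

lemma transplant_hinge {a b c e : Fin n} (hac : a ≠ c) (hae : a ≠ e) (hbc : b ≠ c) (hbe : b ≠ e)
    (keep : Bool) (G' H : Finset (Edge n)) :
    hinge c e (transplant a b c e keep G' H) = hinge c e G' := by
  ext s
  constructor
  · intro hs
    obtain ⟨hs1, hc, he⟩ := Finset.mem_filter.mp hs
    unfold transplant at hs1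
    rcases Finset.mem_union.mp hs1 with h | h
    · rcases Finset.mem_union.mp h with h | h
      · exact h
      · have := (Finset.mem_filter.mp h).2.1
        tauto
    · have := mem_Xp hac hae hbc hbe h
      unfold blk at this
      tauto
  · intro hs
    obtain ⟨_, hc, he⟩ := Finset.mem_filter.mp hs
    exact Finset.mem_filter.mpr
      ⟨Finset.mem_union_left _ (Finset.mem_union_left _ hs), hc, he⟩

lemma transplant_Ypart {a b c e : Fin n} (hac : a ≠ c) (hae : a ≠ e) (hbc : b ≠ c) (hbe : b ≠ e)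
    (keep : Bool) (G' H : Finset (Edge n)) :
    Ypart a b c e (transplant a b c e keep G' H) = Ypart a b c e H := by
  ext s
  constructor
  · intro hs
    obtain ⟨hs1, hce, ha, hb⟩ := Finset.mem_filter.mp hs
    unfold transplant at hs1
    rcases Finset.mem_union.mp hs1 with h | h
    · rcases Finset.mem_union.mp h with h | h
      · have := (Finset.mem_filter.mp h).2
        tauto
      · exact h
    · have := mem_Xp hac hae hbc hbe h
      unfold blk at this
      tauto
  · intro hs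
    exact Finset.mem_filter.mpr
      ⟨Finset.mem_union_left _ (Finset.mem_union_right _ hs), (Finset.mem_filter.mp hs).2⟩

lemma transplant_Xpart {a b c e : Fin n} (hac : a ≠ c) (hae : a ≠ e) (hbc : b ≠ c) (hbe : b ≠ e)
    (keep : Bool) (G' H : Finset (Edge n)) :
    Xpart a b c e (transplant a b c e keep G' H) =
      (if keep then Xpart a b c e H else (Xpart a b c e H).image (swapE a b)) := by
  ext s
  constructor
  · intro hs
    obtain ⟨hs1, hs2⟩ := Finset.mem_filter.mp hs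
    unfold transplant at hs1
    unfold blk at hs2
    rcases Finset.mem_union.mp hs1 with h | h
    · rcases Finset.mem_union.mp h with h | h
      · have := (Finset.mem_filter.mp h).2
        tauto
      · have := (Finset.mem_filter.mp h).2
        tauto
    · exact h
  · intro hs
    exact Finset.mem_filter.mpr ⟨Finset.mem_union_right _ hs, mem_Xp hac hae hbc hbe hs⟩

lemma swapE_injective (a b : Fin n) : Function.Injective (swapE a b) :=
  Function.LeftInverse.injective (swapE_swapE a b)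

lemma deg_image_swapE (a b : Fin n) (S : Finset (Edge n)) (v : Fin n) :
    deg (S.image (swapE a b)) v = deg S (Equiv.swap a b v) := by
  unfold deg
  rw [Finset.filter_image, Finset.card_image_of_injective _ (swapE_injective a b)]
  congr 1
  apply Finset.filter_congr
  intro s _
  exact mem_swapE

/-- Undoing the transplant. -/
lemma transplant_transplant {a b c e : Fin n} (hac : a ≠ c) (hae : a ≠ e) (hbc : b ≠ c)
    (hbe : b ≠ e) (keep : Bool) {G G' H : Finset (Edge n)} (hH : hinge c e H = hinge c e G) :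
    transplant a b c e keep G (transplant a b c e keep G' H) = H := by
  have h1 : transplant a b c e keep G (transplant a b c e keep G' H) =
      hinge c e G ∪ Ypart a b c e (transplant a b c e keep G' H) ∪
        (if keep then Xpart a b c e (transplant a b c e keep G' H)
          else (Xpart a b c e (transplant a b c e keep G' H)).image (swapE a b)) := rfl
  rw [h1, transplant_Ypart hac hae hbc hbe, transplant_Xpart hac hae hbc hbe, ← hH]
  have h2 : (if keep then (if keep then Xpart a b c e H else (Xpart a b c e H).image (swapE a b))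
      else ((if keep then Xpart a b c e H else
        (Xpart a b c e H).image (swapE a b))).image (swapE a b)) = Xpart a b c e H := by
    cases keep
    · simp only [Bool.false_eq_true, ↓reduceIte]
      rw [Finset.image_image]
      have : (swapE a b ∘ swapE a b : Edge n → Edge n) = id := by
        funext s
        exact swapE_swapE a b s
      rw [this, Finset.image_id]
    · simp only [↓reduceIte]
  rw [h2]
  exact parts_union a b c e H

lemma transplant_hinge_ab {a b c e : Fin n} (hac : a ≠ c) (hae : a ≠ e) (hbc : b ≠ c)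
    (hbe : b ≠ e) (keep : Bool) {G G' H : Finset (Edge n)} (hGG' : hinge a b G = hinge a b G')
    (hH : hinge c e H = hinge c e G) :
    hinge a b (transplant a b c e keep G' H) = hinge a b H := by
  have e1 : ∀ s : Edge n, a ∉ s.1 → b ∉ s.1 → (s ∈ G ↔ s ∈ G') := by
    intro s ha hb
    have := congrArg (fun X => s ∈ X) hGG'
    simp only [hinge, Finset.mem_filter, eq_iff_iff] at this
    tauto
  have e2 : ∀ s : Edge n, c ∉ s.1 → e ∉ s.1 → (s ∈ H ↔ s ∈ G) := by
    intro s hc he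
    have := congrArg (fun X => s ∈ X) hH
    simp only [hinge, Finset.mem_filter, eq_iff_iff] at this
    tauto
  ext s
  constructor
  · intro hs
    obtain ⟨hs1, ha, hb⟩ := Finset.mem_filter.mp hs
    unfold transplant at hs1
    refine Finset.mem_filter.mpr ⟨?_, ha, hb⟩
    rcases Finset.mem_union.mp hs1 with h | h
    · rcases Finset.mem_union.mp h with h | h
      · obtain ⟨h0, hc, he⟩ := Finset.mem_filter.mp h
        exact (e2 s hc he).mpr ((e1 s ha hb).mpr h0)
      · exact (Finset.mem_filter.mp h).1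
    · have := mem_Xp hac hae hbc hbe h
      unfold blk at this
      tauto
  · intro hs
    obtain ⟨hs1, ha, hb⟩ := Finset.mem_filter.mp hs
    refine Finset.mem_filter.mpr ⟨?_, ha, hb⟩
    unfold transplant
    by_cases hce : c ∉ s.1 ∧ e ∉ s.1
    · exact Finset.mem_union_left _ (Finset.mem_union_left _ (Finset.mem_filter.mpr
        ⟨(e1 s ha hb).mp ((e2 s hce.1 hce.2).mp hs1), hce.1, hce.2⟩))
    · exact Finset.mem_union_left _ (Finset.mem_union_right _ (Finset.mem_filter.mpr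
        ⟨hs1, by tauto, ha, hb⟩))

/-- The transplant of a realization is a realization. -/
lemma transplant_mem {d : Fin n → ℕ} {a b c e : Fin n} (hab : a ≠ b) (hac : a ≠ c) (hae : a ≠ e)
    (hbc : b ≠ c) (hbe : b ≠ e) (hce : c ≠ e) {keep : Bool} {G G' H : Finset (Edge n)}
    (hG : G ∈ realizations d) (hG' : G' ∈ realizations d) (hH' : H ∈ realizations d)
    (hGG' : hinge a b G = hinge a b G') (hH : hinge c e H = hinge c e G)
    (hk : (keep = true ∧ rho a b c e G a = rho a b c e G' a ∧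
        rho a b c e G b = rho a b c e G' b) ∨
      (keep = false ∧ rho a b c e G' a = rho a b c e G b ∧
        rho a b c e G' b = rho a b c e G a)) :
    transplant a b c e keep G' H ∈ realizations d := by
  rw [mem_realizations]
  intro v
  have hY : Ypart a b c e G = Ypart a b c e G' := by
    rw [Ypart_eq_filter_hinge, Ypart_eq_filter_hinge, hGG']
  have dG := fun v => (deg_split3 a b c e G v).symm.trans (mem_realizations.mp hG v)
  have dG' := fun v => (deg_split3 a b c e G' v).symm.trans (mem_realizations.mp hG' v)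
  have dH := fun v => (deg_split3 a b c e H v).symm.trans (mem_realizations.mp hH' v)
  rw [deg_split3 a b c e (transplant a b c e keep G' H) v, transplant_hinge hac hae hbc hbe,
    transplant_Ypart hac hae hbc hbe, transplant_Xpart hac hae hbc hbe]
  have hXp : ∀ w, deg (if keep then Xpart a b c e H else (Xpart a b c e H).image (swapE a b)) w =
      if keep then deg (Xpart a b c e H) w else deg (Xpart a b c e H) (Equiv.swap a b w) := by
    intro w
    cases keep
    · simp only [Bool.false_eq_true, ↓reduceIte]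
      exact deg_image_swapE a b _ w
    · simp only [↓reduceIte]
  rw [hXp]
  have rG : ∀ w, rho a b c e G w = deg (Xpart a b c e G) w := fun w => rfl
  have rG' : ∀ w, rho a b c e G' w = deg (Xpart a b c e G') w := fun w => rfl
  simp only [rG, rG'] at hk
  rw [hH] at dH
  rw [hY] at dG
  by_cases hva : v = a
  · rw [hva]
    have h1 := dG a
    have h2 := dG' a
    have h3 := dH a
    have h4 := dG b
    have h5 := dH b
    rw [deg_Ypart_left] at h1 h2 h3
    rw [deg_Ypart_right] at h4 h5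
    rw [deg_Ypart_left, Equiv.swap_apply_left]
    rcases hk with ⟨hk, k1, k2⟩ | ⟨hk, k1, k2⟩
    · rw [hk]
      simp only [↓reduceIte]
      omega
    · rw [hk]
      simp only [Bool.false_eq_true, ↓reduceIte]
      omega
  by_cases hvb : v = b
  · rw [hvb]
    have h1 := dG b
    have h2 := dG' b
    have h3 := dH b
    have h4 := dG a
    have h5 := dH a
    rw [deg_Ypart_right] at h1 h2 h3
    rw [deg_Ypart_left] at h4 h5
    rw [deg_Ypart_right, Equiv.swap_apply_right]
    rcases hk with ⟨hk, k1, k2⟩ | ⟨hk, k1, k2⟩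
    · rw [hk]
      simp only [↓reduceIte]
      omega
    · rw [hk]
      simp only [Bool.false_eq_true, ↓reduceIte]
      omega
  rw [Equiv.swap_apply_of_ne_of_ne hva hvb, ite_self]
  by_cases hvc : v = c
  · rw [hvc]
    have h3 := dH c
    rw [deg_hinge_left] at h3 ⊢
    omega
  by_cases hve : v = e
  · rw [hve]
    have h3 := dH e
    rw [deg_hinge_right] at h3 ⊢
    omega
  have h1 := dG v
  have h2 := dG' v
  have h3 := dH v
  rw [deg_Xpart_other hac hae hbc hbe _ hva hvb hvc hve] at h1 h2 h3 ⊢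
  omega

/-- **Transplant lemma.** If `G`, `G'` have the same hinge label for `{a,b}` and the same
`alpha`, the `{c,e}`-fibres through them are in bijection, preserving the `{a,b}`-hinge label. -/
lemma transplant_spec {d : Fin n → ℕ} {a b c e : Fin n} (hab : a ≠ b) (hac : a ≠ c)
    (hae : a ≠ e) (hbc : b ≠ c) (hbe : b ≠ e) (hce : c ≠ e) {G G' : Finset (Edge n)}
    (hG : G ∈ realizations d) (hG' : G' ∈ realizations d) (h1 : hinge a b G = hinge a b G')
    (h2 : alpha a b c e G = alpha a b c e G') :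
    ∃ Θ Θ' : Finset (Edge n) → Finset (Edge n),
      (∀ H ∈ realizations d, hinge c e H = hinge c e G →
        Θ H ∈ realizations d ∧ hinge c e (Θ H) = hinge c e G' ∧
          hinge a b (Θ H) = hinge a b H ∧ Θ' (Θ H) = H) ∧
      (∀ H ∈ realizations d, hinge c e H = hinge c e G' →
        Θ' H ∈ realizations d ∧ hinge c e (Θ' H) = hinge c e G ∧
          hinge a b (Θ' H) = hinge a b H ∧ Θ (Θ' H) = H) := by
  have hk : ∃ keep : Bool,
      (keep = true ∧ rho a b c e G a = rho a b c e G' a ∧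
        rho a b c e G b = rho a b c e G' b) ∨
      (keep = false ∧ rho a b c e G' a = rho a b c e G b ∧
        rho a b c e G' b = rho a b c e G a) := by
    rcases rho_dichotomy hab hac hae hbc hbe hce hG hG' h1 h2 with h | h
    · exact ⟨true, Or.inl ⟨rfl, h.1, h.2⟩⟩
    · exact ⟨false, Or.inr ⟨rfl, h.1, h.2⟩⟩
  obtain ⟨keep, hk⟩ := hk
  have hk' : (keep = true ∧ rho a b c e G' a = rho a b c e G a ∧
        rho a b c e G' b = rho a b c e G b) ∨
      (keep = false ∧ rho a b c e G a = rho a b c e G' b ∧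
        rho a b c e G b = rho a b c e G' a) := by
    rcases hk with ⟨k, k1, k2⟩ | ⟨k, k1, k2⟩
    · exact Or.inl ⟨k, k1.symm, k2.symm⟩
    · exact Or.inr ⟨k, k2.symm, k1.symm⟩
  refine ⟨transplant a b c e keep G', transplant a b c e keep G, ?_, ?_⟩
  · intro H hH hHG
    exact ⟨transplant_mem hab hac hae hbc hbe hce hG hG' hH h1 hHG hk,
      transplant_hinge hac hae hbc hbe keep G' H,
      transplant_hinge_ab hac hae hbc hbe keep h1 hHG,
      transplant_transplant hac hae hbc hbe keep hHG⟩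
  · intro H hH hHG'
    exact ⟨transplant_mem hab hac hae hbc hbe hce hG' hG hH h1.symm hHG' hk',
      transplant_hinge hac hae hbc hbe keep G H,
      transplant_hinge_ab hac hae hbc hbe keep h1.symm hHG',
      transplant_transplant hac hae hbc hbe keep hHG'⟩

/-! #### measurability preservation and the theorem -/

/-- `cavg (hinge c e)` preserves `hingeA a b c e`-measurability. -/
lemma meas_hinge_hingeA {d : Fin n → ℕ} {a b c e : Fin n} (hab : a ≠ b) (hac : a ≠ c)
    (hae : a ≠ e) (hbc : b ≠ c) (hbe : b ≠ e) (hce : c ≠ e) (g : Finset (Edge n) → ℝ)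
    (hg : Meas (realizations d) (hingeA a b c e) g) :
    Meas (realizations d) (hingeA a b c e) (cavg (realizations d) (hinge c e) g) := by
  apply meas_cavg_of_bij (realizations d) (hinge c e) (hingeA a b c e) _ g hg
  intro G hG G' hG' hψ
  have h1 : hinge a b G = hinge a b G' := congrArg Prod.fst hψ
  have h2 : alpha a b c e G = alpha a b c e G' := congrArg Prod.snd hψ
  obtain ⟨Θ, Θ', t1, t2⟩ := transplant_spec hab hac hae hbc hbe hce hG hG' h1 h2
  refine ⟨Θ, Θ', ?_, ?_⟩
  · intro H hH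
    obtain ⟨hHΩ, hHG⟩ := mem_fibre.mp hH
    obtain ⟨m1, m2, m3, m4⟩ := t1 H hHΩ hHG
    refine ⟨mem_fibre.mpr ⟨m1, m2⟩, m4, ?_⟩
    unfold hingeA
    rw [m3, alpha_of_hinge hac hae hbc hbe hce m1 hG' m2, ← h2,
      ← alpha_of_hinge hac hae hbc hbe hce hHΩ hG hHG]
  · intro H hH
    obtain ⟨hHΩ, hHG'⟩ := mem_fibre.mp hH
    obtain ⟨m1, m2, m3, m4⟩ := t2 H hHΩ hHG'
    exact ⟨mem_fibre.mpr ⟨m1, m2⟩, m4⟩

/-- `cavg (hingeA a b c e)` preserves `hingeA c e a b`-measurability. -/
lemma meas_hingeA_hingeA {d : Fin n → ℕ} {a b c e : Fin n} (hab : a ≠ b) (hac : a ≠ c)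
    (hae : a ≠ e) (hbc : b ≠ c) (hbe : b ≠ e) (hce : c ≠ e) (g : Finset (Edge n) → ℝ)
    (hg : Meas (realizations d) (hingeA c e a b) g) :
    Meas (realizations d) (hingeA c e a b) (cavg (realizations d) (hingeA a b c e) g) := by
  apply meas_cavg_of_bij (realizations d) (hingeA a b c e) (hingeA c e a b) _ g hg
  intro G hG G' hG' hψ
  have h1 : hinge c e G = hinge c e G' := congrArg Prod.fst hψ
  have h2 : alpha c e a b G = alpha c e a b G' := congrArg Prod.snd hψ
  obtain ⟨Θ, Θ', t1, t2⟩ := transplant_spec (a := c) (b := e) (c := a) (e := b)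
    hce hac.symm hbc.symm hae.symm hbe.symm hab hG hG' h1 h2
  have hαGG' : alpha a b c e G = alpha a b c e G' :=
    alpha_of_hinge hac hae hbc hbe hce hG hG' h1
  refine ⟨Θ, Θ', ?_, ?_⟩
  · intro H hH
    obtain ⟨hHΩ, hHG⟩ := mem_fibre.mp hH
    have hHG1 : hinge a b H = hinge a b G := congrArg Prod.fst hHG
    have hHG2 : alpha a b c e H = alpha a b c e G := congrArg Prod.snd hHG
    obtain ⟨m1, m2, m3, m4⟩ := t1 H hHΩ hHG1
    refine ⟨mem_fibre.mpr ⟨m1, ?_⟩, m4, ?_⟩
    · unfold hingeA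
      rw [m2, alpha_of_hinge hac hae hbc hbe hce m1 hHΩ m3, hHG2, hαGG']
    · unfold hingeA
      rw [m3, alpha_of_hinge (a := c) (b := e) (c := a) (e := b) hac.symm hbc.symm hae.symm
        hbe.symm hab m1 hG' m2, ← h2,
        ← alpha_of_hinge (a := c) (b := e) (c := a) (e := b) hac.symm hbc.symm hae.symm
          hbe.symm hab hHΩ hG hHG1]
  · intro H hH
    obtain ⟨hHΩ, hHG'⟩ := mem_fibre.mp hH
    have hHG1 : hinge a b H = hinge a b G' := congrArg Prod.fst hHG'
    have hHG2 : alpha a b c e H = alpha a b c e G' := congrArg Prod.snd hHG'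
    obtain ⟨m1, m2, m3, m4⟩ := t2 H hHΩ hHG1
    refine ⟨mem_fibre.mpr ⟨m1, ?_⟩, m4⟩
    unfold hingeA
    rw [m2, alpha_of_hinge hac hae hbc hbe hce m1 hHΩ m3, hHG2, ← hαGG']

lemma hinge_of_blockX_left (a b c e : Fin n) (K : Finset (Edge n)) :
    hinge a b K = (blockX a b c e K).filter (fun s => a ∉ s.1 ∧ b ∉ s.1) := by
  unfold hinge blockX
  rw [Finset.filter_filter]
  apply Finset.filter_congr
  intro s _
  constructor
  · intro h
    refine ⟨?_, h⟩
    unfold inX
    rintro (h' | h' | h' | h')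
    · exact h.1 (by rw [h']; exact Sym2.mem_mk_left _ _)
    · exact h.1 (by rw [h']; exact Sym2.mem_mk_left _ _)
    · exact h.2 (by rw [h']; exact Sym2.mem_mk_left _ _)
    · exact h.2 (by rw [h']; exact Sym2.mem_mk_left _ _)
  · intro h
    exact h.2

lemma hinge_of_blockX_right (a b c e : Fin n) (K : Finset (Edge n)) :
    hinge c e K = (blockX a b c e K).filter (fun s => c ∉ s.1 ∧ e ∉ s.1) := by
  unfold hinge blockX
  rw [Finset.filter_filter]
  apply Finset.filter_congr
  intro s _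
  constructor
  · intro h
    refine ⟨?_, h⟩
    unfold inX
    rintro (h' | h' | h' | h')
    · exact h.1 (by rw [h']; exact Sym2.mem_mk_right _ _)
    · exact h.2 (by rw [h']; exact Sym2.mem_mk_right _ _)
    · exact h.1 (by rw [h']; exact Sym2.mem_mk_right _ _)
    · exact h.2 (by rw [h']; exact Sym2.mem_mk_right _ _)
  · intro h
    exact h.2

/-- **[CR]** of the interface `Helper47Defs`: the disjoint-pair inequality
(Steps 1-3 of the `S4 ≥ 0` proof). -/
theorem CR_holds (d : Fin n → ℕ) : CR d := by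
  intro a b c e hD f
  obtain ⟨hab, hce, hca, hcb, hea, heb⟩ := hD
  have hac : a ≠ c := hca.symm
  have hae : a ≠ e := hea.symm
  have hbc : b ≠ c := hcb.symm
  have hbe : b ≠ e := heb.symm
  have hX : ∀ x ∈ realizations d, ∀ y ∈ realizations d,
      blockX a b c e x = blockX a b c e y → hinge a b x = hinge a b y ∧ hinge c e x = hinge c e y := by
    intro x _ y _ h
    constructor
    · rw [hinge_of_blockX_left a b c e, hinge_of_blockX_left a b c e, h]
    · rw [hinge_of_blockX_right a b c e, hinge_of_blockX_right a b c e, h]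
  have key := sector_cavg (realizations d) (hinge a b) (hingeA a b c e) (hinge c e)
    (hingeA c e a b) (blockX a b c e)
    (fun x hx y hy h => by
      obtain ⟨h1, h2⟩ := hX x hx y hy h
      unfold hingeA
      rw [h1, alpha_of_hinge hac hae hbc hbe hce hx hy h2])
    (fun x _ y _ h => congrArg Prod.fst h)
    (fun x hx y hy h => by
      obtain ⟨h1, h2⟩ := hX x hx y hy h
      unfold hingeA
      rw [h2, alpha_of_hinge (a := c) (b := e) (c := a) (e := b) hca hcb hea heb hab hx hy h1])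
    (fun x _ y _ h => congrArg Prod.fst h)
    (meas_hingeA_hingeA hab hac hae hbc hbe hce)
    (meas_hinge_hingeA hab hac hae hbc hbe hce)
    (meas_hinge_hingeA (a := c) (b := e) (c := a) (e := b) hce hca hcb hea heb hab)
    f
  linarith

end graphs

end Crest.Agent.S0453.Helper96
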