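import Mathlib
import Crest.Prelude.Def_SwitchChain
import Crest.Agent.Lib.S0453.Helper47Defs
import Crest.Agent.Lib.S0453.Helper47Asm
import Crest.Agent.Lib.S0453.Helper34Conn
import Crest.Agent.Lib.S0453.Helper22EN
import Crest.Agent.Lib.S0453.Helper76HG
import Crest.Agent.Lib.S0453.Helper96Sector
import Crest.Agent.Lib.S0453.Helper27HF
import Crest.Agent.Lib.S0453.Helper76BX
import Crest.Agent.Lib.S0453.Helper82TR

/-!
# Row 299 / S0453: integration file — delivered packages in the interface shapes
-/

set_option autoImplicit false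
open Finset

namespace Crest.Agent.S0453.Helper47

open Crest.SwitchChain Crest.Agent.S0453.Helper76

variable {n : ℕ}

/-- **[CONN]** (helper34). -/
theorem conn_d (d : Fin n → ℕ) : CONN d :=
  fun f h => Crest.Agent.S0453.Helper34.hinge_invariant_const d f h

/-- **[EN4]** (helper22). -/
theorem en4_d (d : Fin n → ℕ) : EN4 d := Crest.Agent.S0453.Helper22.en4 d

/-- **[EN8]** (helper22). -/
theorem en8_d (d : Fin n → ℕ) : EN8 d := Crest.Agent.S0453.Helper22.en8 d

/-- **[HG]** (helper76). -/
theorem hg_d (d : Fin n → ℕ) : HG d := Crest.Agent.S0453.Helper76.hg d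

/-- **[CR]** (helper96). -/
theorem cr_d (d : Fin n → ℕ) : CR d := Crest.Agent.S0453.Helper96.CR_holds d

/-- **[HF]** (helper27, with helper16's frame bound and helper76's hinge fibres). -/
theorem hf_d (d : Fin n → ℕ) : HF d := Crest.Agent.S0453.Helper27.hf d

/-- **[BX]** (helper76). -/
theorem bx_d (d : Fin n → ℕ) : BX d := Crest.Agent.S0453.Helper76.bx d

/-- **[TR]** (helper82 encoder + helper69's `(R2)₃` for three-row tables, with helper58's
path-coupling lemma). -/
theorem tr_d (d : Fin n → ℕ) : TR d := Crest.Agent.S0453.Helper82.TR_main d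

/-- **S0453**: the lazy switch chain mixes within `2 n ^ 8` steps and satisfies the Poincaré
inequality with constant `24 n² C(n, 4)`. -/
theorem S0453_final (n : ℕ) (hn : 4 ≤ n) (d : Fin n → ℕ)
    (hd : (Crest.SwitchChain.realizations d).Nonempty) :
    (∃ t : ℕ, t ≤ 2 * n ^ 8 ∧ ∀ G ∈ Crest.SwitchChain.realizations d,
        Crest.SwitchChain.tvDist (fun G' => (Crest.SwitchChain.kernel n ^ t) G G')
          (Crest.SwitchChain.unifOn (Crest.SwitchChain.realizations d)) ≤ 1 / 4) ∧
      ∀ f : Finset (Crest.SwitchChain.Edge n) → ℝ,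
        ((Crest.SwitchChain.realizations d).card : ℝ) *
              (∑ G ∈ Crest.SwitchChain.realizations d, f G ^ 2) -
            (∑ G ∈ Crest.SwitchChain.realizations d, f G) ^ 2 ≤
          24 * (n : ℝ) ^ 2 * (n.choose 4 : ℝ) * (Crest.SwitchChain.realizations d).card *
            ∑ G ∈ Crest.SwitchChain.realizations d,
              f G * (f G - ∑ G' ∈ Crest.SwitchChain.realizations d,
                Crest.SwitchChain.kernel n G G' * f G') :=
  S0453_of_pieces n hn d hd (hg_d d) (hf_d d) (tr_d d) (cr_d d) (bx_d d) (en4_d d) (en8_d d)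
    (conn_d d)

end Crest.Agent.S0453.Helper47
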