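import Crest.Agent.Lib.S0453.Helper69R23Eps

/-!
# (R2)₃ for three-row tables — the `1`-edges: coupling of the fibres `J(p,t)` and `J(p+2,t+1)`
-/

set_option autoImplicit false
set_option linter.unusedSectionVars false
open Finset

namespace Crest.Agent.S0453.Helper69

/-! ### Pure Boolean facts about columns -/

lemma toNat_not_add (b : Bool) : (!b).toNat + b.toNat = 1 := by
  cases b <;> rfl

lemma bool_small : ∀ z p q : Bool,
    z.toNat + p.toNat + q.toNat = z.toNat + (!z).toNat + (!z).toNat → p = !z ∧ q = !z := by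
  decide

lemma bool_big : ∀ z p q : Bool,
    (!z).toNat + p.toNat + q.toNat = z.toNat + (!z).toNat + (!z).toNat → q = !p := by
  decide

lemma bool_big' : ∀ z p q : Bool,
    z.toNat + p.toNat + q.toNat = (!z).toNat + z.toNat + z.toNat → q = !p := by
  decide

lemma bool_free : ∀ x p q p' q' : Bool,
    x.toNat + p.toNat + q.toNat = x.toNat + p'.toNat + q'.toNat → (p ≠ q ↔ p' ≠ q') := by
  decide

lemma bool_ne_sum : ∀ p q : Bool, p ≠ q → p.toNat + q.toNat = 1 := by
  decide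

lemma bool_ne_sum' : ∀ p q : Bool, p ≠ q → (!p).toNat + (!q).toNat = 1 := by
  decide

lemma bool_ne_not : ∀ p q : Bool, p ≠ q → q = !p := by
  decide

section update
variable {C : Type} [Fintype C] [DecidableEq C]

lemma rowSum_update (M : Tab C) (c : C) (v : Fin 3 → Bool) (i : Fin 3) :
    rowSum (Function.update M c v) i + (M c i).toNat = rowSum M i + (v i).toNat := by
  unfold rowSum
  rw [← Finset.add_sum_erase univ (fun u => (Function.update M c v u i).toNat) (mem_univ c),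
    ← Finset.add_sum_erase univ (fun u => (M u i).toNat) (mem_univ c)]
  have h : ∑ u ∈ univ.erase c, (Function.update M c v u i).toNat
      = ∑ u ∈ univ.erase c, (M u i).toNat := by
    apply Finset.sum_congr rfl
    intro u hu
    rw [Function.update_of_ne (Finset.ne_of_mem_erase hu)]
  rw [h, Function.update_self]
  omega

lemma rowSum_update2 (M : Tab C) {c c' : C} (hcc : c ≠ c') (v v' : Fin 3 → Bool) (i : Fin 3) :
    rowSum (Function.update (Function.update M c v) c' v') i + (M c i).toNat + (M c' i).toNat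
      = rowSum M i + (v i).toNat + (v' i).toNat := by
  have h1 := rowSum_update (Function.update M c v) c' v' i
  have h2 := rowSum_update M c v i
  rw [Function.update_of_ne hcc.symm] at h1
  omega

lemma colSum_update_self (M : Tab C) (c : C) (v : Fin 3 → Bool) :
    colSum (Function.update M c v) c = ∑ i, (v i).toNat := by
  unfold colSum
  rw [Function.update_self]

lemma colSum_update_of_ne (M : Tab C) {c u : C} (h : u ≠ c) (v : Fin 3 → Bool) :
    colSum (Function.update M c v) u = colSum M u := by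
  unfold colSum
  rw [Function.update_of_ne h]

end update

section core
variable {C : Type} [Fintype C] [DecidableEq C]

/-- Data of a `1`-edge seen from a kept row `j`: `Z` is the endpoint in whose fibre the two
complementary columns `c`, `c'` are frozen (row `j` holds their odd entry). -/
structure CD (r : Fin 3 → ℕ) (s : C → ℕ) where
  Z : Tab C
  hZ : Z ∈ tables r s
  c : C
  c' : C
  hcc : c ≠ c'
  j : Fin 3
  k : Fin 3
  l : Fin 3
  hjk : j ≠ k
  hjl : j ≠ l
  hkl : k ≠ l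
  z : Bool
  hcj : Z c j = z
  hck : Z c k = !z
  hcl : Z c l = !z
  hc'j : Z c' j = !z
  hc'k : Z c' k = z
  hc'l : Z c' l = z

namespace CD
variable {r : Fin 3 → ℕ} {s : C → ℕ} (D : CD r s)

/-- Row `j` of the tables in the big fibre. -/
def rowB : C → Bool := fun u => if u = D.c then !D.z else if u = D.c' then D.z else D.Z u D.j

/-- The small fibre. -/
def A : Finset (Tab C) := (tables r s).filter (fun M => row D.j M = row D.j D.Z)

/-- The big fibre. -/
def B : Finset (Tab C) := (tables r s).filter (fun M => row D.j M = D.rowB)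

lemma mem_A {M : Tab C} : M ∈ D.A ↔ M ∈ tables r s ∧ row D.j M = row D.j D.Z := by
  unfold A
  rw [Finset.mem_filter]

lemma mem_B {M : Tab C} : M ∈ D.B ↔ M ∈ tables r s ∧ row D.j M = D.rowB := by
  unfold B
  rw [Finset.mem_filter]

lemma Z_mem_A : D.Z ∈ D.A := D.mem_A.mpr ⟨D.hZ, rfl⟩

lemma colSum3 (M : Tab C) (u : C) :
    colSum M u = (M u D.j).toNat + (M u D.k).toNat + (M u D.l).toNat :=
  colSum_eq D.hjk D.hjl D.hkl M u

lemma A_j {M : Tab C} (hM : M ∈ D.A) (u : C) : M u D.j = D.Z u D.j :=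
  congrFun (D.mem_A.mp hM).2 u

lemma A_colSum {M : Tab C} (hM : M ∈ D.A) (u : C) : colSum M u = colSum D.Z u := by
  rw [(mem_tables.mp (D.mem_A.mp hM).1).2 u, (mem_tables.mp D.hZ).2 u]

lemma B_colSum {M : Tab C} (hM : M ∈ D.B) (u : C) : colSum M u = colSum D.Z u := by
  rw [(mem_tables.mp (D.mem_B.mp hM).1).2 u, (mem_tables.mp D.hZ).2 u]

lemma A_rowSum {M : Tab C} (hM : M ∈ D.A) (i : Fin 3) : rowSum M i = rowSum D.Z i := by
  rw [(mem_tables.mp (D.mem_A.mp hM).1).1 i, (mem_tables.mp D.hZ).1 i]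

lemma B_rowSum {M : Tab C} (hM : M ∈ D.B) (i : Fin 3) : rowSum M i = rowSum D.Z i := by
  rw [(mem_tables.mp (D.mem_B.mp hM).1).1 i, (mem_tables.mp D.hZ).1 i]

/-- In the small fibre the columns `c`, `c'` are frozen. -/
lemma A_c {M : Tab C} (hM : M ∈ D.A) : M D.c = D.Z D.c := by
  have h1 := D.A_colSum hM D.c
  rw [D.colSum3, D.colSum3, D.A_j hM, D.hcj, D.hck, D.hcl] at h1
  obtain ⟨h2, h3⟩ := bool_small _ _ _ h1
  exact col_ext D.hjk D.hjl D.hkl (D.A_j hM D.c) (by rw [h2, D.hck]) (by rw [h3, D.hcl])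

lemma A_c' {M : Tab C} (hM : M ∈ D.A) : M D.c' = D.Z D.c' := by
  have h1 := D.A_colSum hM D.c'
  rw [D.colSum3, D.colSum3, D.A_j hM, D.hc'j, D.hc'k, D.hc'l] at h1
  have h1' : (!D.z).toNat + (M D.c' D.k).toNat + (M D.c' D.l).toNat
      = (!D.z).toNat + (!(!D.z)).toNat + (!(!D.z)).toNat := by
    rw [Bool.not_not]; exact h1
  obtain ⟨h2, h3⟩ := bool_small _ _ _ h1'
  exact col_ext D.hjk D.hjl D.hkl (D.A_j hM D.c')
    (by rw [h2, D.hc'k, Bool.not_not]) (by rw [h3, D.hc'l, Bool.not_not])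

lemma B_j {M : Tab C} (hM : M ∈ D.B) (u : C) : M u D.j = D.rowB u :=
  congrFun (D.mem_B.mp hM).2 u

lemma B_cj {M : Tab C} (hM : M ∈ D.B) : M D.c D.j = !D.z := by
  rw [D.B_j hM]
  unfold rowB
  rw [if_pos rfl]

lemma B_c'j {M : Tab C} (hM : M ∈ D.B) : M D.c' D.j = D.z := by
  rw [D.B_j hM]
  unfold rowB
  rw [if_neg D.hcc.symm, if_pos rfl]

lemma B_off {M : Tab C} (hM : M ∈ D.B) {u : C} (h1 : u ≠ D.c) (h2 : u ≠ D.c') :
    M u D.j = D.Z u D.j := by
  rw [D.B_j hM]
  unfold rowB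
  rw [if_neg h1, if_neg h2]

/-- In the big fibre the columns `c`, `c'` are free. -/
lemma B_cl {M : Tab C} (hM : M ∈ D.B) : M D.c D.l = !M D.c D.k := by
  have h1 := D.B_colSum hM D.c
  rw [D.colSum3, D.colSum3, D.B_cj hM, D.hcj, D.hck, D.hcl] at h1
  exact bool_big _ _ _ h1

lemma B_c'l {M : Tab C} (hM : M ∈ D.B) : M D.c' D.l = !M D.c' D.k := by
  have h1 := D.B_colSum hM D.c'
  rw [D.colSum3, D.colSum3, D.B_c'j hM, D.hc'j, D.hc'k, D.hc'l] at h1
  exact bool_big' _ _ _ h1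


/-! #### Free columns and their counts -/

/-- Columns where row `k` has entry `a` and row `l` has entry `!a`. -/
def Sa (a : Bool) (M : Tab C) : Finset C := univ.filter (fun u => M u D.k = a ∧ M u D.l = !a)

lemma mem_Sa {a : Bool} {M : Tab C} {u : C} : u ∈ D.Sa a M ↔ M u D.k = a ∧ M u D.l = !a := by
  simp [Sa]

/-- The free columns (rows `k` and `l` differ). -/
def Fr (M : Tab C) : Finset C := univ.filter (fun u => M u D.k ≠ M u D.l)

lemma card_Sa_diff (M : Tab C) :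
    (D.Sa true M).card + rowSum M D.l = (D.Sa false M).card + rowSum M D.k := by
  unfold Sa rowSum
  rw [Finset.card_filter, Finset.card_filter, ← Finset.sum_add_distrib,
    ← Finset.sum_add_distrib]
  apply Finset.sum_congr rfl
  intro u _
  cases M u D.k <;> cases M u D.l <;> simp

lemma card_Sa_add (M : Tab C) : (D.Sa true M).card + (D.Sa false M).card = (D.Fr M).card := by
  unfold Sa Fr
  rw [Finset.card_filter, Finset.card_filter, Finset.card_filter, ← Finset.sum_add_distrib]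
  apply Finset.sum_congr rfl
  intro u _
  cases M u D.k <;> cases M u D.l <;> simp

lemma Fr_A {M : Tab C} (hM : M ∈ D.A) : D.Fr M = D.Fr D.Z := by
  unfold Fr
  apply Finset.filter_congr
  intro u _
  have h1 := D.A_colSum hM u
  rw [D.colSum3, D.colSum3, D.A_j hM u] at h1
  exact bool_free _ _ _ _ _ h1

lemma c_notMem_Fr : D.c ∉ D.Fr D.Z := by
  unfold Fr
  simp [D.hck, D.hcl]

lemma c'_notMem_Fr : D.c' ∉ D.Fr D.Z := by
  unfold Fr
  simp [D.hc'k, D.hc'l]

lemma Fr_B {M : Tab C} (hM : M ∈ D.B) : D.Fr M = insert D.c (insert D.c' (D.Fr D.Z)) := by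
  ext u
  simp only [Fr, mem_insert, mem_filter, mem_univ, true_and]
  by_cases h1 : u = D.c
  · subst h1
    simp only [true_or, iff_true]
    rw [D.B_cl hM]
    cases M D.c D.k <;> simp
  · by_cases h2 : u = D.c'
    · subst h2
      simp only [true_or, or_true, iff_true]
      rw [D.B_c'l hM]
      cases M D.c' D.k <;> simp
    · simp only [h1, h2, false_or]
      have h3 := D.B_colSum hM u
      rw [D.colSum3, D.colSum3, D.B_off hM h1 h2] at h3
      exact bool_free _ _ _ _ _ h3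

lemma card_Fr_B {M : Tab C} (hM : M ∈ D.B) : (D.Fr M).card = (D.Fr D.Z).card + 2 := by
  rw [D.Fr_B hM, Finset.card_insert_of_notMem, Finset.card_insert_of_notMem D.c'_notMem_Fr]
  simp only [mem_insert, not_or]
  exact ⟨D.hcc, D.c_notMem_Fr⟩

lemma card_Sa_A {M : Tab C} (hM : M ∈ D.A) (a : Bool) : (D.Sa a M).card = (D.Sa a D.Z).card := by
  have h1 := D.card_Sa_diff M
  have h2 := D.card_Sa_diff D.Z
  have h3 := D.card_Sa_add M
  have h4 := D.card_Sa_add D.Z
  rw [D.Fr_A hM] at h3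
  rw [D.A_rowSum hM, D.A_rowSum hM] at h1
  cases a <;> omega

lemma card_Sa_B {M : Tab C} (hM : M ∈ D.B) (a : Bool) :
    (D.Sa a M).card = (D.Sa a D.Z).card + 1 := by
  have h1 := D.card_Sa_diff M
  have h2 := D.card_Sa_diff D.Z
  have h3 := D.card_Sa_add M
  have h4 := D.card_Sa_add D.Z
  rw [D.card_Fr_B hM] at h3
  rw [D.B_rowSum hM, D.B_rowSum hM] at h1
  cases a <;> omega

/-! #### The partner maps -/

/-- Put the columns `c`, `c'` of `Z` back. -/
def setZ (M : Tab C) : Tab C :=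
  Function.update (Function.update M D.c (D.Z D.c)) D.c' (D.Z D.c')

lemma setZ_c (M : Tab C) : D.setZ M D.c = D.Z D.c := by
  unfold setZ
  rw [Function.update_of_ne D.hcc, Function.update_self]

lemma setZ_c' (M : Tab C) : D.setZ M D.c' = D.Z D.c' := by
  unfold setZ
  rw [Function.update_self]

lemma setZ_off (M : Tab C) {u : C} (h1 : u ≠ D.c) (h2 : u ≠ D.c') : D.setZ M u = M u := by
  unfold setZ
  rw [Function.update_of_ne h2, Function.update_of_ne h1]

/-- Exchange the entries of rows `k`, `l` in column `u`. -/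
def flipAt (u : C) (M : Tab C) : Tab C :=
  Function.update M u (fun i => M u (Equiv.swap D.k D.l i))

lemma flipAt_self_j (u : C) (M : Tab C) : D.flipAt u M u D.j = M u D.j := by
  unfold flipAt
  rw [Function.update_self, Equiv.swap_apply_of_ne_of_ne D.hjk D.hjl]

lemma flipAt_self_k (u : C) (M : Tab C) : D.flipAt u M u D.k = M u D.l := by
  unfold flipAt
  rw [Function.update_self, Equiv.swap_apply_left]

lemma flipAt_self_l (u : C) (M : Tab C) : D.flipAt u M u D.l = M u D.k := by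
  unfold flipAt
  rw [Function.update_self, Equiv.swap_apply_right]

lemma flipAt_of_ne {u w : C} (h : w ≠ u) (M : Tab C) : D.flipAt u M w = M w := by
  unfold flipAt
  rw [Function.update_of_ne h]

lemma flipAt_flipAt (u : C) (M : Tab C) : D.flipAt u (D.flipAt u M) = M := by
  funext w
  by_cases h : w = u
  · subst h
    apply col_ext D.hjk D.hjl D.hkl
    · rw [D.flipAt_self_j, D.flipAt_self_j]
    · rw [D.flipAt_self_k, D.flipAt_self_l]
    · rw [D.flipAt_self_l, D.flipAt_self_k]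
  · rw [D.flipAt_of_ne h, D.flipAt_of_ne h]

/-- The column with entries `x`, `y`, `w` in rows `j`, `k`, `l`. -/
def colv (x y w : Bool) : Fin 3 → Bool := fun i => if i = D.j then x else if i = D.k then y else w

lemma colv_j (x y w : Bool) : D.colv x y w D.j = x := by
  unfold colv
  rw [if_pos rfl]

lemma colv_k (x y w : Bool) : D.colv x y w D.k = y := by
  unfold colv
  rw [if_neg D.hjk.symm, if_pos rfl]

lemma colv_l (x y w : Bool) : D.colv x y w D.l = w := by
  unfold colv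
  rw [if_neg D.hjl.symm, if_neg D.hkl.symm]

/-- Make the columns `c`, `c'` free with entries `a`, `a'` in row `k`. -/
def mkB (a a' : Bool) (M : Tab C) : Tab C :=
  Function.update (Function.update M D.c (D.colv (!D.z) a (!a))) D.c' (D.colv D.z a' (!a'))

lemma mkB_c (a a' : Bool) (M : Tab C) : D.mkB a a' M D.c = D.colv (!D.z) a (!a) := by
  unfold mkB
  rw [Function.update_of_ne D.hcc, Function.update_self]

lemma mkB_c' (a a' : Bool) (M : Tab C) : D.mkB a a' M D.c' = D.colv D.z a' (!a') := by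
  unfold mkB
  rw [Function.update_self]

lemma mkB_off (a a' : Bool) (M : Tab C) {u : C} (h1 : u ≠ D.c) (h2 : u ≠ D.c') :
    D.mkB a a' M u = M u := by
  unfold mkB
  rw [Function.update_of_ne h2, Function.update_of_ne h1]

lemma setZ_mkB (a a' : Bool) {M : Tab C} (hc : M D.c = D.Z D.c) (hc' : M D.c' = D.Z D.c') :
    D.setZ (D.mkB a a' M) = M := by
  funext w
  by_cases h2 : w = D.c'
  · subst h2
    rw [D.setZ_c', hc']
  · by_cases h1 : w = D.c
    · subst h1
      rw [D.setZ_c, hc]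
    · rw [D.setZ_off _ h1 h2, D.mkB_off _ _ _ h1 h2]

lemma mkB_setZ {a a' : Bool} {M : Tab C} (hM : M ∈ D.B) (h1 : M D.c D.k = a)
    (h2 : M D.c' D.k = a') : D.mkB a a' (D.setZ M) = M := by
  funext w
  by_cases hw2 : w = D.c'
  · subst hw2
    rw [D.mkB_c']
    apply col_ext D.hjk D.hjl D.hkl
    · rw [D.colv_j, D.B_c'j hM]
    · rw [D.colv_k, h2]
    · rw [D.colv_l, D.B_c'l hM, h2]
  · by_cases hw1 : w = D.c
    · subst hw1
      rw [D.mkB_c]
      apply col_ext D.hjk D.hjl D.hkl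
      · rw [D.colv_j, D.B_cj hM]
      · rw [D.colv_k, h1]
      · rw [D.colv_l, D.B_cl hM, h1]
    · rw [D.mkB_off _ _ _ hw1 hw2, D.setZ_off _ hw1 hw2]


/-! #### Margins of the partners -/

lemma colSum_setZ (M : Tab C) (w : C) (h : colSum M w = colSum D.Z w) :
    colSum (D.setZ M) w = colSum D.Z w := by
  by_cases h2 : w = D.c'
  · subst h2
    unfold colSum
    rw [D.setZ_c']
  · by_cases h1 : w = D.c
    · subst h1
      unfold colSum
      rw [D.setZ_c]
    · rw [← h]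
      unfold colSum
      rw [D.setZ_off _ h1 h2]

lemma colSum_flipAt (u : C) (M : Tab C) (w : C) : colSum (D.flipAt u M) w = colSum M w := by
  by_cases h : w = u
  · subst h
    rw [D.colSum3, D.colSum3, D.flipAt_self_j, D.flipAt_self_k, D.flipAt_self_l]
    omega
  · unfold colSum
    rw [D.flipAt_of_ne h]

lemma colSum_mkB (a a' : Bool) (M : Tab C) (w : C) (h : colSum M w = colSum D.Z w) :
    colSum (D.mkB a a' M) w = colSum D.Z w := by
  have hz := toNat_not_add D.z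
  by_cases h2 : w = D.c'
  · subst h2
    rw [D.colSum3, D.colSum3, D.mkB_c', D.colv_j, D.colv_k, D.colv_l, D.hc'j, D.hc'k, D.hc'l]
    have := toNat_not_add a'
    omega
  · by_cases h1 : w = D.c
    · subst h1
      rw [D.colSum3, D.colSum3, D.mkB_c, D.colv_j, D.colv_k, D.colv_l, D.hcj, D.hck, D.hcl]
      have := toNat_not_add a
      omega
    · rw [← h]
      unfold colSum
      rw [D.mkB_off _ _ _ h1 h2]

lemma rowSum_setZ (M : Tab C) (i : Fin 3) :
    rowSum (D.setZ M) i + (M D.c i).toNat + (M D.c' i).toNat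
      = rowSum M i + (D.Z D.c i).toNat + (D.Z D.c' i).toNat :=
  rowSum_update2 M D.hcc _ _ i

lemma rowSum_mkB (a a' : Bool) (M : Tab C) (i : Fin 3) :
    rowSum (D.mkB a a' M) i + (M D.c i).toNat + (M D.c' i).toNat
      = rowSum M i + (D.colv (!D.z) a (!a) i).toNat + (D.colv D.z a' (!a') i).toNat :=
  rowSum_update2 M D.hcc _ _ i

lemma rowSum_flipAt (u : C) (M : Tab C) (i : Fin 3) :
    rowSum (D.flipAt u M) i + (M u i).toNat
      = rowSum M i + (M u (Equiv.swap D.k D.l i)).toNat :=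
  rowSum_update M u _ i

lemma setZ_row_j {M : Tab C} (hM : M ∈ D.B) (w : C) : D.setZ M w D.j = D.Z w D.j := by
  by_cases h2 : w = D.c'
  · subst h2
    rw [D.setZ_c']
  · by_cases h1 : w = D.c
    · subst h1
      rw [D.setZ_c]
    · rw [D.setZ_off _ h1 h2, D.B_off hM h1 h2]

lemma mkB_row_j (a a' : Bool) {M : Tab C} (hM : ∀ w, M w D.j = D.Z w D.j) (w : C) :
    D.mkB a a' M w D.j = D.rowB w := by
  unfold rowB
  by_cases h1 : w = D.c
  · subst h1
    rw [D.mkB_c, D.colv_j, if_pos rfl]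
  · by_cases h2 : w = D.c'
    · subst h2
      rw [D.mkB_c', D.colv_j, if_neg h1, if_pos rfl]
    · rw [D.mkB_off _ _ _ h1 h2, if_neg h1, if_neg h2, hM]

/-- Balanced tables of the big fibre: the partner is obtained by putting `c`, `c'` back. -/
lemma setZ_mem_A {M : Tab C} (hM : M ∈ D.B) (hbal : M D.c D.k ≠ M D.c' D.k) :
    D.setZ M ∈ D.A := by
  rw [D.mem_A]
  have hz := toNat_not_add D.z
  refine ⟨mem_tables.mpr ⟨fun i => ?_, fun w => ?_⟩, ?_⟩
  · rw [← (mem_tables.mp D.hZ).1 i]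
    have e := D.rowSum_setZ M i
    have e2 := D.B_rowSum hM i
    rcases fin3_cases D.hjk D.hjl D.hkl i with rfl | rfl | rfl
    · rw [D.B_cj hM, D.B_c'j hM, D.hcj, D.hc'j] at e
      omega
    · rw [D.hck, D.hc'k] at e
      have := bool_ne_sum _ _ hbal
      omega
    · rw [D.B_cl hM, D.B_c'l hM, D.hcl, D.hc'l] at e
      have := bool_ne_sum' _ _ hbal
      omega
  · rw [← (mem_tables.mp D.hZ).2 w]
    exact D.colSum_setZ M w (D.B_colSum hM w)
  · funext w
    exact D.setZ_row_j hM w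

lemma Sa_ne_of_B {M : Tab C} {a : Bool} (h1 : M D.c D.k = a) (h2 : M D.c' D.k = a) {u : C}
    (hu : u ∈ D.Sa (!a) M) : u ≠ D.c ∧ u ≠ D.c' := by
  rw [D.mem_Sa] at hu
  constructor
  · rintro rfl
    rw [h1] at hu
    cases a <;> simp at hu
  · rintro rfl
    rw [h2] at hu
    cases a <;> simp at hu

lemma Sa_ne_of_A {M : Tab C} (hM : M ∈ D.A) {a : Bool} {u : C} (hu : u ∈ D.Sa a M) :
    u ≠ D.c ∧ u ≠ D.c' := by
  rw [D.mem_Sa] at hu
  constructor
  · rintro rfl
    rw [D.A_c hM, D.hck, D.hcl] at hu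
    cases a <;> cases D.z <;> simp at hu
  · rintro rfl
    rw [D.A_c' hM, D.hc'k, D.hc'l] at hu
    cases a <;> cases D.z <;> simp at hu

/-- Unbalanced tables of the big fibre: put `c`, `c'` back and flip one free column. -/
lemma flip_setZ_mem_A {M : Tab C} (hM : M ∈ D.B) {a : Bool} (h1 : M D.c D.k = a)
    (h2 : M D.c' D.k = a) {u : C} (hu : u ∈ D.Sa (!a) M) : D.flipAt u (D.setZ M) ∈ D.A := by
  obtain ⟨hu1, hu2⟩ := D.Sa_ne_of_B h1 h2 hu
  rw [D.mem_Sa, Bool.not_not] at hu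
  rw [D.mem_A]
  have hz := toNat_not_add D.z
  have ha := toNat_not_add a
  refine ⟨mem_tables.mpr ⟨fun i => ?_, fun w => ?_⟩, ?_⟩
  · rw [← (mem_tables.mp D.hZ).1 i]
    have e1 := D.rowSum_flipAt u (D.setZ M) i
    rw [D.setZ_off M hu1 hu2] at e1
    have e := D.rowSum_setZ M i
    have e2 := D.B_rowSum hM i
    rcases fin3_cases D.hjk D.hjl D.hkl i with rfl | rfl | rfl
    · rw [Equiv.swap_apply_of_ne_of_ne D.hjk D.hjl] at e1
      rw [D.B_cj hM, D.B_c'j hM, D.hcj, D.hc'j] at e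
      omega
    · rw [Equiv.swap_apply_left, hu.1, hu.2] at e1
      rw [D.hck, D.hc'k, h1, h2] at e
      omega
    · rw [Equiv.swap_apply_right, hu.1, hu.2] at e1
      rw [D.B_cl hM, D.B_c'l hM, D.hcl, D.hc'l, h1, h2] at e
      omega
  · rw [← (mem_tables.mp D.hZ).2 w, D.colSum_flipAt]
    exact D.colSum_setZ M w (D.B_colSum hM w)
  · funext w
    show D.flipAt u (D.setZ M) w D.j = D.Z w D.j
    by_cases h : w = u
    · subst h
      rw [D.flipAt_self_j, D.setZ_row_j hM]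
    · rw [D.flipAt_of_ne h, D.setZ_row_j hM]

lemma mkB_mem_B {M : Tab C} (hM : M ∈ D.A) (a : Bool) : D.mkB a (!a) M ∈ D.B := by
  rw [D.mem_B]
  have hz := toNat_not_add D.z
  have ha := toNat_not_add a
  have ha' := toNat_not_add (!a)
  refine ⟨mem_tables.mpr ⟨fun i => ?_, fun w => ?_⟩, ?_⟩
  · rw [← (mem_tables.mp D.hZ).1 i]
    have e := D.rowSum_mkB a (!a) M i
    have e2 := D.A_rowSum hM i
    rw [D.A_c hM, D.A_c' hM] at e
    rcases fin3_cases D.hjk D.hjl D.hkl i with rfl | rfl | rfl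
    · rw [D.colv_j, D.colv_j, D.hcj, D.hc'j] at e
      omega
    · rw [D.colv_k, D.colv_k, D.hck, D.hc'k] at e
      omega
    · rw [D.colv_l, D.colv_l, D.hcl, D.hc'l] at e
      omega
  · rw [← (mem_tables.mp D.hZ).2 w]
    exact D.colSum_mkB _ _ M w (D.A_colSum hM w)
  · funext w
    exact D.mkB_row_j _ _ (D.A_j hM) w

lemma mkB_flip_mem_B {M : Tab C} (hM : M ∈ D.A) {a : Bool} {u : C} (hu : u ∈ D.Sa a M) :
    D.mkB a a (D.flipAt u M) ∈ D.B := by
  obtain ⟨hu1, hu2⟩ := D.Sa_ne_of_A hM hu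
  rw [D.mem_Sa] at hu
  rw [D.mem_B]
  have hz := toNat_not_add D.z
  have ha := toNat_not_add a
  refine ⟨mem_tables.mpr ⟨fun i => ?_, fun w => ?_⟩, ?_⟩
  · rw [← (mem_tables.mp D.hZ).1 i]
    have e := D.rowSum_mkB a a (D.flipAt u M) i
    have e1 := D.rowSum_flipAt u M i
    have e2 := D.A_rowSum hM i
    rw [D.flipAt_of_ne (Ne.symm hu1), D.flipAt_of_ne (Ne.symm hu2), D.A_c hM, D.A_c' hM] at e
    rcases fin3_cases D.hjk D.hjl D.hkl i with rfl | rfl | rfl
    · rw [Equiv.swap_apply_of_ne_of_ne D.hjk D.hjl] at e1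
      rw [D.colv_j, D.colv_j, D.hcj, D.hc'j] at e
      omega
    · rw [Equiv.swap_apply_left, hu.1, hu.2] at e1
      rw [D.colv_k, D.colv_k, D.hck, D.hc'k] at e
      omega
    · rw [Equiv.swap_apply_right, hu.1, hu.2] at e1
      rw [D.colv_l, D.colv_l, D.hcl, D.hc'l] at e
      omega
  · rw [← (mem_tables.mp D.hZ).2 w]
    refine D.colSum_mkB _ _ _ w ?_
    rw [D.colSum_flipAt]
    exact D.A_colSum hM w
  · funext w
    refine D.mkB_row_j _ _ (fun w => ?_) w
    by_cases h : w = u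
    · subst h
      rw [D.flipAt_self_j, D.A_j hM]
    · rw [D.flipAt_of_ne h, D.A_j hM]


/-! #### The double counting identities -/

/-- The tables of the big fibre with given entries `a`, `a'` of row `k` in columns `c`, `c'`. -/
def Bt (a a' : Bool) : Finset (Tab C) :=
  D.B.filter (fun M => (M D.c D.k, M D.c' D.k) = (a, a'))

lemma mem_Bt {a a' : Bool} {M : Tab C} :
    M ∈ D.Bt a a' ↔ M ∈ D.B ∧ M D.c D.k = a ∧ M D.c' D.k = a' := by
  unfold Bt
  rw [Finset.mem_filter, Prod.mk.injEq]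

lemma sum_bal (a : Bool) (g : Tab C → ℝ) :
    ∑ M ∈ D.Bt a (!a), g (D.setZ M) = ∑ M ∈ D.A, g M := by
  refine Finset.sum_nbij' D.setZ (D.mkB a (!a)) ?_ ?_ ?_ ?_ ?_
  · intro M hM
    rw [D.mem_Bt] at hM
    refine D.setZ_mem_A hM.1 ?_
    rw [hM.2.1, hM.2.2]
    cases a <;> simp
  · intro M hM
    rw [D.mem_Bt]
    exact ⟨D.mkB_mem_B hM a, by rw [D.mkB_c, D.colv_k], by rw [D.mkB_c', D.colv_k]⟩
  · intro M hM
    rw [D.mem_Bt] at hM
    exact D.mkB_setZ hM.1 hM.2.1 hM.2.2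
  · intro M hM
    exact D.setZ_mkB _ _ (D.A_c hM) (D.A_c' hM)
  · intro M _
    rfl

lemma sum_both (a : Bool) (g : Tab C → ℝ) :
    ∑ M ∈ D.Bt a a, ∑ u ∈ D.Sa (!a) M, g (D.flipAt u (D.setZ M))
      = ((D.Sa a D.Z).card : ℝ) * ∑ M ∈ D.A, g M := by
  have h1 : ∑ M ∈ D.Bt a a, ∑ u ∈ D.Sa (!a) M, g (D.flipAt u (D.setZ M))
      = ∑ u : C, ∑ M ∈ (D.Bt a a).filter (fun M => u ∈ D.Sa (!a) M),
          g (D.flipAt u (D.setZ M)) := by
    apply Finset.sum_comm'
    intro M u
    simp only [mem_filter, mem_univ, and_true]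
  have h2 : ∑ M ∈ D.A, ∑ _u ∈ D.Sa a M, g M
      = ∑ u : C, ∑ M ∈ D.A.filter (fun M => u ∈ D.Sa a M), g M := by
    apply Finset.sum_comm'
    intro M u
    simp only [mem_filter, mem_univ, and_true]
  have h3 : ∀ u : C, ∑ M ∈ (D.Bt a a).filter (fun M => u ∈ D.Sa (!a) M),
      g (D.flipAt u (D.setZ M)) = ∑ M ∈ D.A.filter (fun M => u ∈ D.Sa a M), g M := by
    intro u
    refine Finset.sum_nbij' (fun M => D.flipAt u (D.setZ M)) (fun M => D.mkB a a (D.flipAt u M))
      ?_ ?_ ?_ ?_ ?_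
    · intro M hM
      rw [mem_filter, D.mem_Bt] at hM
      obtain ⟨⟨hB, hk, hk'⟩, hu⟩ := hM
      obtain ⟨hu1, hu2⟩ := D.Sa_ne_of_B hk hk' hu
      rw [mem_filter]
      refine ⟨D.flip_setZ_mem_A hB hk hk' hu, ?_⟩
      rw [D.mem_Sa, Bool.not_not] at hu
      rw [D.mem_Sa, D.flipAt_self_k, D.flipAt_self_l, D.setZ_off _ hu1 hu2]
      exact ⟨hu.2, hu.1⟩
    · intro M hM
      rw [mem_filter] at hM
      obtain ⟨hA, hu⟩ := hM
      obtain ⟨hu1, hu2⟩ := D.Sa_ne_of_A hA hu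
      rw [mem_filter, D.mem_Bt]
      refine ⟨⟨D.mkB_flip_mem_B hA hu, by rw [D.mkB_c, D.colv_k], by rw [D.mkB_c', D.colv_k]⟩, ?_⟩
      rw [D.mem_Sa] at hu
      rw [D.mem_Sa, D.mkB_off _ _ _ hu1 hu2, D.flipAt_self_k, D.flipAt_self_l, Bool.not_not]
      exact ⟨hu.2, hu.1⟩
    · intro M hM
      rw [mem_filter, D.mem_Bt] at hM
      obtain ⟨⟨hB, hk, hk'⟩, _⟩ := hM
      show D.mkB a a (D.flipAt u (D.flipAt u (D.setZ M))) = M
      rw [D.flipAt_flipAt]
      exact D.mkB_setZ hB hk hk'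
    · intro M hM
      rw [mem_filter] at hM
      obtain ⟨hA, hu⟩ := hM
      obtain ⟨hu1, hu2⟩ := D.Sa_ne_of_A hA hu
      show D.flipAt u (D.setZ (D.mkB a a (D.flipAt u M))) = M
      rw [D.setZ_mkB a a (by rw [D.flipAt_of_ne (Ne.symm hu1), D.A_c hA])
        (by rw [D.flipAt_of_ne (Ne.symm hu2), D.A_c' hA])]
      exact D.flipAt_flipAt u M
    · intro M _
      rfl
  rw [h1, Finset.sum_congr rfl (fun u _ => h3 u), ← h2, Finset.mul_sum]
  apply Finset.sum_congr rfl
  intro M hM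
  rw [Finset.sum_const, nsmul_eq_mul, D.card_Sa_A hM]


/-! #### The coupling identity -/

/-- The average of `g` over the partners (in the small fibre) of a table of the big fibre. -/
noncomputable def P (g : Tab C → ℝ) (M : Tab C) : ℝ :=
  if M D.c D.k = M D.c' D.k then
    (∑ u ∈ D.Sa (!(M D.c D.k)) M, g (D.flipAt u (D.setZ M)))
      / (((D.Sa (!(M D.c D.k)) D.Z).card : ℝ) + 1)
  else g (D.setZ M)

/-- The ratio of the sizes of the two fibres. -/
noncomputable def kap : ℝ :=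
  2 + ((D.Sa true D.Z).card : ℝ) / (((D.Sa false D.Z).card : ℝ) + 1)
    + ((D.Sa false D.Z).card : ℝ) / (((D.Sa true D.Z).card : ℝ) + 1)

lemma kap_pos : 0 < D.kap := by
  unfold kap
  positivity

lemma sum_P_both (a : Bool) (g : Tab C → ℝ) :
    ∑ M ∈ D.Bt a a, D.P g M
      = ((D.Sa a D.Z).card : ℝ) / (((D.Sa (!a) D.Z).card : ℝ) + 1) * ∑ M ∈ D.A, g M := by
  have h : ∀ M ∈ D.Bt a a, D.P g M
      = (∑ u ∈ D.Sa (!a) M, g (D.flipAt u (D.setZ M)))
          / (((D.Sa (!a) D.Z).card : ℝ) + 1) := by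
    intro M hM
    rw [D.mem_Bt] at hM
    unfold P
    rw [if_pos (by rw [hM.2.1, hM.2.2]), hM.2.1]
  rw [Finset.sum_congr rfl h, ← Finset.sum_div, D.sum_both]
  ring

lemma sum_P_bal (a : Bool) (g : Tab C → ℝ) :
    ∑ M ∈ D.Bt a (!a), D.P g M = ∑ M ∈ D.A, g M := by
  have h : ∀ M ∈ D.Bt a (!a), D.P g M = g (D.setZ M) := by
    intro M hM
    rw [D.mem_Bt] at hM
    unfold P
    rw [if_neg]
    rw [hM.2.1, hM.2.2]
    cases a <;> simp
  rw [Finset.sum_congr rfl h, D.sum_bal]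

lemma sum_P (g : Tab C → ℝ) : ∑ M ∈ D.B, D.P g M = D.kap * ∑ M ∈ D.A, g M := by
  have h := Finset.sum_fiberwise D.B (fun M => (M D.c D.k, M D.c' D.k)) (D.P g)
  rw [← h, Fintype.sum_prod_type, Fintype.sum_bool, Fintype.sum_bool, Fintype.sum_bool]
  have e : ∀ a a' : Bool, (∑ M ∈ D.B with (M D.c D.k, M D.c' D.k) = (a, a'), D.P g M)
      = ∑ M ∈ D.Bt a a', D.P g M := fun a a' => rfl
  have h1 := D.sum_P_both true g
  have h2 := D.sum_P_both false g
  have h3 := D.sum_P_bal true g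
  have h4 := D.sum_P_bal false g
  simp only [Bool.not_true, Bool.not_false] at h1 h2 h3 h4
  rw [e, e, e, e, h1, h2, h3, h4]
  unfold kap
  ring

lemma P_one {M : Tab C} (hM : M ∈ D.B) : D.P (fun _ => (1 : ℝ)) M = 1 := by
  unfold P
  split_ifs with h
  · rw [Finset.sum_const, nsmul_eq_mul, mul_one, D.card_Sa_B hM]
    push_cast
    have : (((D.Sa (!(M D.c D.k)) D.Z).card : ℝ) + 1) ≠ 0 := by positivity
    field_simp
  · rfl

lemma card_B : (D.B.card : ℝ) = D.kap * (D.A.card : ℝ) := by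
  have h := D.sum_P (fun _ => (1 : ℝ))
  rw [Finset.sum_congr rfl (fun M hM => D.P_one hM)] at h
  simpa using h

/-! #### The coupled pairs are joined by short paths -/

lemma Z_compl (i : Fin 3) : D.Z D.c' i = !D.Z D.c i := by
  rcases fin3_cases D.hjk D.hjl D.hkl i with rfl | rfl | rfl
  · rw [D.hc'j, D.hcj]
  · rw [D.hc'k, D.hck, Bool.not_not]
  · rw [D.hc'l, D.hcl, Bool.not_not]

lemma lip_bal {ε L : ℝ} (hε1 : ε ≤ 1) (hL : 0 ≤ L) (g : Tab C → ℝ)
    (hg : ∀ u ∈ tables r s, ∀ v ∈ tables r s, Rmove u v → |g u - g v| ≤ L * cost ε u v)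
    {M : Tab C} (hM : M ∈ D.B) (hbal : M D.c D.k ≠ M D.c' D.k) :
    |g M - g (D.setZ M)| ≤ L := by
  have hR : R1 M (D.setZ M) := by
    refine ⟨D.c, D.c', D.hcc, fun i => ?_, fun i => ?_, fun u h1 h2 => D.setZ_off M h1 h2⟩
    · rcases fin3_cases D.hjk D.hjl D.hkl i with rfl | rfl | rfl
      · rw [D.B_c'j hM, D.B_cj hM, Bool.not_not]
      · exact bool_ne_not _ _ hbal
      · rw [D.B_c'l hM, D.B_cl hM, bool_ne_not _ _ hbal]
    · rw [D.setZ_c', D.setZ_c]
      exact D.Z_compl i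
  have h1 := hg M (D.mem_B.mp hM).1 (D.setZ M) (D.mem_A.mp (D.setZ_mem_A hM hbal)).1 (Or.inr hR)
  exact h1.trans (mul_le_of_le_one_right hL (cost_le_one hε1 _ _))

lemma lip_both {ε L : ℝ} (hε1 : ε ≤ 1) (hL : 0 ≤ L) (g : Tab C → ℝ)
    (hg : ∀ u ∈ tables r s, ∀ v ∈ tables r s, Rmove u v → |g u - g v| ≤ L * cost ε u v)
    {M : Tab C} (hM : M ∈ D.B) {a : Bool} (h1 : M D.c D.k = a) (h2 : M D.c' D.k = a) {u : C}
    (hu : u ∈ D.Sa (!a) M) : |g M - g (D.flipAt u (D.setZ M))| ≤ L * (1 + ε) := by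
  have hT : D.flipAt u (D.setZ M) ∈ tables r s :=
    (D.mem_A.mp (D.flip_setZ_mem_A hM h1 h2 hu)).1
  have hMΩ : M ∈ tables r s := (D.mem_B.mp hM).1
  obtain ⟨hu1, hu2⟩ := D.Sa_ne_of_B h1 h2 hu
  rw [D.mem_Sa, Bool.not_not] at hu
  have key : ∀ cs : C, (cs = D.c ∨ cs = D.c') → M cs D.j = M u D.j → M cs D.k = a →
      M cs D.l = !a → (∀ i, swapCols cs u M D.c' i = !swapCols cs u M D.c i) →
      |g M - g (D.flipAt u (D.setZ M))| ≤ L * (1 + ε) := by
    intro cs hcs hj hk hl hcompl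
    have hucs : u ≠ cs := by
      rcases hcs with rfl | rfl
      · exact hu1
      · exact hu2
    have hs : s cs = s u := by
      rw [← (mem_tables.mp hMΩ).2 cs, ← (mem_tables.mp hMΩ).2 u, D.colSum3, D.colSum3, hj, hk,
        hl, hu.1, hu.2]
      omega
    have hM2 : swapCols cs u M ∈ tables r s := swapCols_mem hs hMΩ
    have e1 : |g M - g (swapCols cs u M)| ≤ L * ε := by
      have := hg M hMΩ _ hM2 (Or.inl ⟨cs, u, rfl⟩)
      rwa [cost_of_Reps ⟨cs, u, rfl⟩] at this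
    have hR : R1 (swapCols cs u M) (D.flipAt u (D.setZ M)) := by
      refine ⟨D.c, D.c', D.hcc, hcompl, fun i => ?_, fun w hw1 hw2 => ?_⟩
      · rw [D.flipAt_of_ne (Ne.symm hu2), D.flipAt_of_ne (Ne.symm hu1), D.setZ_c', D.setZ_c]
        exact D.Z_compl i
      · by_cases hwu : w = u
        · subst hwu
          show _ = M (Equiv.swap cs w w)
          rw [Equiv.swap_apply_right]
          apply col_ext D.hjk D.hjl D.hkl
          · rw [D.flipAt_self_j, D.setZ_off _ hw1 hw2, hj]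
          · rw [D.flipAt_self_k, D.setZ_off _ hw1 hw2, hu.2, hk]
          · rw [D.flipAt_self_l, D.setZ_off _ hw1 hw2, hu.1, hl]
        · rw [D.flipAt_of_ne hwu, D.setZ_off _ hw1 hw2]
          show _ = M (Equiv.swap cs u w)
          have hwcs : w ≠ cs := by
            rcases hcs with rfl | rfl
            · exact hw1
            · exact hw2
          rw [Equiv.swap_apply_of_ne_of_ne hwcs hwu]
    have e2 : |g (swapCols cs u M) - g (D.flipAt u (D.setZ M))| ≤ L :=
      (hg _ hM2 _ hT (Or.inr hR)).trans (mul_le_of_le_one_right hL (cost_le_one hε1 _ _))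
    calc |g M - g (D.flipAt u (D.setZ M))|
        ≤ |g M - g (swapCols cs u M)| + |g (swapCols cs u M) - g (D.flipAt u (D.setZ M))| :=
          abs_sub_le _ _ _
      _ ≤ L * ε + L := add_le_add e1 e2
      _ = L * (1 + ε) := by ring
  by_cases hj : M u D.j = !D.z
  · refine key D.c (Or.inl rfl) (by rw [D.B_cj hM, hj]) h1 (by rw [D.B_cl hM, h1]) ?_
    intro i
    show M (Equiv.swap D.c u D.c') i = !M (Equiv.swap D.c u D.c) i
    rw [Equiv.swap_apply_left, Equiv.swap_apply_of_ne_of_ne D.hcc.symm (Ne.symm hu2)]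
    rcases fin3_cases D.hjk D.hjl D.hkl i with rfl | rfl | rfl
    · rw [D.B_c'j hM, hj, Bool.not_not]
    · rw [h2, hu.1, Bool.not_not]
    · rw [D.B_c'l hM, h2, hu.2]
  · have hj' : M u D.j = D.z := by
      revert hj
      cases M u D.j <;> cases D.z <;> simp
    refine key D.c' (Or.inr rfl) (by rw [D.B_c'j hM, hj']) h2 (by rw [D.B_c'l hM, h2]) ?_
    intro i
    show M (Equiv.swap D.c' u D.c') i = !M (Equiv.swap D.c' u D.c) i
    rw [Equiv.swap_apply_left, Equiv.swap_apply_of_ne_of_ne D.hcc (Ne.symm hu1)]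
    rcases fin3_cases D.hjk D.hjl D.hkl i with rfl | rfl | rfl
    · rw [D.B_cj hM, hj', Bool.not_not]
    · rw [h1, hu.1]
    · rw [D.B_cl hM, h1, hu.2, Bool.not_not]

lemma lip_P {ε L : ℝ} (hε0 : 0 ≤ ε) (hε1 : ε ≤ 1) (hL : 0 ≤ L) (g : Tab C → ℝ)
    (hg : ∀ u ∈ tables r s, ∀ v ∈ tables r s, Rmove u v → |g u - g v| ≤ L * cost ε u v)
    {M : Tab C} (hM : M ∈ D.B) : |g M - D.P g M| ≤ L * (1 + ε) := by
  unfold P
  split_ifs with h
  · have hcardS := D.card_Sa_B hM (!(M D.c D.k))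
    have hne : (D.Sa (!(M D.c D.k)) M).Nonempty := Finset.card_pos.mp (by omega)
    have e : g M - (∑ u ∈ D.Sa (!(M D.c D.k)) M, g (D.flipAt u (D.setZ M)))
          / (((D.Sa (!(M D.c D.k)) D.Z).card : ℝ) + 1)
        = (∑ u ∈ D.Sa (!(M D.c D.k)) M, (g M - g (D.flipAt u (D.setZ M))))
          / ((D.Sa (!(M D.c D.k)) M).card : ℝ) := by
      rw [Finset.sum_sub_distrib, Finset.sum_const, nsmul_eq_mul, hcardS]
      push_cast
      have : (((D.Sa (!(M D.c D.k)) D.Z).card : ℝ) + 1) ≠ 0 := by positivity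
      field_simp
    rw [e]
    exact abs_sum_div_card_le hne _ _ (fun u hu => D.lip_both hε1 hL g hg hM rfl h.symm hu)
  · have h1 := D.lip_bal hε1 hL g hg hM h
    nlinarith

/-- **Core coupling bound.** The fibre averages over the small and the big fibre differ by at most
`L (1 + ε)` for functions that are `L`-Lipschitz along the moves. -/
theorem core_bound {ε L : ℝ} (hε0 : 0 ≤ ε) (hε1 : ε ≤ 1) (hL : 0 ≤ L) (g : Tab C → ℝ)
    (hg : ∀ u ∈ tables r s, ∀ v ∈ tables r s, Rmove u v → |g u - g v| ≤ L * cost ε u v)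
    {Zt : Tab C} (hZt : Zt ∈ tables r s) (hrow : row D.j Zt = D.rowB) :
    |cavg (tables r s) (row D.j) g Zt - cavg (tables r s) (row D.j) g D.Z| ≤ L * (1 + ε) := by
  have hB : fibre (tables r s) (row D.j) Zt = D.B := by
    unfold fibre B
    rw [hrow]
  have hA : fibre (tables r s) (row D.j) D.Z = D.A := rfl
  have hZtB : Zt ∈ D.B := D.mem_B.mpr ⟨hZt, hrow⟩
  have hApos : (0 : ℝ) < (D.A.card : ℝ) := by
    exact_mod_cast Finset.card_pos.mpr ⟨D.Z, D.Z_mem_A⟩
  unfold cavg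
  rw [hB, hA]
  have e : (∑ M ∈ D.A, g M) / (D.A.card : ℝ) = (∑ M ∈ D.B, D.P g M) / (D.B.card : ℝ) := by
    rw [D.sum_P, D.card_B, mul_div_mul_left _ _ (ne_of_gt D.kap_pos)]
  rw [e, ← sub_div, ← Finset.sum_sub_distrib]
  exact abs_sum_div_card_le ⟨Zt, hZtB⟩ _ _ (fun M hM => D.lip_P hε0 hε1 hL g hg hM)

end CD

end core

end Crest.Agent.S0453.Helper69
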