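import Mathlib

/-!
# (R2)₃ for three-row 0/1 tables — definitions and basic lemmas (helper69)

Model for the Caputo/Knabe route of S0453: three-row binary tables with fixed margins, the three
"keep one row, resample the other two" fibre averages, and the two kinds of elementary moves
(`Reps`: transposition of two columns; `R1`: change of a pair of complementary columns).
-/

set_option autoImplicit false
set_option linter.unusedSectionVars false
open Finset

namespace Crest.Agent.S0453.Helper69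

/-- Three-row 0/1 tables, indexed by columns. -/
abbrev Tab (C : Type) := C → Fin 3 → Bool

section cavg
variable {α β : Type*} [DecidableEq β]

/-- The fibre of the label map `φ` through `x`, inside `Ω`. -/
def fibre (Ω : Finset α) (φ : α → β) (x : α) : Finset α := Ω.filter (fun y => φ y = φ x)

lemma mem_fibre {Ω : Finset α} {φ : α → β} {x y : α} :
    y ∈ fibre Ω φ x ↔ y ∈ Ω ∧ φ y = φ x := by
  unfold fibre
  rw [Finset.mem_filter]

lemma self_mem_fibre {Ω : Finset α} (φ : α → β) {x : α} (hx : x ∈ Ω) : x ∈ fibre Ω φ x :=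
  mem_fibre.mpr ⟨hx, rfl⟩

lemma fibre_congr (Ω : Finset α) {φ : α → β} {x y : α} (h : φ x = φ y) :
    fibre Ω φ x = fibre Ω φ y := by
  unfold fibre
  rw [h]

lemma fibre_card_pos {Ω : Finset α} (φ : α → β) {x : α} (hx : x ∈ Ω) :
    (0 : ℝ) < ((fibre Ω φ x).card : ℝ) := by
  exact_mod_cast Finset.card_pos.mpr ⟨x, self_mem_fibre φ hx⟩

/-- The fibre average of `f` (conditional expectation given the label `φ`, uniform law on `Ω`). -/
noncomputable def cavg (Ω : Finset α) (φ : α → β) (f : α → ℝ) (x : α) : ℝ :=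
  (∑ y ∈ fibre Ω φ x, f y) / ((fibre Ω φ x).card : ℝ)

lemma cavg_congr_fibre (Ω : Finset α) {φ : α → β} (f : α → ℝ) {x y : α} (h : φ x = φ y) :
    cavg Ω φ f x = cavg Ω φ f y := by
  unfold cavg
  rw [fibre_congr Ω h]

/-- The average of a bounded function over a nonempty finset is bounded. -/
lemma abs_sum_div_card_le {A : Finset α} (hA : A.Nonempty) (h : α → ℝ) (B : ℝ)
    (hB : ∀ a ∈ A, |h a| ≤ B) : |(∑ a ∈ A, h a) / (A.card : ℝ)| ≤ B := by
  have hpos : (0 : ℝ) < (A.card : ℝ) := by exact_mod_cast Finset.card_pos.mpr hA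
  rw [abs_div, abs_of_pos hpos, div_le_iff₀ hpos]
  calc |∑ a ∈ A, h a| ≤ ∑ a ∈ A, |h a| := Finset.abs_sum_le_sum_abs _ _
    _ ≤ ∑ _a ∈ A, B := Finset.sum_le_sum hB
    _ = B * (A.card : ℝ) := by rw [Finset.sum_const, nsmul_eq_mul, mul_comm]

end cavg

/-! ### The three rows -/

lemma fin3_cases {j k l : Fin 3} (hjk : j ≠ k) (hjl : j ≠ l) (hkl : k ≠ l) (i : Fin 3) :
    i = j ∨ i = k ∨ i = l := by
  revert j k l i
  decide

lemma fin3_univ {j k l : Fin 3} (hjk : j ≠ k) (hjl : j ≠ l) (hkl : k ≠ l) :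
    (univ : Finset (Fin 3)) = {j, k, l} := by
  revert j k l
  decide

lemma fin3_others (j : Fin 3) : ∃ k l : Fin 3, j ≠ k ∧ j ≠ l ∧ k ≠ l := by
  revert j
  decide

lemma sum_fin3 {M : Type*} [AddCommMonoid M] {j k l : Fin 3} (hjk : j ≠ k) (hjl : j ≠ l)
    (hkl : k ≠ l) (φ : Fin 3 → M) : ∑ i, φ i = φ j + φ k + φ l := by
  rw [fin3_univ hjk hjl hkl, sum_insert (by simp [hjk, hjl]), sum_insert (by simp [hkl]),
    sum_singleton, add_assoc]

lemma col_ext {j k l : Fin 3} (hjk : j ≠ k) (hjl : j ≠ l) (hkl : k ≠ l) {v w : Fin 3 → Bool}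
    (h1 : v j = w j) (h2 : v k = w k) (h3 : v l = w l) : v = w := by
  funext i
  rcases fin3_cases hjk hjl hkl i with rfl | rfl | rfl <;> assumption

section tables
variable {C : Type} [Fintype C] [DecidableEq C]

/-- Row sum of row `i`. -/
def rowSum (M : Tab C) (i : Fin 3) : ℕ := ∑ c, (M c i).toNat

/-- Column sum of column `c`. -/
def colSum (M : Tab C) (c : C) : ℕ := ∑ i, (M c i).toNat

/-- All tables with row sums `r` and column sums `s`. -/
def tables (r : Fin 3 → ℕ) (s : C → ℕ) : Finset (Tab C) :=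
  univ.filter (fun M => (∀ i, rowSum M i = r i) ∧ ∀ c, colSum M c = s c)

lemma mem_tables {r : Fin 3 → ℕ} {s : C → ℕ} {M : Tab C} :
    M ∈ tables r s ↔ (∀ i, rowSum M i = r i) ∧ ∀ c, colSum M c = s c := by
  simp [tables]

/-- Row `j` of a table. -/
def row (j : Fin 3) (M : Tab C) : C → Bool := fun c => M c j

lemma colSum_eq {j k l : Fin 3} (hjk : j ≠ k) (hjl : j ≠ l) (hkl : k ≠ l) (M : Tab C) (c : C) :
    colSum M c = (M c j).toNat + (M c k).toNat + (M c l).toNat :=
  sum_fin3 hjk hjl hkl _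

/-- Transposition of two columns. -/
def swapCols (c c' : C) (M : Tab C) : Tab C := fun u => M (Equiv.swap c c' u)

@[simp] lemma swapCols_swapCols (c c' : C) (M : Tab C) : swapCols c c' (swapCols c c' M) = M := by
  funext u
  simp [swapCols]

lemma rowSum_swapCols (c c' : C) (M : Tab C) (i : Fin 3) :
    rowSum (swapCols c c' M) i = rowSum M i := by
  unfold rowSum swapCols
  exact Equiv.sum_comp (Equiv.swap c c') (fun u => (M u i).toNat)

lemma colSum_swapCols (c c' : C) (M : Tab C) (u : C) :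
    colSum (swapCols c c' M) u = colSum M (Equiv.swap c c' u) := rfl

lemma swapCols_mem {r : Fin 3 → ℕ} {s : C → ℕ} {c c' : C} (hs : s c = s c') {M : Tab C}
    (hM : M ∈ tables r s) : swapCols c c' M ∈ tables r s := by
  rw [mem_tables] at hM ⊢
  refine ⟨fun i => by rw [rowSum_swapCols]; exact hM.1 i, fun u => ?_⟩
  rw [colSum_swapCols, hM.2]
  by_cases h1 : u = c
  · subst h1
    rw [Equiv.swap_apply_left]
    exact hs.symm
  · by_cases h2 : u = c'
    · subst h2
      rw [Equiv.swap_apply_right]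
      exact hs
    · rw [Equiv.swap_apply_of_ne_of_ne h1 h2]

lemma row_swapCols (c c' : C) (M : Tab C) (j : Fin 3) :
    row j (swapCols c c' M) = fun u => row j M (Equiv.swap c c' u) := rfl

/-- `ε`-moves: transposition of two columns. -/
def Reps (x y : Tab C) : Prop := ∃ c c' : C, y = swapCols c c' x

/-- `1`-moves: a pair of complementary columns is replaced by another pair of complementary
columns. -/
def R1 (x y : Tab C) : Prop :=
  ∃ c c' : C, c ≠ c' ∧ (∀ i, x c' i = !x c i) ∧ (∀ i, y c' i = !y c i) ∧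
    ∀ u, u ≠ c → u ≠ c' → y u = x u

/-- The moves. -/
def Rmove (x y : Tab C) : Prop := Reps x y ∨ R1 x y

open Classical in
/-- Cost of a move: `ε` for column transpositions, `1` otherwise. -/
noncomputable def cost (ε : ℝ) (x y : Tab C) : ℝ := if Reps x y then ε else 1

lemma cost_of_Reps {ε : ℝ} {x y : Tab C} (h : Reps x y) : cost ε x y = ε := by
  unfold cost
  rw [if_pos h]

lemma cost_le_one {ε : ℝ} (hε : ε ≤ 1) (x y : Tab C) : cost ε x y ≤ 1 := by
  unfold cost
  split_ifs
  · exact hε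
  · exact le_refl 1

lemma cost_pos {ε : ℝ} (hε : 0 < ε) (x y : Tab C) : 0 < cost ε x y := by
  unfold cost
  split_ifs
  · exact hε
  · exact one_pos

/-- The Markov operator: keep a uniformly chosen row, resample the two others. -/
noncomputable def K3 (r : Fin 3 → ℕ) (s : C → ℕ) (g : Tab C → ℝ) (x : Tab C) : ℝ :=
  (1 / 3 : ℝ) * ∑ j : Fin 3, cavg (tables r s) (row j) g x

end tables

end Crest.Agent.S0453.Helper69
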