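import Crest.Agent.Lib.S0453.Helper69R23Defs

/-!
# (R2)₃ for three-row tables — the `ε`-edges (column transpositions) and `K3` bookkeeping
-/

set_option autoImplicit false
set_option linter.unusedSectionVars false
open Finset

namespace Crest.Agent.S0453.Helper69

section
variable {C : Type} [Fintype C] [DecidableEq C] {r : Fin 3 → ℕ} {s : C → ℕ}

/-- Column transposition maps the fibre of `x` onto the fibre of the transposed table, so the two
fibre averages differ by at most the oscillation of `g` along column transpositions. -/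
lemma eps_row {c c' : C} (hs : s c = s c') {x : Tab C} (hx : x ∈ tables r s) (g : Tab C → ℝ)
    (B : ℝ) (hg : ∀ M ∈ tables r s, |g (swapCols c c' M) - g M| ≤ B) (j : Fin 3) :
    |cavg (tables r s) (row j) g (swapCols c c' x) - cavg (tables r s) (row j) g x| ≤ B := by
  have hmaps : ∀ (y : Tab C), ∀ M ∈ fibre (tables r s) (row j) y,
      swapCols c c' M ∈ fibre (tables r s) (row j) (swapCols c c' y) := by
    intro y M hM
    rw [mem_fibre] at hM ⊢
    refine ⟨swapCols_mem hs hM.1, ?_⟩
    rw [row_swapCols, row_swapCols, hM.2]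
  have hmaps' : ∀ M ∈ fibre (tables r s) (row j) (swapCols c c' x),
      swapCols c c' M ∈ fibre (tables r s) (row j) x := by
    intro M hM
    have := hmaps _ M hM
    rwa [swapCols_swapCols] at this
  have hsum : ∑ M ∈ fibre (tables r s) (row j) (swapCols c c' x), g M
      = ∑ M ∈ fibre (tables r s) (row j) x, g (swapCols c c' M) := by
    refine Finset.sum_nbij' (swapCols c c') (swapCols c c') hmaps' (hmaps x) ?_ ?_ ?_
    · intro M _; exact swapCols_swapCols c c' M
    · intro M _; exact swapCols_swapCols c c' M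
    · intro M _; rw [swapCols_swapCols]
  have hcard : (fibre (tables r s) (row j) (swapCols c c' x)).card
      = (fibre (tables r s) (row j) x).card := by
    refine Finset.card_nbij' (swapCols c c') (swapCols c c') hmaps' (hmaps x) ?_ ?_
    · intro M _; exact swapCols_swapCols c c' M
    · intro M _; exact swapCols_swapCols c c' M
  unfold cavg
  rw [hsum, hcard, ← sub_div, ← Finset.sum_sub_distrib]
  exact abs_sum_div_card_le ⟨x, self_mem_fibre _ hx⟩ _ B (fun M hM => hg M (mem_fibre.mp hM).1)

lemma exists_row_eq_of_sum_eq (v w : Fin 3 → Bool)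
    (h : ∑ i, (v i).toNat = ∑ i, (w i).toNat) : ∃ j, v j = w j := by
  revert v w
  decide

/-- If two columns have the same sum, their transposition fixes one of the three rows. -/
lemma eps_row_zero {c c' : C} (hs : s c = s c') {x : Tab C} (hx : x ∈ tables r s) :
    ∃ j, row j (swapCols c c' x) = row j x := by
  have h1 := (mem_tables.mp hx).2 c
  have h2 := (mem_tables.mp hx).2 c'
  obtain ⟨j, hj⟩ := exists_row_eq_of_sum_eq (x c) (x c') (by
    have : colSum x c = colSum x c' := by rw [h1, h2, hs]
    exact this)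
  refine ⟨j, ?_⟩
  funext u
  show x (Equiv.swap c c' u) j = x u j
  by_cases h1 : u = c
  · subst h1
    rw [Equiv.swap_apply_left]
    exact hj.symm
  · by_cases h2 : u = c'
    · subst h2
      rw [Equiv.swap_apply_right]
      exact hj
    · rw [Equiv.swap_apply_of_ne_of_ne h1 h2]

lemma sum_abs_fin3_le {a : Fin 3 → ℝ} {B : ℝ} (hB : ∀ j, |a j| ≤ B) (j0 : Fin 3)
    (h0 : a j0 = 0) : ∑ j, |a j| ≤ 2 * B := by
  obtain ⟨k, l, hjk, hjl, hkl⟩ := fin3_others j0
  rw [sum_fin3 hjk hjl hkl, h0, abs_zero]
  linarith [hB k, hB l]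

lemma abs_K3_sub_le (g : Tab C → ℝ) (x y : Tab C) {B : ℝ}
    (hB : ∀ j, |cavg (tables r s) (row j) g x - cavg (tables r s) (row j) g y| ≤ B)
    (j0 : Fin 3) (h0 : cavg (tables r s) (row j0) g x = cavg (tables r s) (row j0) g y) :
    |K3 r s g x - K3 r s g y| ≤ 2 / 3 * B := by
  have e : K3 r s g x - K3 r s g y
      = (1 / 3 : ℝ) * ∑ j : Fin 3,
          (cavg (tables r s) (row j) g x - cavg (tables r s) (row j) g y) := by
    unfold K3
    rw [← mul_sub, Finset.sum_sub_distrib]
  rw [e, abs_mul, abs_of_pos (by norm_num : (0 : ℝ) < 1 / 3)]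
  have h1 : |∑ j : Fin 3, (cavg (tables r s) (row j) g x - cavg (tables r s) (row j) g y)|
      ≤ 2 * B :=
    (Finset.abs_sum_le_sum_abs _ _).trans
      (sum_abs_fin3_le (a := fun j => cavg (tables r s) (row j) g x
        - cavg (tables r s) (row j) g y) hB j0 (by simp [h0]))
  linarith

/-- Lipschitz contraction along an `ε`-edge. -/
lemma hlip_eps (ε L : ℝ) (g : Tab C → ℝ)
    (hg : ∀ u ∈ tables r s, ∀ v ∈ tables r s, Rmove u v → |g u - g v| ≤ L * cost ε u v)
    {x y : Tab C} (hx : x ∈ tables r s) (hy : y ∈ tables r s) (h : Reps x y) :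
    |K3 r s g x - K3 r s g y| ≤ 2 / 3 * (L * ε) := by
  obtain ⟨c, c', rfl⟩ := h
  have hs : s c = s c' := by
    have h1 := (mem_tables.mp hy).2 c
    rw [colSum_swapCols, Equiv.swap_apply_left, (mem_tables.mp hx).2 c'] at h1
    exact h1.symm
  have hB : ∀ M ∈ tables r s, |g (swapCols c c' M) - g M| ≤ L * ε := by
    intro M hM
    have h1 := hg M hM (swapCols c c' M) (swapCols_mem hs hM) (Or.inl ⟨c, c', rfl⟩)
    rw [cost_of_Reps ⟨c, c', rfl⟩] at h1
    rwa [abs_sub_comm]
  obtain ⟨j0, hj0⟩ := eps_row_zero (r := r) hs hx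
  have h2 := abs_K3_sub_le (r := r) (s := s) g (swapCols c c' x) x
    (fun j => eps_row hs hx g _ hB j) j0 (cavg_congr_fibre _ g hj0)
  rwa [abs_sub_comm]

end

end Crest.Agent.S0453.Helper69
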