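import Crest.Agent.Lib.S0453.Helper69R23Core

/-!
# (R2)₃ for three-row tables — Lipschitz contraction of `K3` along all moves
-/

set_option autoImplicit false
set_option linter.unusedSectionVars false
open Finset

namespace Crest.Agent.S0453.Helper69

lemma bool_small_or : ∀ a b c a' b' c' : Bool, a ≠ a' →
    a.toNat + b.toNat + c.toNat = a'.toNat + b'.toNat + c'.toNat →
    (b = !a ∧ c = !a) ∨ (b' = !a' ∧ c' = !a') := by
  decide

section
variable {C : Type} [Fintype C] [DecidableEq C] {r : Fin 3 → ℕ} {s : C → ℕ}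

/-- If the two tables of a `1`-edge agree at `(c, j)` they have the same row `j`. -/
lemma one_row_eq {x y : Tab C} {c c' : C} (hx : ∀ i, x c' i = !x c i) (hy : ∀ i, y c' i = !y c i)
    (hoff : ∀ u, u ≠ c → u ≠ c' → y u = x u) {j : Fin 3} (h : x c j = y c j) :
    row j x = row j y := by
  funext u
  show x u j = y u j
  by_cases h1 : u = c
  · subst h1
    exact h
  · by_cases h2 : u = c'
    · subst h2
      rw [hx, hy, h]
    · rw [hoff u h1 h2]

/-- One kept row along a `1`-edge, oriented: `x` is the endpoint with the small fibre. -/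
lemma one_row_small {ε L : ℝ} (hε0 : 0 ≤ ε) (hε1 : ε ≤ 1) (hL : 0 ≤ L) (g : Tab C → ℝ)
    (hg : ∀ u ∈ tables r s, ∀ v ∈ tables r s, Rmove u v → |g u - g v| ≤ L * cost ε u v)
    {x y : Tab C} (hxΩ : x ∈ tables r s) (hyΩ : y ∈ tables r s) {c c' : C} (hcc : c ≠ c')
    (hx : ∀ i, x c' i = !x c i) (hy : ∀ i, y c' i = !y c i)
    (hoff : ∀ u, u ≠ c → u ≠ c' → y u = x u) {j k l : Fin 3} (hjk : j ≠ k) (hjl : j ≠ l)
    (hkl : k ≠ l) (hne : x c j ≠ y c j) (hk : x c k = !x c j) (hl : x c l = !x c j) :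
    |cavg (tables r s) (row j) g x - cavg (tables r s) (row j) g y| ≤ L * (1 + ε) := by
  let D : CD r s :=
    { Z := x, hZ := hxΩ, c := c, c' := c', hcc := hcc, j := j, k := k, l := l,
      hjk := hjk, hjl := hjl, hkl := hkl, z := x c j,
      hcj := rfl, hck := hk, hcl := hl,
      hc'j := hx j,
      hc'k := by rw [hx k, hk, Bool.not_not],
      hc'l := by rw [hx l, hl, Bool.not_not] }
  have hrow : row D.j y = D.rowB := by
    funext u
    show y u j = if u = c then !x c j else if u = c' then x c j else x u j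
    by_cases h1 : u = c
    · subst h1
      rw [if_pos rfl]
      revert hne
      cases x u j <;> cases y u j <;> simp
    · by_cases h2 : u = c'
      · subst h2
        rw [if_neg h1, if_pos rfl, hy]
        revert hne
        cases x c j <;> cases y c j <;> simp
      · rw [if_neg h1, if_neg h2, hoff u h1 h2]
  have h := D.core_bound hε0 hε1 hL g hg hyΩ hrow
  rw [abs_sub_comm]
  exact h

/-- One kept row along a `1`-edge. -/
lemma one_row {ε L : ℝ} (hε0 : 0 ≤ ε) (hε1 : ε ≤ 1) (hL : 0 ≤ L) (g : Tab C → ℝ)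
    (hg : ∀ u ∈ tables r s, ∀ v ∈ tables r s, Rmove u v → |g u - g v| ≤ L * cost ε u v)
    {x y : Tab C} (hxΩ : x ∈ tables r s) (hyΩ : y ∈ tables r s) {c c' : C} (hcc : c ≠ c')
    (hx : ∀ i, x c' i = !x c i) (hy : ∀ i, y c' i = !y c i)
    (hoff : ∀ u, u ≠ c → u ≠ c' → y u = x u) (j : Fin 3) :
    |cavg (tables r s) (row j) g x - cavg (tables r s) (row j) g y| ≤ L * (1 + ε) := by
  have hnn : 0 ≤ L * (1 + ε) := mul_nonneg hL (by linarith)
  by_cases h : x c j = y c j
  · rw [cavg_congr_fibre _ g (one_row_eq hx hy hoff h), sub_self, abs_zero]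
    exact hnn
  · obtain ⟨k, l, hjk, hjl, hkl⟩ := fin3_others j
    have hsum : (x c j).toNat + (x c k).toNat + (x c l).toNat
        = (y c j).toNat + (y c k).toNat + (y c l).toNat := by
      rw [← colSum_eq hjk hjl hkl x c, ← colSum_eq hjk hjl hkl y c, (mem_tables.mp hxΩ).2 c,
        (mem_tables.mp hyΩ).2 c]
    rcases bool_small_or _ _ _ _ _ _ h hsum with ⟨hk, hl⟩ | ⟨hk, hl⟩
    · exact one_row_small hε0 hε1 hL g hg hxΩ hyΩ hcc hx hy hoff hjk hjl hkl h hk hl
    · have h' := one_row_small hε0 hε1 hL g hg hyΩ hxΩ hcc hy hx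
        (fun u h1 h2 => (hoff u h1 h2).symm) hjk hjl hkl (Ne.symm h) hk hl
      rw [abs_sub_comm]
      exact h'

/-- Lipschitz contraction along a `1`-edge. -/
lemma hlip_one {ε L : ℝ} (hε0 : 0 ≤ ε) (hε1 : ε ≤ 1) (hL : 0 ≤ L) (g : Tab C → ℝ)
    (hg : ∀ u ∈ tables r s, ∀ v ∈ tables r s, Rmove u v → |g u - g v| ≤ L * cost ε u v)
    {x y : Tab C} (hxΩ : x ∈ tables r s) (hyΩ : y ∈ tables r s) (h : R1 x y) :
    |K3 r s g x - K3 r s g y| ≤ 2 / 3 * (L * (1 + ε)) := by
  obtain ⟨c, c', hcc, hx, hy, hoff⟩ := h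
  obtain ⟨j0, hj0⟩ := exists_row_eq_of_sum_eq (x c) (y c) (by
    have : colSum x c = colSum y c := by
      rw [(mem_tables.mp hxΩ).2 c, (mem_tables.mp hyΩ).2 c]
    exact this)
  exact abs_K3_sub_le g x y (fun j => one_row hε0 hε1 hL g hg hxΩ hyΩ hcc hx hy hoff j) j0
    (cavg_congr_fibre _ g (one_row_eq hx hy hoff hj0))

/-- **Lipschitz contraction of `K3`** with constant `(2/3)(1+ε)` along all moves, in the form
required by the abstract path-coupling lemma. -/
theorem hlip_table {ε : ℝ} (hε0 : 0 ≤ ε) (hε1 : ε ≤ 1) (g : Tab C → ℝ) (L : ℝ) (hL : 0 ≤ L)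
    (hg : ∀ u ∈ tables r s, ∀ v ∈ tables r s, Rmove u v → |g u - g v| ≤ L * cost ε u v)
    (x : Tab C) (hxΩ : x ∈ tables r s) (y : Tab C) (hyΩ : y ∈ tables r s) (h : Rmove x y) :
    |K3 r s g x - K3 r s g y| ≤ 2 / 3 * (1 + ε) * L * cost ε x y := by
  by_cases hR : Reps x y
  · rw [cost_of_Reps hR]
    have h1 := hlip_eps ε L g hg hxΩ hyΩ hR
    have h2 : 0 ≤ L * ε := mul_nonneg hL hε0
    nlinarith [mul_nonneg h2 hε0]
  · have hR1 : R1 x y := h.resolve_left hR
    have h1 := hlip_one hε0 hε1 hL g hg hxΩ hyΩ hR1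
    have hc : cost ε x y = 1 := by
      unfold cost
      rw [if_neg hR]
    rw [hc]
    linarith

end

end Crest.Agent.S0453.Helper69
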