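import Mathlib
import Crest.Prelude.Def_SwitchChain
import Crest.Agent.Lib.S0453.Helper76Knabe
import Crest.Agent.Lib.S0453.Helper47Defs

/-!
# Row 299 (S0453), package [TR]: the triple inequality `H_T² ≥ H_T`

* Part A (`tri_abs`): on a finite set with three label maps, the `(R2)_3` bound
  `∑_j ⟨g, E_j g⟩ ≤ 2‖g‖² + (∑ g)²/|Ω|` implies `∑_{j<k} ⟨P_j f, P_k f⟩ ≥ 0`.
* Part B (`tri_fibrewise`): the same statement localises to the fibres of a coarser label.
* `TR_of_fibrewise`: the graph form (hinge labels on `realizations d`, fibres of the triple label).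
-/

set_option autoImplicit false
open Finset

namespace Crest.Agent.S0453.Helper82

open Crest.SwitchChain
open Crest.Agent.S0453.Helper76

section abs
variable {α β γ : Type*} [DecidableEq α] [DecidableEq β] [DecidableEq γ]

/-- Subtracting a constant commutes with fibre averages (on `Om`). -/
lemma cavg_sub_const (Om : Finset α) (φ : α → β) (f : α → ℝ) (m : ℝ) {x : α} (hx : x ∈ Om) :
    cavg Om φ (fun y => f y - m) x = cavg Om φ f x - m := by
  have hpos := fibre_card_pos φ hx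
  unfold cavg
  rw [Finset.sum_sub_distrib, Finset.sum_const, nsmul_eq_mul, sub_div]
  congr 1
  field_simp

/-- **Part A.** `(R2)_3` in quadratic form implies `‖H_T f‖² ≥ ⟨f, H_T f⟩`, i.e. the sum of the
three cross terms `⟨P_j f, P_k f⟩` is nonnegative. -/
theorem tri_abs (Om : Finset α) (φ0 φ1 φ2 : α → β)
    (h : ∀ g : α → ℝ, ∑ x ∈ Om, g x * cavg Om φ0 g x + ∑ x ∈ Om, g x * cavg Om φ1 g x
        + ∑ x ∈ Om, g x * cavg Om φ2 g x
        ≤ 2 * ∑ x ∈ Om, g x ^ 2 + (∑ x ∈ Om, g x) ^ 2 / (Om.card : ℝ))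
    (f : α → ℝ) :
    0 ≤ ∑ x ∈ Om, ((f x - cavg Om φ0 f x) * (f x - cavg Om φ1 f x)
        + (f x - cavg Om φ0 f x) * (f x - cavg Om φ2 f x)
        + (f x - cavg Om φ1 f x) * (f x - cavg Om φ2 f x)) := by
  set m : ℝ := (∑ x ∈ Om, f x) / (Om.card : ℝ) with hm
  set g : α → ℝ := fun y => f y - m with hg
  have hP : ∀ (φ : α → β), ∀ x ∈ Om, g x - cavg Om φ g x = f x - cavg Om φ f x := by
    intro φ x hx
    rw [hg, cavg_sub_const Om φ f m hx]
    ring
  have hsum : ∑ x ∈ Om, g x = 0 := by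
    rcases Om.eq_empty_or_nonempty with h0 | hne
    · rw [h0]
      simp
    · have hc : (0 : ℝ) < (Om.card : ℝ) := by exact_mod_cast Finset.card_pos.mpr hne
      simp only [hg]
      rw [Finset.sum_sub_distrib, Finset.sum_const, nsmul_eq_mul, hm]
      field_simp
      ring
  set A : ℝ := ∑ x ∈ Om, g x ^ 2 with hA
  set Hg : α → ℝ := fun x =>
    (g x - cavg Om φ0 g x) + (g x - cavg Om φ1 g x) + (g x - cavg Om φ2 g x) with hHg
  set Q : ℝ := ∑ x ∈ Om, g x * Hg x with hQ
  set N : ℝ := ∑ x ∈ Om, Hg x ^ 2 with hN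
  have hQA : A ≤ Q := by
    have h1 := h g
    rw [hsum] at h1
    have e : Q = 3 * A - (∑ x ∈ Om, g x * cavg Om φ0 g x + ∑ x ∈ Om, g x * cavg Om φ1 g x
        + ∑ x ∈ Om, g x * cavg Om φ2 g x) := by
      simp only [hQ, hHg, hA]
      rw [Finset.mul_sum, ← Finset.sum_add_distrib, ← Finset.sum_add_distrib,
        ← Finset.sum_sub_distrib]
      apply Finset.sum_congr rfl
      intro x _
      ring
    rw [e]
    have h2 : (0 : ℝ) ^ 2 / (Om.card : ℝ) = 0 := by simp
    rw [h2] at h1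
    linarith
  have hCS : Q ^ 2 ≤ A * N := Finset.sum_mul_sq_le_sq_mul_sq Om g Hg
  have hA0 : 0 ≤ A := Finset.sum_nonneg (fun x _ => sq_nonneg _)
  have hN0 : 0 ≤ N := Finset.sum_nonneg (fun x _ => sq_nonneg _)
  have hQN : Q ≤ N := by
    by_contra hlt
    rw [not_le] at hlt
    have hQ0 : 0 ≤ Q := hA0.trans hQA
    nlinarith [mul_le_mul_of_nonneg_right hQA hN0]
  have e0 := sum_sq_sub_cavg Om φ0 g
  have e1 := sum_sq_sub_cavg Om φ1 g
  have e2 := sum_sq_sub_cavg Om φ2 g
  have key : N - Q = 2 * ∑ x ∈ Om, ((g x - cavg Om φ0 g x) * (g x - cavg Om φ1 g x)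
        + (g x - cavg Om φ0 g x) * (g x - cavg Om φ2 g x)
        + (g x - cavg Om φ1 g x) * (g x - cavg Om φ2 g x)) := by
    have e : N - Q = (∑ x ∈ Om, (g x - cavg Om φ0 g x) ^ 2 - ∑ x ∈ Om, g x * (g x - cavg Om φ0 g x))
        + (∑ x ∈ Om, (g x - cavg Om φ1 g x) ^ 2 - ∑ x ∈ Om, g x * (g x - cavg Om φ1 g x))
        + (∑ x ∈ Om, (g x - cavg Om φ2 g x) ^ 2 - ∑ x ∈ Om, g x * (g x - cavg Om φ2 g x))
        + 2 * ∑ x ∈ Om, ((g x - cavg Om φ0 g x) * (g x - cavg Om φ1 g x)
        + (g x - cavg Om φ0 g x) * (g x - cavg Om φ2 g x)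
        + (g x - cavg Om φ1 g x) * (g x - cavg Om φ2 g x)) := by
      simp only [hN, hQ, hHg]
      rw [Finset.mul_sum]
      simp only [← Finset.sum_sub_distrib, ← Finset.sum_add_distrib]
      apply Finset.sum_congr rfl
      intro x _
      ring
    rw [e, e0, e1, e2]
    ring
  have hfin : ∑ x ∈ Om, ((f x - cavg Om φ0 f x) * (f x - cavg Om φ1 f x)
        + (f x - cavg Om φ0 f x) * (f x - cavg Om φ2 f x)
        + (f x - cavg Om φ1 f x) * (f x - cavg Om φ2 f x))
      = ∑ x ∈ Om, ((g x - cavg Om φ0 g x) * (g x - cavg Om φ1 g x)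
        + (g x - cavg Om φ0 g x) * (g x - cavg Om φ2 g x)
        + (g x - cavg Om φ1 g x) * (g x - cavg Om φ2 g x)) := by
    apply Finset.sum_congr rfl
    intro x hx
    rw [hP φ0 x hx, hP φ1 x hx, hP φ2 x hx]
  rw [hfin]
  linarith

/-- If `φ` refines `τ` on `Om`, the `φ`-fibre of `x` inside the `τ`-fibre of `x` is the whole
`φ`-fibre. -/
lemma fibre_filter_eq (Om : Finset α) (τ : α → γ) (φ : α → β)
    (href : ∀ x ∈ Om, ∀ y ∈ Om, φ x = φ y → τ x = τ y) {x : α} (hx : x ∈ Om) :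
    fibre (Om.filter (fun y => τ y = τ x)) φ x = fibre Om φ x := by
  ext y
  simp only [mem_fibre, Finset.mem_filter]
  constructor
  · rintro ⟨⟨hy, _⟩, h⟩
    exact ⟨hy, h⟩
  · rintro ⟨hy, h⟩
    exact ⟨⟨hy, href y hy x hx h⟩, h⟩

lemma cavg_filter_eq (Om : Finset α) (τ : α → γ) (φ : α → β)
    (href : ∀ x ∈ Om, ∀ y ∈ Om, φ x = φ y → τ x = τ y) (f : α → ℝ) {x : α} (hx : x ∈ Om) :
    cavg (Om.filter (fun y => τ y = τ x)) φ f x = cavg Om φ f x := by
  unfold cavg
  rw [fibre_filter_eq Om τ φ href hx]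

/-- **Part B.** Localisation to the fibres of a coarser label `τ`: if `(R2)_3` holds on every
`τ`-fibre (with fibre averages taken inside the `τ`-fibre), then the cross-term sum over `Om` is
nonnegative. -/
theorem tri_fibrewise (Om : Finset α) (τ : α → γ) (φ0 φ1 φ2 : α → β)
    (h0 : ∀ x ∈ Om, ∀ y ∈ Om, φ0 x = φ0 y → τ x = τ y)
    (h1 : ∀ x ∈ Om, ∀ y ∈ Om, φ1 x = φ1 y → τ x = τ y)
    (h2 : ∀ x ∈ Om, ∀ y ∈ Om, φ2 x = φ2 y → τ x = τ y)
    (h : ∀ (k : γ) (g : α → ℝ),
        ∑ x ∈ Om.filter (fun y => τ y = k), g x * cavg (Om.filter (fun y => τ y = k)) φ0 g x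
        + ∑ x ∈ Om.filter (fun y => τ y = k), g x * cavg (Om.filter (fun y => τ y = k)) φ1 g x
        + ∑ x ∈ Om.filter (fun y => τ y = k), g x * cavg (Om.filter (fun y => τ y = k)) φ2 g x
        ≤ 2 * ∑ x ∈ Om.filter (fun y => τ y = k), g x ^ 2
          + (∑ x ∈ Om.filter (fun y => τ y = k), g x) ^ 2
            / ((Om.filter (fun y => τ y = k)).card : ℝ))
    (f : α → ℝ) :
    0 ≤ ∑ x ∈ Om, ((f x - cavg Om φ0 f x) * (f x - cavg Om φ1 f x)
        + (f x - cavg Om φ0 f x) * (f x - cavg Om φ2 f x)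
        + (f x - cavg Om φ1 f x) * (f x - cavg Om φ2 f x)) := by
  rw [← Finset.sum_fiberwise_of_maps_to (g := τ) (t := Om.image τ)
    (fun x hx => Finset.mem_image_of_mem τ hx)]
  apply Finset.sum_nonneg
  intro k _
  have hk := tri_abs (Om.filter (fun y => τ y = k)) φ0 φ1 φ2 (h k) f
  refine hk.trans (le_of_eq ?_)
  apply Finset.sum_congr rfl
  intro x hx
  obtain ⟨hxO, hxk⟩ := Finset.mem_filter.mp hx
  subst hxk
  rw [cavg_filter_eq Om τ φ0 h0 f hxO, cavg_filter_eq Om τ φ1 h1 f hxO,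
    cavg_filter_eq Om τ φ2 h2 f hxO]

end abs

/-! ### Graph form -/

section graph
variable {n : ℕ}

open Crest.Agent.S0453.Helper47 (hinge)

/-- Triple label: the graph with all edges at `a`, `b` or `c` removed. -/
def tri (a b c : Fin n) (G : Finset (Edge n)) : Finset (Edge n) :=
  G.filter (fun s => a ∉ s.1 ∧ b ∉ s.1 ∧ c ∉ s.1)

lemma tri_eq_filter_hinge_ab (a b c : Fin n) (G : Finset (Edge n)) :
    tri a b c G = (hinge a b G).filter (fun s => c ∉ s.1) := by
  unfold tri hinge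
  rw [Finset.filter_filter]
  apply Finset.filter_congr
  intro s _
  tauto

lemma tri_eq_filter_hinge_ac (a b c : Fin n) (G : Finset (Edge n)) :
    tri a b c G = (hinge a c G).filter (fun s => b ∉ s.1) := by
  unfold tri hinge
  rw [Finset.filter_filter]
  apply Finset.filter_congr
  intro s _
  tauto

lemma tri_eq_filter_hinge_bc (a b c : Fin n) (G : Finset (Edge n)) :
    tri a b c G = (hinge b c G).filter (fun s => a ∉ s.1) := by
  unfold tri hinge
  rw [Finset.filter_filter]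
  apply Finset.filter_congr
  intro s _
  tauto

/-- **[TR] from the fibrewise `(R2)_3` bound.** If on every fibre `Om_K` of the triple label the
three hinge averages satisfy `∑_e ⟨g, E_e g⟩ ≤ 2‖g‖² + (∑ g)²/|Om_K|`, then
`0 ≤ ∑_G (P_ab f · P_ac f + P_ab f · P_bc f + P_ac f · P_bc f)` on `Om` (any set of graphs,
in particular `realizations d`), `P_e f = f - cavg Om (hinge e) f`. -/
theorem TR_of_fibrewise (Om : Finset (Finset (Edge n))) (a b c : Fin n)
    (h : ∀ (K : Finset (Edge n)) (g : Finset (Edge n) → ℝ),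
        ∑ G ∈ Om.filter (fun G => tri a b c G = K),
            g G * cavg (Om.filter (fun G => tri a b c G = K)) (hinge a b) g G
        + ∑ G ∈ Om.filter (fun G => tri a b c G = K),
            g G * cavg (Om.filter (fun G => tri a b c G = K)) (hinge a c) g G
        + ∑ G ∈ Om.filter (fun G => tri a b c G = K),
            g G * cavg (Om.filter (fun G => tri a b c G = K)) (hinge b c) g G
        ≤ 2 * ∑ G ∈ Om.filter (fun G => tri a b c G = K), g G ^ 2
          + (∑ G ∈ Om.filter (fun G => tri a b c G = K), g G) ^ 2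
            / ((Om.filter (fun G => tri a b c G = K)).card : ℝ))
    (f : Finset (Edge n) → ℝ) :
    0 ≤ ∑ G ∈ Om, ((f G - cavg Om (hinge a b) f G) * (f G - cavg Om (hinge a c) f G)
        + (f G - cavg Om (hinge a b) f G) * (f G - cavg Om (hinge b c) f G)
        + (f G - cavg Om (hinge a c) f G) * (f G - cavg Om (hinge b c) f G)) := by
  apply tri_fibrewise Om (tri a b c) (hinge a b) (hinge a c) (hinge b c) _ _ _ h f
  · intro x _ y _ hxy
    rw [tri_eq_filter_hinge_ab, tri_eq_filter_hinge_ab, hxy]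
  · intro x _ y _ hxy
    rw [tri_eq_filter_hinge_ac, tri_eq_filter_hinge_ac, hxy]
  · intro x _ y _ hxy
    rw [tri_eq_filter_hinge_bc, tri_eq_filter_hinge_bc, hxy]

end graph

end Crest.Agent.S0453.Helper82
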