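import Mathlib
import Crest.Prelude.Def_SwitchChain
import Crest.Agent.Lib.S0453.Helper76Knabe
import Crest.Agent.Lib.S0453.Helper47Defs
import Crest.Agent.Lib.S0453.Helper69R23Defs
import Crest.Agent.Lib.S0453.Helper82Triple

/-!
# Row 299 (S0453), package [TR-enc]: triple classes of graphs are three-row table classes

For distinct `a b c` and `G₀ ∈ realizations d`, the triple class
`{G ∈ realizations d | tri a b c G = tri a b c G₀}` is put in bijection with a class of three-row
0/1 tables (helper69's `tables r s`) on the columns `Option (Fin n)`: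

* column `some w`, `w ∉ {a, b, c}`: the adjacencies `([a ~ w], [b ~ w], [c ~ w])`;
* column `some w`, `w ∈ {a, b, c}`: zero;
* column `none` (virtual triangle column, helper62's uniform encoding): `(¬[b ~ c], ¬[a ~ c], ¬[a ~ b])`.

The hinge label of `{b, c}` corresponds to "row `a`", etc.  With helper69's `r23_transfer`
(taken as the hypothesis `R23Transfer`) this gives `Helper47.TR d`.
-/

set_option autoImplicit false
open Finset

namespace Crest.Agent.S0453.Helper82

open Crest.SwitchChain
open Crest.Agent.S0453.Helper47 (hinge adj)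
open Crest.Agent.S0453.Helper69 (Tab rowSum colSum tables mem_tables row)

variable {n : ℕ}

/-! ### Adjacency layer (following helper34's `Helper34Conn`) -/

/-- The edge `{a, b}` for `a ≠ b`. -/
def mkE (a b : Fin n) (h : a ≠ b) : Edge n := ⟨s(a, b), fun hd => h (by simpa using hd)⟩

lemma adj_symm {G : Finset (Edge n)} {a b : Fin n} (h : adj G a b) : adj G b a := by
  obtain ⟨e, he, h1⟩ := h
  exact ⟨e, he, by rw [h1, Sym2.eq_swap]⟩

lemma adj_comm {G : Finset (Edge n)} {a b : Fin n} : adj G a b ↔ adj G b a :=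
  ⟨adj_symm, adj_symm⟩

lemma adj_ne {G : Finset (Edge n)} {a b : Fin n} (h : adj G a b) : a ≠ b := by
  obtain ⟨e, _, h1⟩ := h
  intro hab
  apply e.2
  rw [h1, hab]
  simp

lemma not_adj_self (G : Finset (Edge n)) (a : Fin n) : ¬ adj G a a := fun h => adj_ne h rfl

lemma adj_iff_mkE {G : Finset (Edge n)} {a b : Fin n} (h : a ≠ b) :
    adj G a b ↔ mkE a b h ∈ G := by
  constructor
  · rintro ⟨e, he, h1⟩
    have : e = mkE a b h := Subtype.ext h1
    rwa [← this]
  · intro he
    exact ⟨_, he, rfl⟩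

lemma deg_eq_card_adj (G : Finset (Edge n)) (u : Fin n) :
    deg G u = (univ.filter (fun w => adj G u w)).card := by
  unfold deg
  refine Finset.card_bij (fun e he => Sym2.Mem.other' (mem_filter.1 he).2) ?_ ?_ ?_
  · intro e he
    have h2 := (mem_filter.1 he).2
    rw [mem_filter]
    exact ⟨mem_univ _, e, (mem_filter.1 he).1, (Sym2.other_spec' h2).symm⟩
  · intro e he e' he' h
    have h2 := (mem_filter.1 he).2
    have h2' := (mem_filter.1 he').2
    apply Subtype.ext
    rw [← Sym2.other_spec' h2, ← Sym2.other_spec' h2', h]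
  · intro w hw
    rw [mem_filter] at hw
    obtain ⟨e, he, h1⟩ := hw.2
    have hu : u ∈ e.1 := by rw [h1]; simp
    refine ⟨e, mem_filter.2 ⟨he, hu⟩, ?_⟩
    exact Sym2.congr_right.1 ((Sym2.other_spec' hu).trans h1)

lemma deg_eq_sum_adj (G : Finset (Edge n)) (u : Fin n) :
    deg G u = ∑ w, if adj G u w then 1 else 0 := by
  rw [deg_eq_card_adj, Finset.card_filter]

/-- Extensionality through adjacency. -/
lemma eq_of_adj_iff {G G' : Finset (Edge n)} (h : ∀ a b, adj G a b ↔ adj G' a b) : G = G' := by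
  ext e
  obtain ⟨s, hs⟩ := e
  induction s using Sym2.ind with
  | _ a b =>
    have hab : a ≠ b := fun hh => hs (by simp [hh])
    have e1 : (⟨s(a, b), hs⟩ : Edge n) = mkE a b hab := rfl
    rw [e1, ← adj_iff_mkE hab, ← adj_iff_mkE hab]
    exact h a b

/-- The graph of a relation. -/
def ofRel (r : Fin n → Fin n → Prop) [DecidableRel r] : Finset (Edge n) :=
  univ.filter (fun e => ∃ u v, e.1 = s(u, v) ∧ r u v)

lemma adj_ofRel (r : Fin n → Fin n → Prop) [DecidableRel r] (hr : ∀ u v, r u v → r v u)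
    (u v : Fin n) : adj (ofRel r) u v ↔ u ≠ v ∧ r u v := by
  constructor
  · intro h
    refine ⟨adj_ne h, ?_⟩
    obtain ⟨e, he, h1⟩ := h
    obtain ⟨u', v', h2, h3⟩ := (Finset.mem_filter.mp he).2
    rw [h1, Sym2.eq_iff] at h2
    rcases h2 with ⟨rfl, rfl⟩ | ⟨rfl, rfl⟩
    · exact h3
    · exact hr _ _ h3
  · rintro ⟨hne, h⟩
    exact ⟨mkE u v hne, Finset.mem_filter.mpr ⟨Finset.mem_univ _, u, v, rfl, h⟩, rfl⟩

/-- Two graphs have the same edges off a vertex set `P` iff their adjacencies agree off `P`. -/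
lemma filter_eq_iff_adj (P : Fin n → Prop) (Q : Edge n → Prop) [DecidablePred Q]
    (hQ : ∀ (u v : Fin n) (e : Edge n), e.1 = s(u, v) → (Q e ↔ ¬ P u ∧ ¬ P v))
    (G G' : Finset (Edge n)) :
    G.filter Q = G'.filter Q ↔ ∀ u v, ¬ P u → ¬ P v → (adj G u v ↔ adj G' u v) := by
  constructor
  · intro h u v hu hv
    have key : ∀ H : Finset (Edge n), adj H u v ↔ ∃ e ∈ H.filter Q, e.1 = s(u, v) := by
      intro H
      constructor
      · rintro ⟨e, he, h1⟩
        exact ⟨e, Finset.mem_filter.mpr ⟨he, (hQ u v e h1).mpr ⟨hu, hv⟩⟩, h1⟩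
      · rintro ⟨e, he, h1⟩
        exact ⟨e, (Finset.mem_filter.mp he).1, h1⟩
    rw [key G, key G', h]
  · intro h
    ext e
    obtain ⟨s, hs⟩ := e
    induction s using Sym2.ind with
    | _ u v =>
      have huv : u ≠ v := fun hh => hs (by simp [hh])
      have e1 : ∀ H : Finset (Edge n), (⟨s(u, v), hs⟩ : Edge n) ∈ H ↔ adj H u v :=
        fun H => (adj_iff_mkE huv).symm
      rw [Finset.mem_filter, Finset.mem_filter, hQ u v _ rfl, e1, e1]
      constructor
      · rintro ⟨h1, hu, hv⟩
        exact ⟨(h u v hu hv).mp h1, hu, hv⟩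
      · rintro ⟨h1, hu, hv⟩
        exact ⟨(h u v hu hv).mpr h1, hu, hv⟩

lemma hinge_eq_iff (a b : Fin n) (G G' : Finset (Edge n)) :
    hinge a b G = hinge a b G' ↔
      ∀ u v, ¬ (u = a ∨ u = b) → ¬ (v = a ∨ v = b) → (adj G u v ↔ adj G' u v) := by
  unfold hinge
  apply filter_eq_iff_adj (fun u => u = a ∨ u = b)
  intro u v e he
  rw [he]
  simp only [Sym2.mem_iff]
  constructor
  · rintro ⟨h1, h2⟩
    refine ⟨?_, ?_⟩
    · rintro (rfl | rfl)
      · exact h1 (Or.inl rfl)
      · exact h2 (Or.inl rfl)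
    · rintro (rfl | rfl)
      · exact h1 (Or.inr rfl)
      · exact h2 (Or.inr rfl)
  · rintro ⟨h1, h2⟩
    refine ⟨?_, ?_⟩
    · rintro (rfl | rfl)
      · exact h1 (Or.inl rfl)
      · exact h2 (Or.inl rfl)
    · rintro (rfl | rfl)
      · exact h1 (Or.inr rfl)
      · exact h2 (Or.inr rfl)

/-- `w` is none of `a, b, c`. -/
def inW (a b c w : Fin n) : Prop := w ≠ a ∧ w ≠ b ∧ w ≠ c

instance (a b c w : Fin n) : Decidable (inW a b c w) := by unfold inW; infer_instance

lemma tri_eq_iff (a b c : Fin n) (G G' : Finset (Edge n)) :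
    tri a b c G = tri a b c G' ↔
      ∀ u v, inW a b c u → inW a b c v → (adj G u v ↔ adj G' u v) := by
  have h0 : ∀ u, ¬ (u = a ∨ u = b ∨ u = c) ↔ inW a b c u := by
    intro u
    unfold inW
    tauto
  have h1 : tri a b c G = tri a b c G' ↔
      ∀ u v, ¬ (u = a ∨ u = b ∨ u = c) → ¬ (v = a ∨ v = b ∨ v = c) → (adj G u v ↔ adj G' u v) := by
    unfold tri
    apply filter_eq_iff_adj (fun u => u = a ∨ u = b ∨ u = c)
    intro u v e he
    rw [he]
    simp only [Sym2.mem_iff]
    constructor
    · rintro ⟨h1, h2, h3⟩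
      refine ⟨?_, ?_⟩
      · rintro (rfl | rfl | rfl)
        · exact h1 (Or.inl rfl)
        · exact h2 (Or.inl rfl)
        · exact h3 (Or.inl rfl)
      · rintro (rfl | rfl | rfl)
        · exact h1 (Or.inr rfl)
        · exact h2 (Or.inr rfl)
        · exact h3 (Or.inr rfl)
    · rintro ⟨h1, h2⟩
      refine ⟨?_, ?_, ?_⟩
      · rintro (rfl | rfl)
        · exact h1 (Or.inl rfl)
        · exact h2 (Or.inl rfl)
      · rintro (rfl | rfl)
        · exact h1 (Or.inr (Or.inl rfl))
        · exact h2 (Or.inr (Or.inl rfl))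
      · rintro (rfl | rfl)
        · exact h1 (Or.inr (Or.inr rfl))
        · exact h2 (Or.inr (Or.inr rfl))
  rw [h1]
  constructor
  · intro h u v hu hv
    exact h u v ((h0 u).mpr hu) ((h0 v).mpr hv)
  · intro h u v hu hv
    exact h u v ((h0 u).mp hu) ((h0 v).mp hv)

/-! ### The encoding -/

/-- The three special vertices. -/
def tv (a b c : Fin n) : Fin 3 → Fin n := ![a, b, c]

@[simp] lemma tv_zero (a b c : Fin n) : tv a b c 0 = a := rfl
@[simp] lemma tv_one (a b c : Fin n) : tv a b c 1 = b := rfl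
@[simp] lemma tv_two (a b c : Fin n) : tv a b c 2 = c := rfl

lemma fin3_forall {P : Fin 3 → Prop} (h0 : P 0) (h1 : P 1) (h2 : P 2) : ∀ i, P i := by
  intro i
  fin_cases i
  · exact h0
  · exact h1
  · exact h2

lemma inW_or (a b c u : Fin n) : inW a b c u ∨ ∃ i, u = tv a b c i := by
  by_cases h1 : u = a
  · exact Or.inr ⟨0, h1⟩
  by_cases h2 : u = b
  · exact Or.inr ⟨1, h2⟩
  by_cases h3 : u = c
  · exact Or.inr ⟨2, h3⟩
  exact Or.inl ⟨h1, h2, h3⟩

lemma not_inW_tv (a b c : Fin n) : ∀ i : Fin 3, ¬ inW a b c (tv a b c i) := by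
  apply fin3_forall
  · exact fun h => h.1 rfl
  · exact fun h => h.2.1 rfl
  · exact fun h => h.2.2 rfl

/-- The table of a graph. -/
def Phi (a b c : Fin n) (G : Finset (Edge n)) : Tab (Option (Fin n)) := fun col i =>
  match col with
  | none => !decide (adj G (tv a b c (i + 1)) (tv a b c (i + 2)))
  | some w => decide (inW a b c w ∧ adj G (tv a b c i) w)

lemma Phi_none (a b c : Fin n) (G : Finset (Edge n)) (i : Fin 3) :
    Phi a b c G none i = !decide (adj G (tv a b c (i + 1)) (tv a b c (i + 2))) := rfl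

lemma Phi_some (a b c : Fin n) (G : Finset (Edge n)) (w : Fin n) (i : Fin 3) :
    Phi a b c G (some w) i = decide (inW a b c w ∧ adj G (tv a b c i) w) := rfl

lemma toNat_decide (p : Prop) [Decidable p] : (decide p).toNat = if p then 1 else 0 := by
  by_cases h : p <;> simp [h]

lemma toNat_not_decide (p : Prop) [Decidable p] :
    (!decide p).toNat + (if p then 1 else 0) = 1 := by
  by_cases h : p <;> simp [h]

lemma rowSum_Phi (a b c : Fin n) (G : Finset (Edge n)) (i : Fin 3) :
    rowSum (Phi a b c G) i = (Phi a b c G none i).toNat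
      + ∑ w, if inW a b c w ∧ adj G (tv a b c i) w then 1 else 0 := by
  unfold rowSum
  rw [Fintype.sum_option]
  congr 1
  apply Finset.sum_congr rfl
  intro w _
  rw [Phi_some, toNat_decide]

lemma sum_split {a b c : Fin n} (hab : a ≠ b) (hac : a ≠ c) (hbc : b ≠ c) (F : Fin n → ℕ) :
    ∑ w, F w = (∑ w, if inW a b c w then F w else 0) + (F a + F b + F c) := by
  rw [← Finset.sum_filter_add_sum_filter_not univ (fun w => inW a b c w) F, Finset.sum_filter]
  congr 1
  have h : univ.filter (fun w => ¬ inW a b c w) = {a, b, c} := by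
    ext w
    simp only [Finset.mem_filter, Finset.mem_univ, true_and, Finset.mem_insert,
      Finset.mem_singleton, inW]
    tauto
  rw [h, Finset.sum_insert (by simp [hab, hac]), Finset.sum_insert (by simp [hbc]),
    Finset.sum_singleton]
  ring

lemma deg_split {a b c : Fin n} (hab : a ≠ b) (hac : a ≠ c) (hbc : b ≠ c)
    (G : Finset (Edge n)) (u : Fin n) :
    deg G u = (∑ w, if inW a b c w ∧ adj G u w then 1 else 0)
      + ((if adj G u a then 1 else 0) + (if adj G u b then 1 else 0)
        + (if adj G u c then 1 else 0)) := by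
  rw [deg_eq_sum_adj, sum_split hab hac hbc]
  congr 1
  apply Finset.sum_congr rfl
  intro w _
  by_cases h : inW a b c w <;> simp [h]

/-- Number of edges inside `{a, b, c}`. -/
def eT (a b c : Fin n) (G : Finset (Edge n)) : ℕ :=
  (if adj G a b then 1 else 0) + (if adj G a c then 1 else 0) + (if adj G b c then 1 else 0)

lemma row_margin {a b c : Fin n} (hab : a ≠ b) (hac : a ≠ c) (hbc : b ≠ c)
    (G : Finset (Edge n)) :
    ∀ i : Fin 3, rowSum (Phi a b c G) i + eT a b c G = deg G (tv a b c i) + 1 := by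
  have hba : adj G b a ↔ adj G a b := adj_comm
  have hca : adj G c a ↔ adj G a c := adj_comm
  have hcb : adj G c b ↔ adj G b c := adj_comm
  have haa := not_adj_self G a
  have hbb := not_adj_self G b
  have hcc := not_adj_self G c
  apply fin3_forall
  · rw [rowSum_Phi, deg_split hab hac hbc G (tv a b c 0), Phi_none]
    have e1 : tv a b c (0 + 1) = b := rfl
    have e2 : tv a b c (0 + 2) = c := rfl
    rw [e1, e2, tv_zero]
    have := toNat_not_decide (adj G b c)
    unfold eT
    simp only [haa, if_false]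
    omega
  · rw [rowSum_Phi, deg_split hab hac hbc G (tv a b c 1), Phi_none]
    have e1 : tv a b c (1 + 1) = c := rfl
    have e2 : tv a b c (1 + 2) = a := rfl
    rw [e1, e2, tv_one]
    have := toNat_not_decide (adj G c a)
    unfold eT
    simp only [hbb, if_false, hba, hca] at this ⊢
    omega
  · rw [rowSum_Phi, deg_split hab hac hbc G (tv a b c 2), Phi_none]
    have e1 : tv a b c (2 + 1) = a := rfl
    have e2 : tv a b c (2 + 2) = b := rfl
    rw [e1, e2, tv_two]
    have := toNat_not_decide (adj G a b)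
    unfold eT
    simp only [hcc, if_false, hca, hcb] at this ⊢
    omega

lemma colSum_none (a b c : Fin n) (G : Finset (Edge n)) :
    colSum (Phi a b c G) none + eT a b c G = 3 := by
  have hca : adj G c a ↔ adj G a c := adj_comm
  unfold colSum
  rw [Fin.sum_univ_three, Phi_none, Phi_none, Phi_none]
  have e1 : tv a b c (0 + 1) = b := rfl
  have e2 : tv a b c (0 + 2) = c := rfl
  have e3 : tv a b c (1 + 1) = c := rfl
  have e4 : tv a b c (1 + 2) = a := rfl
  have e5 : tv a b c (2 + 1) = a := rfl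
  have e6 : tv a b c (2 + 2) = b := rfl
  rw [e1, e2, e3, e4, e5, e6]
  have h1 := toNat_not_decide (adj G b c)
  have h2 := toNat_not_decide (adj G c a)
  have h3 := toNat_not_decide (adj G a b)
  unfold eT
  simp only [hca] at h2 ⊢
  omega

lemma colSum_some (a b c : Fin n) (G : Finset (Edge n)) (w : Fin n) :
    colSum (Phi a b c G) (some w) = (if inW a b c w ∧ adj G a w then 1 else 0)
      + (if inW a b c w ∧ adj G b w then 1 else 0) + (if inW a b c w ∧ adj G c w then 1 else 0) := by
  unfold colSum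
  rw [Fin.sum_univ_three, Phi_some, Phi_some, Phi_some, toNat_decide, toNat_decide, toNat_decide,
    tv_zero, tv_one, tv_two]

lemma colSum_some_T (a b c : Fin n) (G : Finset (Edge n)) (w : Fin n) (hw : ¬ inW a b c w) :
    colSum (Phi a b c G) (some w) = 0 := by
  rw [colSum_some]
  simp [hw]

lemma colSum_some_W {a b c : Fin n} (hab : a ≠ b) (hac : a ≠ c) (hbc : b ≠ c)
    (G : Finset (Edge n)) (w : Fin n) (hw : inW a b c w) :
    colSum (Phi a b c G) (some w) + (∑ u, if inW a b c u ∧ adj G w u then 1 else 0) = deg G w := by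
  have hwa : adj G w a ↔ adj G a w := adj_comm
  have hwb : adj G w b ↔ adj G b w := adj_comm
  have hwc : adj G w c ↔ adj G c w := adj_comm
  rw [colSum_some, deg_split hab hac hbc G w]
  simp only [hw, true_and, hwa, hwb, hwc]
  omega

lemma wsum_congr {a b c : Fin n} {G G' : Finset (Edge n)} (h : tri a b c G = tri a b c G')
    (w : Fin n) (hw : inW a b c w) :
    (∑ u, if inW a b c u ∧ adj G w u then 1 else 0)
      = ∑ u, if inW a b c u ∧ adj G' w u then (1 : ℕ) else 0 := by
  rw [tri_eq_iff] at h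
  apply Finset.sum_congr rfl
  intro u _
  by_cases hu : inW a b c u
  · simp only [hu, true_and, h w u hw hu]
  · simp [hu]

lemma sum_rowSum_eq (M : Tab (Option (Fin n))) :
    rowSum M 0 + rowSum M 1 + rowSum M 2 = colSum M none + ∑ w, colSum M (some w) := by
  have h : ∑ i, rowSum M i = ∑ c, colSum M c := by
    unfold rowSum colSum
    exact Finset.sum_comm
  rw [Fin.sum_univ_three, Fintype.sum_option] at h
  exact h

/-! ### Margins are constant on a triple class -/

lemma colSum_some_eq {a b c : Fin n} (hab : a ≠ b) (hac : a ≠ c) (hbc : b ≠ c) {d : Fin n → ℕ}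
    {G G' : Finset (Edge n)} (hG : ∀ v, deg G v = d v) (hG' : ∀ v, deg G' v = d v)
    (h : tri a b c G = tri a b c G') (w : Fin n) :
    colSum (Phi a b c G) (some w) = colSum (Phi a b c G') (some w) := by
  by_cases hw : inW a b c w
  · have h1 := colSum_some_W hab hac hbc G w hw
    have h2 := colSum_some_W hab hac hbc G' w hw
    rw [wsum_congr h w hw, hG w] at h1
    rw [hG' w] at h2
    omega
  · rw [colSum_some_T a b c G w hw, colSum_some_T a b c G' w hw]

lemma eT_eq {a b c : Fin n} (hab : a ≠ b) (hac : a ≠ c) (hbc : b ≠ c) {d : Fin n → ℕ}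
    {G G' : Finset (Edge n)} (hG : ∀ v, deg G v = d v) (hG' : ∀ v, deg G' v = d v)
    (h : tri a b c G = tri a b c G') : eT a b c G = eT a b c G' := by
  have hS : ∑ w, colSum (Phi a b c G) (some w) = ∑ w, colSum (Phi a b c G') (some w) :=
    Finset.sum_congr rfl (fun w _ => colSum_some_eq hab hac hbc hG hG' h w)
  have r0 := row_margin hab hac hbc G 0
  have r1 := row_margin hab hac hbc G 1
  have r2 := row_margin hab hac hbc G 2
  have r0' := row_margin hab hac hbc G' 0
  have r1' := row_margin hab hac hbc G' 1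
  have r2' := row_margin hab hac hbc G' 2
  rw [hG] at r0 r1 r2
  rw [hG'] at r0' r1' r2'
  have c0 := colSum_none a b c G
  have c0' := colSum_none a b c G'
  have t := sum_rowSum_eq (Phi a b c G)
  have t' := sum_rowSum_eq (Phi a b c G')
  rw [hS] at t
  omega

lemma margins_eq {a b c : Fin n} (hab : a ≠ b) (hac : a ≠ c) (hbc : b ≠ c) {d : Fin n → ℕ}
    {G G' : Finset (Edge n)} (hG : ∀ v, deg G v = d v) (hG' : ∀ v, deg G' v = d v)
    (h : tri a b c G = tri a b c G') :
    (∀ i, rowSum (Phi a b c G) i = rowSum (Phi a b c G') i) ∧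
      ∀ col, colSum (Phi a b c G) col = colSum (Phi a b c G') col := by
  have he := eT_eq hab hac hbc hG hG' h
  constructor
  · intro i
    have r := row_margin hab hac hbc G i
    have r' := row_margin hab hac hbc G' i
    rw [hG] at r
    rw [hG'] at r'
    omega
  · intro col
    cases col with
    | none =>
      have c0 := colSum_none a b c G
      have c0' := colSum_none a b c G'
      omega
    | some w => exact colSum_some_eq hab hac hbc hG hG' h w

/-! ### Injectivity -/

lemma third_cases : ∀ i j : Fin 3, i ≠ j →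
    ((-(i + j)) + 1 = i ∧ (-(i + j)) + 2 = j) ∨ ((-(i + j)) + 1 = j ∧ (-(i + j)) + 2 = i) := by
  decide

lemma adjT_iff (a b c : Fin n) (G : Finset (Edge n)) (i j : Fin 3) (h : i ≠ j) :
    adj G (tv a b c i) (tv a b c j) ↔ Phi a b c G none (-(i + j)) = false := by
  rw [Phi_none]
  rcases third_cases i j h with ⟨h1, h2⟩ | ⟨h1, h2⟩
  · rw [h1, h2]
    simp
  · rw [h1, h2]
    simp only [Bool.not_eq_false', decide_eq_true_eq]
    exact adj_comm

lemma Phi_some_iff (a b c : Fin n) (G : Finset (Edge n)) (w : Fin n) (hw : inW a b c w)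
    (i : Fin 3) : Phi a b c G (some w) i = true ↔ adj G (tv a b c i) w := by
  rw [Phi_some]
  simp [hw]

lemma tv_injective {a b c : Fin n} (hab : a ≠ b) (hac : a ≠ c) (hbc : b ≠ c) :
    ∀ i j : Fin 3, tv a b c i = tv a b c j → i = j := by
  apply fin3_forall <;> apply fin3_forall <;> intro h
  · rfl
  · exact absurd h hab
  · exact absurd h hac
  · exact absurd h.symm hab
  · rfl
  · exact absurd h hbc
  · exact absurd h.symm hac
  · exact absurd h.symm hbc
  · rfl

lemma Phi_inj (a b c : Fin n) {G G' : Finset (Edge n)} (h : tri a b c G = tri a b c G')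
    (hΦ : Phi a b c G = Phi a b c G') : G = G' := by
  rw [tri_eq_iff] at h
  have hTW : ∀ (i : Fin 3) (w : Fin n), inW a b c w →
      (adj G (tv a b c i) w ↔ adj G' (tv a b c i) w) := by
    intro i w hw
    rw [← Phi_some_iff a b c G w hw i, ← Phi_some_iff a b c G' w hw i, hΦ]
  apply eq_of_adj_iff
  intro u v
  rcases inW_or a b c u with hu | ⟨i, rfl⟩ <;> rcases inW_or a b c v with hv | ⟨j, rfl⟩
  · exact h u v hu hv
  · rw [adj_comm, hTW j u hu]
    exact adj_comm
  · exact hTW i v hv
  · by_cases hij : i = j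
    · subst hij
      exact iff_of_false (not_adj_self _ _) (not_adj_self _ _)
    · rw [adjT_iff a b c G i j hij, adjT_iff a b c G' i j hij, hΦ]

/-! ### Labels and rows -/

/-- The three hinge labels of the pairs inside `{a, b, c}`; `lab j` keeps the vertex `tv j`. -/
def lab (a b c : Fin n) : Fin 3 → Finset (Edge n) → Finset (Edge n) :=
  ![hinge b c, hinge a c, hinge a b]

/-- Two graphs with the same adjacencies off `{x, y, z}` and the same neighbours of `x` off
`{x, y, z}` have the same hinge label for the pair `{y, z}`. -/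
lemma hinge_eq_of (x y z : Fin n) {G G' : Finset (Edge n)}
    (h3 : ∀ u v, u ≠ x → u ≠ y → u ≠ z → v ≠ x → v ≠ y → v ≠ z → (adj G u v ↔ adj G' u v))
    (h1 : ∀ w, w ≠ x → w ≠ y → w ≠ z → (adj G x w ↔ adj G' x w)) :
    hinge y z G = hinge y z G' := by
  rw [hinge_eq_iff]
  intro u v hu hv
  rw [not_or] at hu hv
  by_cases hux : u = x <;> by_cases hvx : v = x
  · subst hux
    subst hvx
    exact iff_of_false (not_adj_self _ _) (not_adj_self _ _)
  · subst hux
    exact h1 v hvx hv.1 hv.2
  · subst hvx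
    rw [adj_comm, h1 u hux hu.1 hu.2]
    exact adj_comm
  · exact h3 u v hux hu.1 hu.2 hvx hv.1 hv.2

/-- Equal hinge labels for `{y, z}` give equal neighbourhoods of `x` off `{y, z}`. -/
lemma adj_of_hinge_eq (x y z : Fin n) (hxy : x ≠ y) (hxz : x ≠ z) {G G' : Finset (Edge n)}
    (h : hinge y z G = hinge y z G') (w : Fin n) (hwy : w ≠ y) (hwz : w ≠ z) :
    adj G x w ↔ adj G' x w := by
  rw [hinge_eq_iff] at h
  apply h x w
  · rintro (h1 | h1)
    · exact hxy h1
    · exact hxz h1
  · rintro (h1 | h1)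
    · exact hwy h1
    · exact hwz h1

lemma lab_adj {a b c : Fin n} (hab : a ≠ b) (hac : a ≠ c) (hbc : b ≠ c) {G G' : Finset (Edge n)} :
    ∀ j : Fin 3, lab a b c j G = lab a b c j G' → ∀ w, inW a b c w →
      (adj G (tv a b c j) w ↔ adj G' (tv a b c j) w) := by
  apply fin3_forall
  · intro h w hw
    exact adj_of_hinge_eq a b c hab hac h w hw.2.1 hw.2.2
  · intro h w hw
    exact adj_of_hinge_eq b a c hab.symm hbc h w hw.1 hw.2.2
  · intro h w hw
    exact adj_of_hinge_eq c a b hac.symm hbc.symm h w hw.1 hw.2.1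

lemma lab_of_adj {a b c : Fin n} {G G' : Finset (Edge n)}
    (htri : tri a b c G = tri a b c G') :
    ∀ j : Fin 3, (∀ w, inW a b c w → (adj G (tv a b c j) w ↔ adj G' (tv a b c j) w)) →
      lab a b c j G = lab a b c j G' := by
  rw [tri_eq_iff] at htri
  apply fin3_forall
  · intro h
    exact hinge_eq_of a b c (fun u v h1 h2 h3 h4 h5 h6 => htri u v ⟨h1, h2, h3⟩ ⟨h4, h5, h6⟩)
      (fun w h1 h2 h3 => h w ⟨h1, h2, h3⟩)
  · intro h
    exact hinge_eq_of b a c (fun u v h1 h2 h3 h4 h5 h6 => htri u v ⟨h2, h1, h3⟩ ⟨h5, h4, h6⟩)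
      (fun w h1 h2 h3 => h w ⟨h2, h1, h3⟩)
  · intro h
    exact hinge_eq_of c a b (fun u v h1 h2 h3 h4 h5 h6 => htri u v ⟨h2, h3, h1⟩ ⟨h5, h6, h4⟩)
      (fun w h1 h2 h3 => h w ⟨h2, h3, h1⟩)

lemma lab_iff_row {a b c : Fin n} (hab : a ≠ b) (hac : a ≠ c) (hbc : b ≠ c) {d : Fin n → ℕ}
    {G G' : Finset (Edge n)} (hG : ∀ v, deg G v = d v) (hG' : ∀ v, deg G' v = d v)
    (h : tri a b c G = tri a b c G') (j : Fin 3) :
    lab a b c j G = lab a b c j G' ↔ row j (Phi a b c G) = row j (Phi a b c G') := by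
  constructor
  · intro hl
    have hW := lab_adj hab hac hbc j hl
    have hsum : (∑ w, if inW a b c w ∧ adj G (tv a b c j) w then 1 else 0)
        = ∑ w, if inW a b c w ∧ adj G' (tv a b c j) w then (1 : ℕ) else 0 := by
      apply Finset.sum_congr rfl
      intro w _
      by_cases hw : inW a b c w
      · simp only [hw, true_and, hW w hw]
      · simp [hw]
    have hr := (margins_eq hab hac hbc hG hG' h).1 j
    rw [rowSum_Phi, rowSum_Phi, hsum] at hr
    have hn : Phi a b c G none j = Phi a b c G' none j := by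
      have h1 : (Phi a b c G none j).toNat = (Phi a b c G' none j).toNat := by omega
      revert h1
      cases Phi a b c G none j <;> cases Phi a b c G' none j <;> simp
    funext col
    cases col with
    | none => exact hn
    | some w =>
      show Phi a b c G (some w) j = Phi a b c G' (some w) j
      rw [Phi_some, Phi_some]
      by_cases hw : inW a b c w
      · simp only [hw, true_and, hW w hw]
      · simp [hw]
  · intro hr
    apply lab_of_adj h j
    intro w hw
    have h1 : Phi a b c G (some w) j = Phi a b c G' (some w) j := congrFun hr (some w)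
    rw [← Phi_some_iff a b c G w hw j, ← Phi_some_iff a b c G' w hw j, h1]

/-! ### Surjectivity: the graph of a table -/

/-- Index of a vertex among `a, b, c`. -/
def idx (a b c u : Fin n) : Option (Fin 3) :=
  if u = a then some 0 else if u = b then some 1 else if u = c then some 2 else none

lemma idx_tv {a b c : Fin n} (hab : a ≠ b) (hac : a ≠ c) (hbc : b ≠ c) :
    ∀ i : Fin 3, idx a b c (tv a b c i) = some i := by
  apply fin3_forall
  · simp [idx]
  · simp [idx, hab.symm]
  · simp [idx, hac.symm, hbc.symm]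

lemma idx_W {a b c w : Fin n} (hw : inW a b c w) : idx a b c w = none := by
  simp [idx, hw.1, hw.2.1, hw.2.2]

/-- The adjacency relation decoded from a table `M` (off `{a, b, c}`: as in `G₀`). -/
def relM (a b c : Fin n) (G₀ : Finset (Edge n)) (M : Tab (Option (Fin n))) (u v : Fin n) : Prop :=
  match idx a b c u, idx a b c v with
  | none, none => adj G₀ u v
  | some i, none => M (some v) i = true
  | none, some j => M (some u) j = true
  | some i, some j => i ≠ j ∧ M none (-(i + j)) = false

instance (a b c : Fin n) (G₀ : Finset (Edge n)) (M : Tab (Option (Fin n))) :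
    DecidableRel (relM a b c G₀ M) := fun u v => by
  unfold relM
  split <;> infer_instance

lemma relM_WW {a b c : Fin n} (G₀ : Finset (Edge n)) (M : Tab (Option (Fin n))) {u v : Fin n}
    (hu : inW a b c u) (hv : inW a b c v) : relM a b c G₀ M u v ↔ adj G₀ u v := by
  unfold relM
  rw [idx_W hu, idx_W hv]

lemma relM_TW {a b c : Fin n} (hab : a ≠ b) (hac : a ≠ c) (hbc : b ≠ c) (G₀ : Finset (Edge n))
    (M : Tab (Option (Fin n))) (i : Fin 3) {v : Fin n} (hv : inW a b c v) :
    relM a b c G₀ M (tv a b c i) v ↔ M (some v) i = true := by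
  unfold relM
  rw [idx_tv hab hac hbc, idx_W hv]

lemma relM_WT {a b c : Fin n} (hab : a ≠ b) (hac : a ≠ c) (hbc : b ≠ c) (G₀ : Finset (Edge n))
    (M : Tab (Option (Fin n))) {u : Fin n} (hu : inW a b c u) (j : Fin 3) :
    relM a b c G₀ M u (tv a b c j) ↔ M (some u) j = true := by
  unfold relM
  rw [idx_tv hab hac hbc, idx_W hu]

lemma relM_TT {a b c : Fin n} (hab : a ≠ b) (hac : a ≠ c) (hbc : b ≠ c) (G₀ : Finset (Edge n))
    (M : Tab (Option (Fin n))) (i j : Fin 3) :
    relM a b c G₀ M (tv a b c i) (tv a b c j) ↔ (i ≠ j ∧ M none (-(i + j)) = false) := by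
  unfold relM
  rw [idx_tv hab hac hbc, idx_tv hab hac hbc]

lemma relM_symm {a b c : Fin n} (hab : a ≠ b) (hac : a ≠ c) (hbc : b ≠ c) (G₀ : Finset (Edge n))
    (M : Tab (Option (Fin n))) (u v : Fin n) (h : relM a b c G₀ M u v) : relM a b c G₀ M v u := by
  rcases inW_or a b c u with hu | ⟨i, rfl⟩ <;> rcases inW_or a b c v with hv | ⟨j, rfl⟩
  · rw [relM_WW G₀ M hu hv] at h
    rw [relM_WW G₀ M hv hu]
    exact adj_symm h
  · rw [relM_WT hab hac hbc G₀ M hu j] at h
    rw [relM_TW hab hac hbc G₀ M j hu]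
    exact h
  · rw [relM_TW hab hac hbc G₀ M i hv] at h
    rw [relM_WT hab hac hbc G₀ M hv i]
    exact h
  · rw [relM_TT hab hac hbc G₀ M i j] at h
    rw [relM_TT hab hac hbc G₀ M j i, add_comm j i]
    exact ⟨fun hh => h.1 hh.symm, h.2⟩

/-- The graph decoded from a table. -/
def graphM (a b c : Fin n) (G₀ : Finset (Edge n)) (M : Tab (Option (Fin n))) : Finset (Edge n) :=
  ofRel (relM a b c G₀ M)

lemma adj_graphM {a b c : Fin n} (hab : a ≠ b) (hac : a ≠ c) (hbc : b ≠ c) (G₀ : Finset (Edge n))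
    (M : Tab (Option (Fin n))) (u v : Fin n) :
    adj (graphM a b c G₀ M) u v ↔ u ≠ v ∧ relM a b c G₀ M u v :=
  adj_ofRel _ (relM_symm hab hac hbc G₀ M) u v

lemma adj_graphM_WW {a b c : Fin n} (hab : a ≠ b) (hac : a ≠ c) (hbc : b ≠ c)
    (G₀ : Finset (Edge n)) (M : Tab (Option (Fin n))) {u v : Fin n}
    (hu : inW a b c u) (hv : inW a b c v) :
    adj (graphM a b c G₀ M) u v ↔ adj G₀ u v := by
  rw [adj_graphM hab hac hbc, relM_WW G₀ M hu hv]
  exact ⟨fun h => h.2, fun h => ⟨adj_ne h, h⟩⟩

lemma adj_graphM_TW {a b c : Fin n} (hab : a ≠ b) (hac : a ≠ c) (hbc : b ≠ c)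
    (G₀ : Finset (Edge n)) (M : Tab (Option (Fin n))) (i : Fin 3) {v : Fin n}
    (hv : inW a b c v) :
    adj (graphM a b c G₀ M) (tv a b c i) v ↔ M (some v) i = true := by
  rw [adj_graphM hab hac hbc, relM_TW hab hac hbc G₀ M i hv]
  refine ⟨fun h => h.2, fun h => ⟨?_, h⟩⟩
  intro hh
  exact not_inW_tv a b c i (hh ▸ hv)

lemma adj_graphM_TT {a b c : Fin n} (hab : a ≠ b) (hac : a ≠ c) (hbc : b ≠ c)
    (G₀ : Finset (Edge n)) (M : Tab (Option (Fin n))) (i j : Fin 3) :
    adj (graphM a b c G₀ M) (tv a b c i) (tv a b c j) ↔ (i ≠ j ∧ M none (-(i + j)) = false) := by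
  rw [adj_graphM hab hac hbc, relM_TT hab hac hbc G₀ M i j]
  refine ⟨fun h => h.2, fun h => ⟨?_, h⟩⟩
  intro hh
  exact h.1 (tv_injective hab hac hbc i j hh)

lemma tri_graphM {a b c : Fin n} (hab : a ≠ b) (hac : a ≠ c) (hbc : b ≠ c)
    (G₀ : Finset (Edge n)) (M : Tab (Option (Fin n))) :
    tri a b c (graphM a b c G₀ M) = tri a b c G₀ := by
  rw [tri_eq_iff]
  intro u v hu hv
  exact adj_graphM_WW hab hac hbc G₀ M hu hv

lemma third_self : ∀ i : Fin 3, i + 1 ≠ i + 2 ∧ -((i + 1) + (i + 2)) = i := by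
  decide

lemma Phi_graphM {a b c : Fin n} (hab : a ≠ b) (hac : a ≠ c) (hbc : b ≠ c)
    (G₀ : Finset (Edge n)) (M : Tab (Option (Fin n)))
    (hT0 : ∀ w, ¬ inW a b c w → ∀ i, M (some w) i = false) :
    Phi a b c (graphM a b c G₀ M) = M := by
  funext col i
  cases col with
  | none =>
    rw [Phi_none]
    have h := adj_graphM_TT hab hac hbc G₀ M (i + 1) (i + 2)
    rw [(third_self i).2] at h
    have h1 := (third_self i).1
    by_cases hA : adj (graphM a b c G₀ M) (tv a b c (i + 1)) (tv a b c (i + 2))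
    · have h2 := (h.mp hA).2
      simp [hA, h2]
    · have h2 : M none i = true := by
        by_contra hM
        exact hA (h.mpr ⟨h1, by simpa using hM⟩)
      simp [hA, h2]
  | some w =>
    rw [Phi_some]
    by_cases hw : inW a b c w
    · have h := adj_graphM_TW hab hac hbc G₀ M i hw
      by_cases hA : adj (graphM a b c G₀ M) (tv a b c i) w
      · simp [hw, hA, h.mp hA]
      · have h2 : M (some w) i = false := by
          by_contra hM
          exact hA (h.mpr (by simpa using hM))
        simp [hw, hA, h2]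
    · rw [hT0 w hw i]
      simp [hw]

lemma colSum_eq_zero {C : Type} [Fintype C] [DecidableEq C] (M : Tab C) (col : C)
    (h : colSum M col = 0) (i : Fin 3) : M col i = false := by
  unfold colSum at h
  have h1 := (Finset.sum_eq_zero_iff.mp h) i (Finset.mem_univ i)
  revert h1
  cases M col i <;> simp

/-- **Surjectivity.** Every table with the margins of `Phi G₀` is the table of a graph of the
triple class of `G₀`. -/
lemma Phi_surj {a b c : Fin n} (hab : a ≠ b) (hac : a ≠ c) (hbc : b ≠ c) {d : Fin n → ℕ}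
    {G₀ : Finset (Edge n)} (hG₀ : ∀ v, deg G₀ v = d v) (M : Tab (Option (Fin n)))
    (hr : ∀ i, rowSum M i = rowSum (Phi a b c G₀) i)
    (hc : ∀ col, colSum M col = colSum (Phi a b c G₀) col) :
    (∀ v, deg (graphM a b c G₀ M) v = d v) ∧
      tri a b c (graphM a b c G₀ M) = tri a b c G₀ ∧ Phi a b c (graphM a b c G₀ M) = M := by
  have hT0 : ∀ w, ¬ inW a b c w → ∀ i, M (some w) i = false := by
    intro w hw i
    apply colSum_eq_zero M (some w) _ i
    rw [hc, colSum_some_T a b c G₀ w hw]
  have hΦ := Phi_graphM hab hac hbc G₀ M hT0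
  have htri := tri_graphM hab hac hbc G₀ M
  refine ⟨?_, htri, hΦ⟩
  have he : eT a b c (graphM a b c G₀ M) = eT a b c G₀ := by
    have c1 := colSum_none a b c (graphM a b c G₀ M)
    have c2 := colSum_none a b c G₀
    rw [hΦ, hc] at c1
    omega
  intro v
  rcases inW_or a b c v with hv | ⟨i, rfl⟩
  · have h1 := colSum_some_W hab hac hbc (graphM a b c G₀ M) v hv
    have h2 := colSum_some_W hab hac hbc G₀ v hv
    rw [hΦ, hc, wsum_congr htri v hv] at h1
    rw [hG₀ v] at h2
    omega
  · have r1 := row_margin hab hac hbc (graphM a b c G₀ M) i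
    have r2 := row_margin hab hac hbc G₀ i
    rw [hΦ, hr, he] at r1
    rw [hG₀] at r2
    omega

/-! ### The triple inequality -/

/-- helper69's `r23_transfer` as a hypothesis (universes fixed to `Type`). -/
def R23Transfer : Prop :=
  ∀ (α β : Type) [DecidableEq β] (C : Type) [Fintype C] [DecidableEq C]
    (Om : Finset α) (Φ : α → Tab C) (r : Fin 3 → ℕ) (s : C → ℕ),
    (∀ x ∈ Om, ∀ y ∈ Om, Φ x = Φ y → x = y) →
    (∀ x ∈ Om, Φ x ∈ tables r s) →
    (∀ M ∈ tables r s, ∃ x ∈ Om, Φ x = M) →
    ∀ (φ : Fin 3 → α → β),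
    (∀ j, ∀ x ∈ Om, ∀ y ∈ Om, (φ j x = φ j y ↔ row j (Φ x) = row j (Φ y))) →
    ∀ f : α → ℝ,
      ∑ j : Fin 3, ∑ x ∈ Om, f x * Helper69.cavg Om (φ j) f x
        ≤ 2 * ∑ x ∈ Om, f x ^ 2 + (∑ x ∈ Om, f x) ^ 2 / (Om.card : ℝ)

lemma mem_class {d : Fin n → ℕ} {a b c : Fin n} {G₀ G : Finset (Edge n)} :
    G ∈ (realizations d).filter (fun G => tri a b c G = tri a b c G₀) ↔
      (∀ v, deg G v = d v) ∧ tri a b c G = tri a b c G₀ := by
  unfold realizations
  simp only [Finset.mem_filter, Finset.mem_univ, true_and]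

/-- The `(R2)_3` bound on one triple class of graphs. -/
theorem class_ineq (hR : R23Transfer) (d : Fin n → ℕ) {a b c : Fin n} (hab : a ≠ b) (hac : a ≠ c)
    (hbc : b ≠ c) (K : Finset (Edge n)) (g : Finset (Edge n) → ℝ) :
    ∑ G ∈ (realizations d).filter (fun G => tri a b c G = K),
        g G * Helper76.cavg ((realizations d).filter (fun G => tri a b c G = K)) (hinge a b) g G
    + ∑ G ∈ (realizations d).filter (fun G => tri a b c G = K),
        g G * Helper76.cavg ((realizations d).filter (fun G => tri a b c G = K)) (hinge a c) g G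
    + ∑ G ∈ (realizations d).filter (fun G => tri a b c G = K),
        g G * Helper76.cavg ((realizations d).filter (fun G => tri a b c G = K)) (hinge b c) g G
    ≤ 2 * ∑ G ∈ (realizations d).filter (fun G => tri a b c G = K), g G ^ 2
      + (∑ G ∈ (realizations d).filter (fun G => tri a b c G = K), g G) ^ 2
        / (((realizations d).filter (fun G => tri a b c G = K)).card : ℝ) := by
  rcases ((realizations d).filter (fun G => tri a b c G = K)).eq_empty_or_nonempty with h0 | ⟨G₀, hG₀⟩
  · rw [h0]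
    simp
  · obtain ⟨hG₀r, rfl⟩ := Finset.mem_filter.mp hG₀
    have hG₀d : ∀ v, deg G₀ v = d v := (mem_class.mp hG₀).1
    set Om := (realizations d).filter (fun G => tri a b c G = tri a b c G₀) with hOm
    have hinj : ∀ x ∈ Om, ∀ y ∈ Om, Phi a b c x = Phi a b c y → x = y := by
      intro x hx y hy hxy
      have h1 := (mem_class.mp hx).2
      have h2 := (mem_class.mp hy).2
      exact Phi_inj a b c (h1.trans h2.symm) hxy
    have hmaps : ∀ x ∈ Om, Phi a b c x ∈
        tables (rowSum (Phi a b c G₀)) (colSum (Phi a b c G₀)) := by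
      intro x hx
      obtain ⟨h1, h2⟩ := mem_class.mp hx
      rw [mem_tables]
      exact margins_eq hab hac hbc h1 hG₀d h2
    have hsurj : ∀ M ∈ tables (rowSum (Phi a b c G₀)) (colSum (Phi a b c G₀)),
        ∃ x ∈ Om, Phi a b c x = M := by
      intro M hM
      rw [mem_tables] at hM
      obtain ⟨h1, h2, h3⟩ := Phi_surj hab hac hbc hG₀d M hM.1 hM.2
      exact ⟨graphM a b c G₀ M, mem_class.mpr ⟨h1, h2⟩, h3⟩
    have hφ : ∀ j, ∀ x ∈ Om, ∀ y ∈ Om,
        (lab a b c j x = lab a b c j y ↔ row j (Phi a b c x) = row j (Phi a b c y)) := by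
      intro j x hx y hy
      obtain ⟨h1, h2⟩ := mem_class.mp hx
      obtain ⟨h3, h4⟩ := mem_class.mp hy
      exact lab_iff_row hab hac hbc h1 h3 (h2.trans h4.symm) j
    have key := hR (Finset (Edge n)) (Finset (Edge n)) (Option (Fin n)) Om (Phi a b c)
      (rowSum (Phi a b c G₀)) (colSum (Phi a b c G₀)) hinj hmaps hsurj (lab a b c) hφ g
    rw [Fin.sum_univ_three] at key
    have e0 : lab a b c 0 = hinge b c := rfl
    have e1 : lab a b c 1 = hinge a c := rfl
    have e2 : lab a b c 2 = hinge a b := rfl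
    rw [e0, e1, e2] at key
    have ec : ∀ (φ : Finset (Edge n) → Finset (Edge n)) (x : Finset (Edge n)),
        Helper69.cavg Om φ g x = Helper76.cavg Om φ g x := fun _ _ => rfl
    simp only [ec] at key
    linarith

/-- **[TR] from helper69's transfer form of `(R2)_3`.** -/
theorem TR_of_R23 (hR : R23Transfer) (d : Fin n → ℕ) : Helper47.TR d := by
  intro a b c hab hac hbc f
  exact TR_of_fibrewise (realizations d) a b c (class_ineq hR d hab hac hbc) f

end Crest.Agent.S0453.Helper82
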